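import Vale.Agent.P078.Apx2

namespace Vale.Agent.P078

open Finset ComplexConjugate MeasureTheory Polynomial Metric Filter Topology

namespace Apx

variable {V : Type*} [DecidableEq V] {r : ℕ}

lemma TT_update (n : ℕ) (φ : ℂ[X]) (u v : ℝ) (a : V → V → ℂ) (w : V → Option (Fin r)) (μ : V → ℝ)
    {K : Finset V} {i : V} (hi : i ∉ K) (o : Option (Fin r)) :
    TT n φ u v a (Function.update w i o) μ K = TT n φ u v a w μ K := by
  unfold TT tl
  simp only [qq_update φ u v a w μ hi o]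

lemma TI_update (u v : ℝ) (a : V → V → ℂ) (w : V → Option (Fin r)) (μ : V → ℝ)
    {K : Finset V} {i : V} (hi : i ∉ K) (o : Option (Fin r)) :
    TI u v a (Function.update w i o) μ K = TI u v a w μ K := by
  unfold TI
  rw [tot_update u v a w μ hi o]

lemma TT_empty (n : ℕ) (φ : ℂ[X]) (u v : ℝ) (a : V → V → ℂ) (w : V → Option (Fin r)) (μ : V → ℝ) :
    TT n φ u v a w μ ∅ = 0 := by
  simp [TT, tl, qq, cc_empty, TL_one]

lemma TI_empty (u v : ℝ) (a : V → V → ℂ) (w : V → Option (Fin r)) (μ : V → ℝ) :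
    TI u v a w μ ∅ = 0 := by
  simp [TI, tot, Pw, PP_empty, cc_empty]

lemma tele {F : Finset V → ℝ} {μ : V → ℝ} {c : ℝ} (h0 : F ∅ = 0) {K : Finset V}
    (h : ∀ K' i, i ∉ K' → insert i K' ⊆ K → -(c * μ i) ≤ F (insert i K') - F K') :
    -(c * ∑ i ∈ K, μ i) ≤ F K := by
  induction K using Finset.induction_on with
  | empty => simp [h0]
  | insert i K hi ih =>
    have h1 := h K i hi Subset.rfl
    have h2 := ih fun K' j hj hs => h K' j hj (hs.trans (subset_insert _ _))
    rw [sum_insert hi]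
    linarith

omit [DecidableEq V] in
lemma neg_nb {a : V → V → ℂ} {K : Finset V} {i : V} {p : V → Prop}
    (h : ∀ y ∈ K, a i y ≠ 0 → p y) : ∀ y ∈ K, (fun i j => - a i j) i y ≠ 0 → p y :=
  fun y hy e => h y hy (neg_ne_zero.1 e)

end Apx

open Apx in
theorem exists_par (V : Type*) [DecidableEq V] {r : ℕ} (hr : 0 < r) {Λ ε : ℝ} (hΛ : 1 ≤ Λ)
    (hε : 0 < ε) : Nonempty (Par V r Λ ε) := by
  have hu : 0 < 36 / √r := div_pos (by norm_num) (Real.sqrt_pos.2 (by exact_mod_cast hr))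
  obtain ⟨u, hud⟩ : ∃ u, u = 36 / √(r : ℝ) := ⟨_, rfl⟩
  rw [← hud] at hu
  obtain ⟨v, hv, hv1, hvε⟩ : ∃ v : ℝ, 0 < v ∧ v ≤ 1 ∧ 512 * (v + v / u) ≤ ε := by
    refine ⟨min 1 (ε / (512 * (1 + 1 / u))), by positivity, min_le_left _ _, ?_⟩
    have h1 := min_le_right 1 (ε / (512 * (1 + 1 / u)))
    generalize min 1 (ε / (512 * (1 + 1 / u))) = v at h1
    rw [le_div_iff₀ (by positivity)] at h1
    calc _ = v * (512 * (1 + 1 / u)) := by ring
      _ ≤ ε := h1
  obtain ⟨φ, R, hR, hφ0, hφ1, hφ⟩ := exists_phi (Real.sqrt_pos.2 hv) (Real.sqrt_le_one.2 hv1)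
  obtain ⟨n, hn⟩ : ∃ n : ℕ,
      2 * (DD R Λ * (((1 + R) / 2)⁻¹ ^ n / ((1 + R) / 2 - 1))) ≤ ε / 8 := by
    have h1 : Tendsto (fun n : ℕ => 2 * (DD R Λ * (((1 + R) / 2)⁻¹ ^ n / ((1 + R) / 2 - 1))))
        atTop (𝓝 (2 * (DD R Λ * (0 / ((1 + R) / 2 - 1))))) :=
      (((tendsto_pow_atTop_nhds_zero_of_lt_one (by positivity)
        (inv_lt_one_of_one_lt₀ (by linarith))).div_const _).const_mul _).const_mul _
    rw [zero_div, mul_zero, mul_zero] at h1
    exact (h1.eventually (ge_mem_nhds (by positivity))).exists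
  have hπ := Real.pi_le_four
  have hπ3 := Real.pi_gt_three
  have hvu : 0 < v / u := div_pos hv hu
  have inc : ∀ (a : V → V → ℂ) (w : V → Option (Fin r)) (μ : V → ℝ) (K : Finset V) (i : V),
      i ∉ K → HZ a (insert i K) → (∀ y, 0 < μ y) → (∀ y ∈ K, a i y ≠ 0 → μ y ≤ Λ * μ i) →
      |TI u v a w μ (insert i K) - TI u v a w μ K| ≤ 2 * DD R Λ * μ i ∧
      |(TI u v a w μ (insert i K) - TI u v a w μ K) -
        (TT n φ u v a w μ (insert i K) - TT n φ u v a w μ K)| ≤ ε / 8 * μ i := by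
    intro a w μ K i hi h hμ hN
    obtain ⟨h1, h2⟩ := inc_bd hr hu hv hv1 hR hφ0 hφ1 hφ n w hμ hΛ hi h hN
    exact ⟨h1, h2.trans (mul_le_mul_of_nonneg_right hn (hμ i).le)⟩
  have pc : ∀ c d m : ℝ, 0 < m → 0 ≤ c → 0 ≤ d → c ≤ 32 → d ≤ 32 →
      Real.pi * (c * (v * m) + d * (v / u * m)) ≤ ε / 4 * m := by
    intro c d m hm hc hd hc' hd'
    have h1 : c * (v * m) + d * (v / u * m) ≤ 32 * (v * m) + 32 * (v / u * m) := by gcongr
    have h2 : 0 ≤ c * (v * m) + d * (v / u * m) := by positivity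
    have h3 := mul_le_mul_of_nonneg_right hvε hm.le
    nlinarith
  have lowI : ∀ (a : V → V → ℂ) (w : V → Option (Fin r)) (μ : V → ℝ) (K : Finset V) (i : V),
      i ∉ K → HZ a (insert i K) → (∀ y, 0 < μ y) →
      -(ε / 8 * μ i) ≤ TI u v a w μ (insert i K) - TI u v a w μ K := by
    intro a w μ K i hi h hμ
    have h1 := inc_low hr hu hv hμ w hi h
    have h2 := pc 0 32 _ (hμ i) le_rfl (by norm_num) (by norm_num) le_rfl
    have e : Real.pi * (0 * (v * μ i) + 32 * (v / u * μ i)) =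
      2 * (Real.pi * (16 * v * μ i / u)) := by ring
    linarith
  refine ⟨⟨n, φ, v, 4 * DD R Λ + ε / 4, hφ0, ?_, ?_, ?_, ?_, ?_, ?_⟩⟩
  · intro a w μ K h hμ
    rw [← hud]
    exact tl_int hr hu hv hv1 hR hφ0 hφ1 hφ n w hμ h
  · intro a w μ K i hi h hμ hN
    unfold TP
    rw [← hud]
    obtain ⟨h1, h2⟩ := inc a w μ K i hi h hμ hN
    obtain ⟨h3, h4⟩ := inc _ w μ K i hi h.neg hμ (neg_nb hN)
    rw [abs_le] at h1 h2 h3 h4 ⊢
    constructor <;> linarith [h1.1, h1.2, h2.1, h2.2, h3.1, h3.2, h4.1, h4.2]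
  · intro a w μ K i hi h hμ hN
    unfold TP
    rw [← hud]
    have h2 := (abs_le.1 (inc a w μ K i hi h hμ hN).2).2
    have h4 := (abs_le.1 (inc _ w μ K i hi h.neg hμ (neg_nb hN)).2).2
    have h1 := lowI a w μ K i hi h hμ
    have h3 := lowI _ w μ K i hi h.neg hμ
    have := mul_pos hε (hμ i)
    linarith
  · intro a w μ K i hi h hμ hN
    unfold TP
    rw [← hud]
    have s1 := inc_step hr hu hv hμ w hi h
    have s2 := inc_step hr hu hv hμ w hi h.neg
    obtain ⟨c, hc⟩ : ∃ c : Fin r, c ∉ (univ.filter fun c : Fin r =>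
        TI u v a (Function.update w i none) μ (insert i K) + Real.pi * (32 * v * μ i / u) <
          TI u v a (Function.update w i (some c)) μ (insert i K)) ∪ (univ.filter fun c : Fin r =>
        TI u v (fun i j => - a i j) (Function.update w i none) μ (insert i K) +
          Real.pi * (32 * v * μ i / u) <
          TI u v (fun i j => - a i j) (Function.update w i (some c)) μ (insert i K)) := by
      by_contra hc
      push Not at hc
      have h1 := card_le_card (s := univ) fun c _ => hc c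
      have h2 := h1.trans (card_union_le _ _)
      rw [card_univ, Fintype.card_fin] at h2
      omega
    simp only [mem_union, mem_filter, mem_univ, true_and, not_or, not_lt] at hc
    refine ⟨c, ?_⟩
    have h1 := (abs_le.1 (inc a (Function.update w i (some c)) μ K i hi h hμ hN).2).1
    have h2 := (abs_le.1 (inc a (Function.update w i none) μ K i hi h hμ hN).2).2
    have h3 := (abs_le.1 (inc _ (Function.update w i (some c)) μ K i hi h.neg hμ (neg_nb hN)).2).1
    have h4 := (abs_le.1 (inc _ (Function.update w i none) μ K i hi h.neg hμ (neg_nb hN)).2).2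
    rw [TI_update _ _ _ _ _ hi, TT_update _ _ _ _ _ _ _ hi] at h1 h2 h3 h4
    have h5 := pc 0 32 _ (hμ i) le_rfl (by norm_num) (by norm_num) le_rfl
    have e : Real.pi * (0 * (v * μ i) + 32 * (v / u * μ i)) =
      Real.pi * (32 * v * μ i / u) := by ring
    linarith [hc.1, hc.2]
  · intro a μ K i hi h hμ hK
    unfold TP
    rw [← hud]
    have hN : ∀ y ∈ K, a i y ≠ 0 → μ y ≤ Λ * μ i := fun y hy _ => by
      nlinarith [hK y hy, hμ i]
    have h2 := (abs_le.1 (inc a (fun _ => none) μ K i hi h hμ hN).2).1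
    have h4 := (abs_le.1 (inc _ (fun _ => none) μ K i hi h.neg hμ (neg_nb hN)).2).1
    have h1 := inc_init hr hu hv hμ hi h hud.ge hK
    have h3 := inc_init hr hu hv hμ hi h.neg hud.ge hK
    have h5 := pc 4 32 _ (hμ i) (by norm_num) (by norm_num) (by norm_num) le_rfl
    have e : Real.pi * (4 * (v * μ i) + 32 * (v / u * μ i)) =
      Real.pi * (4 * ((v + 8 * v / u) * μ i)) := by ring
    have := mul_pos hε (hμ i)
    linarith
  · intro a w μ K σ x μ₀ h hμ hN hw hμ0 hK hx
    unfold TP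
    have e80 : 2880 / √(r : ℝ) = 80 * u := by rw [hud]; ring
    rw [← hud]
    rw [e80] at hx
    have t1 : ∀ b : V → V → ℂ, HZ b K → (∀ i ∈ K, ∀ y ∈ K, b i y ≠ 0 → μ y ≤ Λ * μ i) →
        -(ε / 8 * ∑ i ∈ K, μ i) ≤ TT n φ u v b w μ K - TI u v b w μ K := by
      intro b hb hN
      refine tele (F := fun K => TT n φ u v b w μ K - TI u v b w μ K)
        (by simp [TT_empty, TI_empty]) fun K' i hi hs => ?_
      have := (abs_le.1 (inc b w μ K' i hi (hb.mono hs) hμ fun y hy =>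
        hN i (hs (mem_insert_self _ _)) y (hs (mem_insert_of_mem hy))).2).2
      linarith
    have t2 : ∀ b : V → V → ℂ, HZ b K → -(ε / 8 * ∑ i ∈ K, μ i) ≤ TI u v b w μ K := by
      intro b hb
      exact tele (F := fun K => TI u v b w μ K) (TI_empty _ _ _ _ _) fun K' i hi hs =>
        lowI b w μ K' i hi (hb.mono hs) hμ
    have hx0 : 0 < ∑ i ∈ K, ‖x i‖ ^ 2 := by
      rcases (sum_nonneg fun i (_ : i ∈ K) => sq_nonneg ‖x i‖).lt_or_eq with h1 | h1
      · exact h1
      · have h2 := (sum_eq_zero_iff_of_nonneg fun i _ => sq_nonneg ‖x i‖).1 h1.symm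
        rw [← h1, sum_eq_zero fun i hi => sum_eq_zero fun j hj => by
          have : x j = 0 := by simpa using h2 j hj
          rw [this, mul_zero]] at hx
        simp at hx
    have hs0 : 0 ≤ ∑ i ∈ K, μ i := sum_nonneg fun i _ => (hμ i).le
    have t3 : ∀ b : V → V → ℂ, HZ b K → 80 * u * ∑ i ∈ K, ‖x i‖ ^ 2 ≤
        (∑ i ∈ K, ∑ j ∈ K, conj (x i) * pin b σ i j * x j).re →
        u * μ₀ - ε / 4 * ∑ i ∈ K, μ i ≤ TI u v b w μ K := by
      intro b hb hbx
      have h1 := TI_final hr hu hv hμ hb hw hx0 hbx hμ0 hK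
      have h2 : Real.pi * ∑ i ∈ K, (v * μ i + 16 * v * μ i / u) ≤ ε / 4 * ∑ i ∈ K, μ i := by
        rw [mul_sum, mul_sum]
        refine sum_le_sum fun i _ => le_trans (le_of_eq (by ring))
          (pc 1 16 _ (hμ i) (by norm_num) (by norm_num) (by norm_num) (by norm_num))
      have h3 := mul_pos hu hμ0
      nlinarith
    have hre := form_real (pin_herm h.herm σ) K x
    have hneg : ∑ i ∈ K, ∑ j ∈ K, conj (x i) * pin (fun i j => - a i j) σ i j * x j =
        - ∑ i ∈ K, ∑ j ∈ K, conj (x i) * pin a σ i j * x j := by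
      rw [← sum_neg_distrib]
      refine sum_congr rfl fun i _ => ?_
      rw [← sum_neg_distrib]
      refine sum_congr rfl fun j _ => ?_
      unfold pin
      split_ifs <;> simp
    have hab := Complex.norm_le_abs_re_add_abs_im
      (∑ i ∈ K, ∑ j ∈ K, conj (x i) * pin a σ i j * x j)
    rw [hre, abs_zero, add_zero] at hab
    have q1 := t1 a h hN
    have q2 := t1 _ h.neg fun i hi => neg_nb (hN i hi)
    have q5 := mul_nonneg hε.le hs0
    rcases le_total 0 (∑ i ∈ K, ∑ j ∈ K, conj (x i) * pin a σ i j * x j).re with hs | hs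
    · rw [abs_of_nonneg hs] at hab
      have q3 := t3 a h (by linarith)
      have q4 := t2 _ h.neg
      linarith
    · rw [abs_of_nonpos hs] at hab
      have q3 := t3 _ h.neg (by rw [hneg, Complex.neg_re]; linarith)
      have q4 := t2 _ h
      linarith

end Vale.Agent.P078
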