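import Vale.Agent.P078.PDefs

namespace Vale.Agent.P078.Apx

open Finset ComplexConjugate MeasureTheory Polynomial Metric

variable {V : Type*} [DecidableEq V] {r : ℕ}

lemma qq_eval (φ : ℂ[X]) (a : V → V → ℂ) (w : V → Option (Fin r)) (U : Finset V) {z : V → ℂ}
    (hz : ∀ y, z y ≠ 0) (ζ : ℂ) : (qq φ (cc a w) U z).eval ζ =
      Pw (fun i j => φ.eval ζ * a i j) w U z / ∏ y ∈ U, z y := by
  unfold qq Pw PP
  rw [eval_finsetSum, sum_div]
  refine sum_congr rfl fun T hT => ?_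
  have hT' := mem_powerset.1 hT
  have h1 : ∏ y ∈ T, z y ≠ 0 := prod_ne_zero_iff.2 fun y _ => hz y
  have h2 : ∏ y ∈ U \ T, z y ≠ 0 := prod_ne_zero_iff.2 fun y _ => hz y
  rw [eval_mul, eval_C, eval_pow, cc_smul, ← prod_sdiff hT', prod_inv_distrib]
  field_simp

lemma qq_coeff0 {φ : ℂ[X]} (h0 : φ.coeff 0 = 0) (a : V → V → ℂ) (w : V → Option (Fin r))
    (U : Finset V) (z : V → ℂ) : (qq φ (cc a w) U z).coeff 0 = 1 := by
  unfold qq
  rw [coeff_zero_eq_eval_zero] at h0 ⊢
  rw [eval_finsetSum, sum_eq_single ∅]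
  · simp [cc_empty]
  · intro T _ hT
    have : T.card ≠ 0 := by simpa using hT
    simp [h0, this]
  · simp

lemma qq_update (φ : ℂ[X]) (u v : ℝ) (a : V → V → ℂ) (w : V → Option (Fin r)) (μ : V → ℝ)
    {K : Finset V} {i : V} (hi : i ∉ K) (o : Option (Fin r)) (t : ℂ) :
    qq φ (cc a (Function.update w i o)) K (zz u v (Function.update w i o) μ t) =
      qq φ (cc a w) K (zz u v w μ t) := by
  unfold qq
  refine sum_congr rfl fun T hT => ?_
  have hT' := mem_powerset.1 hT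
  have h : ∀ y ∈ T, Function.update w i o y = w y := fun y hy =>
    Function.update_of_ne (fun e : y = i => hi (e ▸ hT' hy)) _ _
  rw [cc_congr (a := a) (w := w) (fun _ _ _ _ => rfl) h, prod_congr rfl fun y hy => ?_]
  unfold zz
  rw [h y hy]

lemma tl_meas (n : ℕ) {φ : ℂ[X]} (h0 : φ.coeff 0 = 0) (u v : ℝ) (a : V → V → ℂ)
    (w : V → Option (Fin r)) (μ : V → ℝ) (K : Finset V) : Measurable (tl n φ u v a w μ K) := by
  unfold tl
  refine Complex.measurable_re.comp (TL_meas n (fun τ => qq_coeff0 h0 _ _ _ _) fun k => ?_)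
  unfold qq
  simp only [finsetSum_coeff, coeff_C_mul]
  refine Finset.measurable_fun_sum _ fun T _ => Measurable.mul_const
    (Measurable.const_mul (Finset.measurable_fun_prod _ fun y _ => Measurable.inv ?_) _) _
  unfold zz zt
  fun_prop

lemma zt_form (u : ℝ) {v m τ : ℝ} (hv : 0 < v) (hm : 0 < m) :
    zt u v m (τ * Complex.I) = ((u + 4 * v ^ 2 / (v ^ 2 + (τ / m) ^ 2) : ℝ) : ℂ) +
      ((τ / m + 4 * v * (τ / m) / (v ^ 2 + (τ / m) ^ 2) : ℝ) : ℂ) * Complex.I := by
  obtain ⟨s, rfl⟩ : ∃ s, τ = s * m := ⟨τ / m, by field_simp⟩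
  rw [mul_div_cancel_right₀ _ hm.ne']
  have hm' : (m : ℂ) ≠ 0 := by exact_mod_cast hm.ne'
  have h1 : ((v : ℂ) ^ 2 + (s : ℂ) ^ 2) ≠ 0 := by
    have : (0 : ℝ) < v ^ 2 + s ^ 2 := by positivity
    exact_mod_cast this.ne'
  have h2 : ((s : ℂ) * Complex.I - v) ≠ 0 := by
    intro h
    have := congrArg Complex.re h
    simp at this
    exact hv.ne' this
  have h3 : ((s * m : ℝ) : ℂ) * Complex.I - v * m = m * ((s : ℂ) * Complex.I - v) := by
    push_cast; ring
  unfold zt
  rw [h3]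
  push_cast
  field_simp
  linear_combination (-4 * (v : ℂ) * s ^ 2) * Complex.I_mul_I

lemma nu_re (β : ℝ) (z : ℂ) : ((1 - Complex.I / β) * z).re = z.re + z.im / β := by
  have : (1 - Complex.I / β) * z = z - Complex.I * z / β := by ring
  rw [this, Complex.sub_re, Complex.div_ofReal_re]
  simp
  ring

lemma zt_bd {u v m τ : ℝ} (hu : 0 < u) (hv : 0 < v) (hm : 0 < m) (hτ : 0 < τ) :
    2 ≤ (zt u v m (τ * Complex.I)).re + (zt u v m (τ * Complex.I)).im / √v ∧
    0 ≤ (zt u v m (τ * Complex.I)).re ∧ τ / m ≤ (zt u v m (τ * Complex.I)).im := by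
  rw [zt_form u hv hm]
  have hs : 0 < τ / m := div_pos hτ hm
  generalize τ / m = s at hs
  simp only [Complex.add_re, Complex.ofReal_re, Complex.mul_re, Complex.I_re, Complex.ofReal_im,
    Complex.I_im, Complex.add_im, Complex.mul_im, mul_zero, mul_one, sub_zero, add_zero, zero_add]
  have hβ : 0 < √v := Real.sqrt_pos.2 hv
  have hββ : √v * √v = v := Real.mul_self_sqrt hv.le
  have p1 : 0 ≤ 4 * v ^ 2 / (v ^ 2 + s ^ 2) := by positivity
  have p2 : 0 ≤ 4 * v * s / (v ^ 2 + s ^ 2) := by positivity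
  refine ⟨?_, by positivity, by linarith⟩
  rcases le_total s v with h | h
  · have : 2 ≤ 4 * v ^ 2 / (v ^ 2 + s ^ 2) := by
      rw [le_div_iff₀ (by positivity)]; nlinarith
    have : 0 ≤ (s + 4 * v * s / (v ^ 2 + s ^ 2)) / √v := by positivity
    linarith
  · have h1 : 2 * v / s ≤ 4 * v * s / (v ^ 2 + s ^ 2) := by
      rw [div_le_div_iff₀ hs (by positivity)]
      have : v ^ 2 ≤ s ^ 2 := by nlinarith
      nlinarith
    have h2 : 2 * √v - s ≤ 2 * v / s := by
      rw [le_div_iff₀ hs]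
      nlinarith [sq_nonneg (s - √v)]
    have : 2 ≤ (s + 4 * v * s / (v ^ 2 + s ^ 2)) / √v := by
      rw [le_div_iff₀ hβ]; linarith
    linarith

omit [DecidableEq V] in
lemma zz_bd {u v τ : ℝ} (hu : 0 < u) (hv : 0 < v) (w : V → Option (Fin r)) {μ : V → ℝ}
    (hμ : ∀ y, 0 < μ y) (hτ : 0 < τ) (y : V) :
    2 ≤ ((1 - Complex.I / (√v : ℝ)) * zz u v w μ (τ * Complex.I) y).re ∧
    τ / μ y / √v ≤ ((1 - Complex.I / (√v : ℝ)) * zz u v w μ (τ * Complex.I) y).re ∧
    τ / μ y ≤ ‖zz u v w μ (τ * Complex.I) y‖ := by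
  obtain ⟨h1, h2, h3⟩ := zt_bd hu hv (hμ y) hτ
  have ht := th_ge (w y)
  have hβ : 0 < √v := Real.sqrt_pos.2 hv
  have hs : 0 < τ / μ y := div_pos hτ (hμ y)
  have h4 := Complex.im_le_norm (zz u v w μ (τ * Complex.I) y)
  rw [nu_re]
  unfold zz at *
  simp only [Complex.re_ofReal_mul, Complex.im_ofReal_mul] at *
  generalize (zt u v (μ y) (τ * Complex.I)).re = x at *
  generalize (zt u v (μ y) (τ * Complex.I)).im = x' at *
  have e : th (w y) * x + th (w y) * x' / √v = th (w y) * (x + x' / √v) := by ring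
  have h5 : τ / μ y / √v ≤ x' / √v := by gcongr
  have h6 : 0 ≤ τ / μ y / √v := by positivity
  rw [e]
  refine ⟨by nlinarith, by nlinarith, by nlinarith⟩

lemma slit_of {A B : ℂ} (hA : 0 < A.re) (hB : 0 < B.re) : A / B ∈ Complex.slitPlane := by
  have hB0 : B ≠ 0 := fun h => by simp [h] at hB
  by_contra hc
  rw [Complex.mem_slitPlane_iff, not_or, not_lt, not_not] at hc
  have e : A = A / B * B := by field_simp
  have := congrArg Complex.re e
  rw [Complex.mul_re, hc.2] at this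
  nlinarith [hc.1]

/-- the ratio for a fixed multiplier -/
lemma ratio (hr : 0 < r) {u v Λ τ : ℝ} (hu : 0 < u) (hv : 0 < v) (hv1 : v ≤ 1) (hΛ : 1 ≤ Λ)
    {a : V → V → ℂ} (w : V → Option (Fin r)) {μ : V → ℝ} {K : Finset V} {i : V} (hi : i ∉ K)
    (h : HZ a (insert i K)) (hμ : ∀ y, 0 < μ y) (hN : ∀ y ∈ K, a i y ≠ 0 → μ y ≤ Λ * μ i)
    (hτ : 0 < τ) {l : ℂ} (hl1 : |l.re| ≤ 3 / 2) (hl2 : |l.im| ≤ √v / 4) :
    Pw (fun i j => l * a i j) w K (zz u v w μ (τ * Complex.I)) ≠ 0 ∧ ∃ x : ℂ,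
      Pw (fun i j => l * a i j) w (insert i K) (zz u v w μ (τ * Complex.I)) =
        (1 + x) * zz u v w μ (τ * Complex.I) i *
          Pw (fun i j => l * a i j) w K (zz u v w μ (τ * Complex.I)) ∧
      1 + x ∈ Complex.slitPlane ∧ (6 * Λ ≤ τ / μ i → ‖x‖ ≤ 16 * Λ / (τ / μ i) ^ 2) := by
  have hb := zz_bd hu hv w hμ hτ
  set z := zz u v w μ (τ * Complex.I)
  set ν : ℂ := 1 - Complex.I / (√v : ℝ) with hν
  have hβ : 0 < √v := Real.sqrt_pos.2 hv
  have hβ1 : √v ≤ 1 := Real.sqrt_le_one.2 hv1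
  have hρ : |(ν * l).re| ≤ 7 / 4 := by
    rw [hν, nu_re]
    have : |l.im / √v| ≤ 1 / 4 := by
      rw [abs_div, abs_of_pos hβ, div_le_iff₀ hβ]; linarith
    linarith [abs_add_le l.re (l.im / √v)]
  have hP : Pw (fun i j => l * a i j) w K z ≠ 0 :=
    stab1 hr ((h.mono (subset_insert _ _)).hc w) hρ fun y _ => by linarith [(hb y).1]
  refine ⟨hP, ?_⟩
  set P := Pw (fun i j => l * a i j) w K z
  set B := PP (fun T => cc (fun i j => l * a i j) w (insert i T)) K z
  have hzi : z i ≠ 0 := by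
    intro e
    have := (hb i).1
    rw [e] at this
    norm_num at this
  have hzero : Pw (fun i j => l * a i j) w (insert i K) (Function.update z i (-(B / P))) = 0 := by
    rw [Pw_insert _ _ hi]
    change -(B / P) * P + B = 0
    field_simp
    ring
  have hup : ∀ t, ∀ y ∈ K, Function.update z i t y = z y := fun t y hy =>
    Function.update_of_ne (fun e : y = i => hi (e ▸ hy)) _ _
  refine ⟨B / P / z i, ?_, ?_, fun hs => ?_⟩
  · rw [Pw_ins _ _ hi]
    change z i * P + B = _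
    field_simp
  · have h1 : (ν * -(B / P)).re ≤ 7 / 4 := by
      by_contra hc
      refine stab1 hr (h.hc w) hρ (fun y hy => ?_) hzero
      rcases mem_insert.1 hy with rfl | hy
      · rw [Function.update_self]; exact not_le.1 hc
      · rw [hup _ y hy]; linarith [(hb y).1]
    have hν0 : ν ≠ 0 := by
      intro e
      have := (hb i).1
      rw [e] at this
      norm_num at this
    have e : 1 + B / P / z i = (ν * z i - ν * -(B / P)) / (ν * z i) := by
      field_simp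
      ring
    rw [e]
    refine slit_of ?_ (by linarith [(hb i).1])
    rw [Complex.sub_re]
    linarith [(hb i).1]
  · set s := τ / μ i with hsdef
    have hs0 : 0 < s := by linarith
    have hL : 0 < s / (2 * Λ * √v) := by positivity
    have hL2 : 7 / 4 < s / (2 * Λ * √v) := by
      rw [lt_div_iff₀ (by positivity)]; nlinarith
    have h1 : ‖-(B / P)‖ ≤ ‖ν‖ * ‖l‖ ^ 2 / (s / (2 * Λ * √v)) := by
      by_contra hc
      refine stab2 hr hi (h.hc w) hL hρ (fun y hy => ?_) (fun y hy hne => ?_) ?_ hzero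
      · rw [hup _ y hy]; linarith [(hb y).1]
      · rw [hup _ y hy]
        have e1 : s / Λ ≤ τ / μ y := by
          rw [hsdef, div_div, mul_comm]
          exact div_le_div_of_nonneg_left hτ.le (hμ y) (hN y hy hne)
        have e2 : s / Λ / √v ≤ τ / μ y / √v := by gcongr
        have e3 : s / Λ / √v = 2 * (s / (2 * Λ * √v)) := by field_simp
        linarith [(hb y).2.1]
      · rw [Function.update_self]; exact not_le.1 hc
    have hν1 : ‖ν‖ ≤ 1 + 1 / √v := by
      refine (norm_sub_le _ _).trans ?_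
      rw [norm_one, norm_div, Complex.norm_I, Complex.norm_real, Real.norm_of_nonneg hβ.le]
    have hl : ‖l‖ ^ 2 ≤ 4 := by
      have := Complex.norm_le_abs_re_add_abs_im l
      nlinarith [norm_nonneg l]
    have h2 : ‖ν‖ * ‖l‖ ^ 2 / (s / (2 * Λ * √v)) ≤ 16 * Λ / s := by
      calc _ ≤ (1 + 1 / √v) * 4 / (s / (2 * Λ * √v)) := by gcongr
        _ = 8 * Λ * (√v + 1) / s := by field_simp; ring
        _ ≤ 16 * Λ / s := div_le_div_of_nonneg_right (by nlinarith) hs0.le
    rw [norm_neg] at h1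
    rw [norm_div]
    calc _ ≤ 16 * Λ / s / s := by
          gcongr
          · exact h1.trans h2
          · exact (hb i).2.2
      _ = _ := by field_simp

end Vale.Agent.P078.Apx
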