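import Vale.Agent.P078.Apx1

namespace Vale.Agent.P078.Apx

open Finset ComplexConjugate MeasureTheory Polynomial Metric

variable {V : Type*} [DecidableEq V] {r : ℕ}

/-- constant of the logarithmic bound -/
noncomputable def DD (R Λ : ℝ) : ℝ :=
  48 * Λ + 2 * Real.pi * ((1 + R) / 2) / ((R - 1) / 2) * (1 + 36 * Λ ^ 2)

lemma DD_nonneg {R Λ : ℝ} (hR : 1 < R) (hΛ : 1 ≤ Λ) : 0 ≤ DD R Λ := by
  unfold DD
  have : 0 < R - 1 := by linarith
  have := Real.pi_pos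
  positivity

section
variable (hr : 0 < r) {u v Λ R : ℝ} (hu : 0 < u) (hv : 0 < v) (hv1 : v ≤ 1) (hΛ : 1 ≤ Λ)
  {φ : ℂ[X]} (hR : 1 < R) (hφ0 : φ.coeff 0 = 0) (hφ1 : φ.eval 1 = 1)
  (hφ : ∀ ζ ∈ closedBall (0 : ℂ) R, |(φ.eval ζ).re| ≤ 3 / 2 ∧ |(φ.eval ζ).im| ≤ √v / 4)
  {a : V → V → ℂ} (w : V → Option (Fin r)) {μ : V → ℝ} {K : Finset V} {i : V} (hi : i ∉ K)
  (h : HZ a (insert i K)) (hμ : ∀ y, 0 < μ y) (hN : ∀ y ∈ K, a i y ≠ 0 → μ y ≤ Λ * μ i)

include hr hu hv hv1 hΛ hφ hi h hμ hN in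
lemma ratio' {τ : ℝ} (hτ : 0 < τ) {ζ : ℂ} (hζ : ζ ∈ closedBall (0 : ℂ) R) :
    (qq φ (cc a w) K (zz u v w μ (τ * Complex.I))).eval ζ ≠ 0 ∧ ∃ x : ℂ,
      (qq φ (cc a w) (insert i K) (zz u v w μ (τ * Complex.I))).eval ζ /
        (qq φ (cc a w) K (zz u v w μ (τ * Complex.I))).eval ζ = 1 + x ∧
      1 + x ∈ Complex.slitPlane ∧ (6 * Λ ≤ τ / μ i → ‖x‖ ≤ 16 * Λ / (τ / μ i) ^ 2) := by
  obtain ⟨hP, x, e, h1, h2⟩ := ratio hr hu hv hv1 hΛ w hi h hμ hN hτ (hφ ζ hζ).1 (hφ ζ hζ).2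
  have hz : ∀ y, zz u v w μ (τ * Complex.I) y ≠ 0 := fun y e => by
    have := zz_im u hv.le w hμ (t := τ * Complex.I) (by simpa using hτ) y
    simp [e] at this
  have hp : ∏ y ∈ K, zz u v w μ (τ * Complex.I) y ≠ 0 := prod_ne_zero_iff.2 fun y _ => hz y
  rw [qq_eval _ _ _ _ hz, qq_eval _ _ _ _ hz]
  refine ⟨div_ne_zero hP hp, x, ?_, h1, h2⟩
  rw [e, prod_insert hi]
  have := hz i
  field_simp

include hr hu hv hv1 hΛ hR hφ0 hφ hi h hμ hN in
lemma log_bd {τ : ℝ} (hτ : 0 < τ) {ζ : ℂ} (hζ : ζ ∈ closedBall (0 : ℂ) ((1 + R) / 2)) :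
    ‖Complex.log ((qq φ (cc a w) (insert i K) (zz u v w μ (τ * Complex.I))).eval ζ /
      (qq φ (cc a w) K (zz u v w μ (τ * Complex.I))).eval ζ)‖ ≤ DD R Λ / (1 + (τ / μ i) ^ 2) := by
  have hk := fun ζ hζ => ratio' hr hu hv hv1 hΛ hφ w hi h hμ hN hτ (ζ := ζ) hζ
  have e1 := qq_coeff0 hφ0 a w (insert i K) (zz u v w μ (τ * Complex.I))
  have e2 := qq_coeff0 hφ0 a w K (zz u v w μ (τ * Complex.I))
  generalize qq φ (cc a w) (insert i K) (zz u v w μ (τ * Complex.I)) = p at *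
  generalize qq φ (cc a w) K (zz u v w μ (τ * Complex.I)) = q at *
  have hs : 0 < τ / μ i := div_pos hτ (hμ i)
  generalize τ / μ i = s at *
  have hζ' : ‖ζ‖ ≤ (1 + R) / 2 := by simpa using hζ
  have hπ := Real.pi_pos
  have hR' : 0 < R - 1 := by linarith
  rw [le_div_iff₀ (by positivity)]
  have hD1 : 0 ≤ 2 * Real.pi * ((1 + R) / 2) / ((R - 1) / 2) := by positivity
  unfold DD
  rcases le_total (6 * Λ) s with hs1 | hs1
  · obtain ⟨-, x, e, -, hx⟩ := hk ζ (closedBall_subset_closedBall (by linarith) hζ)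
    have hx := hx hs1
    rw [le_div_iff₀ (by positivity)] at hx
    have hs2 : 36 * Λ ≤ s ^ 2 := by nlinarith
    have hx2 : ‖x‖ ≤ 1 / 2 := by nlinarith [norm_nonneg x]
    rw [e]
    have h3 := Complex.norm_log_one_add_half_le_self hx2
    have h4 : ‖x‖ * (1 + s ^ 2) ≤ 32 * Λ := by nlinarith [norm_nonneg x]
    have h5 : ‖Complex.log (1 + x)‖ * (1 + s ^ 2) ≤ 3 / 2 * ‖x‖ * (1 + s ^ 2) := by gcongr
    have : 0 ≤ 2 * Real.pi * ((1 + R) / 2) / ((R - 1) / 2) * (1 + 36 * Λ ^ 2) := by positivity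
    linarith
  · have hb := Complex.borelCaratheodory_zero (M := Real.pi) (R := R) (z := ζ)
      (f := fun ζ => -Complex.I * Complex.log (p.eval ζ / q.eval ζ)) hπ ?_ ?_ (by linarith)
      (by rw [mem_ball_zero_iff]; linarith) ?_
    · rw [norm_mul, norm_neg, Complex.norm_I, one_mul] at hb
      have h2 : 2 * Real.pi * ‖ζ‖ / (R - ‖ζ‖) ≤ 2 * Real.pi * ((1 + R) / 2) / ((R - 1) / 2) := by
        gcongr
        linarith
      have h3 : 1 + s ^ 2 ≤ 1 + 36 * Λ ^ 2 := by nlinarith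
      have h4 := mul_le_mul (hb.trans h2) h3 (by positivity) hD1
      linarith
    · intro ζ hζ
      obtain ⟨h0, x, e, hx, -⟩ := hk ζ (ball_subset_closedBall hζ)
      refine DifferentiableAt.differentiableWithinAt (DifferentiableAt.const_mul ?_ _)
      rw [← e] at hx
      exact (p.differentiableAt.div q.differentiableAt h0).clog hx
    · intro ζ _
      simp only [Set.mem_ofPred_eq, neg_mul, Complex.neg_re, Complex.mul_re, Complex.I_re, zero_mul,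
        Complex.I_im, one_mul, zero_sub, neg_neg]
      exact Complex.log_im_le_pi _
    · rw [coeff_zero_eq_eval_zero] at e1 e2
      simp [e1, e2]

include hr hv hμ hφ1 in
lemma tot_eq {U : Finset V} (hU : HZ a U) {τ : ℝ} (hτ : 0 < τ) :
    Real.log ‖(qq φ (cc a w) U (zz u v w μ (τ * Complex.I))).eval 1‖ = tot u v a w μ U τ := by
  have hzi := zz_im u hv.le w hμ (t := τ * Complex.I) (by simpa using hτ)
  have hz : ∀ y, zz u v w μ (τ * Complex.I) y ≠ 0 := fun y e => by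
    have := hzi y
    simp [e] at this
  have hP := stab_uhp hr (hU.hc w) fun y _ => hzi y
  rw [qq_eval _ _ _ _ hz, hφ1]
  simp only [one_mul]
  rw [norm_div, Real.log_div (norm_ne_zero_iff.2 hP)
    (norm_ne_zero_iff.2 (prod_ne_zero_iff.2 fun y _ => hz y)), norm_prod,
    Real.log_prod fun y _ => norm_ne_zero_iff.2 (hz y)]
  rfl

include hr hu hv hv1 hΛ hR hφ0 hφ1 hφ hi h hμ hN in
lemma pt_bd (n : ℕ) {τ : ℝ} (hτ : 0 < τ) :
    |tot u v a w μ (insert i K) τ - tot u v a w μ K τ| ≤ DD R Λ / (1 + (τ / μ i) ^ 2) ∧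
    |(tot u v a w μ (insert i K) τ - tot u v a w μ K τ) -
      (tl n φ u v a w μ (insert i K) τ - tl n φ u v a w μ K τ)| ≤
      DD R Λ / (1 + (τ / μ i) ^ 2) * (((1 + R) / 2)⁻¹ ^ n / ((1 + R) / 2 - 1)) := by
  have hk := fun ζ hζ => ratio' hr hu hv hv1 hΛ hφ w hi h hμ hN hτ (ζ := ζ) hζ
  have hl := fun ζ hζ => log_bd hr hu hv hv1 hΛ hR hφ0 hφ w hi h hμ hN hτ (ζ := ζ) hζ
  have hsub : closedBall (0 : ℂ) ((1 + R) / 2) ⊆ closedBall 0 R :=
    closedBall_subset_closedBall (by linarith)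
  have hT := TL_approx n (qq_coeff0 hφ0 a w (insert i K) (zz u v w μ (τ * Complex.I)))
    (qq_coeff0 hφ0 a w K (zz u v w μ (τ * Complex.I))) (R := (1 + R) / 2) (by linarith)
    (fun ζ hζ => (hk ζ (hsub hζ)).1)
    (fun ζ hζ => by obtain ⟨-, x, e, hx, -⟩ := hk ζ (hsub hζ); exact e ▸ hx) hl
  have h1 : (1 : ℂ) ∈ closedBall (0 : ℂ) ((1 + R) / 2) := by simp; linarith
  have hl1 := hl 1 h1
  obtain ⟨hq, x, e, hx, -⟩ := hk 1 (hsub h1)
  have t1 := tot_eq (u := u) hr hv hφ1 w hμ h hτ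
  have t2 := tot_eq (u := u) hr hv hφ1 w hμ (h.mono (subset_insert _ _)) hτ
  unfold tl
  generalize qq φ (cc a w) (insert i K) (zz u v w μ (τ * Complex.I)) = p at *
  generalize qq φ (cc a w) K (zz u v w μ (τ * Complex.I)) = q at *
  have hp : p.eval 1 ≠ 0 := by
    intro e0
    rw [← e, e0] at hx
    simp at hx
  have hre : (Complex.log (p.eval 1 / q.eval 1)).re =
      tot u v a w μ (insert i K) τ - tot u v a w μ K τ := by
    rw [Complex.log_re, norm_div, Real.log_div (norm_ne_zero_iff.2 hp) (norm_ne_zero_iff.2 hq),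
      t1, t2]
  rw [← hre]
  refine ⟨(Complex.abs_re_le_norm _).trans hl1, le_trans ?_ hT⟩
  rw [← Complex.sub_re, ← Complex.sub_re]
  exact Complex.abs_re_le_norm _

end

lemma ker_int {m : ℝ} (hm : 0 < m) (D : ℝ) :
    IntegrableOn (fun τ : ℝ => D / (1 + (τ / m) ^ 2)) (Set.Ioi 0) ∧
      ∫ τ in Set.Ioi (0 : ℝ), D / (1 + (τ / m) ^ 2) = D * (Real.pi / 2 * m) := by
  have e : (fun τ : ℝ => D / (1 + (τ / m) ^ 2)) =
      fun τ => D * (fun x : ℝ => (1 + x ^ 2)⁻¹) (m⁻¹ * τ) := by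
    funext τ
    simp only [div_eq_mul_inv, mul_comm τ]
  rw [e]
  constructor
  · refine Integrable.const_mul ?_ D
    exact (integrableOn_Ioi_comp_mul_left_iff (fun x : ℝ => (1 + x ^ 2)⁻¹) 0
      (inv_pos.2 hm)).2 integrable_inv_one_add_sq.integrableOn
  · rw [integral_const_mul, integral_comp_mul_left_Ioi (fun x : ℝ => (1 + x ^ 2)⁻¹) 0
      (inv_pos.2 hm), integral_Ioi_inv_one_add_sq]
    simp [mul_comm]

lemma int_bd {f : ℝ → ℝ} {m D : ℝ} (hm : 0 < m) (hD : 0 ≤ D)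
    (hf : ∀ τ, 0 < τ → |f τ| ≤ D / (1 + (τ / m) ^ 2)) : |∫ τ in Set.Ioi 0, f τ| ≤ 2 * D * m := by
  have h1 := norm_integral_le_of_norm_le (μ := volume.restrict (Set.Ioi 0)) (f := f)
    (ker_int hm D).1 ((ae_restrict_iff' measurableSet_Ioi).2 (.of_forall hf))
  rw [(ker_int hm D).2] at h1
  have : Real.pi / 2 * m ≤ 2 * m := by nlinarith [Real.pi_le_four]
  have := mul_le_mul_of_nonneg_left this hD
  rw [Real.norm_eq_abs] at h1
  linarith

section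
variable (hr : 0 < r) {u v R : ℝ} (hu : 0 < u) (hv : 0 < v) (hv1 : v ≤ 1)
  {φ : ℂ[X]} (hR : 1 < R) (hφ0 : φ.coeff 0 = 0) (hφ1 : φ.eval 1 = 1)
  (hφ : ∀ ζ ∈ closedBall (0 : ℂ) R, |(φ.eval ζ).re| ≤ 3 / 2 ∧ |(φ.eval ζ).im| ≤ √v / 4)
  (n : ℕ) {a : V → V → ℂ} (w : V → Option (Fin r)) {μ : V → ℝ} (hμ : ∀ y, 0 < μ y)
include hr hu hv hv1 hR hφ0 hφ1 hφ hμ

lemma tl_int {K : Finset V} (h : HZ a K) : IntegrableOn (tl n φ u v a w μ K) (Set.Ioi 0) := by
  induction K using Finset.induction_on with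
  | empty =>
    have : tl n φ u v a w μ ∅ = fun _ => 0 := by
      funext τ
      simp [tl, qq, cc_empty, TL_one]
    rw [this]
    exact integrableOn_zero
  | insert i K hi ih =>
    have hK := h.mono (subset_insert _ _)
    set Λ := 1 + ∑ y ∈ K, μ y / μ i
    have h0 : ∀ y ∈ K, 0 ≤ μ y / μ i := fun y _ => (div_pos (hμ y) (hμ i)).le
    have hΛ : 1 ≤ Λ := le_add_of_nonneg_right (sum_nonneg h0)
    have hN : ∀ y ∈ K, a i y ≠ 0 → μ y ≤ Λ * μ i := fun y hy _ => by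
      rw [← div_le_iff₀ (hμ i)]
      linarith [single_le_sum h0 hy]
    have hb := fun τ hτ => (pt_bd hr hu hv hv1 hΛ hR hφ0 hφ1 hφ w hi h hμ hN n (τ := τ) hτ).2
    have i1 := (tot_int hr hu hv hμ w h).sub (tot_int hr hu hv hμ w hK)
    have i2 : IntegrableOn (fun τ => (tot u v a w μ (insert i K) τ - tot u v a w μ K τ) -
        (tl n φ u v a w μ (insert i K) τ - tl n φ u v a w μ K τ)) (Set.Ioi 0) :=
      Integrable.mono' ((ker_int (hμ i) (DD R Λ)).1.mul_const _)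
        (i1.aestronglyMeasurable.sub ((tl_meas n hφ0 u v a w μ _).sub
          (tl_meas n hφ0 u v a w μ _)).aestronglyMeasurable)
        ((ae_restrict_iff' measurableSet_Ioi).2 (.of_forall hb))
    refine ((i1.sub i2).add (ih hK)).congr (.of_forall fun τ => ?_)
    simp

lemma inc_bd {Λ : ℝ} (hΛ : 1 ≤ Λ) {K : Finset V} {i : V} (hi : i ∉ K)
    (h : HZ a (insert i K)) (hN : ∀ y ∈ K, a i y ≠ 0 → μ y ≤ Λ * μ i) :
    |TI u v a w μ (insert i K) - TI u v a w μ K| ≤ 2 * DD R Λ * μ i ∧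
    |(TI u v a w μ (insert i K) - TI u v a w μ K) -
      (TT n φ u v a w μ (insert i K) - TT n φ u v a w μ K)| ≤
      2 * (DD R Λ * (((1 + R) / 2)⁻¹ ^ n / ((1 + R) / 2 - 1))) * μ i := by
  have hK := h.mono (subset_insert _ _)
  have hb := fun τ hτ => pt_bd hr hu hv hv1 hΛ hR hφ0 hφ1 hφ w hi h hμ hN n (τ := τ) hτ
  have i1 := tot_int hr hu hv hμ w h
  have i2 := tot_int hr hu hv hμ w hK
  have i3 := tl_int hr hu hv hv1 hR hφ0 hφ1 hφ n w hμ h
  have i4 := tl_int hr hu hv hv1 hR hφ0 hφ1 hφ n w hμ hK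
  have hD := DD_nonneg hR hΛ
  have j1 : IntegrableOn (fun τ => tot u v a w μ (insert i K) τ - tot u v a w μ K τ)
    (Set.Ioi 0) := i1.sub i2
  have j2 : IntegrableOn (fun τ => tl n φ u v a w μ (insert i K) τ - tl n φ u v a w μ K τ)
    (Set.Ioi 0) := i3.sub i4
  unfold TI TT
  rw [← integral_sub i1 i2, ← integral_sub i3 i4, ← integral_sub j1 j2]
  refine ⟨int_bd (hμ i) hD fun τ hτ => (hb τ hτ).1, int_bd (hμ i) ?_ fun τ hτ => ?_⟩
  · have : 0 < (1 + R) / 2 - 1 := by linarith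
    positivity
  · exact (hb τ hτ).2.trans_eq (by ring)

end

end Vale.Agent.P078.Apx
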