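import Vale.Agent.P078.Lg

namespace Vale.Agent.P078

open Finset ComplexConjugate MeasureTheory Filter Topology Matrix

variable {L : Type*} [Fintype L] [DecidableEq L]

lemma det_block {m : Type*} [Fintype m] [DecidableEq m] (A : Matrix m m ℂ) (B : Matrix m L ℂ)
    (B' : Matrix L m ℂ) (v : L → ℂ) {t : ℂ} (ht : ∀ l, t - v l ≠ 0) :
    (scalar (m ⊕ L) t - fromBlocks A B B' (diagonal v)).det =
      (∏ l, (t - v l)) * (scalar m t - A - B * diagonal (fun l => (t - v l)⁻¹) * B').det := by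
  have e : scalar (m ⊕ L) t - fromBlocks A B B' (diagonal v) =
      fromBlocks (scalar m t - A) (-B) (-B') (diagonal fun l => t - v l) := by
    ext (i | i) (j | j) <;> simp [diagonal_apply]
    split_ifs <;> simp
  letI : Invertible (diagonal fun l => t - v l) := ⟨diagonal fun l => (t - v l)⁻¹,
    by rw [diagonal_mul_diagonal, ← diagonal_one]; congr 1; funext l; exact inv_mul_cancel₀ (ht l),
    by rw [diagonal_mul_diagonal, ← diagonal_one]; congr 1; funext l; exact mul_inv_cancel₀ (ht l)⟩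
  rw [e, det_fromBlocks₂₂, det_diagonal]
  congr 2
  change _ - (-B) * diagonal (fun l => (t - v l)⁻¹) * (-B') = _
  simp

lemma herm_block {m : Type*} {A : Matrix m m ℂ} (hA : A.IsHermitian) (B : Matrix m L ℂ)
    (v : L → ℝ) : (fromBlocks A B Bᴴ (diagonal fun l => (v l : ℂ))).IsHermitian :=
  IsHermitian.fromBlocks hA rfl (by
    rw [IsHermitian, diagonal_conjTranspose]; congr 1; funext l; simp)

lemma iI_ne {τ : ℝ} (hτ : 0 < τ) (v : ℝ) : (τ * Complex.I - v : ℂ) ≠ 0 := fun h => by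
  simpa [hτ.ne'] using congrArg Complex.im h

noncomputable def Ar (U : ℝ) (g v : L → ℝ) (t : ℂ) : ℂ := t + U - ∑ l, g l / (t - v l)

noncomputable def psi (U : ℝ) (g v : L → ℝ) (τ : ℝ) : ℝ :=
  Real.log ‖Ar U g v (τ * Complex.I)‖ - Real.log ‖(τ * Complex.I + U : ℂ)‖

noncomputable def Psi (U : ℝ) (g v : L → ℝ) : ℝ := (∫ τ in Set.Ioi 0, psi U g v τ) / Real.pi

noncomputable def arM (U : ℝ) (g v : L → ℝ) : Matrix (Unit ⊕ L) (Unit ⊕ L) ℂ :=
  fromBlocks (of fun _ _ => (-U : ℝ)) (of fun _ l => (√(g l) : ℝ)) (of fun _ l => (√(g l) : ℝ))ᴴ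
    (diagonal fun l => (v l : ℂ))

lemma arM_herm (U : ℝ) (g v : L → ℝ) : (arM U g v).IsHermitian :=
  herm_block (by ext i j; simp) _ _

omit [DecidableEq L] in
lemma Ar_im {U : ℝ} {g v : L → ℝ} (hg : ∀ l, 0 ≤ g l) {t : ℂ} (ht : 0 < t.im) :
    0 < (Ar U g v t).im := by
  have : (∑ l, g l / (t - v l)).im ≤ 0 := by
    rw [Complex.im_sum]
    refine sum_nonpos fun l _ => ?_
    rw [div_eq_mul_inv, Complex.im_ofReal_mul, Complex.inv_im]
    refine mul_nonpos_of_nonneg_of_nonpos (hg l) (div_nonpos_of_nonpos_of_nonneg ?_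
      (Complex.normSq_nonneg _))
    simp [ht.le]
  simp only [Ar, Complex.sub_im, Complex.add_im, Complex.ofReal_im]
  linarith

lemma psi_spec {U : ℝ} (hU : 0 ≤ U) {g : L → ℝ} (hg : ∀ l, 0 ≤ g l) (v : L → ℝ)
    (E : Eig (arM U g v)) :
    IntegrableOn (psi U g v) (Set.Ioi 0) ∧ Psi U g v = E.tp - ∑ l, max (v l) 0 := by
  have key : Set.EqOn (fun τ => ∑ k, lg (E.l k) τ - ∑ l, lg (v l) τ - lg (-U) τ) (psi U g v)
      (Set.Ioi 0) := by
    intro τ hτ
    have hτ : 0 < τ := hτ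
    have h1 := E.log_det hτ
    have h2 : (scalar Unit (τ * Complex.I) - (of fun _ _ => ((-U : ℝ) : ℂ)) -
        (of fun (_ : Unit) l => ((√(g l) : ℝ) : ℂ)) * diagonal (fun l => (τ * Complex.I - v l)⁻¹) *
        (of fun (_ : Unit) l => ((√(g l) : ℝ) : ℂ))ᴴ).det = Ar U g v (τ * Complex.I) := by
      rw [det_unique, Ar]
      simp only [Matrix.sub_apply, scalar_apply, diagonal_apply_eq, of_apply, Matrix.mul_apply,
        conjTranspose_apply, diagonal_apply, mul_ite, mul_zero, sum_ite_eq', mem_univ, if_true,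
        Complex.ofReal_neg, sub_neg_eq_add, RCLike.star_def, Complex.conj_ofReal]
      congr 1
      refine sum_congr rfl fun l _ => ?_
      rw [mul_right_comm, ← Complex.ofReal_mul, Real.mul_self_sqrt (hg l), div_eq_mul_inv]
    have h3 := det_block (of fun (_ _ : Unit) => ((-U : ℝ) : ℂ))
      (of fun (_ : Unit) l => ((√(g l) : ℝ) : ℂ)) (of fun (_ : Unit) l => ((√(g l) : ℝ) : ℂ))ᴴ
      (fun l => (v l : ℂ)) fun l => iI_ne hτ (v l)
    change (scalar _ _ - arM U g v).det = _ at h3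
    rw [h3, h2, norm_mul, norm_prod,
      Real.log_mul (prod_ne_zero_iff.2 fun l _ => norm_ne_zero_iff.2 (iI_ne hτ _))
        (norm_ne_zero_iff.2 fun h => by
          have := Ar_im (U := U) (v := v) hg (t := τ * Complex.I) (by simpa using hτ)
          rw [h] at this; simp at this),
      Real.log_prod fun l _ => norm_ne_zero_iff.2 (iI_ne hτ _)] at h1
    simp only [psi, lg, sum_sub_distrib, sum_const, card_univ, nsmul_eq_mul, Fintype.card_sum,
      Fintype.card_unit, Nat.cast_add, Nat.cast_one, Complex.ofReal_neg, sub_neg_eq_add] at h1 ⊢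
    linarith
  have i1 : IntegrableOn (fun τ => ∑ k, lg (E.l k) τ) (Set.Ioi 0) :=
    integrable_finsetSum _ fun k _ => (lg_spec _).1
  have i2 : IntegrableOn (fun τ => ∑ l, lg (v l) τ) (Set.Ioi 0) :=
    integrable_finsetSum _ fun k _ => (lg_spec _).1
  have i3 : IntegrableOn (fun τ => ∑ k, lg (E.l k) τ - ∑ l, lg (v l) τ) (Set.Ioi 0) := i1.sub i2
  refine ⟨(i3.sub (lg_spec (-U)).1).congr_fun key measurableSet_Ioi, ?_⟩
  rw [Psi, ← setIntegral_congr_fun measurableSet_Ioi key, integral_sub i3 (lg_spec _).1,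
    integral_sub i1 i2, integral_finsetSum _ fun k _ => (lg_spec _).1,
    integral_finsetSum _ fun k _ => (lg_spec _).1]
  simp only [(lg_spec _).2, ← mul_sum, E.sum_abs, abs_neg, abs_of_nonneg hU]
  have : ∑ l, |v l| = 2 * ∑ l, max (v l) 0 - ∑ l, v l := by
    rw [mul_sum, ← sum_sub_distrib]
    refine sum_congr rfl fun l _ => ?_
    rcases le_total (v l) 0 with h | h
    · rw [abs_of_nonpos h, max_eq_right h]; ring
    · rw [abs_of_nonneg h, max_eq_left h]; ring
  rw [this]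
  simp only [arM, Fintype.sum_sum_type, fromBlocks_apply₁₁, fromBlocks_apply₂₂, of_apply,
    diagonal_apply_eq, Complex.ofReal_re, Fintype.sum_unique]
  field_simp
  ring

lemma psi_int {U : ℝ} (hU : 0 ≤ U) {g : L → ℝ} (hg : ∀ l, 0 ≤ g l) (v : L → ℝ) :
    IntegrableOn (psi U g v) (Set.Ioi 0) :=
  (exists_eig (arM_herm U g v)).elim fun E => (psi_spec hU hg v E).1

lemma arM_form (U : ℝ) (g v : L → ℝ) (x₀ : ℝ) (x : L → ℝ) :
    (∑ i, ∑ j, conj (Sum.elim (fun _ => (x₀ : ℂ)) (fun l => (x l : ℂ)) i) * arM U g v i j *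
      Sum.elim (fun _ => (x₀ : ℂ)) (fun l => (x l : ℂ)) j).re =
      - U * x₀ ^ 2 + 2 * x₀ * ∑ l, √(g l) * x l + ∑ l, v l * x l ^ 2 := by
  simp only [arM, Fintype.sum_sum_type, Fintype.sum_unique, Sum.elim_inl, Sum.elim_inr,
    fromBlocks_apply₁₁, fromBlocks_apply₂₂, fromBlocks_apply₁₂, fromBlocks_apply₂₁, of_apply,
    conjTranspose_apply, RCLike.star_def, Complex.conj_ofReal, diagonal_apply, mul_ite, mul_zero,
    ite_mul, zero_mul, sum_ite_eq, mem_univ, if_true, ← Complex.ofReal_mul, ← Complex.ofReal_add,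
    ← Complex.ofReal_sum, Complex.ofReal_re, sum_add_distrib, mul_sum]
  have h1 : ∑ l, x₀ * √(g l) * x l + ∑ l, x l * √(g l) * x₀ = ∑ l, 2 * x₀ * (√(g l) * x l) := by
    rw [← sum_add_distrib]; exact sum_congr rfl fun l _ => by ring
  have h2 : ∑ l, x l * v l * x l = ∑ l, v l * x l ^ 2 := sum_congr rfl fun l _ => by ring
  rw [← h1, h2]
  ring

lemma arM_S (U : ℝ) (g v : L → ℝ) :
    ∑ i ∈ (univ.filter fun l => 0 < v l).map Function.Embedding.inr, (arM U g v i i).re =
      ∑ l, max (v l) 0 := by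
  rw [sum_map, sum_filter]
  refine sum_congr rfl fun l _ => ?_
  split_ifs with h
  · simp [arM, h.le]
  · exact (max_eq_right (not_lt.1 h)).symm

omit [DecidableEq L] in
lemma elim_nsq (x₀ : ℝ) (x : L → ℝ) :
    ∑ i, ‖Sum.elim (fun _ : Unit => (x₀ : ℂ)) (fun l => (x l : ℂ)) i‖ ^ 2 =
      x₀ ^ 2 + ∑ l, x l ^ 2 := by
  simp [Fintype.sum_sum_type]

lemma Psi_nonneg {U : ℝ} (hU : 0 ≤ U) {g : L → ℝ} (hg : ∀ l, 0 ≤ g l) (v : L → ℝ) :
    0 ≤ Psi U g v := by
  obtain ⟨E⟩ := exists_eig (arM_herm U g v)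
  have := E.low_add ((univ.filter fun l => 0 < v l).map Function.Embedding.inr) 0 (by simp) (by simp)
  rw [arM_S] at this
  rw [(psi_spec hU hg v E).2]
  simpa using this

lemma Psi_low1 {U : ℝ} (hU : 0 ≤ U) {g : L → ℝ} (hg : ∀ l, 0 ≤ g l) (v : L → ℝ) {y : ℝ}
    (hy : 0 < y) (h : Psi U g v < y) :
    ∑ l ∈ univ.filter (fun l => v l ≤ 0), g l / (y - v l) ≤ U + y := by
  obtain ⟨E⟩ := exists_eig (arM_herm U g v)
  by_contra hc
  set Λ := ∑ l ∈ univ.filter (fun l => v l ≤ 0), g l / (y - v l) with hΛ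
  let x : L → ℝ := fun l => if v l ≤ 0 then √(g l) / (y - v l) else 0
  set N := 1 + ∑ l, x l ^ 2 with hN
  have hN0 : 0 < N := by positivity
  have hs : √N ^ 2 = N := Real.sq_sqrt hN0.le
  have hs0 : 0 < √N := Real.sqrt_pos.2 hN0
  have := E.low_add ((univ.filter fun l => 0 < v l).map Function.Embedding.inr)
    (Sum.elim (fun _ => ((1 / √N : ℝ) : ℂ)) (fun l => ((x l / √N : ℝ) : ℂ))) (fun i hi => by
      obtain ⟨l, hl, rfl⟩ := mem_map.1 hi
      simp [x, not_le.2 (mem_filter.1 hl).2]) (by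
      rw [elim_nsq]
      simp only [div_pow, hs, ← sum_div, one_pow, ← add_div, ← hN, div_self hN0.ne', le_refl])
  rw [arM_S, arM_form] at this
  have h1 : ∑ l, √(g l) * x l = Λ := by
    rw [hΛ, sum_filter]
    refine sum_congr rfl fun l _ => ?_
    simp only [x]
    split_ifs
    · rw [← mul_div_assoc, Real.mul_self_sqrt (hg l)]
    · simp
  have h2 : ∑ l, v l * x l ^ 2 = y * ∑ l, x l ^ 2 - Λ := by
    rw [hΛ, sum_filter, mul_sum, ← sum_sub_distrib]
    refine sum_congr rfl fun l _ => ?_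
    simp only [x]
    split_ifs with hl
    · have : 0 < y - v l := by linarith
      rw [div_pow, Real.sq_sqrt (hg l)]
      field_simp
      ring
    · simp
  simp only [div_pow, hs, ← mul_div_assoc, ← sum_div, h1, h2] at this
  have e : -U * 1 ^ 2 / N + 2 * 1 / √N * Λ / √N + (y * ∑ l, x l ^ 2 - Λ) / N =
      y + (Λ - U - y) / N := by
    have : 2 * 1 / √N * Λ / √N = 2 * Λ / N := by
      conv_rhs => rw [← hs]
      field_simp
    rw [this]
    field_simp
    rw [hN]; ring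
  rw [e] at this
  have h3 : 0 < (Λ - U - y) / N := div_pos (by linarith [not_le.1 hc]) hN0
  rw [(psi_spec hU hg v E).2] at h
  linarith

lemma Psi_low2 {U : ℝ} (hU : 0 ≤ U) {g : L → ℝ} (hg : ∀ l, 0 ≤ g l) (v : L → ℝ) {y : ℝ}
    (hy : 0 < y) (h : Psi U g v < y) :
    ∑ l ∈ univ.filter (fun l => 0 < v l), g l / (U + y + v l) ≤ y := by
  obtain ⟨E⟩ := exists_eig (arM_herm U g v)
  by_contra hc
  set Λ := ∑ l ∈ univ.filter (fun l => 0 < v l), g l / (U + y + v l) with hΛ
  let x : L → ℝ := fun l => if 0 < v l then - √(g l) / (U + y + v l) else 0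
  set N := 1 + ∑ l, x l ^ 2 with hN
  have hN0 : 0 < N := by positivity
  have hs : √N ^ 2 = N := Real.sq_sqrt hN0.le
  have hs0 : 0 < √N := Real.sqrt_pos.2 hN0
  have := E.low_sub (insert (Sum.inl ()) ((univ.filter fun l => 0 < v l).map Function.Embedding.inr))
    (Sum.elim (fun _ => ((1 / √N : ℝ) : ℂ)) (fun l => ((x l / √N : ℝ) : ℂ))) (fun i hi => by
      rcases i with i | l
      · simp at hi
      · have : ¬ 0 < v l := by simpa using hi
        simp [x, this]) (by
      rw [elim_nsq]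
      simp only [div_pow, hs, ← sum_div, one_pow, ← add_div, ← hN, div_self hN0.ne', le_refl])
  rw [sum_insert (by simp), arM_S, arM_form] at this
  have h0 : (arM U g v (Sum.inl ()) (Sum.inl ())).re = -U := by simp [arM]
  have h1 : ∑ l, √(g l) * x l = - Λ := by
    rw [hΛ, sum_filter, ← sum_neg_distrib]
    refine sum_congr rfl fun l _ => ?_
    simp only [x]
    split_ifs
    · rw [← mul_div_assoc, mul_neg, Real.mul_self_sqrt (hg l), neg_div]
    · simp
  have h2 : ∑ l, v l * x l ^ 2 = Λ - (U + y) * ∑ l, x l ^ 2 := by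
    rw [hΛ, sum_filter, mul_sum, ← sum_sub_distrib]
    refine sum_congr rfl fun l _ => ?_
    simp only [x]
    split_ifs with hl
    · have : 0 < U + y + v l := by linarith
      rw [div_pow, neg_sq, Real.sq_sqrt (hg l)]
      field_simp
      ring
    · simp
  simp only [div_pow, hs, ← mul_div_assoc, ← sum_div, h1, h2, h0] at this
  have e : -U * 1 ^ 2 / N + 2 * 1 / √N * -Λ / √N + (Λ - (U + y) * ∑ l, x l ^ 2) / N =
      - U - y - (Λ - y) / N := by
    have : 2 * 1 / √N * -Λ / √N = -2 * Λ / N := by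
      conv_rhs => rw [← hs]
      field_simp
    rw [this]
    field_simp
    rw [hN]; ring
  rw [e] at this
  have h3 : 0 < (Λ - y) / N := div_pos (by linarith [not_le.1 hc]) hN0
  rw [(psi_spec hU hg v E).2] at h
  linarith

lemma amgm {s a p D : ℝ} (hD : 0 < D) (hp : 0 ≤ p) (h : p = 0 → a = 0) :
    2 * s * a ≤ p * (s ^ 2 / D) + D * (a ^ 2 / p) := by
  rcases hp.eq_or_lt with hp | hp
  · simp [← hp, h hp.symm]
  · have : p * (s ^ 2 / D) + D * (a ^ 2 / p) - 2 * s * a = (p * s - D * a) ^ 2 / (p * D) := by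
      field_simp; ring
    have h2 : 0 ≤ (p * s - D * a) ^ 2 / (p * D) := by positivity
    linarith

lemma div_le_of_sq {a p q : ℝ} (hp : 0 ≤ p) (hq : 0 ≤ q) (h : a ≤ p * q) : a / p ≤ q := by
  rcases hp.eq_or_lt with hp | hp
  · simp [← hp, hq]
  · rw [div_le_iff₀ hp]; linarith

lemma Psi_up {U : ℝ} (hU : 0 ≤ U) {g : L → ℝ} (hg : ∀ l, 0 ≤ g l) (v : L → ℝ) {y : ℝ}
    (hy : 0 < y) (h1 : ∑ l ∈ univ.filter (fun l => v l ≤ 0), g l / (y - v l) ≤ U / 2 + y)
    (h2 : ∑ l ∈ univ.filter (fun l => 0 < v l), g l / (U / 2 + y + v l) ≤ y) :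
    Psi U g v ≤ 2 * y := by
  obtain ⟨E⟩ := exists_eig (arM_herm U g v)
  obtain ⟨P, p, hP, p0, p1, ps, c1, c2, hs, ht⟩ := E.exists_proj
  rw [(psi_spec hU hg v E).2, ht]
  set o : Unit ⊕ L := Sum.inl ()
  let a : L → ℝ := fun l => ‖P o (Sum.inr l)‖
  have e1 : (∑ i, ∑ j, conj (P i j) * arM U g v i j).re = - U * p o +
      ∑ l, (2 * √(g l) * (P o (Sum.inr l)).re + v l * p (Sum.inr l)) := by
    simp only [arM, Fintype.sum_sum_type, Fintype.sum_unique, fromBlocks_apply₁₁,
      fromBlocks_apply₂₂, fromBlocks_apply₁₂, fromBlocks_apply₂₁, of_apply,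
      conjTranspose_apply, RCLike.star_def, Complex.conj_ofReal, diagonal_apply, mul_ite, mul_zero,
      sum_ite_eq, mem_univ, if_true, hP, Complex.add_re, Complex.re_sum, Complex.re_mul_ofReal,
      Complex.ofReal_re, Complex.conj_re, hs (Sum.inl _) (Sum.inr _), add_assoc, ← sum_add_distrib]
    congr 1
    · ring
    · exact sum_congr rfl fun l _ => by simp only [o]; ring
  have e2 : ∑ l, a l ^ 2 ≤ p o * (1 - p o) := by
    have := ps o
    rw [Fintype.sum_sum_type, Fintype.sum_unique] at this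
    change ‖P o o‖ ^ 2 + ∑ l, a l ^ 2 = p o at this
    rw [hP, Complex.norm_real, Real.norm_eq_abs, sq_abs] at this
    nlinarith
  have q0 : 0 ≤ 1 - p o := by linarith [p1 o]
  have e3 : ∀ l, 2 * √(g l) * (P o (Sum.inr l)).re + v l * p (Sum.inr l) - max (v l) 0 ≤
      (if v l ≤ 0 then p o * (g l / (y - v l)) else (1 - p o) * (g l / (U / 2 + y + v l))) +
        (y * (a l ^ 2 / p o) + (U / 2 + y) * (a l ^ 2 / (1 - p o))) := by
    intro l
    have f0 : 2 * √(g l) * (P o (Sum.inr l)).re ≤ 2 * √(g l) * a l :=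
      mul_le_mul_of_nonneg_left (Complex.re_le_norm _) (by positivity)
    have f1 : 0 ≤ a l ^ 2 / p o := div_nonneg (sq_nonneg _) (p0 o)
    have f2 : 0 ≤ a l ^ 2 / (1 - p o) := div_nonneg (sq_nonneg _) q0
    split_ifs with hl
    · have f3 := amgm (s := √(g l)) (a := a l) (D := y - v l) (by linarith) (p0 o) fun h => by
        have := c1 o (Sum.inr l)
        rw [h, zero_mul] at this
        exact pow_eq_zero_iff (two_ne_zero) |>.1 (le_antisymm this (sq_nonneg _))
      have f4 := div_le_of_sq (p0 o) (p0 _) (c1 o (Sum.inr l))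
      rw [Real.sq_sqrt (hg l)] at f3
      rw [max_eq_right hl]
      change a l ^ 2 / p o ≤ _ at f4
      nlinarith [mul_nonneg (by linarith : 0 ≤ U / 2 + y) f2]
    · have hl' := not_le.1 hl
      have f3 := amgm (s := √(g l)) (a := a l) (D := U / 2 + y + v l) (by linarith) q0 fun h => by
        have := c2 o (Sum.inr l) (by simp [o])
        rw [h, zero_mul] at this
        exact pow_eq_zero_iff (two_ne_zero) |>.1 (le_antisymm this (sq_nonneg _))
      have f4 := div_le_of_sq q0 (by linarith [p1 (Sum.inr l)]) (c2 o (Sum.inr l) (by simp [o]))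
      rw [Real.sq_sqrt (hg l)] at f3
      rw [max_eq_left hl'.le]
      change a l ^ 2 / (1 - p o) ≤ _ at f4
      nlinarith [mul_nonneg hy.le f1]
  have e4 := sum_le_sum fun l (_ : l ∈ univ) => e3 l
  rw [sum_sub_distrib, sum_add_distrib (g := fun l => y * (a l ^ 2 / p o) + _),
    sum_add_distrib (f := fun l => y * (a l ^ 2 / p o)),
    sum_ite, ← mul_sum, ← mul_sum, ← mul_sum, ← mul_sum, ← sum_div, ← sum_div] at e4
  simp only [not_le] at e4
  have e5 := div_le_of_sq (p0 o) q0 e2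
  have e6 := div_le_of_sq q0 (p0 o) (mul_comm (p o) _ ▸ e2)
  rw [e1]
  nlinarith [mul_le_mul_of_nonneg_left h1 (p0 o), mul_le_mul_of_nonneg_left h2 q0,
    mul_le_mul_of_nonneg_left e5 hy.le,
    mul_le_mul_of_nonneg_left e6 (by linarith : 0 ≤ U / 2 + y)]

end Vale.Agent.P078
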