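import Vale.Agent.P078.NI

namespace Vale.Agent.P078

open Finset ComplexConjugate Polynomial Lagrange

lemma amhm {m : ℕ} (w : Fin m → ℝ) (hw : ∀ l, 0 < w l) {G δ : ℝ} (hG0 : 0 < G)
    (hG : ∑ l, 1 / w l ≤ G) (hδ : m * δ * G ≤ ((m : ℝ) - 1) ^ 2) (l : Fin m) :
    w l ≤ ∑ k, w k - m * δ := by
  have h1 := sq_sum_div_le_sum_sq_div (univ.erase l) (fun _ => (1 : ℝ)) (g := w) fun k _ => hw k
  have hm : 1 ≤ m := l.pos
  rw [sum_const, card_erase_of_mem (mem_univ _), card_univ, Fintype.card_fin, nsmul_eq_mul,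
    mul_one, Nat.cast_sub hm, Nat.cast_one] at h1
  have h2 : ∑ k ∈ univ.erase l, (1 : ℝ) ^ 2 / w k ≤ G := by
    simp only [one_pow]
    exact (sum_le_sum_of_subset_of_nonneg (erase_subset _ _)
      fun k _ _ => (one_div_pos.2 (hw k)).le).trans hG
  have h3 : ∑ k, w k = w l + ∑ k ∈ univ.erase l, w k := (add_sum_erase _ _ (mem_univ _)).symm
  have h4 : 0 ≤ ∑ k ∈ univ.erase l, w k := sum_nonneg fun k _ => (hw k).le
  rw [h3]
  suffices m * δ ≤ ∑ k ∈ univ.erase l, w k by linarith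
  rcases h4.eq_or_lt with h4 | h4
  · have : m = 1 := by
      by_contra hm1
      have : (univ.erase l).Nonempty := card_pos.1 (by
        rw [card_erase_of_mem (mem_univ _), card_univ, Fintype.card_fin]; omega)
      exact absurd h4 (sum_pos (fun k _ => hw k) this).ne
    subst this
    rw [← h4]
    have : (1 : ℝ) * δ * G ≤ 0 := by simpa using hδ
    simp only [Nat.cast_one]
    nlinarith
  · have := (div_le_iff₀ h4).1 (h1.trans h2)
    nlinarith

lemma bar_step {m : ℕ} (hm : 0 < m) {p q : ℂ[X]} {a₀ c₀ : ℝ} (ha : 0 < a₀) (hp : p.natDegree ≤ m)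
    (hp0 : p.coeff m = a₀) (hq : q.natDegree ≤ m) (hq0 : q.coeff m = c₀)
    (hroot : ∀ t : ℂ, t.im ≠ 0 → p.eval t ≠ 0)
    (hni : ∀ t : ℂ, 0 < t.im → (q.eval t * conj (p.eval t)).im ≤ 0) {x G G' δ : ℝ} (hG0 : 0 < G)
    (hpos : ∀ t : ℝ, x ≤ t → p.eval (t : ℂ) ≠ 0)
    (hG : ((derivative p).eval (x : ℂ)).re ≤ G * (p.eval (x : ℂ)).re)
    (hG' : (q.eval (x : ℂ)).re ≤ G' * (p.eval (x : ℂ)).re)
    (hδ : m * δ * G ≤ ((m : ℝ) - 1) ^ 2) :
    0 < (((x - δ : ℝ) : ℂ) * a₀ + 1 / m * (X * p).coeff m).re ∧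
      (((x - δ : ℝ) : ℂ) * c₀ + 1 / m * (X * q).coeff m).re ≤
        G' * (((x - δ : ℝ) : ℂ) * a₀ + 1 / m * (X * p).coeff m).re := by
  have ha' : (a₀ : ℂ) ≠ 0 := by exact_mod_cast ha.ne'
  obtain ⟨v, hv⟩ := exists_real_roots hp (by rw [hp0]; exact ha') hroot
  rw [hp0] at hv
  set N := nodal univ fun l => (v l : ℂ) with hN
  have hNd : N.natDegree = m := by rw [hN, natDegree_nodal, card_univ, Fintype.card_fin]
  have hN1 : N.coeff m = 1 := by rw [← hNd]; exact nodal_monic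
  let w : Fin m → ℝ := fun l => x - v l
  have hw : ∀ l, 0 < w l := fun l => sub_pos.2 (lt_of_not_ge fun h => hpos _ h (by
    rw [hv, eval_mul, eval_nodal_at_node (v := fun l => (v l : ℂ)) (mem_univ l), mul_zero]))
  obtain ⟨γ, hγ, hR⟩ := pf v univ (C (1 / a₀ : ℂ) * q - C (c₀ / a₀ : ℂ) * N) (by
      rw [card_univ, Fintype.card_fin, degree_lt_iff_coeff_zero]
      intro k hk
      rw [coeff_sub, coeff_C_mul, coeff_C_mul]
      rcases hk.eq_or_lt with rfl | hk
      · rw [hq0, hN1]; ring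
      · rw [coeff_eq_zero_of_natDegree_lt (hq.trans_lt hk),
          coeff_eq_zero_of_natDegree_lt (hNd.trans_lt hk)]; ring) fun t ht => by
    have := hni t ht
    rw [hv, eval_mul, eval_C, map_mul, Complex.conj_ofReal, mul_left_comm, Complex.im_ofReal_mul]
      at this
    have h2 := nonpos_of_mul_nonpos_right this ha
    rw [eval_sub, eval_mul, eval_mul, eval_C, eval_C, ← hN, sub_mul, mul_assoc, mul_assoc,
      Complex.mul_conj, Complex.sub_im, ← Complex.ofReal_div, ← Complex.ofReal_mul,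
      Complex.ofReal_im, sub_zero, ← Complex.ofReal_one, ← Complex.ofReal_div,
      Complex.im_ofReal_mul]
    exact mul_nonpos_of_nonneg_of_nonpos (by positivity) h2
  have hq' : q = C (c₀ : ℂ) * N + C (a₀ : ℂ) *
      ∑ l, C (γ l : ℂ) * nodal (univ.erase l) fun l => (v l : ℂ) := by
    rw [← hR, mul_sub, ← mul_assoc, ← mul_assoc, ← C_mul, ← C_mul, mul_one_div_cancel ha',
      mul_div_cancel₀ _ ha']
    simp
  set W := ∏ l, w l with hW
  have hW0 : 0 < W := prod_pos fun l _ => hw l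
  have e1 : N.eval (x : ℂ) = W := by simp [hN, eval_nodal, hW, w]
  have e2 : ∀ l, (nodal (univ.erase l) fun l => (v l : ℂ)).eval (x : ℂ) = (W / w l : ℝ) := by
    intro l
    rw [hW, ← mul_prod_erase _ _ (mem_univ l), mul_div_cancel_left₀ _ (hw l).ne', eval_nodal]
    simp [w]
  obtain ⟨m, rfl⟩ := Nat.exists_eq_succ_of_ne_zero hm.ne'
  have e3 : N.coeff m = - ∑ l, (v l : ℂ) := by
    have := prod_X_sub_C_coeff_card_pred univ (fun l => (v l : ℂ)) (by simp)
    simpa [hN, nodal_eq] using this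
  have e4 : ∀ l : Fin (m + 1), (nodal (univ.erase l) fun l => (v l : ℂ)).coeff m = 1 := by
    intro l
    have : (nodal (univ.erase l) fun l => (v l : ℂ)).natDegree = m := by
      rw [natDegree_nodal, card_erase_of_mem (mem_univ _)]; simp
    have h2 : (nodal (univ.erase l) fun l => (v l : ℂ)).Monic := nodal_monic
    rw [Monic, leadingCoeff, this] at h2
    exact h2
  have hS : ∑ l, 1 / w l ≤ G := by
    rw [hv, derivative_mul, derivative_C, zero_mul, zero_add, hN, derivative_nodal, eval_mul,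
      eval_mul, eval_C, eval_finsetSum, ← hN, e1] at hG
    simp only [e2, ← Complex.ofReal_sum, ← Complex.ofReal_mul, Complex.ofReal_re] at hG
    have : ∑ l, W / w l = W * ∑ l, 1 / w l := by
      rw [mul_sum]; exact sum_congr rfl fun l _ => by ring
    rw [this] at hG
    have h2 : a₀ * W * ∑ l, 1 / w l ≤ a₀ * W * G := by linarith
    exact le_of_mul_le_mul_left h2 (by positivity)
  have hS' : c₀ + a₀ * ∑ l, γ l / w l ≤ G' * a₀ := by
    rw [hv, hq', eval_add, eval_mul, eval_mul, eval_mul, eval_C, eval_C, eval_finsetSum, e1] at hG'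
    simp only [eval_mul, eval_C, e2, ← Complex.ofReal_sum, ← Complex.ofReal_mul,
      ← Complex.ofReal_add, Complex.ofReal_re] at hG'
    have : ∑ l, γ l * (W / w l) = W * ∑ l, γ l / w l := by
      rw [mul_sum]; exact sum_congr rfl fun l _ => by ring
    rw [this] at hG'
    have h2 : W * (c₀ + a₀ * ∑ l, γ l / w l) ≤ W * (G' * a₀) := by linarith
    exact le_of_mul_le_mul_left h2 hW0
  set D := ∑ k, w k - (m + 1 : ℕ) * δ with hD
  have hDl : ∀ l, w l ≤ D := amhm w hw hG0 hS hδ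
  have hD0 : 0 < D := (hw 0).trans_le (hDl 0)
  have hm' : (0 : ℝ) < (m + 1 : ℕ) := by positivity
  have hsum : ∑ k, w k = (m + 1 : ℕ) * x - ∑ l, v l := by simp [w, sum_sub_distrib]
  have f1 : (((x - δ : ℝ) : ℂ) * a₀ + 1 / (m + 1 : ℕ) * (X * p).coeff (m + 1)) =
      ((a₀ * D / (m + 1 : ℕ) : ℝ) : ℂ) := by
    rw [coeff_X_mul, hv, coeff_C_mul, e3, hD, hsum]
    have : ((m + 1 : ℕ) : ℂ) ≠ 0 := by exact_mod_cast hm'.ne'
    rw [Complex.ofReal_div, Complex.ofReal_natCast]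
    field_simp
    push_cast
    ring
  have f2 : (((x - δ : ℝ) : ℂ) * c₀ + 1 / (m + 1 : ℕ) * (X * q).coeff (m + 1)) =
      (((c₀ * D + a₀ * ∑ l, γ l) / (m + 1 : ℕ) : ℝ) : ℂ) := by
    rw [coeff_X_mul, hq', coeff_add, coeff_C_mul, coeff_C_mul, e3, finsetSum_coeff, hD, hsum]
    simp only [coeff_C_mul, e4, mul_one]
    have : ((m + 1 : ℕ) : ℂ) ≠ 0 := by exact_mod_cast hm'.ne'
    rw [Complex.ofReal_div, Complex.ofReal_natCast]
    field_simp
    push_cast
    ring
  rw [f1, f2, Complex.ofReal_re, Complex.ofReal_re]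
  refine ⟨by positivity, ?_⟩
  rw [← mul_div_assoc]
  refine div_le_div_of_nonneg_right ?_ hm'.le
  have h3 : ∑ l, γ l ≤ (∑ l, γ l / w l) * D := by
    rw [sum_mul]
    refine sum_le_sum fun l _ => ?_
    rw [div_mul_eq_mul_div, le_div_iff₀ (hw l)]
    exact mul_le_mul_of_nonneg_left (hDl l) (hγ l)
  nlinarith [mul_le_mul_of_nonneg_right hS' hD0.le, mul_le_mul_of_nonneg_left h3 ha.le]

end Vale.Agent.P078
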