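import Vale.Agent.P078.Bar1

namespace Vale.Agent.P078

open Finset ComplexConjugate Polynomial Lagrange

variable {V : Type*} [DecidableEq V] {r : ℕ}

lemma cc_image {V' : Type*} [DecidableEq V'] {a : V → V → ℂ} {a' : V' → V' → ℂ}
    {w : V → Option (Fin r)} {w' : V' → Option (Fin r)} {T : Finset V} {f : V → V'}
    (hf : Set.InjOn f T) (π : Equiv.Perm (Fin r)) (s : V → ℂ) (hs : ∀ i, conj (s i) * s i = 1)
    (h : ∀ i ∈ T, ∀ j ∈ T, a' (f i) (f j) = conj (s i) * a i j * s j)
    (hw : ∀ i ∈ T, w' (f i) = (w i).map π) : cc a' w' (T.image f) = cc a w T := by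
  let e : T ≃ T.image f := Equiv.ofBijective (fun i => ⟨f i, mem_image_of_mem f i.2⟩)
    ⟨fun i j h => Subtype.ext (hf i.2 j.2 (congrArg Subtype.val h)), fun ⟨y, hy⟩ => by
      obtain ⟨x, hx, rfl⟩ := mem_image.1 hy
      exact ⟨⟨x, hx⟩, rfl⟩⟩
  exact cc_map e π (fun i => s i) (fun i => hs i) (fun i j => h i i.2 j j.2) fun i => hw i i.2

lemma PP_image {V' : Type*} [DecidableEq V'] {f : V → V'} (z : V' → ℂ) (U : Finset V) :
    Set.InjOn f U → ∀ (c : Finset V → ℂ) (c' : Finset V' → ℂ), (∀ T ⊆ U, c' (T.image f) = c T) →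
      PP c' (U.image f) z = PP c U fun i => z (f i) := by
  induction U using Finset.induction_on with
  | empty => intro _ c c' h; simpa [PP_empty] using h ∅ (Subset.refl _)
  | insert i U hi ih =>
    intro hf c c' h
    have hf' : Set.InjOn f U := hf.mono (by simp)
    have hi' : f i ∉ U.image f := fun h' => by
      obtain ⟨x, hx, e⟩ := mem_image.1 h'
      exact hi (hf (by simp [hx]) (by simp) e ▸ hx)
    rw [image_insert, PP_insert _ hi', PP_insert _ hi,
      ih hf' c c' fun T hT => h T (hT.trans (subset_insert _ _)),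
      ih hf' (fun T => c (insert i T)) (fun T => c' (insert (f i) T)) fun T hT => by
        rw [← image_insert]; exact h _ (insert_subset_insert _ hT)]

lemma Pw_image {V' : Type*} [DecidableEq V'] {a : V → V → ℂ} {a' : V' → V' → ℂ}
    {w : V → Option (Fin r)} {w' : V' → Option (Fin r)} {U : Finset V} {f : V → V'}
    (hf : Set.InjOn f U) (π : Equiv.Perm (Fin r)) (s : V → ℂ) (hs : ∀ i, conj (s i) * s i = 1)
    (h : ∀ i ∈ U, ∀ j ∈ U, a' (f i) (f j) = conj (s i) * a i j * s j)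
    (hw : ∀ i ∈ U, w' (f i) = (w i).map π) (z : V' → ℂ) :
    Pw a' w' (U.image f) z = Pw a w U fun i => z (f i) :=
  PP_image z U hf _ _ fun _ hT => cc_image (hf.mono hT) π s hs
    (fun i hi j hj => h i (hT hi) j (hT hj)) fun i hi => hw i (hT hi)

lemma Contr.comp {V' : Type*} [DecidableEq V'] {a : V → V → ℂ} {K : Finset V} (h : Contr a K)
    {f : V' → V} {U : Finset V'} (hf : Set.InjOn f U) (hU : ∀ p ∈ U, f p ∈ K) :
    Contr (fun p q => a (f p) (f q)) U := by
  intro x y
  have key : ∀ x : V' → ℂ, ∀ p ∈ U, ∑ q ∈ U.filter (fun q => f q = f p), x q = x p := by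
    intro x p hp
    rw [sum_eq_single p (fun q hq hqp => (hqp (hf (mem_filter.1 hq).1 hp (mem_filter.1 hq).2)).elim)
      fun h => (h (mem_filter.2 ⟨hp, rfl⟩)).elim]
  have := h.mono (U' := U.image f) (fun v hv => by
    obtain ⟨p, hp, rfl⟩ := mem_image.1 hv; exact hU p hp)
    (fun v => ∑ q ∈ U.filter (fun q => f q = v), x q)
    (fun v => ∑ q ∈ U.filter (fun q => f q = v), y q)
  simp only [sum_image hf] at this
  convert this using 2
  · refine sum_congr rfl fun p hp => sum_congr rfl fun q hq => ?_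
    rw [key x q hq, key y p hp]
  · congr 1 <;> exact sum_congr rfl fun p hp => by rw [key _ p hp]

lemma Contr.pin' {a : V → V → ℂ} {U : Finset V} (σ : V → Fin r)
    (h : ∀ c, Contr a (U.filter fun i => σ i = c)) : Contr (P078.pin a σ) U := by
  intro x y
  have e0 : ∑ i ∈ U, ∑ j ∈ U, conj (y i) * P078.pin a σ i j * x j = ∑ c : Fin r,
      ∑ i ∈ U.filter (fun i => σ i = c), ∑ j ∈ U.filter (fun i => σ i = c),
        conj (y i) * a i j * x j := by
    rw [← sum_fiberwise (s := U) (g := σ)]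
    refine sum_congr rfl fun c _ => sum_congr rfl fun i hi => ?_
    rw [sum_filter]
    refine sum_congr rfl fun j _ => ?_
    rw [P078.pin, (mem_filter.1 hi).2]
    by_cases hh : σ j = c
    · simp [hh]
    · simp [hh, Ne.symm hh]
  rw [e0, ← sum_fiberwise (s := U) (g := σ) (f := fun i => ‖x i‖ ^ 2),
    ← sum_fiberwise (s := U) (g := σ) (f := fun i => ‖y i‖ ^ 2), ← sum_add_distrib, sum_div]
  exact (norm_sum_le _ _).trans (sum_le_sum fun c _ => h c _ _)

section barrier

variable (hr : 0 < r) (a : V → V → ℂ)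

def al (p q : V × Fin r) : ℂ := a p.1 q.1

def wl (K₁ : Finset V) (p : V × Fin r) : Option (Fin r) := if p.1 ∈ K₁ then none else some p.2

def Ul (K₁ K' : Finset V) : Finset (V × Fin r) :=
  (K' ×ˢ univ).filter fun p => p.1 ∈ K₁ → p.2 = ⟨0, hr⟩

variable {a}

lemma HC_l {K : Finset V} (h1 : ∀ i j, a j i = conj (a i j)) (h2 : ∀ i, a i i = 0)
    (h : Contr a K) (K₁ : Finset V) {K' : Finset V} (hK : K' ⊆ K) :
    HC (al a) (wl K₁) (Ul hr K₁ K') := by
  refine ⟨fun _ _ => h1 _ _, fun _ => h2 _, fun U hU σ hσ => Contr.pin' σ fun c => ?_⟩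
  refine h.comp (f := Prod.fst) (fun p hp q hq e => ?_) fun p hp => ?_
  · obtain ⟨hp, hp'⟩ := mem_filter.1 hp
    obtain ⟨hq, hq'⟩ := mem_filter.1 hq
    refine Prod.ext e ?_
    by_cases hp1 : p.1 ∈ K₁
    · rw [(mem_filter.1 (hU hp)).2 hp1, (mem_filter.1 (hU hq)).2 (e ▸ hp1)]
    · rw [← hσ p hp p.2 (by simp [wl, hp1]), ← hσ q hq q.2 (by simp [wl, e ▸ hp1]), hp', hq']
  · exact hK (mem_product.1 (mem_filter.1 (hU (mem_filter.1 hp).1)).1).1

/-- barrier invariant -/
def Inv (a : V → V → ℂ) (K K₁ : Finset V) (b δ G : ℝ) : Prop :=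
  ∀ K' ⊆ K, ∀ x : V → ℝ, (∀ i ∈ K', (if i ∈ K₁ then b - δ else b) ≤ x i) →
    0 < (Pw (al a) (wl K₁) (Ul hr K₁ K') fun p => x p.1).re ∧ ∀ j ∈ K', j ∉ K₁ →
      (∑ s, Pw (al a) (wl K₁) ((Ul hr K₁ K').erase (j, s)) fun p => x p.1).re ≤
        G * (Pw (al a) (wl K₁) (Ul hr K₁ K') fun p => x p.1).re

include hr in
lemma base_step {V : Type*} [DecidableEq V] {a : V → V → ℂ} {w : V → Option (Fin r)}
    {U : Finset V} {p : V} (hp : p ∉ U) (h : HC a w (insert p U)) {b : ℝ} (hb : 2 < b)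
    {x : V → ℝ} (hx : ∀ i ∈ U, b ≤ x i) (h0 : 0 < (Pw a w U fun i => x i).re) :
    (x p - 1 / (b - 2)) * (Pw a w U fun i => x i).re ≤ (Pw a w (insert p U) fun i => x i).re := by
  have hP := Pw_real h.herm w U (z := fun i => x i) fun i _ => by simp
  set P := (Pw a w U fun i => x i).re
  set B := Bw a w U p fun i => x i
  have hP0 : (P : ℂ) ≠ 0 := by exact_mod_cast h0.ne'
  have h1 : ‖- B / P‖ ≤ 1 / (b - 2) := by
    by_contra h1
    have := stab2 hr hp h (l := 1) (ν := 1) (ρ := 1) (L := b - 2) (by linarith) (by simp)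
      (z := Function.update (fun i => (x i : ℂ)) p (- B / P))
      (fun y hy => by
        rw [Function.update_of_ne (ne_of_mem_of_not_mem hy hp)]
        have := hx y hy
        simp; linarith)
      (fun y hy _ => by
        rw [Function.update_of_ne (ne_of_mem_of_not_mem hy hp)]
        have := hx y hy
        simp; linarith) (by simpa using h1)
    simp only [one_mul] at this
    refine this ?_
    rw [Pw_insert _ _ hp, ← hP]
    change _ + B = 0
    field_simp; ring
  have h2 : (- B / P).re ≤ 1 / (b - 2) := (Complex.re_le_norm _).trans h1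
  rw [Complex.div_ofReal_re, div_le_iff₀ h0, Complex.neg_re] at h2
  rw [Pw_ins _ _ hp, ← hP, Complex.add_re, ← Complex.ofReal_mul, Complex.ofReal_re]
  change _ ≤ _ + B.re
  linarith

lemma Inv_empty {K : Finset V} (h1 : ∀ i j, a j i = conj (a i j)) (h2 : ∀ i, a i i = 0)
    (h : Contr a K) {b : ℝ} (hb : 3 ≤ b) (δ : ℝ) :
    Inv hr a K ∅ b δ (r / (b - 1 / (b - 2))) := by
  intro K' hK' x hx
  simp only [notMem_empty, if_false] at hx
  have H := HC_l hr h1 h2 h ∅ hK'
  have hb1 : 1 / (b - 2) ≤ 1 := by rw [div_le_one] <;> linarith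
  have hx' : ∀ p ∈ Ul hr ∅ K', b ≤ x p.1 := fun p hp => hx _ (mem_product.1 (mem_filter.1 hp).1).1
  have pos : ∀ U ⊆ Ul hr ∅ K', 0 < (Pw (al a) (wl ∅) U fun p => x p.1).re := by
    intro U
    induction U using Finset.induction_on with
    | empty => intro _; simp [Pw, PP_empty, cc_empty]
    | insert p U hp ih =>
      intro hU
      have hU' := (subset_insert _ _).trans hU
      refine lt_of_lt_of_le (mul_pos ?_ (ih hU')) (base_step hr hp (H.mono hU) (by linarith)
        (x := fun p => x p.1) (fun i hi => hx' i (hU' hi)) (ih hU'))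
      have := hx' p (hU (mem_insert_self _ _))
      linarith
  refine ⟨pos _ (Subset.refl _), fun j hj _ => ?_⟩
  rw [Complex.re_sum, div_mul_eq_mul_div, le_div_iff₀ (by linarith), sum_mul]
  have : ∀ s, (Pw (al a) (wl ∅) ((Ul hr ∅ K').erase (j, s)) fun p => x p.1).re *
      (b - 1 / (b - 2)) ≤ (Pw (al a) (wl ∅) (Ul hr ∅ K') fun p => x p.1).re := by
    intro s
    have hm : (j, s) ∈ Ul hr ∅ K' := by simp [Ul, hj]
    have h3 := base_step hr (notMem_erase (j, s) _) (by rw [insert_erase hm]; exact H)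
      (by linarith : 2 < b) (x := fun p => x p.1) (fun i hi => hx' i (mem_of_mem_erase hi))
      (pos _ (erase_subset _ _))
    rw [insert_erase hm] at h3
    have h4 := pos _ (erase_subset (j, s) _)
    have h5 := hx j hj
    dsimp only at h3
    nlinarith
  exact (sum_le_sum fun s _ => this s).trans (by simp)

lemma merge_eq {K₁ : Finset V} {i : V} (hi : i ∉ K₁) {U : Finset (V × Fin r)}
    (hU : ∀ p ∈ U, p.1 ≠ i) (x : V → ℂ) :
    Pw (al a) (wl (insert i K₁)) (insert (i, ⟨0, hr⟩) U) (fun p => x p.1) =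
      x i * Pw (al a) (wl K₁) U (fun p => x p.1) + 1 / r * ∑ s, PP
        (fun T => cc (al a) (wl K₁) (T ∪ {(i, s)})) U fun p => x p.1 := by
  have h0 : ∀ s, (i, s) ∉ U := fun s h => hU _ h rfl
  have hw : ∀ p ∈ U, wl (insert i K₁) p = wl K₁ p := fun p hp => by simp [wl, hU p hp]
  rw [Pw_ins _ _ (h0 _), Pw_congr (fun _ _ _ _ => rfl) hw fun _ _ => rfl]
  congr 1
  rw [mul_sum, ← PP_sum]
  refine PP_congr (fun T hT => ?_) fun _ _ => rfl
  rw [cc_free (al a) (i := (i, ⟨0, hr⟩)) (by simp [wl]) hr]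
  refine sum_congr rfl fun s _ => ?_
  congr 1
  have hT0 : ∀ s, (i, s) ∉ T := fun s h => h0 s (hT h)
  have hsw : ∀ p ∈ T, Equiv.swap (i, (⟨0, hr⟩ : Fin r)) (i, s) p = p := fun p hp =>
    Equiv.swap_apply_of_ne_of_ne (ne_of_mem_of_not_mem hp (hT0 _)) (ne_of_mem_of_not_mem hp (hT0 _))
  have e : T ∪ {(i, s)} = (insert (i, ⟨0, hr⟩) T).image (Equiv.swap (i, ⟨0, hr⟩) (i, s)) := by
    rw [image_insert, Equiv.swap_apply_left, image_congr (g := id) fun p hp => hsw p hp, image_id,
      union_comm, insert_eq]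
  have hf : ∀ p ∈ insert (i, (⟨0, hr⟩ : Fin r)) T,
      (Equiv.swap (i, (⟨0, hr⟩ : Fin r)) (i, s) p).1 = p.1 := fun p hp => by
    rcases mem_insert.1 hp with rfl | hp
    · simp
    · rw [hsw p hp]
  rw [e]
  symm
  refine cc_image (Equiv.injective _).injOn 1 (fun _ => 1) (by simp)
    (fun p hp q hq => by simp [al, hf p hp, hf q hq]) fun p hp => ?_
  rcases mem_insert.1 hp with rfl | hp
  · simp [wl, hi]
  · rw [hsw p hp, Function.update_of_ne (ne_of_mem_of_not_mem hp (hT0 _)), hw p (hT hp)]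
    simp

end barrier

end Vale.Agent.P078
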