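import Vale.Agent.P078.Bar2

namespace Vale.Agent.P078

open Finset ComplexConjugate Polynomial Lagrange

variable {V : Type*} [DecidableEq V] {r : ℕ}

section barrier

variable (hr : 0 < r) {a : V → V → ℂ}

lemma Inv_step {K K₁ : Finset V} (h1 : ∀ i j, a j i = conj (a i j)) (h2 : ∀ i, a i i = 0)
    (h : Contr a K) {b δ G : ℝ} (hG : 0 < G) (hδ : r * δ * G ≤ ((r : ℝ) - 1) ^ 2) {i : V}
    (hi : i ∉ K₁) (H : Inv hr a K K₁ b δ G) : Inv hr a K (insert i K₁) b δ G := by
  intro K' hK' x hx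
  by_cases hiK : i ∉ K'
  · have e : Ul hr (insert i K₁) K' = Ul hr K₁ K' := filter_congr fun p hp => by
      simp [ne_of_mem_of_not_mem (mem_product.1 hp).1 hiK]
    have hw : ∀ U ⊆ Ul hr K₁ K', Pw (al a) (wl (insert i K₁)) U (fun p => x p.1) =
        Pw (al a) (wl K₁) U fun p => x p.1 := fun U hU =>
      Pw_congr (fun _ _ _ _ => rfl) (fun p hp => by
        simp [wl, ne_of_mem_of_not_mem (mem_product.1 (mem_filter.1 (hU hp)).1).1 hiK])
        fun _ _ => rfl
    obtain ⟨H1, H2⟩ := H K' hK' x fun j hj => by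
      simpa [ne_of_mem_of_not_mem hj hiK] using hx j hj
    rw [e, hw _ (Subset.refl _)]
    refine ⟨H1, fun j hj hj' => ?_⟩
    simp only [hw _ (erase_subset _ _)]
    exact H2 j hj fun h => hj' (mem_insert_of_mem h)
  push Not at hiK
  set U₀ := Ul hr K₁ (K'.erase i) with hU₀
  set R : Finset (V × Fin r) := {i} ×ˢ univ with hR
  have hRc : R.card = r := by simp [hR]
  have hRm : ∀ p, p ∈ R ↔ p.1 = i := fun p => by
    rw [hR, mem_product, mem_singleton]; simp
  have hU1 : Ul hr K₁ K' = U₀ ∪ R := by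
    ext p
    by_cases hp : p.1 = i <;> simp [hU₀, Ul, hRm, hp, hi, hiK]
  have hU2 : Ul hr (insert i K₁) K' = insert (i, ⟨0, hr⟩) U₀ := by
    ext p
    by_cases hp : p.1 = i
    · simp [hU₀, Ul, hp, hiK, Prod.ext_iff]
    · simp [hU₀, Ul, hp, Prod.ext_iff]
  have hU0 : ∀ p ∈ U₀, p.1 ≠ i := fun p hp =>
    ne_of_mem_erase (mem_product.1 (mem_filter.1 hp).1).1
  have hd : ∀ U ⊆ U₀, Disjoint U R := fun U hU => disjoint_left.2 fun p hp hp' =>
    hU0 p (hU hp) ((hRm p).1 hp')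
  have HH : HC (al a) (wl K₁) (U₀ ∪ R) := hU1 ▸ HC_l hr h1 h2 h K₁ hK'
  let β : Finset (V × Fin r) → Finset (V × Fin r) → ℂ := fun U T' =>
    PP (fun T => cc (al a) (wl K₁) (T ∪ T')) U fun p => x p.1
  let z : ℂ → V × Fin r → ℂ := fun t p => Function.update (fun v => (x v : ℂ)) i t p.1
  have hz0 : ∀ t, ∀ p ∈ U₀, z t p = x p.1 := fun t p hp => Function.update_of_ne (hU0 p hp) _ _
  have hzR : ∀ t, ∀ p ∈ R, z t p = t := fun t p hp => by
    have : p.1 = i := (hRm p).1 hp
    simp [z, this]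
  have ev : ∀ U ⊆ U₀, ∀ R' ⊆ R, ∀ t, (P1 (β U) R').eval t = Pw (al a) (wl K₁) (U ∪ R') (z t) := by
    intro U hU R' hR' t
    rw [Pw, PP_shift _ ((hd U hU).mono_right hR'), P1_eval _ _ t (z := z t)
      fun p hp => hzR t p (hR' hp)]
    exact PP_congr (fun T _ => PP_congr (fun _ _ => rfl) fun p hp => (hz0 t p (hU hp)).symm)
      fun _ _ => rfl
  have hzr : ∀ t : ℝ, z t = fun p : V × Fin r => ((Function.update x i t p.1 : ℝ) : ℂ) := fun t => by
    funext p
    by_cases hp : p.1 = i <;> simp [z, hp]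
  have hb : b - δ ≤ x i := by simpa using hx i hiK
  have Ht : ∀ t : ℝ, x i + δ ≤ t → _ := fun t ht => H K' hK' (Function.update x i t) fun j hj => by
    by_cases hji : j = i
    · subst hji; simp [hi]; linarith
    · simpa [hji] using hx j hj
  obtain ⟨H0, -⟩ := H (K'.erase i) ((erase_subset _ _).trans hK') x fun j hj => by
    simpa [ne_of_mem_erase hj] using hx j (mem_of_mem_erase hj)
  have hβ0 : ∀ U, β U ∅ = Pw (al a) (wl K₁) U fun p => x p.1 := fun U => by simp [β, Pw]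
  have hre : ∀ U : Finset (V × Fin r), ((Pw (al a) (wl K₁) U fun p => x p.1).re : ℂ) =
      Pw (al a) (wl K₁) U fun p => x p.1 := fun U =>
    Pw_real (a := al a) (fun _ _ => h1 _ _) (wl K₁) U fun _ _ => by simp
  have hP0 : ∀ t, Pw (al a) (wl K₁) U₀ (z t) ≠ 0 := fun t => by
    rw [Pw_congr (fun _ _ _ _ => rfl) (fun _ _ => rfl) (hz0 t)]
    intro e
    rw [← hU₀, e] at H0
    simp at H0
  have hup : ∀ t : ℂ, 0 < t.im → (P1 (β U₀) R).eval t ≠ 0 := fun t ht => by
    rw [ev _ (Subset.refl _) _ (Subset.refl _)]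
    exact NI_union hr (hP0 t) (fun p hp => by simp [hz0 t p hp]) R HH
      fun p hp => by rwa [hzR t p hp]
  have hroot : ∀ t : ℂ, t.im ≠ 0 → (P1 (β U₀) R).eval t ≠ 0 := fun t ht => by
    rcases ht.lt_or_gt with ht | ht
    · have := hup (conj t) (by simpa using ht)
      rw [ev _ (Subset.refl _) _ (Subset.refl _)] at this ⊢
      intro e
      refine this ?_
      have e2 := congrArg conj e
      rw [Pw_conj (a := al a) (fun _ _ => h1 _ _), map_zero] at e2
      rw [← e2]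
      congr 1
      funext p
      by_cases hp : p.1 = i <;> simp [z, hp]
    · exact hup t ht
  have hnext : ∀ U, ∑ p ∈ R, β U {p} = ∑ s, PP (fun T => cc (al a) (wl K₁) (T ∪ {(i, s)})) U
      fun p => x p.1 := fun U => by simp [hR, sum_product, β]
  have k1 : (P1 (β U₀) R).coeff r = ((Pw (al a) (wl K₁) U₀ fun p => x p.1).re : ℝ) := by
    rw [hre, ← hβ0, ← (P1_deg (β U₀) R).2, hRc]
  have k0 : ∀ U, (P1 (β U) R).natDegree ≤ r := fun U => (P1_deg _ R).1.trans hRc.le
  have k2 : ∀ t : ℝ, x i + δ ≤ t → (P1 (β U₀) R).eval (t : ℂ) ≠ 0 := fun t ht => by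
    rw [ev _ (Subset.refl _) _ (Subset.refl _), ← hU1, hzr]
    intro e
    have := (Ht t ht).1
    rw [e] at this
    simp at this
  have k3 : (derivative (P1 (β U₀) R)).eval ((x i + δ : ℝ) : ℂ) = ∑ s, Pw (al a) (wl K₁)
      ((Ul hr K₁ K').erase (i, s)) fun p => ((Function.update x i (x i + δ) p.1 : ℝ) : ℂ) := by
    rw [P1_deriv, eval_finsetSum]
    rw [show ∀ f : V × Fin r → ℂ, ∑ p ∈ R, f p = ∑ s, f (i, s) from fun f => by
      rw [hR, sum_product, sum_singleton]]
    refine sum_congr rfl fun s _ => ?_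
    rw [ev _ (Subset.refl _) _ (erase_subset _ _), hzr, hU1, erase_union_distrib,
      erase_eq_of_notMem fun h => hU0 _ h rfl]
  have k4 : ((derivative (P1 (β U₀) R)).eval ((x i + δ : ℝ) : ℂ)).re ≤
      G * ((P1 (β U₀) R).eval ((x i + δ : ℝ) : ℂ)).re := by
    rw [k3, ev _ (Subset.refl _) _ (Subset.refl _), ← hU1, hzr]
    exact (Ht _ le_rfl).2 i hiK hi
  have key := fun (q : ℂ[X]) (c₀ : ℝ) (hq : q.natDegree ≤ r) (hq0 : q.coeff r = c₀)
      (hni : ∀ t : ℂ, 0 < t.im → (q.eval t * conj ((P1 (β U₀) R).eval t)).im ≤ 0)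
      (hG' : (q.eval ((x i + δ : ℝ) : ℂ)).re ≤ G * ((P1 (β U₀) R).eval ((x i + δ : ℝ) : ℂ)).re) =>
    bar_step hr H0 (k0 U₀) k1 hq hq0 hroot hni hG k2 k4 hG' hδ
  have hx1 : x i + δ - δ = x i := by ring
  have hA : Pw (al a) (wl (insert i K₁)) (Ul hr (insert i K₁) K') (fun p => x p.1) =
      ((x i + δ - δ : ℝ) : ℂ) * (Pw (al a) (wl K₁) U₀ fun p => x p.1).re +
        1 / r * (X * P1 (β U₀) R).coeff r := by
    rw [hU2, merge_eq hr hi hU0 fun v => (x v : ℂ), hre, hx1, ← hnext, ← P1_next, hRc]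
  rw [hA]
  refine ⟨(key 0 0 (by simp) (by simp) (by simp) ?_).1, fun j hj hj' => ?_⟩
  · rw [ev _ (Subset.refl _) _ (Subset.refl _), ← hU1, hzr]
    simpa using mul_nonneg hG.le (Ht _ le_rfl).1.le
  have hji : j ≠ i := fun e => hj' (e ▸ mem_insert_self _ _)
  have hj1 : j ∉ K₁ := fun e => hj' (mem_insert_of_mem e)
  have hjs : ∀ s, (j, s) ∈ U₀ := fun s => by simp [hU₀, Ul, hj, hji, hj1]
  have her : ∀ s, (U₀.erase (j, s)) ∪ R = (U₀ ∪ R).erase (j, s) := fun s => by
    rw [erase_union_distrib, erase_eq_of_notMem (s := R) (by simp [hRm, hji])]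
  refine le_trans (le_of_eq ?_) (key (∑ s, P1 (β (U₀.erase (j, s))) R)
    (∑ s, (Pw (al a) (wl K₁) (U₀.erase (j, s)) fun p => x p.1).re)
    (natDegree_sum_le_of_forall_le _ _ fun s _ => k0 _) ?_ ?_ ?_).2
  · refine congrArg Complex.re ?_
    rw [Complex.ofReal_sum, mul_sum, mul_sum, finsetSum_coeff, mul_sum, ← sum_add_distrib]
    refine sum_congr rfl fun s _ => ?_
    rw [hU2, erase_insert_of_ne (by simp [hji.symm]), merge_eq hr hi
      (fun p hp => hU0 p (mem_of_mem_erase hp)) fun v => (x v : ℂ), hre, hx1, ← hnext, ← P1_next,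
      hRc]
  · rw [finsetSum_coeff, Complex.ofReal_sum]
    exact sum_congr rfl fun s _ => by rw [hre, ← hβ0, ← (P1_deg (β _) R).2, hRc]
  · intro t ht
    rw [eval_finsetSum, sum_mul, Complex.im_sum]
    refine sum_nonpos fun s _ => ?_
    rw [ev _ (erase_subset _ _) _ (Subset.refl _), ev _ (Subset.refl _) _ (Subset.refl _), her]
    have hm : (j, s) ∈ U₀ ∪ R := mem_union_left _ (hjs s)
    have := NI1 hr (notMem_erase (j, s) (U₀ ∪ R)) (by rw [insert_erase hm]; exact HH) (z := z t)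
      fun p hp => by
        rcases mem_union.1 (mem_of_mem_erase hp) with hp | hp
        · simp [hz0 t p hp]
        · rw [hzR t p hp]; exact ht.le
    rw [insert_erase hm, hz0 t _ (hjs s), Complex.ofReal_im, zero_mul] at this
    rw [← neg_nonneg, ← Complex.conj_im, map_mul, Complex.conj_conj, mul_comm]
    exact this
  · have := (Ht _ le_rfl).2 j hj hj1
    rw [eval_finsetSum, ev _ (Subset.refl _) _ (Subset.refl _), ← hU1, hzr]
    refine le_trans (le_of_eq (congrArg Complex.re ?_)) this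
    exact sum_congr rfl fun s _ => by rw [ev _ (erase_subset _ _) _ (Subset.refl _), her, hzr, hU1]

end barrier

theorem free_pos (hr : 0 < r) {a : V → V → ℂ} {K : Finset V} (h1 : ∀ i j, a j i = conj (a i j))
    (h2 : ∀ i, a i i = 0) (h : Contr a K) {x : V → ℝ} (hx : ∀ i ∈ K, 9 / √r ≤ x i) :
    0 < (Pw a (fun _ => (none : Option (Fin r))) K fun i => x i).re := by
  have hr1 : (1 : ℝ) ≤ r := by exact_mod_cast hr
  set s := √(r : ℝ) with hs
  have hs1 : 1 ≤ s := Real.one_le_sqrt.2 hr1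
  have hs2 : s ^ 2 = r := Real.sq_sqrt (by linarith)
  set b := s + 3
  have hb : 1 / (b - 2) ≤ 1 / s := one_div_le_one_div_of_le (by linarith) (by simp [b]; linarith)
  have hb1 : 1 / s ≤ 1 := by rw [div_le_one] <;> linarith
  have hb2 : 0 < b - 1 / (b - 2) := by simp only [b] at *; linarith
  set δ := (1 - 1 / (r : ℝ)) ^ 2 * (b - 1 / (b - 2)) with hδ
  have all : ∀ K₁ : Finset V, Inv hr a K K₁ b δ (r / (b - 1 / (b - 2))) := by
    intro K₁
    induction K₁ using Finset.induction_on with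
    | empty => exact Inv_empty hr h1 h2 h (by simp only [b]; linarith) δ
    | insert i K₁ hi ih =>
      refine Inv_step hr h1 h2 h (by positivity) (le_of_eq ?_) hi ih
      rw [hδ]; field_simp
  have h3 : b - δ ≤ 9 / s := by
    have e1 : 0 < 1 / (r : ℝ) := by positivity
    have e2 : 1 / (r : ℝ) ≤ 1 := by rw [div_le_one] <;> linarith
    have e3 : 0 < 1 / (b - 2) := by simp only [b]; exact one_div_pos.2 (by linarith)
    have e4 : b - δ ≤ 2 * (1 / r) * b + 1 / (b - 2) := by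
      rw [hδ]
      nlinarith [mul_nonneg (sq_nonneg (1 / (r : ℝ))) hb2.le, mul_nonneg e1.le e3.le]
    have e5 : 2 * (1 / (r : ℝ)) * b ≤ 8 / s := by
      rw [← hs2, le_div_iff₀ (by linarith)]
      have : 2 * (1 / s ^ 2) * b * s = 2 * b / s := by field_simp
      rw [this, div_le_iff₀ (by linarith)]
      simp only [b]; linarith
    have e6 : 9 / s = 8 / s + 1 / s := by ring
    linarith
  have := (all K K (Subset.refl _) x fun i hi => by simpa [hi] using h3.trans (hx i hi)).1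
  have e : Ul hr K K = K.image fun i => (i, ⟨0, hr⟩) := by
    ext p
    simp only [Ul, mem_filter, mem_product, mem_univ, and_true, mem_image, Prod.ext_iff]
    constructor
    · rintro ⟨h1, h2⟩; exact ⟨p.1, h1, rfl, (h2 h1).symm⟩
    · rintro ⟨i, h1, h2, h3⟩; exact ⟨h2 ▸ h1, fun _ => h3.symm⟩
  rwa [e, Pw_image (a := a) (w := fun _ => none) (fun i _ j _ h => congrArg Prod.fst h) 1
    (fun _ => 1) (by simp) (by simp [al]) (fun i hi => by simp [wl, hi])] at this

end Vale.Agent.P078
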