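import Vale.Agent.P078.Chr

/-! Twisted pinchings and the conditional expectation. -/

namespace Vale.Agent.P078

open scoped ComplexOrder InnerProductSpace ComplexConjugate
open Filter Topology

variable {M : Type*} [CStarAlgebra M] [PartialOrder M] [StarOrderedRing M] {S : Setup M}

lemma Setup.Pr.sum {J : Type*} [Fintype J] {p : J → M} (h : ∀ j, S.Pr (p j))
    (ho : ∀ i j, i ≠ j → p i * p j = 0) : S.Pr (∑ j, p j) := by
  refine ⟨sum_mem fun j _ => (h j).1, ?_, isSelfAdjoint_sum _ fun j _ => (h j).sa.2⟩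
  rw [IsIdempotentElem, Finset.sum_mul_sum]
  refine Finset.sum_congr rfl fun i _ => ?_
  rw [Finset.sum_eq_single i (fun j _ hj => ho i j hj.symm) (by simp), (h i).sq]

lemma norm_tw_le {J : Type*} [Fintype J] {p q : J → M} (hp : ∀ j, S.Pr (p j))
    (hq : ∀ j, S.Pr (q j)) (op : ∀ i j, i ≠ j → p i * p j = 0)
    (oq : ∀ i j, i ≠ j → q i * q j = 0) (z : M) : ‖∑ j, p j * z * q j‖ ≤ ‖z‖ := by
  have e : star (∑ j, p j * z * q j) * ∑ j, p j * z * q j
      = ∑ j, star (q j) * (star z * p j * z) * q j := by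
    rw [star_sum, Finset.sum_mul_sum]
    refine Finset.sum_congr rfl fun i _ => ?_
    rw [Finset.sum_eq_single i (fun j _ hj => ?_) (by simp)]
    · simp only [star_mul, (hp i).star_eq, mul_assoc, (hp i).sq']
    · simp only [star_mul, (hp i).star_eq, mul_assoc]
      rw [← mul_assoc (p i), op i j hj.symm]; simp
  have h1 : ∀ j, star (q j) * (star z * p j * z) * q j ≤ ‖z‖ ^ 2 • q j := fun j => by
    have h2 : star z * p j * z ≤ algebraMap ℝ M (‖z‖ ^ 2) :=
      (by simpa using star_left_conjugate_le_conjugate (hp j).le_one z : _ ≤ star z * z).trans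
        CStarAlgebra.star_mul_le_algebraMap_norm_sq
    have h3 := star_left_conjugate_le_conjugate h2 (q j)
    rw [Algebra.algebraMap_eq_smul_one, mul_smul_comm, mul_one, smul_mul_assoc] at h3
    rwa [show star (q j) * q j = q j by rw [(hq j).star_eq, (hq j).sq]] at h3
  have h2 : star (∑ j, p j * z * q j) * ∑ j, p j * z * q j ≤ algebraMap ℝ M (‖z‖ ^ 2) := by
    rw [e, Algebra.algebraMap_eq_smul_one]
    refine (Finset.sum_le_sum fun j _ => h1 j).trans ?_
    rw [← Finset.smul_sum]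
    exact smul_le_smul_of_nonneg_left (Setup.Pr.sum hq oq).le_one (by positivity)
  rw [← CStarAlgebra.norm_le_iff_le_algebraMap _ (by positivity) (star_mul_self_nonneg _),
    CStarRing.norm_star_mul_self, ← sq] at h2
  exact (pow_le_pow_iff_left₀ (norm_nonneg _) (norm_nonneg _) two_ne_zero).1 h2

/-- the partition into a projection and its complement -/
def Part.two {f : M} (hf : S.Pr f) : Part S where
  n := 2
  e := ![f, 1 - f]
  mem i := by fin_cases i; exacts [hf.1, hf.one_sub.1]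
  proj i := by fin_cases i; exacts [hf.2, hf.one_sub.2]
  orth i j h := by
    fin_cases i <;> fin_cases j
    · exact (h rfl).elim
    · exact hf.2.mul_one_sub_self
    · exact hf.2.one_sub_mul_self
    · exact (h rfl).elim
  sum := by simp

lemma Part.two_le {f : M} (hf : S.Pr f) {Q : Part S} (h : Part.two hf ≤ Q) (j : Fin Q.n) :
    Q.e j * f = Q.e j ∨ Q.e j * (1 - f) = Q.e j := by
  obtain ⟨i, hi⟩ := h j
  fin_cases i
  exacts [.inl hi, .inr hi]

lemma Part.orth_of {P : Part S} {g : M} {i k : Fin P.n} (h : g * P.e i = g) (hk : k ≠ i) :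
    g * P.e k = 0 := by
  rw [← h, mul_assoc, P.orth _ _ hk.symm, mul_zero]

/-- maps on projections preserving order and orthogonality -/
structure Setup.Hm (S : Setup M) (θ : M → M) : Prop where
  pr : ∀ f, S.Pr f → S.Pr (θ f)
  orth : ∀ f g, S.Pr f → S.Pr g → f * g = 0 → θ f * θ g = 0
  mono : ∀ f g, S.Pr f → S.Pr g → f * g = f → θ f * θ g = θ f

lemma Setup.hm_id (S : Setup M) : S.Hm id := ⟨fun _ h => h, fun _ _ _ _ h => h, fun _ _ _ _ h => h⟩

/-- twisted pinching -/
noncomputable def Part.tw (P : Part S) (θ : M → M) (z : M) : M := ∑ j, P.e j * z * θ (P.e j)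

section
variable {θ : M → M} (hθ : S.Hm θ)
include hθ

lemma Part.norm_tw (P : Part S) (z : M) : ‖P.tw θ z‖ ≤ ‖z‖ :=
  norm_tw_le P.pr (fun j => hθ.pr _ (P.pr j)) P.orth
    (fun i j h => hθ.orth _ _ (P.pr i) (P.pr j) (P.orth i j h)) z

lemma Part.kap_tw (P : Part S) (z w : M) :
    S.κ (star (P.tw θ z) * w) = S.κ (star z * P.tw θ w) := by
  simp only [Part.tw, star_sum, Finset.sum_mul, Finset.mul_sum, map_sum]
  refine Finset.sum_congr rfl fun j _ => ?_
  have h := hθ.pr _ (P.pr j)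
  simp only [star_mul, h.star_eq, (P.pr j).star_eq, mul_assoc]
  rw [S.central _ h.1]; simp only [mul_assoc]

lemma Part.tw_tw {P Q : Part S} (h : P ≤ Q) (z : M) : Q.tw θ (P.tw θ z) = Q.tw θ z := by
  refine Finset.sum_congr rfl fun j _ => ?_
  obtain ⟨i, hi⟩ := h j
  rw [Part.tw, Finset.mul_sum, Finset.sum_mul, Finset.sum_eq_single i (fun k _ hk => ?_) (by simp)]
  · have h1 := hθ.mono _ _ (Q.pr j) (P.pr i) hi
    rw [S.comm _ (hθ.pr _ (Q.pr j)).1 _ (hθ.pr _ (P.pr i)).1] at h1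
    rw [← mul_assoc, ← mul_assoc, hi, mul_assoc _ (θ _), h1]
  · rw [← mul_assoc, ← mul_assoc, Part.orth_of hi hk]; simp

lemma Part.kap_tw_self (P : Part S) (z : M) : S.κ (star (P.tw θ z) * z) = S.q2 (P.tw θ z) := by
  rw [← S.kap_sq, P.kap_tw hθ z (P.tw θ z), Part.tw_tw hθ le_rfl, P.kap_tw hθ]

lemma Part.q2_tw {P Q : Part S} (h : P ≤ Q) (z : M) :
    S.q2 (P.tw θ z - Q.tw θ z) = S.q2 (P.tw θ z) - S.q2 (Q.tw θ z) := by
  rw [S.q2_sub, ← Part.tw_tw hθ h z, ← Q.kap_tw hθ, Q.kap_tw_self hθ, Complex.ofReal_re]; ring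

lemma Part.q2_tw_le (P : Part S) (z : M) : S.q2 (P.tw θ z) ≤ S.q2 z := by
  have h1 := S.q2_nonneg (P.tw θ z - z)
  rw [S.q2_sub, P.kap_tw_self hθ, Complex.ofReal_re] at h1
  linarith

lemma exists_tw_lim (z : M) : ∃ d, ‖d‖ ≤ ‖z‖ ∧ S.Lim atTop (fun P : Part S => P.tw θ z) d :=
  S.net_lim (D := 0) (fun P => P.norm_tw hθ z) _ (fun _ => S.q2_nonneg _)
    fun _ _ h => (Part.q2_tw hθ h z).le

lemma tw_lim_comm {z d : M} (h : S.Lim atTop (fun P : Part S => P.tw θ z) d) {f : M}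
    (hf : S.Pr f) : f * d = d * θ f := by
  refine h.comm ?_
  filter_upwards [Ici_mem_atTop (Part.two hf)] with Q hQ
  simp only [Part.tw, Finset.mul_sum, Finset.sum_mul]
  refine Finset.sum_congr rfl fun j _ => ?_
  rw [← mul_assoc, ← mul_assoc, S.comm _ hf.1 _ (Q.mem j), mul_assoc _ (θ _)]
  rcases Part.two_le hf hQ j with h1 | h1
  · rw [h1, hθ.mono _ _ (Q.pr j) hf h1]
  · have h2 : Q.e j * f = 0 := by rw [← h1, mul_assoc, hf.2.one_sub_mul_self, mul_zero]
    rw [h2, hθ.orth _ _ (Q.pr j) hf h2]; simp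

end

lemma Part.tw_id (P : Part S) (z : M) : P.tw id z = P.pinch z := rfl

lemma Part.norm_pinch (P : Part S) (z : M) : ‖P.pinch z‖ ≤ ‖z‖ := P.norm_tw S.hm_id z

lemma Part.q2_pinch_le (P : Part S) (z : M) : S.q2 (P.pinch z) ≤ S.q2 z := P.q2_tw_le S.hm_id z

lemma Part.pinch_add (P : Part S) (x y : M) : P.pinch (x + y) = P.pinch x + P.pinch y := by
  simp only [Part.pinch, mul_add, add_mul, Finset.sum_add_distrib]

lemma Part.pinch_sub (P : Part S) (x y : M) : P.pinch (x - y) = P.pinch x - P.pinch y := by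
  simp only [Part.pinch, mul_sub, sub_mul, Finset.sum_sub_distrib]

lemma Part.pinch_smul (P : Part S) (c : ℂ) (x : M) : P.pinch (c • x) = c • P.pinch x := by
  simp only [Part.pinch, mul_smul_comm, smul_mul_assoc, Finset.smul_sum]

lemma Part.pinch_left (P : Part S) {a : M} (ha : a ∈ S.A) (x : M) :
    P.pinch (a * x) = a * P.pinch x := by
  simp only [Part.pinch, Finset.mul_sum]
  refine Finset.sum_congr rfl fun j _ => ?_
  rw [← mul_assoc, S.comm _ (P.mem j) _ ha]; simp only [mul_assoc]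

lemma Part.pinch_right (P : Part S) {a : M} (ha : a ∈ S.A) (x : M) :
    P.pinch (x * a) = P.pinch x * a := by
  simp only [Part.pinch, Finset.sum_mul]
  refine Finset.sum_congr rfl fun j _ => ?_
  simp only [mul_assoc, S.comm _ (P.mem j) _ ha]

lemma Part.pinch_one (P : Part S) : P.pinch 1 = 1 := by
  simp only [Part.pinch, mul_one, fun j => (P.pr j).sq, P.sum]

lemma Part.pinch_fix (P : Part S) {a : M} (ha : a ∈ S.A) : P.pinch a = a := by
  rw [← mul_one a, P.pinch_left ha, P.pinch_one]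

lemma Part.pinch_star (P : Part S) (x : M) : P.pinch (star x) = star (P.pinch x) := by
  simp only [Part.pinch, star_sum, star_mul, fun j => (P.pr j).star_eq, mul_assoc]

lemma Part.pinch_nonneg (P : Part S) {x : M} (hx : 0 ≤ x) : 0 ≤ P.pinch x :=
  Finset.sum_nonneg fun j _ => by
    simpa only [(P.pr j).star_eq] using star_left_conjugate_nonneg hx (P.e j)

lemma Part.kap_pinch (P : Part S) (x : M) : S.κ (P.pinch x) = S.κ x := by
  have := P.kap_tw S.hm_id 1 x
  rw [P.tw_id, P.tw_id, P.pinch_one, star_one, one_mul, one_mul] at this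
  exact this.symm

theorem exists_exp (S : Setup M) : Nonempty S.Exp := by
  choose E hn hl using exists_tw_lim S.hm_id
  simp only [Part.tw_id] at hl
  let L : M →ₗ[ℂ] M :=
    { toFun := E
      map_add' := fun x y => (hl (x + y)).eq ((hl x).add (hl y))
        (.of_forall fun P => P.pinch_add x y)
      map_smul' := fun c x => (hl (c • x)).eq ((hl x).smul c)
        (.of_forall fun P => P.pinch_smul c x) }
  exact ⟨{
    E := L.mkContinuous 1 fun x => by rw [one_mul]; exact hn x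
    mem := fun x => S.mem_of_pr fun p hp => tw_lim_comm S.hm_id (hl x) hp
    fix := fun a ha => (hl a).eq (.const S _ a) (.of_forall fun P => P.pinch_fix ha)
    left := fun a ha x => (hl (a * x)).eq ((hl x).mul_left a)
      (.of_forall fun P => P.pinch_left ha x)
    right := fun a ha x => (hl (x * a)).eq ((hl x).mul_right a)
      (.of_forall fun P => P.pinch_right ha x)
    star := fun x => ((hl x).star_eq ((hl (star x)).congr fun P => P.pinch_star x)).symm
    pos := fun x hx => (hl x).nonneg' fun P => P.pinch_nonneg hx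
    norm := hn
    kap := fun x => tendsto_nhds_unique (hl x).kap
      (tendsto_const_nhds.congr fun P => (P.kap_pinch x).symm)
    lim := fun x => (hl x).q2
    spec := fun w hw t _ => S.exists_spec hw.isSelfAdjoint t }⟩

lemma Setup.Exp.lim' (X : S.Exp) (x : M) : S.Lim atTop (fun P : Part S => P.pinch x) (X.E x) :=
  .of_q2 (fun P => P.norm_pinch x) (X.lim x)

lemma Setup.Exp.q2_le (X : S.Exp) (x : M) : S.q2 (X.E x) ≤ S.q2 x :=
  le_of_tendsto' (X.lim' x).q2' fun P => P.q2_pinch_le x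

lemma Setup.Exp.n2_le (X : S.Exp) (x : M) : S.n2 (X.E x) ≤ S.n2 x := by
  rw [S.n2_eq, S.n2_eq]; exact Real.sqrt_le_sqrt (X.q2_le x)

lemma Setup.Lim.exp {I : Type*} {l : Filter I} {x : I → M} {y : M} (h : S.Lim l x y)
    (X : S.Exp) : S.Lim l (fun i => X.E (x i)) (X.E y) := by
  obtain ⟨C, hC⟩ := h.bdd
  refine ⟨⟨C, fun i => (X.norm _).trans (hC i)⟩,
    squeeze_zero (fun _ => S.n2_nonneg _) (fun i => ?_) h.tend⟩
  rw [← map_sub]; exact X.n2_le _

lemma Setup.Exp.sa (X : S.Exp) {x : M} (hx : IsSelfAdjoint x) : S.Sa (X.E x) :=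
  ⟨X.mem x, by rw [IsSelfAdjoint, ← X.star, hx.star_eq]⟩

lemma Setup.Exp.mono (X : S.Exp) {x y : M} (h : x ≤ y) : X.E x ≤ X.E y := by
  have := X.pos _ (sub_nonneg.2 h)
  rwa [map_sub, sub_nonneg] at this

lemma Setup.Exp.kap_mul (X : S.Exp) {a : M} (ha : a ∈ S.A) (x : M) :
    S.κ (a * X.E x) = S.κ (a * x) := by
  rw [← X.left a ha, X.kap]

lemma Setup.Exp.eq_zero (X : S.Exp) {x : M} (h : ∀ a ∈ S.A, S.κ (a * x) = 0) : X.E x = 0 :=
  S.faithful _ (by rw [X.kap_mul (star_mem (X.mem x)), h _ (star_mem (X.mem x))])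

/-! The partition produced by a rule. -/

lemma Part.lp_pr (Q : Part S) {Λ : Type*} [DecidableEq Λ] (lab : Fin Q.n → Λ) (π : Λ) :
    S.Pr (Q.lp lab π) := by
  have := Setup.Pr.sum (S := S) (p := fun l => if lab l = π then Q.e l else 0)
    (fun l => by split_ifs; exacts [Q.pr l, .zero])
    (fun i j h => by split_ifs <;> simp [Q.orth i j h])
  rwa [← Finset.sum_filter] at this

lemma Part.lp_sum (Q : Part S) {Λ : Type*} [DecidableEq Λ] [Fintype Λ] (lab : Fin Q.n → Λ) :
    ∑ π, Q.lp lab π = 1 := by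
  rw [← Q.sum]; exact Finset.sum_fiberwise _ _ _

lemma Setup.IsNor.conj_pr {u p : M} (hu : S.IsNor u) (hp : S.Pr p) : S.Pr (star u * p * u) := by
  refine ⟨(hu.2.2.1 p hp.1).1, ?_, hp.sa.2.conjugate' u⟩
  rw [IsIdempotentElem]
  simp only [mul_assoc]
  rw [← mul_assoc u, hu.2.1, one_mul, hp.sq']

lemma Chr.r_prod (φ : Chr S) {L : List M} (h : ∀ a ∈ L, S.Pr a) :
    S.Pr L.prod ∧ φ.r L.prod = (L.map φ.r).prod := by
  induction L with
  | nil => exact ⟨.one, by simp⟩
  | cons a L ih =>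
    have h1 := h a List.mem_cons_self
    obtain ⟨h2, h3⟩ := ih fun b hb => h b (List.mem_cons_of_mem _ hb)
    exact ⟨h1.mul h2, by rw [List.prod_cons, φ.r_mul h1.sa h2.sa, h3]; simp⟩

lemma Setup.Pr.prod {L : List M} (h : ∀ a ∈ L, S.Pr a) : S.Pr L.prod := by
  induction L with
  | nil => exact .one
  | cons a L ih =>
    exact (h a List.mem_cons_self).mul (ih fun b hb => h b (List.mem_cons_of_mem _ hb))

lemma exists_ind {J : Type*} [Fintype J] [DecidableEq J] {g : J → ℝ}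
    (h : ∀ j, g j = 0 ∨ g j = 1) (hs : ∑ j, g j = 1) :
    ∃ i, ∀ j, g j = if j = i then 1 else 0 := by
  obtain ⟨i, -, hi⟩ := Finset.exists_ne_zero_of_sum_ne_zero (hs ▸ one_ne_zero : ∑ j, g j ≠ 0)
  have h1 : g i = 1 := (h i).resolve_left hi
  refine ⟨i, fun j => ?_⟩
  split_ifs with hj
  · rw [hj, h1]
  · have h2 := Finset.add_le_sum (s := Finset.univ) (f := g)
      (fun k _ => by rcases h k with h | h <;> simp [h]) (Finset.mem_univ j) (Finset.mem_univ i) hj
    rcases h j with h3 | h3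
    · exact h3
    · linarith

section
variable {r : ℕ} (R : Rule S r) (Q : Part S) (lab : Fin Q.n → Equiv.Perm (Fin r))

lemma Rule.pr (η : Fin R.L → Equiv.Perm (Fin r)) (c : Fin r) : S.Pr (R.Φ η c) :=
  ⟨R.mem η c, R.proj η c⟩

lemma Rule.pat_pr (η : Fin R.L → Equiv.Perm (Fin r)) :
    S.Pr (List.ofFn fun i => star (R.w i) * Q.lp lab (η i) * R.w i).prod :=
  .prod fun a ha => by
    obtain ⟨i, rfl⟩ := List.mem_ofFn.1 ha
    exact (R.nor i).conj_pr (Q.lp_pr lab _)

lemma Rule.p_sa (c : Fin r) : S.Sa (R.p Q lab c) :=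
  .sum _ fun η _ => (R.pr η c).sa.mul (R.pat_pr Q lab η).sa

lemma Rule.chr_p (φ : Chr S) : ∃ η, ∀ c, φ.r (R.p Q lab c) = φ.r (R.Φ η c) := by
  have h : ∀ i, ∃ π, ∀ σ, φ.r (star (R.w i) * Q.lp lab σ * R.w i) = if σ = π then 1 else 0 :=
    fun i => exists_ind (fun σ => φ.r01 ((R.nor i).conj_pr (Q.lp_pr lab σ))) (by
      rw [← map_sum, ← Finset.sum_mul, ← Finset.mul_sum, Q.lp_sum, mul_one, (R.nor i).1, φ.r_one])
  choose η hη using h
  refine ⟨η, fun c => ?_⟩
  have e : ∀ ζ : Fin R.L → Equiv.Perm (Fin r),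
      φ.r (List.ofFn fun i => star (R.w i) * Q.lp lab (ζ i) * R.w i).prod
        = if ζ = η then 1 else 0 := fun ζ => by
    rw [(φ.r_prod fun a ha => ?_).2, List.map_ofFn, List.prod_ofFn]
    · simp only [Function.comp, hη]
      rw [Finset.prod_ite_zero]; simp [funext_iff]
    · obtain ⟨i, rfl⟩ := List.mem_ofFn.1 ha
      exact (R.nor i).conj_pr (Q.lp_pr lab _)
  rw [Rule.p, map_sum]
  simp only [φ.r_mul (R.pr _ c).sa (R.pat_pr Q lab _).sa, e]
  simp

lemma Rule.p_pr (c : Fin r) : S.Pr (R.p Q lab c) :=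
  S.pr_of_chr (R.p_sa Q lab c) fun φ => by
    obtain ⟨η, h⟩ := R.chr_p Q lab φ
    rw [h]; exact φ.r01 (R.pr η c)

lemma Rule.p_orth {c c' : Fin r} (h : c ≠ c') : R.p Q lab c * R.p Q lab c' = 0 :=
  S.eq_of_chr ((R.p_sa Q lab c).mul (R.p_sa Q lab c')) .zero fun φ => by
    obtain ⟨η, h'⟩ := R.chr_p Q lab φ
    rw [φ.r_mul (R.p_sa Q lab c) (R.p_sa Q lab c'), h', h', ← φ.r_mul (R.pr η c).sa (R.pr η c').sa,
      R.orth η c c' h]

lemma Rule.p_sum : ∑ c, R.p Q lab c = 1 :=
  S.eq_of_chr (.sum _ fun c _ => R.p_sa Q lab c) .one fun φ => by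
    obtain ⟨η, h'⟩ := R.chr_p Q lab φ
    rw [map_sum, ← R.sum η, map_sum]; simp only [h']

/-- the partition produced by a rule -/
noncomputable def Rule.part : Part S where
  n := r
  e := R.p Q lab
  mem c := (R.p_pr Q lab c).1
  proj c := (R.p_pr Q lab c).2
  orth _ _ h := R.p_orth Q lab h
  sum := R.p_sum Q lab

lemma Rule.pinch_eq (x : M) : R.pinch Q lab x = (R.part Q lab).pinch x := rfl

end

end Vale.Agent.P078
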