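import Mathlib

namespace Vale.Agent.P078

open MeasureTheory ComplexConjugate

/-- A group acting on a finite measure space with a bounded modular cocycle `ρ`, together with a
finite range Hermitian contraction kernel `b` on the orbits (`b γ γ' ω` is the matrix entry at the
pair of points `γ • ω`, `γ' • ω`). -/
structure MSys (Ω Γ : Type*) [MeasurableSpace Ω] [Group Γ] [MulAction Γ Ω] where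
  μ : Measure Ω
  fin : μ Set.univ ≠ ⊤
  act : ∀ γ : Γ, Measurable fun ω : Ω => γ • ω
  ρ : Γ → Ω → ℝ
  ρ_meas : ∀ γ, Measurable (ρ γ)
  ρ_pos : ∀ γ ω, 0 < ρ γ ω
  ρ_bdd : ∀ γ, ∃ C : ℝ, ∀ ω, ρ γ ω ≤ C
  ρ_mul : ∀ γ γ' ω, ρ (γ * γ') ω = ρ γ (γ' • ω) * ρ γ' ω
  ρ_fix : ∀ γ ω, γ • ω = ω → ρ γ ω = 1
  mtp : ∀ (γ : Γ) (f : Ω → ENNReal), Measurable f →
    ∫⁻ ω, f (γ • ω) * ENNReal.ofReal (ρ γ ω) ∂μ = ∫⁻ ω, f ω ∂μ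
  sep : ∀ γ : Γ, ∃ t : Ω → Fin 4, Measurable t ∧ ∀ ω, γ • ω ≠ ω → t (γ • ω) ≠ t ω
  S : Finset Γ
  b : Γ → Γ → Ω → ℂ
  b_meas : ∀ γ γ', Measurable (b γ γ')
  b_herm : ∀ γ γ' ω, b γ' γ ω = conj (b γ γ' ω)
  b_equi : ∀ γ γ' h ω, b (γ * h) (γ' * h) ω = b γ γ' (h • ω)
  b_phase : ∀ (γ γ₁ : Γ) ω, γ₁ • ω = γ • ω → ∃ s : ℂ, ‖s‖ = 1 ∧ ∀ γ', b γ₁ γ' ω = conj s * b γ γ' ω
  b_diag : ∀ γ ω, b γ γ ω = 0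
  b_supp : ∀ γ γ' ω, b γ γ' ω ≠ 0 → ∃ s ∈ S, γ • ω = s • γ' • ω
  b_contr : ∀ (ω : Ω) (F : Finset Γ), Set.InjOn (fun γ : Γ => γ • ω) F → ∀ x y : Γ → ℂ,
    ‖∑ γ ∈ F, ∑ γ' ∈ F, conj (y γ) * b γ γ' ω * x γ'‖ ≤
      (∑ γ ∈ F, ‖x γ‖ ^ 2 + ∑ γ ∈ F, ‖y γ‖ ^ 2) / 2

variable {Ω Γ : Type*} [MeasurableSpace Ω] [Group Γ] [MulAction Γ Ω]

/-- the colouring `c` pinches the kernel to numerical radius at most `θ` on the part `B • ω` of the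
orbit of `ω` -/
def MSys.Good (D : MSys Ω Γ) {r : ℕ} (B : Finset Γ) (θ : ℝ) (c : Ω → Fin r) (ω : Ω) : Prop :=
  ∀ F ⊆ B, Set.InjOn (fun γ : Γ => γ • ω) F → ∀ x : Γ → ℂ,
    ‖∑ γ ∈ F, ∑ γ' ∈ F, if c (γ • ω) = c (γ' • ω) then conj (x γ) * D.b γ γ' ω * x γ' else 0‖ ≤
      θ * ∑ γ ∈ F, ‖x γ‖ ^ 2

/-- The measurable local paving theorem with constant `C`. -/
def MeasStmt (C : ℝ) (Ω Γ : Type*) [MeasurableSpace Ω] [Group Γ] [MulAction Γ Ω] : Prop :=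
  ∀ (D : MSys Ω Γ) (r : ℕ), 1 ≤ r → ∀ (B : Finset Γ) (δ : ℝ), 0 < δ →
    ∃ (L : ℕ) (w : Fin (L + 1) → Γ) (Φ : Ω → (Fin (L + 1) → Equiv.Perm (Fin r)) → Fin r),
      (∀ η c, MeasurableSet {ω | Φ ω η = c}) ∧
      (∀ ω η (π : Equiv.Perm (Fin r)), Φ ω (fun i => π * η i) = π (Φ ω η)) ∧
      ∀ l : Ω → Equiv.Perm (Fin r), (∀ π, MeasurableSet {ω | l ω = π}) →
        D.μ {ω | ¬ D.Good B (C / √r) (fun ω' => Φ ω' fun i => l (w i • ω')) ω} ≤ ENNReal.ofReal δ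

end Vale.Agent.P078
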