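import Vale.Agent.P078.Nonsing
import Vale.Agent.P078.MDefs

/-! Points (characters composed with the expectation), the group of normalizers, the action. -/

namespace Vale.Agent.P078

open scoped ComplexOrder InnerProductSpace ComplexConjugate
open Filter Topology MeasureTheory

variable {M : Type*} [CStarAlgebra M] [PartialOrder M] [StarOrderedRing M] {S : Setup M}

lemma Chr.f_star (φ : Chr S) {a : M} (ha : a ∈ S.A) : φ.f (star a) = conj (φ.f a) := by
  have s1 : S.Sa (a + star a) := ⟨add_mem ha (star_mem ha), .add_star_self a⟩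
  have s2 : S.Sa (Complex.I • (a - star a)) := ⟨S.A.smul_mem (sub_mem ha (star_mem ha)) _, by
    rw [IsSelfAdjoint, star_smul, star_sub, star_star, Complex.star_def, Complex.conj_I]; module⟩
  have h1 := congrArg Complex.im (φ.f_eq s1)
  have h2 := congrArg Complex.im (φ.f_eq s2)
  rw [map_add, Complex.ofReal_im, Complex.add_im] at h1
  rw [map_smul, map_sub, Complex.ofReal_im, smul_eq_mul, Complex.I_mul_im, Complex.sub_re] at h2
  refine Complex.ext ?_ ?_
  · rw [Complex.conj_re]; linarith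
  · rw [Complex.conj_im]; linarith

/-- characters of `A` composed with the expectation -/
structure Pt (X : S.Exp) extends Chr S where
  exp : ∀ x, f (X.E x) = f x

/-- the point given by a character -/
noncomputable def Chr.pt (φ : Chr S) (X : S.Exp) : Pt X where
  f := φ.f ∘ₗ X.E.toLinearMap
  one := by
    show φ.f (X.E 1) = 1
    rw [X.fix _ (one_mem _), φ.one]
  mul a ha b hb := by
    show φ.f (X.E (a * b)) = φ.f (X.E a) * φ.f (X.E b)
    rw [X.fix _ (mul_mem ha hb), X.fix _ ha, X.fix _ hb, φ.mul a ha b hb]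
  spec a ha := by
    show φ.f (X.E a) ∈ _
    rw [X.fix _ ha]; exact φ.spec a ha
  exp x := by
    show φ.f (X.E (X.E x)) = φ.f (X.E x)
    rw [X.fix _ (X.mem x)]

lemma Chr.pt_r (φ : Chr S) (X : S.Exp) {a : M} (ha : a ∈ S.A) : (φ.pt X).r a = φ.r a := by
  show (φ.f (X.E a)).re = (φ.f a).re
  rw [X.fix _ ha]

variable {X : S.Exp}

lemma eq_of_pt (X : S.Exp) {a b : M} (ha : S.Sa a) (hb : S.Sa b)
    (h : ∀ ω : Pt X, ω.r a = ω.r b) : a = b :=
  S.eq_of_chr ha hb fun φ => by rw [← φ.pt_r X ha.1, ← φ.pt_r X hb.1, h]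

namespace Pt
variable (ω : Pt X)

lemma ext' {ω ω' : Pt X} (h : ∀ a ∈ S.A, ω.f a = ω'.f a) : ω = ω' := by
  have e : ω.f = ω'.f := LinearMap.ext fun x => by rw [← ω.exp, ← ω'.exp, h _ (X.mem x)]
  obtain ⟨⟨f, _, _, _⟩, _⟩ := ω
  obtain ⟨⟨f', _, _, _⟩, _⟩ := ω'
  obtain rfl : f = f' := e
  rfl

lemma star' (x : M) : ω.f (star x) = conj (ω.f x) := by
  rw [← ω.exp, X.star, ω.f_star (X.mem x), ω.exp]

lemma left {a : M} (ha : a ∈ S.A) (x : M) : ω.f (a * x) = ω.f a * ω.f x := by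
  rw [← ω.exp, X.left a ha, ω.mul a ha _ (X.mem x), ω.exp]

lemma right {a : M} (ha : a ∈ S.A) (x : M) : ω.f (x * a) = ω.f x * ω.f a := by
  rw [← ω.exp, X.right a ha, ω.mul _ (X.mem x) a ha, ω.exp]

lemma r_exp (x : M) : ω.r (X.E x) = ω.r x := congrArg Complex.re (ω.exp x)

lemma r_pos {x : M} (hx : 0 ≤ x) : 0 ≤ ω.r x := by
  rw [← ω.r_exp]; exact ω.r_nonneg (X.mem x) (X.pos x hx)

lemma f_sa {x : M} (hx : IsSelfAdjoint x) : ω.f x = (ω.r x : ℂ) := by
  rw [← ω.exp, ω.f_eq (X.sa hx), ω.r_exp]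

lemma nonneg {x : M} (hx : 0 ≤ x) : 0 ≤ ω.f x := by
  rw [ω.f_sa hx.isSelfAdjoint]; exact_mod_cast ω.r_pos hx

lemma abs_le {x : M} (hx : IsSelfAdjoint x) : |ω.r x| ≤ ‖x‖ := by
  rw [← ω.r_exp]; exact (ω.r_abs_le (X.sa hx)).trans (X.norm x)

end Pt

/-- the group of normalizers -/
def Setup.Gp (S : Setup M) : Type _ := {u : M // S.IsNor u}

instance : Group S.Gp where
  mul u v := ⟨u.1 * v.1, u.2.mul v.2⟩
  one := ⟨1, .one⟩
  inv u := ⟨star u.1, u.2.star⟩
  mul_assoc _ _ _ := Subtype.ext (mul_assoc _ _ _)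
  one_mul _ := Subtype.ext (one_mul _)
  mul_one _ := Subtype.ext (mul_one _)
  inv_mul_cancel u := Subtype.ext u.2.su

lemma Setup.Gp.mul_val (u v : S.Gp) : (u * v).1 = u.1 * v.1 := rfl
lemma Setup.Gp.one_val : (1 : S.Gp).1 = 1 := rfl
lemma Setup.Gp.inv_val (u : S.Gp) : (u⁻¹).1 = star u.1 := rfl

/-- the transported point -/
noncomputable def Pt.act (u : S.Gp) (ω : Pt X) : Pt X where
  f := ω.f ∘ₗ LinearMap.mulLeftRight ℂ (star u.1, u.1)
  one := by
    show ω.f (star u.1 * 1 * u.1) = 1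
    rw [mul_one, u.2.su, ω.one]
  mul a ha b hb := by
    show ω.f (star u.1 * (a * b) * u.1) = ω.f (star u.1 * a * u.1) * ω.f (star u.1 * b * u.1)
    rw [← ω.mul _ (u.2.memL ha) _ (u.2.memL hb)]
    simp only [mul_assoc, u.2.us']
  spec a ha := by
    have := ω.spec _ (u.2.memL ha)
    rwa [Unitary.spectrum_star_left_conjugate (U := ⟨u.1, u.2.su, u.2.us⟩)] at this
  exp x := by
    show ω.f (star u.1 * X.E x * u.1) = ω.f (star u.1 * x * u.1)
    rw [← E_conj X u.2, ω.exp]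

noncomputable instance : MulAction S.Gp (Pt X) where
  smul := Pt.act
  one_smul ω := Pt.ext' fun a _ => by
    show ω.f (star 1 * a * 1) = _
    rw [star_one, one_mul, mul_one]
  mul_smul u v ω := Pt.ext' fun a _ => by
    show ω.f (star (u.1 * v.1) * a * (u.1 * v.1))
      = ω.f (star v.1 * (star u.1 * a * u.1) * v.1)
    simp only [star_mul, mul_assoc]

lemma Pt.smul_f (u : S.Gp) (ω : Pt X) (x : M) : (u • ω).f x = ω.f (star u.1 * x * u.1) := rfl
lemma Pt.smul_r (u : S.Gp) (ω : Pt X) (x : M) : (u • ω).r x = ω.r (star u.1 * x * u.1) := rfl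

lemma Pt.fix_of_ne (u : S.Gp) (ω : Pt X) (h : ω.f u.1 ≠ 0) : u • ω = ω :=
  Pt.ext' fun a ha => by
    have h1 := ω.right (u.2.memL ha) u.1
    rw [mul_assoc (star u.1), u.2.us', ω.left ha, mul_comm] at h1
    rw [Pt.smul_f, mul_assoc]
    exact (mul_left_cancel₀ h h1).symm

lemma Pt.r_g (u : S.Gp) (ω : Pt X) : ω.r (star (X.E u.1) * X.E u.1) = ‖ω.f u.1‖ ^ 2 := by
  rw [Chr.r_def, ω.left (star_mem (X.mem _)), ω.star', ω.exp, Complex.conj_mul']
  norm_cast

lemma Pt.not_both (u : S.Gp) (ω : Pt X) {e : M} (he : S.Pr e) (h : e * u.1 * e = 0)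
    (h1 : ω.r e = 1) : (u • ω).r e ≠ 1 := fun h2 => by
  have h3 := ω.r_mul (u.2.conj_pr he).sa he.sa
  rw [mul_assoc (star u.1), mul_assoc (star u.1), h, mul_zero, map_zero,
    ← mul_assoc, ← Pt.smul_r, h1, h2] at h3
  norm_num at h3

lemma Pt.norm_of_fix (u : S.Gp) (ω : Pt X) (h : u • ω = ω) : ‖ω.f u.1‖ = 1 := by
  obtain ⟨e, hA, hp, h0, hs⟩ := frolik X u.2
  have h1 : ∀ i, ω.r (e i) = 0 := fun i =>
    (ω.r01 ⟨hA i, hp i⟩).resolve_right fun h1 =>
      ω.not_both u ⟨hA i, hp i⟩ (h0 i) h1 (by rw [h, h1])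
  have h2 := congrArg ω.r hs
  rw [map_add, map_sum, ω.r_g, Chr.r_one] at h2
  simp only [h1, Finset.sum_const_zero, add_zero] at h2
  exact (pow_eq_one_iff_of_nonneg (norm_nonneg _) two_ne_zero).1 h2

/-! The sigma-algebra. -/

/-- the clopen set of a projection -/
def Pt.U (X : S.Exp) (p : M) : Set (Pt X) := {ω | ω.r p = 1}

/-- the algebra of clopen sets -/
def Pt.alg (X : S.Exp) : Set (Set (Pt X)) := {s | ∃ p, S.Pr p ∧ Pt.U X p = s}

lemma Pt.U_compl {p : M} (hp : S.Pr p) : Pt.U X (1 - p) = (Pt.U X p)ᶜ := by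
  ext ω
  simp only [Pt.U, Set.mem_ofPred_eq, Set.mem_compl_iff, map_sub, Chr.r_one]
  rcases ω.r01 hp with h | h <;> simp [h]

lemma Pt.U_inter {p q : M} (hp : S.Pr p) (hq : S.Pr q) :
    Pt.U X (p * q) = Pt.U X p ∩ Pt.U X q := by
  ext ω
  simp only [Pt.U, Set.mem_ofPred_eq, Set.mem_inter_iff, ω.r_mul hp.sa hq.sa]
  rcases ω.r01 hp with h | h <;> simp [h]

lemma Pt.isSetAlgebra (X : S.Exp) : IsSetAlgebra (Pt.alg X) where
  empty_mem := ⟨0, .zero, by ext ω; simp [Pt.U]⟩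
  compl_mem := by rintro _ ⟨p, hp, rfl⟩; exact ⟨1 - p, hp.one_sub, Pt.U_compl hp⟩
  union_mem := by
    rintro _ _ ⟨p, hp, rfl⟩ ⟨q, hq, rfl⟩
    refine ⟨_, (hp.one_sub.mul hq.one_sub).one_sub, ?_⟩
    rw [Pt.U_compl (hp.one_sub.mul hq.one_sub), Pt.U_inter hp.one_sub hq.one_sub, Pt.U_compl hp,
      Pt.U_compl hq, Set.compl_inter, compl_compl, compl_compl]

instance : MeasurableSpace (Pt X) := .generateFrom (Pt.alg X)

lemma Pt.meas_alg {s : Set (Pt X)} (h : s ∈ Pt.alg X) : MeasurableSet s :=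
  MeasurableSpace.measurableSet_generateFrom h

lemma Pt.meas_U {p : M} (hp : S.Pr p) : MeasurableSet (Pt.U X p) := Pt.meas_alg ⟨p, hp, rfl⟩

lemma Pt.meas_sa {a : M} (ha : S.Sa a) : Measurable fun ω : Pt X => ω.r a := by
  refine measurable_of_Ioi fun t => ?_
  choose q hq h using fun n : ℕ => S.spec_chr ha (t + 1 / ((n : ℝ) + 1))
  have : (fun ω : Pt X => ω.r a) ⁻¹' Set.Ioi t = ⋃ n, Pt.U X (q n) := by
    ext ω
    simp only [Set.mem_preimage, Set.mem_Ioi, Set.mem_iUnion, Pt.U, Set.mem_ofPred_eq]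
    constructor
    · intro ht
      obtain ⟨n, hn⟩ := exists_nat_one_div_lt (sub_pos.2 ht)
      exact ⟨n, ((h n ω.toChr).resolve_right fun h' => by linarith [h'.2]).1⟩
    · rintro ⟨n, hn⟩
      have h1 : (0 : ℝ) < 1 / ((n : ℝ) + 1) := by positivity
      rcases h n ω.toChr with h' | h'
      · linarith [h'.2]
      · linarith [h'.1]
  rw [this]
  exact .iUnion fun n => Pt.meas_U (hq n)

lemma Pt.meas_r (x : M) : Measurable fun ω : Pt X => ω.r x := by
  have e : ∀ ω : Pt X, ω.r x = 2⁻¹ * ω.r (X.E (x + star x)) := fun ω => by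
    rw [ω.r_exp, map_add, Chr.r_def _ (star x), ω.star', Complex.conj_re, ← Chr.r_def]; ring
  simp only [e]
  exact (Pt.meas_sa (X.sa (.add_star_self x))).const_mul _

lemma Pt.meas_f (x : M) : Measurable fun ω : Pt X => ω.f x := by
  refine measurable_of_re_im (Pt.meas_r x) ?_
  have e : ∀ ω : Pt X, RCLike.im (ω.f x) = -ω.r (Complex.I • x) := fun ω => by
    rw [Chr.r_def, map_smul, smul_eq_mul, Complex.I_mul_re, neg_neg]; rfl
  simp only [e]
  exact (Pt.meas_r _).neg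

lemma Pt.meas_act (u : S.Gp) : Measurable fun ω : Pt X => u • ω :=
  measurable_generateFrom (by rintro _ ⟨p, hp, rfl⟩; exact Pt.meas_U (u.2.conj_pr hp))

lemma Pt.sep (u : S.Gp) : ∃ t : Pt X → Fin 4, Measurable t ∧ ∀ ω, u • ω ≠ ω → t (u • ω) ≠ t ω := by
  classical
  obtain ⟨e, hA, hp, h0, hs⟩ := frolik X u.2
  have he : ∀ i, S.Pr (e i) := fun i => ⟨hA i, hp i⟩
  refine ⟨fun ω => if ω ∈ Pt.U X (e 0) then 0 else if ω ∈ Pt.U X (e 1) then 1 else
    if ω ∈ Pt.U X (e 2) then 2 else 3, ?_, fun ω h => ?_⟩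
  · exact .ite (Pt.meas_U (he 0)) measurable_const (.ite (Pt.meas_U (he 1)) measurable_const
      (.ite (Pt.meas_U (he 2)) measurable_const measurable_const))
  have h1 : ω.f u.1 = 0 := by_contra fun h1 => h (ω.fix_of_ne u h1)
  have h2 := congrArg ω.r hs
  rw [map_add, map_sum, ω.r_g, Chr.r_one, h1, Fin.sum_univ_three] at h2
  have h3 : ∀ i, ω ∈ Pt.U X (e i) → u • ω ∉ Pt.U X (e i) := fun i =>
    ω.not_both u (he i) (h0 i)
  have h4 : ∀ i, ω ∉ Pt.U X (e i) → ω.r (e i) = 0 := fun i => (ω.r01 (he i)).resolve_right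
  by_cases a0 : ω ∈ Pt.U X (e 0)
  · simp only [a0, h3 0 a0, if_true, if_false]; split_ifs <;> decide
  by_cases a1 : ω ∈ Pt.U X (e 1)
  · simp only [a0, a1, h3 1 a1, if_true, if_false]; split_ifs <;> decide
  by_cases a2 : ω ∈ Pt.U X (e 2)
  · simp only [a0, a1, a2, h3 2 a2, if_true, if_false]; split_ifs <;> decide
  rw [h4 0 a0, h4 1 a1, h4 2 a2] at h2
  norm_num at h2

end Vale.Agent.P078
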