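import Vale.Agent.P078.Brg1

/-! The measure on points and the modular cocycle. -/

namespace Vale.Agent.P078

open scoped ComplexOrder InnerProductSpace ComplexConjugate CompactlySupported
open Filter Topology MeasureTheory

variable {M : Type*} [CStarAlgebra M] [PartialOrder M] [StarOrderedRing M] {S : Setup M}

/-- the expectation with values in `S.B` -/
noncomputable def Setup.Exp.EB (X : S.Exp) (x : M) : S.B := ⟨X.E x, X.mem x⟩

/-- the point of a character of `S.B` -/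
noncomputable def Pt.ofChar (X : S.Exp) (φ : WeakDual.characterSpace ℂ S.B) : Pt X where
  f :=
    { toFun x := φ (X.EB x)
      map_add' x y := by
        rw [← map_add]; exact congrArg φ (Subtype.ext (map_add X.E x y))
      map_smul' c x := by
        rw [RingHom.id_apply, ← map_smul]; exact congrArg φ (Subtype.ext (map_smul X.E c x)) }
  one := by
    show φ (X.EB 1) = 1
    rw [show X.EB 1 = 1 from Subtype.ext (X.fix _ (one_mem _))]
    exact map_one (WeakDual.CharacterSpace.toAlgHom φ)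
  mul a ha b hb := by
    show φ (X.EB (a * b)) = φ (X.EB a) * φ (X.EB b)
    rw [← map_mul]
    refine congrArg φ (Subtype.ext ?_)
    show X.E (a * b) = X.E a * X.E b
    rw [X.fix _ (mul_mem ha hb), X.fix _ ha, X.fix _ hb]
  spec a ha := by
    have := S.isClosed_A
    have sp : ∀ b : S.A, spectrum ℂ (show S.B from b) = spectrum ℂ (b : M) := fun b =>
      StarSubalgebra.spectrum_eq S.A (a := b)
    have h := WeakDual.CharacterSpace.apply_mem_spectrum φ (X.EB a)
    have h2 : spectrum ℂ (X.EB a) = spectrum ℂ (X.E a) := sp ⟨X.E a, X.mem a⟩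
    rwa [h2, X.fix _ ha] at h
  exp x := by
    show φ (X.EB (X.E x)) = φ (X.EB x)
    exact congrArg φ (Subtype.ext (X.fix _ (X.mem x)))

theorem exists_meas (X : S.Exp) : ∃ μ : Measure (Pt X), IsFiniteMeasure μ ∧
    ∀ x, 0 ≤ x → ∫⁻ ω, ENNReal.ofReal (ω.r x) ∂μ = ENNReal.ofReal (S.κ x).re := by
  let K : Type _ := WeakDual.characterSpace ℂ S.B
  borelize K
  let G := gelfandStarTransform S.B
  let T : C_c(K, ℝ) → C(K, ℂ) := fun f => ⟨fun x => (f x : ℂ), by fun_prop⟩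
  let L : C_c(K, ℝ) →ₗ[ℝ] ℝ :=
    { toFun f := (S.κ (G.symm (T f)).1).re
      map_add' f g := by
        rw [show T (f + g) = T f + T g from by ext; simp [T], map_add G.symm, ← Complex.add_re,
          ← map_add S.κ]
        rfl
      map_smul' c f := by
        rw [show T (c • f) = (c : ℂ) • T f from by ext; simp [T], map_smul G.symm,
          RingHom.id_apply, smul_eq_mul, ← Complex.re_ofReal_mul, ← smul_eq_mul, ← map_smul S.κ]
        rfl }
  let Λ : C_c(K, ℝ) →ₚ[ℝ] ℝ := PositiveLinearMap.mk₀ L fun f hf => by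
    let g : C(K, ℂ) := ⟨fun x => (√(f x) : ℂ), by fun_prop⟩
    have e : T f = star g * g := by
      ext x
      have := hf x
      simp only [T, g, ContinuousMap.coe_mk, ContinuousMap.mul_apply, ContinuousMap.star_apply,
        Complex.star_def, Complex.conj_ofReal]
      rw [← Complex.ofReal_mul, Real.mul_self_sqrt this]
    show 0 ≤ (S.κ (G.symm (T f)).1).re
    rw [e, map_mul, map_star]
    exact (S.pos (G.symm g).1).1
  have hc : ∀ x, Continuous fun φ : K => (φ (X.EB x)).re := fun x =>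
    Complex.continuous_re.comp (G (X.EB x)).continuous
  have hm : Measurable (Pt.ofChar X) := measurable_generateFrom (by
    rintro _ ⟨p, -, rfl⟩
    exact (isClosed_eq (hc p) continuous_const).measurableSet)
  refine ⟨(RealRMK.rieszMeasure Λ).map (Pt.ofChar X), inferInstance, fun x hx => ?_⟩
  rw [lintegral_map (Pt.meas_r x).ennreal_ofReal hm]
  let g : C_c(K, ℝ) := ⟨⟨fun φ => (φ (X.EB x)).re, hc x⟩, HasCompactSupport.of_compactSpace _⟩
  have e : T g = G (X.EB x) := by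
    ext φ
    exact ((Pt.ofChar X φ).f_sa hx.isSelfAdjoint).symm
  have h1 : Λ g = (S.κ x).re := by
    show (S.κ (G.symm (T g)).1).re = _
    rw [e, StarAlgEquiv.symm_apply_apply]
    exact congrArg Complex.re (X.kap x)
  rw [← h1, ← RealRMK.integral_rieszMeasure, ofReal_integral_eq_lintegral_ofReal]
  · rfl
  · exact (hc x).integrable_of_hasCompactSupport (HasCompactSupport.of_compactSpace _)
  · exact .of_forall fun φ => (Pt.ofChar X φ).r_pos hx

variable (X : S.Exp)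

/-- the Radon-Nikodym derivative -/
noncomputable def Setup.Gp.h (u : S.Gp) : M := (exists_rn X u.2.star).choose

namespace Setup.Gp
variable (u v : S.Gp)

lemma h_mem : u.h X ∈ S.A := (exists_rn X u.2.star).choose_spec.1
lemma h_nonneg : 0 ≤ u.h X := (exists_rn X u.2.star).choose_spec.2.1
lemma h_sa : S.Sa (u.h X) := .of_nonneg (u.h_mem X) (u.h_nonneg X)
lemma h_kap {a : M} (ha : a ∈ S.A) : S.κ (u.1 * a * star u.1) = S.κ (u.h X * a) := by
  have : _ = S.κ (u.h X * a) := (exists_rn X u.2.star).choose_spec.2.2 a ha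
  rwa [star_star] at this

omit X u v in
lemma uniq {a b : M} (ha : a ∈ S.A) (hb : b ∈ S.A) (h : ∀ c ∈ S.A, S.κ (a * c) = S.κ (b * c)) :
    a = b := by
  have h1 := h _ (star_mem (sub_mem ha hb))
  rw [← sub_eq_zero, ← map_sub, ← sub_mul] at h1
  have := S.faithful (star (a - b)) (by rwa [star_star])
  rwa [star_eq_zero, sub_eq_zero] at this

lemma h_one : (1 : S.Gp).h X = 1 :=
  uniq (h_mem X 1) (one_mem _) fun c hc => by rw [← h_kap X 1 hc, one_val]; simp

lemma h_mul : (u * v).h X = star v.1 * u.h X * v.1 * v.h X :=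
  uniq (h_mem X _) (mul_mem (v.2.memL (u.h_mem X)) (v.h_mem X)) fun c hc => by
    have h1 := u.h_kap X (v.2.memR hc)
    have h2 := v.h_kap X (mul_mem (v.2.memL (u.h_mem X)) hc)
    rw [← h_kap X _ hc, S.comm _ (v.2.memL (u.h_mem X)) _ (v.h_mem X), mul_assoc (v.h X), ← h2,
      mul_val]
    simp only [star_mul, mul_assoc, v.2.us'] at h1 ⊢
    exact h1

lemma h_g : u.h X * (star (X.E u.1) * X.E u.1) = star (X.E u.1) * X.E u.1 := by
  have hg := (g_pr X u.2).1
  refine uniq (mul_mem (u.h_mem X) hg) hg fun c hc => ?_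
  rw [mul_assoc, ← u.h_kap X (mul_mem hg hc), ← mul_assoc u.1, (g_proj X u.2).2.1, mul_assoc,
    S.central _ (X.mem _), mul_assoc c, S.comm _ hg _ hc]
  conv_lhs => rw [← (g_proj X u.2).2.1, u.2.su']

end Setup.Gp

variable {X}

/-- the cocycle -/
noncomputable def Pt.ρ (u : S.Gp) (ω : Pt X) : ℝ := ω.r (u.h X)

lemma Pt.ρ_mul (u v : S.Gp) (ω : Pt X) : Pt.ρ (u * v) ω = Pt.ρ u (v • ω) * Pt.ρ v ω := by
  rw [Pt.ρ, u.h_mul, ω.r_mul ⟨v.2.memL (u.h_mem X), (u.h_sa X).2.conjugate' _⟩ (v.h_sa X)]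
  rfl

lemma Pt.ρ_inv (u : S.Gp) (ω : Pt X) : Pt.ρ u⁻¹ (u • ω) * Pt.ρ u ω = 1 := by
  rw [← Pt.ρ_mul, inv_mul_cancel, Pt.ρ, Setup.Gp.h_one, Chr.r_one]

lemma Pt.ρ_pos (u : S.Gp) (ω : Pt X) : 0 < Pt.ρ u ω :=
  (ω.r_pos (u.h_nonneg X)).lt_of_ne' fun h => by
    have := Pt.ρ_inv u ω
    rw [Pt.ρ, Pt.ρ, h] at this
    simp at this

lemma Pt.ρ_le (u : S.Gp) (ω : Pt X) : Pt.ρ u ω ≤ ‖u.h X‖ :=
  (le_abs_self _).trans (ω.r_abs_le (u.h_sa X))

lemma Pt.ρ_fix (u : S.Gp) (ω : Pt X) (h : u • ω = ω) : Pt.ρ u ω = 1 := by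
  have h1 := congrArg ω.r (u.h_g X)
  rw [ω.r_mul (u.h_sa X) (g_pr X u.2).sa, ω.r_g, ω.norm_of_fix u h] at h1
  simpa [Pt.ρ] using h1

section
variable {μ : Measure (Pt X)} [IsFiniteMeasure μ]
  (hμ : ∀ x, 0 ≤ x → ∫⁻ ω, ENNReal.ofReal (ω.r x) ∂μ = ENNReal.ofReal (S.κ x).re)
include hμ

omit [IsFiniteMeasure μ] in
lemma Pt.int_U {p a : M} (hp : S.Pr p) (ha : a ∈ S.A) (h0 : 0 ≤ a) :
    ∫⁻ ω in Pt.U X p, ENNReal.ofReal (ω.r a) ∂μ = ENNReal.ofReal (S.κ (a * p)).re := by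
  have sa : S.Sa a := .of_nonneg ha h0
  rw [← hμ _ (S.nonneg_of_chr (sa.mul hp.sa) fun φ => by
    rw [φ.r_mul sa hp.sa]; exact mul_nonneg (φ.r_nonneg ha h0) (φ.r_nonneg hp.1 hp.nonneg)),
    ← lintegral_indicator (Pt.meas_U hp)]
  refine lintegral_congr fun ω => ?_
  rw [ω.r_mul sa hp.sa]
  rcases ω.r01 hp with h | h <;> simp [Set.indicator, Pt.U, h]

omit [IsFiniteMeasure μ] in
lemma Pt.meas_eq {p : M} (hp : S.Pr p) : μ (Pt.U X p) = ENNReal.ofReal (S.κ p).re := by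
  simpa using Pt.int_U hμ hp (one_mem _) zero_le_one

lemma Pt.mtp (u : S.Gp) (f : Pt X → ENNReal) (hf : Measurable f) :
    ∫⁻ ω, f (u • ω) * ENNReal.ofReal (Pt.ρ u ω) ∂μ = ∫⁻ ω, f ω ∂μ := by
  have hρ : Measurable fun ω : Pt X => ENNReal.ofReal (Pt.ρ u ω) := (Pt.meas_r _).ennreal_ofReal
  have key : ∀ s ∈ Pt.alg X, μ s
      = (μ.withDensity fun ω => ENNReal.ofReal (Pt.ρ u ω)).map (fun ω => u • ω) s := by
    rintro _ ⟨p, hp, rfl⟩
    rw [Measure.map_apply (Pt.meas_act u) (Pt.meas_U hp),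
      withDensity_apply _ (Pt.meas_act u (Pt.meas_U hp)), Pt.meas_eq hμ hp]
    have h1 := Pt.int_U hμ (u.2.conj_pr hp) (u.h_mem X) (u.h_nonneg X)
    rw [← u.h_kap X (u.2.memL hp.1)] at h1
    simp only [mul_assoc, u.2.us', u.2.us, mul_one] at h1
    rw [← h1]
    simp only [← mul_assoc]
    rfl
  have e := ext_of_generate_finite (Pt.alg X) rfl
    (Pt.isSetAlgebra X).isSetRing.isSetSemiring.isPiSystem key (key _ (Pt.isSetAlgebra X).univ_mem)
  conv_rhs => rw [e]
  rw [lintegral_map hf (Pt.meas_act u), lintegral_withDensity_eq_lintegral_mul _ hρ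
    (g := fun ω => f (u • ω)) (hf.comp (Pt.meas_act u))]
  exact lintegral_congr fun ω => mul_comm _ _

lemma Pt.meas_pre (u : S.Gp) {N : Set (Pt X)} (hN : MeasurableSet N) :
    μ ((fun ω => u • ω) ⁻¹' N) ≤ ENNReal.ofReal ‖(u⁻¹).h X‖ * μ N := by
  have h1 := Pt.mtp hμ u⁻¹ (((fun ω => u • ω) ⁻¹' N).indicator 1)
    (measurable_one.indicator (Pt.meas_act u hN))
  rw [lintegral_indicator_one (Pt.meas_act u hN)] at h1
  rw [← h1, ← lintegral_indicator_one hN, ← lintegral_const_mul _ (measurable_one.indicator hN)]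
  refine lintegral_mono fun ω => ?_
  by_cases h : ω ∈ N
  · simpa [Set.indicator, h] using ENNReal.ofReal_le_ofReal (Pt.ρ_le u⁻¹ ω)
  · simp [Set.indicator, h]

end

end Vale.Agent.P078
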