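import Vale.Agent.P078.Brg2

/-! The GNS space of a point and the pointwise estimate. -/

namespace Vale.Agent.P078

open scoped ComplexOrder InnerProductSpace ComplexConjugate
open Filter Topology MeasureTheory

lemma pow_norm_le {H : Type*} [NormedAddCommGroup H] [InnerProductSpace ℂ H] (T : H →L[ℂ] H)
    (hT : ∀ u v, ⟪T u, v⟫_ℂ = ⟪u, T v⟫_ℂ) (V : ℕ → Submodule ℂ H) (hm : Monotone V)
    (hV : ∀ j, ∀ v ∈ V j, T v ∈ V (j + 1)) {θ : ℝ} (hθ : 0 ≤ θ) (k : ℕ)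
    (h : ∀ v ∈ V k, ‖⟪v, T v⟫_ℂ‖ ≤ θ * ‖v‖ ^ 2) {ξ : H} (hξ : ξ ∈ V 0) :
    ∀ j ≤ k, (T ^ j) ξ ∈ V j ∧ ‖(T ^ j) ξ‖ ≤ θ ^ j * ‖ξ‖ := by
  have pol : ∀ u ∈ V k, ∀ v ∈ V k, 2 * (⟪u, T v⟫_ℂ).re ≤ θ * (‖u‖ ^ 2 + ‖v‖ ^ 2) :=
    fun u hu v hv => by
      have h1 := (Complex.re_le_norm _).trans (h _ (add_mem hu hv))
      have h2 := (neg_abs_le _).trans' (neg_le_neg
        ((Complex.abs_re_le_norm _).trans (h _ (sub_mem hu hv))))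
      have h3 : (⟪v, T u⟫_ℂ).re = (⟪u, T v⟫_ℂ).re := by
        rw [← hT, ← inner_conj_symm, Complex.conj_re]
      have h4 := parallelogram_law_with_norm ℂ u v
      simp only [map_add, map_sub, inner_add_left, inner_add_right, inner_sub_left,
        inner_sub_right, Complex.add_re, Complex.sub_re, h3] at h1 h2
      have h5 : θ * ‖u + v‖ ^ 2 + θ * ‖u - v‖ ^ 2 = 2 * (θ * (‖u‖ ^ 2 + ‖v‖ ^ 2)) := by
        rw [← mul_add, h4]; ring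
      linarith
  have step : ∀ v ∈ V k, T v ∈ V k → ‖T v‖ ≤ θ * ‖v‖ := fun v hv hw => by
    have h1 := pol _ ((V k).smul_mem (‖v‖ : ℂ) hw) _ ((V k).smul_mem (‖T v‖ : ℂ) hv)
    rw [map_smul, inner_smul_left, inner_smul_right, inner_self_eq_norm_sq_to_K, norm_smul,
      norm_smul] at h1
    simp only [Complex.conj_ofReal, Complex.coe_algebraMap, ← Complex.ofReal_pow,
      ← Complex.ofReal_mul, Complex.ofReal_re, Complex.norm_real, norm_norm] at h1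
    rcases eq_or_ne (T v) 0 with h0 | h0
    · rw [h0, norm_zero]; positivity
    have p1 : 0 < ‖T v‖ := norm_pos_iff.2 h0
    have p2 : 0 < ‖v‖ := norm_pos_iff.2 fun e => h0 (by rw [e, map_zero])
    refine le_of_mul_le_mul_left ?_ (show 0 < 2 * (‖v‖ * ‖T v‖ ^ 2) by positivity)
    nlinarith
  intro j
  induction j with
  | zero => exact fun _ => ⟨by simpa using hξ, by simp⟩
  | succ j ih =>
    intro hj
    obtain ⟨h1, h2⟩ := ih (by omega)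
    rw [pow_succ', mul_apply_eq_comp]
    refine ⟨hV _ _ h1, (step _ (hm (by omega) h1) (hm hj (hV _ _ h1))).trans ?_⟩
    rw [pow_succ', mul_assoc]
    exact mul_le_mul_of_nonneg_left h2 hθ

lemma exists_balls {G : Type*} [Group G] (T : Finset G) : ∃ B : ℕ → Finset G, 1 ∈ B 0 ∧
    Monotone B ∧ ∀ j, ∀ s ∈ T, ∀ γ ∈ B j, s * γ ∈ B (j + 1) := by
  classical
  open Pointwise in
  refine ⟨fun j => (insert 1 T) ^ j, by simp, fun i j h =>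
    Finset.pow_subset_pow_right (Finset.mem_insert_self _ _) h, fun j s hs γ hγ => ?_⟩
  simp only [pow_succ']
  exact Finset.mul_mem_mul (Finset.mem_insert_of_mem hs) hγ

variable {M : Type*} [CStarAlgebra M] [PartialOrder M] [StarOrderedRing M] {S : Setup M}
  {X : S.Exp}

namespace Pt
variable (ω : Pt X)

/-- the state of a point -/
noncomputable def plm : M →ₚ[ℂ] ℂ := PositiveLinearMap.mk₀ ω.f fun _ ha => ω.nonneg ha

/-- the GNS Hilbert space -/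
abbrev H : Type _ := ω.plm.GNS

/-- the canonical map into the GNS space -/
noncomputable def ι : M →ₗ[ℂ] ω.H :=
  (UniformSpace.Completion.toComplL (𝕜 := ℂ) (E := ω.plm.PreGNS)).toLinearMap ∘ₗ
    ω.plm.toPreGNS.toLinearMap

/-- the GNS representation -/
noncomputable def π : M →⋆ₐ[ℂ] (ω.H →L[ℂ] ω.H) := ω.plm.gnsStarAlgHom

lemma ι_apply (x : M) : ω.ι x = ((ω.plm.toPreGNS x : ω.plm.PreGNS) : ω.H) := rfl

lemma inner_ι (x y : M) : ⟪ω.ι x, ω.ι y⟫_ℂ = ω.f (star x * y) := by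
  rw [ω.ι_apply, ω.ι_apply, UniformSpace.Completion.inner_coe]; rfl

lemma π_ι (a x : M) : ω.π a (ω.ι x) = ω.ι (a * x) := by
  rw [ω.ι_apply, ω.ι_apply]
  exact ω.plm.gnsNonUnitalStarAlgHom_apply_coe

lemma norm_π (a : M) : ‖ω.π a‖ ≤ ‖a‖ := NonUnitalStarAlgHom.norm_apply_le ω.π a

lemma ι_right (x : M) {a : M} (ha : a ∈ S.A) : ω.ι (x * a) = ω.f a • ω.ι x := by
  have hb : a - ω.f a • (1 : M) ∈ S.A := sub_mem ha (S.A.smul_mem (one_mem _) _)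
  have e : x * a - ω.f a • x = x * (a - ω.f a • 1) := by rw [mul_sub, mul_smul_comm, mul_one]
  rw [← sub_eq_zero, ← map_smul, ← map_sub, ← inner_self_eq_zero (𝕜 := ℂ), inner_ι, e,
    ← mul_assoc, ω.right hb, map_sub, map_smul, ω.one, smul_eq_mul, mul_one, sub_self, mul_zero]

lemma ι_fix (x : M) (u : S.Gp) (h : u • ω = ω) : ω.ι (x * u.1) = ω.f u.1 • ω.ι x := by
  have h1 := ω.ι_right (x * u.1) (g_pr X u.2).1
  rw [mul_assoc, (g_proj X u.2).2.1, ω.ι_right _ (X.mem _), ω.exp, ω.f_eq (g_pr X u.2).sa, ω.r_g,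
    ω.norm_of_fix u h] at h1
  simpa using h1.symm

/-- the orbit vectors -/
noncomputable def ξ (γ : S.Gp) : ω.H := ω.ι γ.1

lemma π_ξ {a : M} (ha : a ∈ S.A) (γ : S.Gp) : ω.π a (ω.ξ γ) = (γ • ω).f a • ω.ξ γ := by
  rw [ξ, π_ι, smul_f, ← ω.ι_right _ (γ.2.memL ha), mul_assoc, γ.2.us']

lemma inner_π (y : M) (γ γ' : S.Gp) : ⟪ω.ξ γ, ω.π y (ω.ξ γ')⟫_ℂ = ω.f (star γ.1 * y * γ'.1) := by
  rw [ξ, ξ, π_ι, inner_ι, mul_assoc]

lemma inner_self' (γ : S.Gp) : ⟪ω.ξ γ, ω.ξ γ⟫_ℂ = 1 := by rw [ξ, inner_ι, γ.2.su, ω.one]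

lemma eq_of_inner {γ γ' : S.Gp} (h : ⟪ω.ξ γ, ω.ξ γ'⟫_ℂ ≠ 0) : γ • ω = γ' • ω := by
  rw [ξ, ξ, inner_ι] at h
  have := ω.fix_of_ne (γ⁻¹ * γ') h
  rw [mul_smul, inv_smul_eq_iff] at this
  exact this.symm

lemma phase {γ γ₁ : S.Gp} (h : γ₁ • ω = γ • ω) : ∃ s : ℂ, ‖s‖ = 1 ∧ ω.ξ γ₁ = s • ω.ξ γ := by
  have h1 : (γ⁻¹ * γ₁) • ω = ω := by rw [mul_smul, h, inv_smul_smul]
  refine ⟨_, ω.norm_of_fix _ h1, ?_⟩
  rw [ξ, ξ, ← ω.ι_fix _ _ h1, ← Setup.Gp.mul_val, mul_inv_cancel_left]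

lemma inner_sum_sum (T : ω.H →L[ℂ] ω.H) (F : Finset S.Gp) (x y : S.Gp → ℂ) :
    ⟪∑ γ ∈ F, y γ • ω.ξ γ, T (∑ γ ∈ F, x γ • ω.ξ γ)⟫_ℂ
      = ∑ γ ∈ F, ∑ γ' ∈ F, conj (y γ) * ⟪ω.ξ γ, T (ω.ξ γ')⟫_ℂ * x γ' := by
  rw [sum_inner]
  refine Finset.sum_congr rfl fun γ _ => ?_
  rw [map_sum, inner_sum]
  refine Finset.sum_congr rfl fun γ' _ => ?_
  rw [map_smul, inner_smul_left, inner_smul_right]; ring

lemma norm_sum {F : Finset S.Gp} (hF : Set.InjOn (fun γ : S.Gp => γ • ω) F) (x : S.Gp → ℂ) :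
    ‖∑ γ ∈ F, x γ • ω.ξ γ‖ ^ 2 = ∑ γ ∈ F, ‖x γ‖ ^ 2 := by
  have h := ω.inner_sum_sum 1 F x x
  rw [one_apply_eq_self, inner_self_eq_norm_sq_to_K] at h
  have h2 : ∀ γ ∈ F, ∑ γ' ∈ F, conj (x γ) * ⟪ω.ξ γ, (1 : ω.H →L[ℂ] ω.H) (ω.ξ γ')⟫_ℂ * x γ'
      = ((‖x γ‖ ^ 2 : ℝ) : ℂ) := fun γ hγ => by
    rw [Finset.sum_eq_single γ (fun γ' h' hne => ?_) (fun h => (h hγ).elim)]
    · rw [one_apply_eq_self, inner_self', mul_one, Complex.conj_mul']; norm_cast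
    · rw [one_apply_eq_self,
        by_contra fun h0 => hne (hF hγ h' (ω.eq_of_inner h0)).symm]
      simp
  rw [Finset.sum_congr rfl h2] at h
  exact Complex.ofReal_injective (by rw [Complex.ofReal_sum, ← h, Complex.ofReal_pow]; rfl)

lemma contr {y : M} (hy : ‖y‖ ≤ 1) {F : Finset S.Gp} (hF : Set.InjOn (fun γ : S.Gp => γ • ω) F)
    (x z : S.Gp → ℂ) : ‖∑ γ ∈ F, ∑ γ' ∈ F, conj (z γ) * ω.f (star γ.1 * y * γ'.1) * x γ'‖ ≤
      (∑ γ ∈ F, ‖x γ‖ ^ 2 + ∑ γ ∈ F, ‖z γ‖ ^ 2) / 2 := by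
  simp only [← ω.inner_π]
  rw [← ω.inner_sum_sum, ← ω.norm_sum hF, ← ω.norm_sum hF]
  generalize ∑ γ ∈ F, x γ • ω.ξ γ = a
  generalize ∑ γ ∈ F, z γ • ω.ξ γ = b
  have h1 : ‖ω.π y a‖ ≤ ‖a‖ := ((ω.π y).le_opNorm a).trans
    (mul_le_of_le_one_left (norm_nonneg _) ((ω.norm_π y).trans hy))
  have h2 := (norm_inner_le_norm (𝕜 := ℂ) b (ω.π y a)).trans
    (mul_le_mul_of_nonneg_left h1 (norm_nonneg _))
  nlinarith [sq_nonneg (‖a‖ - ‖b‖)]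

/-- span of orbit vectors -/
noncomputable def V (B : Set S.Gp) : Submodule ℂ ω.H := Submodule.span ℂ (ω.ξ '' B)

lemma V_mono {B B' : Set S.Gp} (h : B ⊆ B') : ω.V B ≤ ω.V B' :=
  Submodule.span_mono (Set.image_mono h)

lemma ξ_mem {B : Set S.Gp} {γ : S.Gp} (h : γ ∈ B) : ω.ξ γ ∈ ω.V B :=
  Submodule.subset_span ⟨γ, h, rfl⟩

lemma V_map {B : Set S.Gp} {W : Submodule ℂ ω.H} (T : ω.H →L[ℂ] ω.H)
    (h : ∀ γ ∈ B, T (ω.ξ γ) ∈ W) {v : ω.H} (hv : v ∈ ω.V B) : T v ∈ W := by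
  have : ω.V B ≤ W.comap T.toLinearMap := Submodule.span_le.2 (by
    rintro _ ⟨γ, hγ, rfl⟩; exact h γ hγ)
  exact this hv

lemma V_A {B : Set S.Gp} {a : M} (ha : a ∈ S.A) {v : ω.H} (hv : v ∈ ω.V B) : ω.π a v ∈ ω.V B :=
  ω.V_map _ (fun γ hγ => by rw [ω.π_ξ ha]; exact Submodule.smul_mem _ _ (ω.ξ_mem hγ)) hv

lemma V_rep (B : Finset S.Gp) : ∃ F ⊆ B, Set.InjOn (fun γ : S.Gp => γ • ω) F ∧
    ∀ v ∈ ω.V B, ∃ x : S.Gp → ℂ, ∑ γ ∈ F, x γ • ω.ξ γ = v := by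
  classical
  obtain ⟨F, h1, h2, h3⟩ := Finset.exists_subset_injOn_image_eq_of_surjOn
    (f := fun γ : S.Gp => γ • ω) (B : Set S.Gp) (B.image fun γ => γ • ω)
    (by rw [Finset.coe_image]; exact Set.surjOn_image _ _)
  refine ⟨F, h1, h2, fun v hv => ?_⟩
  have : v ∈ ω.V F := ω.V_map 1 (fun γ hγ => by
    have := Finset.mem_image_of_mem (fun γ : S.Gp => γ • ω) hγ
    rw [← h3] at this
    obtain ⟨γ', h4, h5⟩ := Finset.mem_image.1 this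
    obtain ⟨s, -, hs⟩ := ω.phase h5.symm
    rw [one_apply_eq_self, hs]
    exact Submodule.smul_mem _ _ (ω.ξ_mem h4)) hv
  exact Submodule.mem_span_image_finset_iff_exists_fun' ℂ |>.1 this

end Pt

lemma exists_supp_set (X : S.Exp) {y : M} (hy : y ∈ S.N0) : ∃ T : Finset S.Gp,
    ∀ (ω : Pt X) (γ : S.Gp), ω.π y (ω.ξ γ) ∈ ω.V ((fun s => s * γ) '' T) := by
  classical
  refine N0_ind (p := fun y => ∃ T : Finset S.Gp,
    ∀ (ω : Pt X) (γ : S.Gp), ω.π y (ω.ξ γ) ∈ ω.V ((fun s => s * γ) '' T))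
    (fun u a hu ha => ⟨{⟨u, hu⟩}, fun ω γ => ?_⟩) ⟨∅, fun ω γ => by simp⟩ ?_ ?_ hy
  · rw [map_mul, mul_apply_eq_comp, ω.π_ξ ha, map_smul, Pt.ξ, ω.π_ι]
    exact Submodule.smul_mem _ _ (ω.ξ_mem (γ := (show S.Gp from ⟨u, hu⟩) * γ)
      ⟨_, Finset.mem_coe.2 (Finset.mem_singleton_self _), rfl⟩)
  · rintro x z ⟨T, hT⟩ ⟨T', hT'⟩
    refine ⟨T ∪ T', fun ω γ => ?_⟩
    rw [map_add, add_apply]
    exact add_mem (ω.V_mono (Set.image_mono (by simp)) (hT ω γ))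
      (ω.V_mono (Set.image_mono (by simp)) (hT' ω γ))
  · rintro c x ⟨T, hT⟩
    refine ⟨T, fun ω γ => ?_⟩
    rw [map_smul, smul_apply]
    exact Submodule.smul_mem _ _ (hT ω γ)

lemma Pt.supp (ω : Pt X) {γ : S.Gp} {B : Set S.Gp} {v : ω.H} (hv : v ∈ ω.V B)
    (h : ⟪ω.ξ γ, v⟫_ℂ ≠ 0) : ∃ γ' ∈ B, γ • ω = γ' • ω := by
  by_contra! h'
  refine h ?_
  have : ω.V B ≤ (ℂ ∙ ω.ξ γ)ᗮ := Submodule.span_le.2 (by
    rintro _ ⟨γ', hγ, rfl⟩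
    exact Submodule.mem_orthogonal_singleton_iff_inner_right.2
      (by_contra fun h0 => h' γ' hγ (ω.eq_of_inner h0)))
  exact Submodule.mem_orthogonal_singleton_iff_inner_right.1 (this hv)

lemma Pt.f_part (ω : Pt X) (P : Part S) {c : Fin P.n} (h : ω.r (P.e c) = 1) (i : Fin P.n) :
    ω.f (P.e i) = if c = i then 1 else 0 := by
  rw [ω.f_eq (P.pr i).sa]
  split_ifs with hi
  · rw [← hi, h]; rfl
  · have := ω.r_mul (P.pr c).sa (P.pr i).sa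
    rw [P.orth _ _ hi, map_zero, h, one_mul] at this
    rw [← this]; rfl

lemma Pt.good_bound (ω : Pt X) {y : M} (hy : IsSelfAdjoint y) {T : Finset S.Gp}
    (hT : ∀ γ : S.Gp, ω.π y (ω.ξ γ) ∈ ω.V ((fun s => s * γ) '' T)) {B : ℕ → Finset S.Gp}
    (h0 : 1 ∈ B 0) (hm : Monotone B) (hB : ∀ j, ∀ s ∈ T, ∀ γ ∈ B j, s * γ ∈ B (j + 1))
    (P : Part S) (c : Pt X → Fin P.n) (k : ℕ) (hc : ∀ γ ∈ B k, (γ • ω).r (P.e (c (γ • ω))) = 1)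
    {θ : ℝ} (hθ : 0 ≤ θ) (hg : ∀ F ⊆ B k, Set.InjOn (fun γ : S.Gp => γ • ω) F → ∀ x : S.Gp → ℂ,
      ‖∑ γ ∈ F, ∑ γ' ∈ F, if c (γ • ω) = c (γ' • ω) then
        conj (x γ) * ω.f (star γ.1 * y * γ'.1) * x γ' else 0‖ ≤ θ * ∑ γ ∈ F, ‖x γ‖ ^ 2) :
    ω.r (P.pinch y ^ (2 * k)) ≤ θ ^ (2 * k) := by
  have sz := P.pinch_sa hy
  have ap : ∀ v, ω.π (P.pinch y) v = ∑ i, ω.π (P.e i) (ω.π y (ω.π (P.e i) v)) := fun v => by
    simp only [Part.pinch, map_sum, map_mul, sum_apply,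
      mul_apply_eq_comp]
  have sym : ∀ {a : M}, IsSelfAdjoint a → ∀ u v, ⟪ω.π a u, v⟫_ℂ = ⟪u, ω.π a v⟫_ℂ :=
    fun {a} ha u v => by
      rw [← ContinuousLinearMap.adjoint_inner_right, ← ContinuousLinearMap.star_eq_adjoint,
        ← map_star, ha.star_eq]
  obtain ⟨-, h⟩ := pow_norm_le (ω.π (P.pinch y)) (sym sz) (fun j => ω.V (B j))
    (fun i j h => ω.V_mono (hm h)) (fun j v hv => by
      rw [ap]
      refine Submodule.sum_mem _ fun i _ => ω.V_A (P.mem i) (ω.V_map _ (fun γ hγ => ?_)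
        (ω.V_A (P.mem i) hv))
      exact ω.V_mono (by rintro _ ⟨s, hs, rfl⟩; exact hB j s hs γ hγ) (hT γ)) hθ k
    (fun v hv => by
      obtain ⟨F, h1, h2, h3⟩ := ω.V_rep (B k)
      obtain ⟨x, rfl⟩ := h3 v hv
      rw [ω.inner_sum_sum, ω.norm_sum h2]
      refine le_of_eq_of_le (congrArg _ (Finset.sum_congr rfl fun γ hγ =>
        Finset.sum_congr rfl fun γ' hγ' => ?_)) (hg F h1 h2 x)
      rw [ap, inner_sum]
      simp only [← sym (P.pr _).sa.2, ω.π_ξ (P.mem _), (γ • ω).f_part P (hc γ (h1 hγ)),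
        (γ' • ω).f_part P (hc γ' (h1 hγ')), map_smul, inner_smul_left, inner_smul_right,
        ω.inner_π]
      rw [Finset.sum_eq_single (c (γ • ω)) (fun i _ hi => by simp [hi.symm]) (by simp)]
      by_cases e : c (γ • ω) = c (γ' • ω)
      · simp [e]
      · simp [e, Ne.symm e]) (ω.ξ_mem h0) k le_rfl
  have n1 : ‖ω.ξ 1‖ = 1 := by
    have := ω.inner_self' 1
    rw [inner_self_eq_norm_sq_to_K] at this
    exact (pow_eq_one_iff_of_nonneg (norm_nonneg _) two_ne_zero).1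
      (Complex.ofReal_injective (by rw [Complex.ofReal_pow]; exact this))
  rw [n1, mul_one, ← map_pow, Pt.ξ, ω.π_ι, Setup.Gp.one_val, mul_one] at h
  have e := ω.inner_ι (P.pinch y ^ k) (P.pinch y ^ k)
  rw [(sz.pow k).star_eq, ← pow_add, ← two_mul, inner_self_eq_norm_sq_to_K] at e
  rw [Chr.r_def, ← e, mul_comm 2, pow_mul]
  norm_cast
  exact pow_le_pow_left₀ (norm_nonneg _) h 2

end Vale.Agent.P078
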