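import Vale.Agent.P078.Brg3

/-! The bridge from the measurable local paving theorem to the discrete part. -/

namespace Vale.Agent.P078

open scoped ComplexOrder InnerProductSpace ComplexConjugate symmDiff
open Filter Topology MeasureTheory

lemma fibre_mem {α ι : Type*} [Fintype ι] {𝒜 : Set (Set α)} (h : IsSetAlgebra 𝒜) {t : ι → Set α}
    (ht : ∀ i, t i ∈ 𝒜) (P : (ι → Prop) → Prop) : {a | P fun i => a ∈ t i} ∈ 𝒜 := by
  classical
  have e : {a | P fun i => a ∈ t i} = ⋃ σ ∈ Finset.univ.filter P, ⋂ i ∈ Finset.univ,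
      {a | σ i ↔ a ∈ t i} := by
    ext a
    simp only [Set.mem_ofPred_eq, Set.mem_iUnion, Set.mem_iInter, Finset.mem_filter,
      Finset.mem_univ, true_and, forall_const, exists_prop]
    exact ⟨fun h => ⟨_, h, fun _ => Iff.rfl⟩, fun ⟨σ, h1, h2⟩ => by
      rwa [← show σ = fun i => a ∈ t i from funext fun i => propext (h2 i)]⟩
  rw [e]
  refine h.biUnion_mem _ fun σ _ => h.biInter_mem _ fun i _ => ?_
  by_cases hs : σ i
  · simpa [hs] using ht i
  · simpa [hs, Set.compl_def] using h.compl_mem (ht i)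

variable {M : Type*} [CStarAlgebra M] [PartialOrder M] [StarOrderedRing M] {S : Setup M}
  {X : S.Exp}

lemma exists_clopen (μ : Measure (Pt X)) [IsFiniteMeasure μ] {J : Type*} [Fintype J] {r : ℕ}
    (hr : 1 ≤ r) (Φ : Pt X → J → Fin r) (hΦ : ∀ η c, MeasurableSet {ω | Φ ω η = c}) {ε : ℝ}
    (hε : 0 < ε) : ∃ (q : J → Fin r → M) (N : Set (Pt X)), (∀ η c, S.Pr (q η c)) ∧
      (∀ η c c', c ≠ c' → q η c * q η c' = 0) ∧ (∀ η, ∑ c, q η c = 1) ∧ MeasurableSet N ∧
      μ N ≤ ENNReal.ofReal ε ∧ ∀ ω ∉ N, ∀ η, ω.r (q η (Φ ω η)) = 1 := by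
  classical
  have D := Measure.MeasureDense.of_generateFrom_isSetAlgebra_finite μ (Pt.isSetAlgebra X) rfl
  set n : ℝ := (Fintype.card (J × Fin r) : ℝ) with hn
  have n0 : 0 ≤ n := by positivity
  choose t ht hμ using fun (a : J × Fin r) =>
    D.approx _ (hΦ a.1 a.2) (measure_ne_top _ _) (ε / (n + 1)) (by positivity)
  let G : (Fin r → Prop) → Fin r := fun σ => if h : ∃ c, σ c then h.choose else ⟨0, hr⟩
  choose q hq hU using fun η c => fibre_mem (Pt.isSetAlgebra X) (t := fun c => t (η, c))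
    (fun c => ht _) fun σ => G σ = c
  have hq' : ∀ (ω : Pt X) η c, ω.r (q η c) = if (G fun c => ω ∈ t (η, c)) = c then 1 else 0 :=
    fun ω η c => by
      have : ω.r (q η c) = 1 ↔ (G fun c => ω ∈ t (η, c)) = c := Set.ext_iff.1 (hU η c) ω
      split_ifs with h
      · exact this.2 h
      · exact (ω.r01 (hq η c)).resolve_right fun h' => h (this.1 h')
  refine ⟨q, ⋃ a, {ω | Φ ω a.1 = a.2} ∆ t a, hq, fun η c c' h => ?_, fun η => ?_,
    .iUnion fun a => (hΦ _ _).symmDiff (Pt.meas_alg (ht a)), ?_, fun ω hω η => ?_⟩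
  · refine eq_of_pt X ((hq η c).mul (hq η c')).sa .zero fun ω => ?_
    rw [ω.r_mul (hq η c).sa (hq η c').sa, hq', hq', map_zero]
    split_ifs with h1 h2
    · exact (h (h1.symm.trans h2)).elim
    all_goals simp
  · refine eq_of_pt X (.sum _ fun c _ => (hq η c).sa) .one fun ω => ?_
    simp only [map_sum, hq', Chr.r_one]
    simp
  · refine (measure_iUnion_fintype_le _ _).trans ((Finset.sum_le_sum fun a _ => (hμ a).le).trans ?_)
    rw [Finset.sum_const, Finset.card_univ, nsmul_eq_mul, ← ENNReal.ofReal_natCast,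
      ← ENNReal.ofReal_mul n0]
    refine ENNReal.ofReal_le_ofReal ?_
    rw [mul_div_assoc', div_le_iff₀ (by positivity)]
    nlinarith
  · have h1 : ∀ c, ω ∈ t (η, c) ↔ Φ ω η = c := fun c => by
      have := fun h => hω (Set.mem_iUnion.2 ⟨(η, c), h⟩)
      simp only [Set.mem_symmDiff, Set.mem_ofPred_eq] at this
      tauto
    have h2 : ∃ c, ω ∈ t (η, c) := ⟨_, (h1 _).2 rfl⟩
    rw [hq', if_pos]
    simp only [G, dif_pos h2]
    exact ((h1 _).1 h2.choose_spec).symm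

lemma Rule.chr_p' {r : ℕ} (R : Rule S r) (Q : Part S) (lab : Fin Q.n → Equiv.Perm (Fin r))
    (φ : Chr S) (η : Fin R.L → Equiv.Perm (Fin r))
    (hη : ∀ i σ, φ.r (star (R.w i) * Q.lp lab σ * R.w i) = if σ = η i then 1 else 0) (c : Fin r) :
    φ.r (R.p Q lab c) = φ.r (R.Φ η c) := by
  have e : ∀ ζ : Fin R.L → Equiv.Perm (Fin r),
      φ.r (List.ofFn fun i => star (R.w i) * Q.lp lab (ζ i) * R.w i).prod
        = if ζ = η then 1 else 0 := fun ζ => by
    rw [(φ.r_prod fun a ha => ?_).2, List.map_ofFn, List.prod_ofFn]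
    · simp only [Function.comp, hη]
      rw [Finset.prod_ite_zero]; simp [funext_iff]
    · obtain ⟨i, rfl⟩ := List.mem_ofFn.1 ha
      exact (R.nor i).conj_pr (Q.lp_pr lab _)
  rw [Rule.p, map_sum]
  simp only [φ.r_mul (R.pr _ c).sa (R.pat_pr Q lab _).sa, e]
  simp

/-- the rule built from normalized patterns -/
noncomputable def mkRule {r L : ℕ} (w : Fin (L + 1) → S.Gp)
    (q : (Fin (L + 1) → Equiv.Perm (Fin r)) → Fin r → M) (h1 : ∀ η c, S.Pr (q η c))
    (h2 : ∀ η c c', c ≠ c' → q η c * q η c' = 0) (h3 : ∀ η, ∑ c, q η c = 1) : Rule S r where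
  L := L + 1
  w i := (w i).1
  nor i := (w i).2
  Φ η c := q (fun i => (η 0)⁻¹ * η i) ((η 0)⁻¹ c)
  mem _ _ := (h1 _ _).1
  proj _ _ := (h1 _ _).2
  orth η _ _ h := h2 _ _ _ fun e => h ((η 0)⁻¹.injective e)
  sum η := by rw [Equiv.sum_comp (η 0)⁻¹ (q fun i => (η 0)⁻¹ * η i), h3]
  equi η π c := by simp [mul_assoc]

/-- the measured system of points -/
noncomputable def mkSys (μ : Measure (Pt X)) [IsFiniteMeasure μ]
    (hμ : ∀ x, 0 ≤ x → ∫⁻ ω, ENNReal.ofReal (ω.r x) ∂μ = ENNReal.ofReal (S.κ x).re)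
    {y : M} (hy : IsSelfAdjoint y) (h0 : X.E y = 0) (h1 : ‖y‖ ≤ 1) (T : Finset S.Gp)
    (hT : ∀ (ω : Pt X) (γ : S.Gp), ω.π y (ω.ξ γ) ∈ ω.V ((fun s => s * γ) '' T)) :
    MSys (Pt X) S.Gp where
  μ := μ
  fin := measure_ne_top _ _
  act := Pt.meas_act
  ρ := Pt.ρ
  ρ_meas _ := Pt.meas_r _
  ρ_pos := Pt.ρ_pos
  ρ_bdd γ := ⟨_, Pt.ρ_le γ⟩
  ρ_mul := Pt.ρ_mul
  ρ_fix := Pt.ρ_fix
  mtp := Pt.mtp hμ
  sep := Pt.sep
  S := T
  b γ γ' ω := ω.f (star γ.1 * y * γ'.1)
  b_meas _ _ := Pt.meas_f _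
  b_herm γ γ' ω := by rw [← ω.star', star_mul, star_mul, star_star, hy.star_eq, mul_assoc]
  b_equi γ γ' h ω := by
    simp only [Pt.smul_f, Setup.Gp.mul_val, star_mul, mul_assoc]
  b_phase γ γ₁ ω h := by
    obtain ⟨s, h1, h2⟩ := ω.phase h
    exact ⟨s, h1, fun γ' => by rw [← ω.inner_π, ← ω.inner_π, h2, inner_smul_left]⟩
  b_diag γ ω := by rw [← Pt.smul_f, ← Pt.exp, h0, map_zero]
  b_supp γ γ' ω h := by
    rw [← ω.inner_π] at h
    obtain ⟨_, ⟨s, hs, rfl⟩, h2⟩ := ω.supp (hT ω γ') h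
    exact ⟨s, hs, by rw [h2, mul_smul]⟩
  b_contr ω _ hF x z := ω.contr h1 hF x z

universe u

theorem disc_of_meas {C : ℝ} (hC : 0 ≤ C)
    (h : ∀ (Ω Γ : Type u) [MeasurableSpace Ω] [Group Γ] [MulAction Γ Ω], MeasStmt C Ω Γ)
    (M : Type u) [CStarAlgebra M] [PartialOrder M] [StarOrderedRing M] : DiscStmt C M := by
  intro S X y hN hy h0 h1 r hr k δ hδ
  obtain ⟨μ, _, hμ⟩ := exists_meas X
  obtain ⟨T, hT⟩ := exists_supp_set X hN
  obtain ⟨B, b0, bm, bs⟩ := exists_balls T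
  obtain ⟨L, w, Φ, f1, f2, f3⟩ := h (Pt X) S.Gp (mkSys μ hμ hy h0 h1 T hT) r hr (B k) (δ / 2)
    (by positivity)
  set K := ∑ γ ∈ B k, ‖(γ⁻¹).h X‖ with hK
  have K0 : 0 ≤ K := by positivity
  obtain ⟨q, N, q1, q2, q3, mN, μN, hq⟩ := exists_clopen μ hr Φ f1 (ε := δ / 2 / (K + 1))
    (by positivity)
  refine ⟨mkRule w q q1 q2 q3, fun Q lab => ?_⟩
  set R := mkRule w q q1 q2 q3 with hR
  choose l hl using fun ω : Pt X => exists_ind (g := fun σ => ω.r (Q.lp lab σ))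
    (fun σ => ω.r01 (Q.lp_pr lab σ)) (by rw [← map_sum, Q.lp_sum, Chr.r_one])
  have ml : ∀ π, MeasurableSet {ω | l ω = π} := fun π => by
    have : {ω | l ω = π} = Pt.U X (Q.lp lab π) := by
      ext ω
      simp only [Pt.U, Set.mem_ofPred_eq, hl]
      split_ifs with h
      · simp [h]
      · simp [Ne.symm h]
    rw [this]; exact Pt.meas_U (Q.lp_pr lab π)
  have key : ∀ ω ∉ N, ω.r (R.p Q lab (Φ ω fun i => l (w i • ω))) = 1 := fun ω hω => by
    rw [R.chr_p' Q lab ω.toChr (fun i => l (w i • ω)) fun i σ => hl (w i • ω) σ]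
    have := hq ω hω fun i => (l (w 0 • ω))⁻¹ * l (w i • ω)
    rwa [f2] at this
  set θ := C / √r with hθ
  have θ0 : 0 ≤ θ := by positivity
  set Bad := {ω | ¬ (mkSys μ hμ hy h0 h1 T hT).Good (B k) θ
    (fun ω' => Φ ω' fun i => l (w i • ω')) ω} ∪ ⋃ γ ∈ B k, (fun ω => γ • ω) ⁻¹' N with hBad
  have μB : μ Bad ≤ ENNReal.ofReal δ := by
    refine (measure_union_le _ _).trans ((add_le_add (f3 l ml) ((measure_biUnion_finset_le _ _).trans
      (Finset.sum_le_sum fun γ _ => (Pt.meas_pre hμ γ mN).trans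
        (mul_le_mul_right μN _)))).trans ?_)
    rw [← Finset.sum_mul, ← ENNReal.ofReal_sum_of_nonneg fun _ _ => norm_nonneg _,
      ← ENNReal.ofReal_mul K0, ← ENNReal.ofReal_add (by positivity) (by positivity)]
    refine ENNReal.ofReal_le_ofReal ?_
    have : K * (δ / 2 / (K + 1)) ≤ δ / 2 := by
      rw [mul_div_assoc', div_le_iff₀ (by positivity)]; nlinarith
    linarith
  rw [R.pinch_eq]
  set P := R.part Q lab with hP
  have sz := P.pinch_sa hy
  have z0 : 0 ≤ P.pinch y ^ (2 * k) := by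
    rw [two_mul, pow_add]
    simpa only [(sz.pow k).star_eq] using star_mul_self_nonneg (P.pinch y ^ k)
  have pt : ∀ ω : Pt X, ENNReal.ofReal (ω.r (P.pinch y ^ (2 * k)))
      ≤ ENNReal.ofReal (θ ^ (2 * k)) + Bad.indicator 1 ω := fun ω => by
    by_cases hω : ω ∈ Bad
    · have : Nontrivial M := ⟨1, 0, fun e => by simpa [e] using ω.one⟩
      rw [Set.indicator_of_mem hω]
      refine le_add_left (ENNReal.ofReal_le_one.2 ((le_abs_self _).trans
        ((ω.abs_le z0.isSelfAdjoint).trans ((norm_pow_le _ _).trans ?_))))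
      exact pow_le_one₀ (norm_nonneg _) ((P.norm_pinch y).trans h1)
    · simp only [hBad, Set.mem_union, Set.mem_ofPred_eq, Set.mem_iUnion, Set.mem_preimage,
        not_or, not_not, not_exists] at hω
      exact le_add_right (ENNReal.ofReal_le_ofReal (ω.good_bound hy (hT ω) b0 bm bs P
        (fun ω' => Φ ω' fun i => l (w i • ω')) k (fun γ hγ => key _ (hω.2 γ hγ)) θ0 hω.1))
  have k0 := S.re_nonneg (zero_le_one' M)
  have μ1 : μ Set.univ = ENNReal.ofReal (S.κ 1).re := by simpa using hμ 1 zero_le_one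
  have fin := (hμ _ z0).symm.trans_le (lintegral_mono pt)
  rw [lintegral_add_left measurable_const, lintegral_const, μ1] at fin
  replace fin := fin.trans (add_le_add le_rfl ((lintegral_indicator_one_le _).trans μB))
  rw [← ENNReal.ofReal_mul (by positivity), ← ENNReal.ofReal_add (by positivity) hδ.le] at fin
  exact (ENNReal.ofReal_le_ofReal_iff (by positivity)).1 fin

end Vale.Agent.P078
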