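import Vale.Agent.P078.L2

/-! Characters of the abelian algebra, support and spectral projections. -/

namespace Vale.Agent.P078

open scoped ComplexOrder InnerProductSpace ComplexConjugate
open Filter Topology

variable {M : Type*} [CStarAlgebra M] [PartialOrder M] [StarOrderedRing M] {S : Setup M}

/-- self-adjoint elements of `A` -/
structure Setup.Sa (S : Setup M) (a : M) : Prop where
  mem : a ∈ S.A
  sa : IsSelfAdjoint a

/-- projections of `A` -/
structure Setup.Pr (S : Setup M) (p : M) : Prop where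
  mem : p ∈ S.A
  proj : IsStarProjection p

namespace Setup.Sa
variable {a b : M}
lemma one : S.Sa 1 := ⟨one_mem _, .one M⟩
lemma zero : S.Sa 0 := ⟨zero_mem _, .zero M⟩
lemma add (ha : S.Sa a) (hb : S.Sa b) : S.Sa (a + b) := ⟨add_mem ha.1 hb.1, ha.2.add hb.2⟩
lemma sub (ha : S.Sa a) (hb : S.Sa b) : S.Sa (a - b) := ⟨sub_mem ha.1 hb.1, ha.2.sub hb.2⟩
lemma neg (ha : S.Sa a) : S.Sa (-a) := ⟨neg_mem ha.1, ha.2.neg⟩
lemma mul (ha : S.Sa a) (hb : S.Sa b) : S.Sa (a * b) :=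
  ⟨mul_mem ha.1 hb.1, by
    rw [IsSelfAdjoint, star_mul, ha.2.star_eq, hb.2.star_eq, S.comm _ ha.1 _ hb.1]⟩
lemma smul (t : ℝ) (ha : S.Sa a) : S.Sa (t • a) :=
  ⟨S.rsmul_mem ha.1 t, (IsSelfAdjoint.all t).smul ha.2⟩
lemma sum {J : Type*} (s : Finset J) {f : J → M} (h : ∀ j ∈ s, S.Sa (f j)) :
    S.Sa (∑ j ∈ s, f j) :=
  ⟨sum_mem fun j hj => (h j hj).1, isSelfAdjoint_sum s fun j hj => (h j hj).2⟩
lemma of_nonneg (ha : a ∈ S.A) (h : 0 ≤ a) : S.Sa a := ⟨ha, h.isSelfAdjoint⟩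
lemma cfc (ha : a ∈ S.A) (f : ℝ → ℝ) : S.Sa (cfc f a) := ⟨S.cfc_mem ha f, cfc_predicate _ _⟩
end Setup.Sa

namespace Setup.Pr
variable {p q : M}
lemma sa (hp : S.Pr p) : S.Sa p := ⟨hp.1, hp.2.isSelfAdjoint⟩
lemma star_eq (hp : S.Pr p) : star p = p := hp.2.isSelfAdjoint.star_eq
lemma sq (hp : S.Pr p) : p * p = p := hp.2.isIdempotentElem.eq
lemma sq' (hp : S.Pr p) (x : M) : p * (p * x) = p * x := by rw [← mul_assoc, hp.sq]
lemma nonneg (hp : S.Pr p) : 0 ≤ p := hp.2.nonneg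
lemma le_one (hp : S.Pr p) : p ≤ 1 := hp.2.le_one
lemma norm_le (hp : S.Pr p) : ‖p‖ ≤ 1 := hp.2.norm_le
lemma one : S.Pr 1 := ⟨one_mem _, .one M⟩
lemma zero : S.Pr 0 := ⟨zero_mem _, .zero M⟩
lemma one_sub (hp : S.Pr p) : S.Pr (1 - p) := ⟨sub_mem (one_mem _) hp.1, hp.2.one_sub⟩
lemma mul (hp : S.Pr p) (hq : S.Pr q) : S.Pr (p * q) :=
  ⟨mul_mem hp.1 hq.1, hp.2.mul hq.2 (S.comm _ hp.1 _ hq.1)⟩
lemma add (hp : S.Pr p) (hq : S.Pr q) (h : p * q = 0) : S.Pr (p + q) :=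
  ⟨add_mem hp.1 hq.1, hp.2.add hq.2 h⟩
end Setup.Pr

lemma Part.pr (P : Part S) (i : Fin P.n) : S.Pr (P.e i) := ⟨P.mem i, P.proj i⟩

/-- a character of `A`, extended linearly -/
structure Chr (S : Setup M) where
  f : M →ₗ[ℂ] ℂ
  one : f 1 = 1
  mul : ∀ a ∈ S.A, ∀ b ∈ S.A, f (a * b) = f a * f b
  spec : ∀ a ∈ S.A, f a ∈ spectrum ℂ a

/-- `A` as a type -/
def Setup.B (S : Setup M) : Type _ := S.A

noncomputable instance (S : Setup M) : CommCStarAlgebra S.B :=
  haveI := S.isClosed_A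
  { (inferInstance : CStarAlgebra S.A) with
    mul_comm := fun a b => Subtype.ext (S.comm _ a.2 _ b.2) }

lemma Setup.exists_chr (S : Setup M) {a : M} (ha : a ∈ S.A) {z : ℂ} (hz : z ∈ spectrum ℂ a) :
    ∃ φ : Chr S, φ.f a = z := by
  have := S.isClosed_A
  have sp : ∀ b : S.A, spectrum ℂ (show S.B from b) = spectrum ℂ (b : M) := fun b =>
    StarSubalgebra.spectrum_eq S.A (a := b)
  obtain ⟨φ, hφ⟩ := (WeakDual.CharacterSpace.mem_spectrum_iff_exists (A := S.B)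
    (a := (⟨a, ha⟩ : S.A)) (z := z)).1 (by rw [sp]; exact hz)
  let g : S.A.toSubalgebra.toSubmodule →ₗ[ℂ] ℂ :=
    { toFun := fun b => φ (show S.B from ⟨b.1, b.2⟩)
      map_add' := fun b c => map_add φ (show S.B from ⟨b.1, b.2⟩) (show S.B from ⟨c.1, c.2⟩)
      map_smul' := fun t b => map_smul φ t (show S.B from ⟨b.1, b.2⟩) }
  obtain ⟨F, hF⟩ := LinearMap.exists_extend g
  have e : ∀ (b : M) (hb : b ∈ S.A), F b = φ (show S.B from ⟨b, hb⟩) := fun b hb =>
    LinearMap.congr_fun hF ⟨b, hb⟩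
  refine ⟨⟨F, ?_, fun b hb c hc => ?_, fun b hb => ?_⟩, by rw [← hφ]; exact e a ha⟩
  · rw [e 1 (one_mem _)]; exact map_one (WeakDual.CharacterSpace.toAlgHom φ)
  · rw [e b hb, e c hc, e _ (mul_mem hb hc)]
    exact map_mul φ (show S.B from ⟨b, hb⟩) (show S.B from ⟨c, hc⟩)
  · rw [e b hb, ← sp ⟨b, hb⟩]
    exact WeakDual.CharacterSpace.apply_mem_spectrum φ _

namespace Chr
variable (φ : Chr S) {a b p q : M}

/-- real part of a character -/
noncomputable def r : M →ₗ[ℝ] ℝ := Complex.reLm ∘ₗ φ.f.restrictScalars ℝ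

lemma r_def (x : M) : φ.r x = (φ.f x).re := rfl

lemma f_eq (ha : S.Sa a) : φ.f a = (φ.r a : ℂ) :=
  ha.2.mem_spectrum_eq_re (φ.spec a ha.1)

lemma r_spec (ha : S.Sa a) : φ.r a ∈ spectrum ℝ a := by
  rw [← spectrum.algebraMap_mem_iff ℂ]
  have := φ.spec a ha.1
  rwa [φ.f_eq ha] at this

@[simp] lemma r_one : φ.r 1 = 1 := by rw [r_def, φ.one]; rfl

lemma r_mul (ha : S.Sa a) (hb : S.Sa b) : φ.r (a * b) = φ.r a * φ.r b := by
  rw [r_def, φ.mul a ha.1 b hb.1, φ.f_eq ha, Complex.re_ofReal_mul]; rfl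

lemma r_csmul (t : ℝ) (x : M) : φ.r ((t : ℂ) • x) = t * φ.r x := by
  rw [Complex.coe_smul, map_smul, smul_eq_mul]

lemma r_nonneg (ha : a ∈ S.A) (h : 0 ≤ a) : 0 ≤ φ.r a :=
  spectrum_nonneg_of_nonneg h (φ.r_spec ⟨ha, h.isSelfAdjoint⟩)

lemma r_mono (ha : a ∈ S.A) (hb : b ∈ S.A) (h : a ≤ b) : φ.r a ≤ φ.r b := by
  have := φ.r_nonneg (sub_mem hb ha) (sub_nonneg.2 h)
  rw [map_sub] at this; linarith

lemma r01 (hp : S.Pr p) : φ.r p = 0 ∨ φ.r p = 1 := by
  have := φ.r_mul hp.sa hp.sa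
  rw [hp.sq] at this
  by_cases h : φ.r p = 0
  · exact .inl h
  · exact .inr (mul_left_cancel₀ h (by rw [← this, mul_one]))

lemma r_abs_le (ha : S.Sa a) : |φ.r a| ≤ ‖a‖ := by
  rcases subsingleton_or_nontrivial M with h | h
  · rw [Subsingleton.elim a 0]; simp
  · exact spectrum.norm_le_norm_of_mem (φ.r_spec ha)

end Chr

lemma Setup.nonneg_of_chr (S : Setup M) {a : M} (ha : S.Sa a) (h : ∀ φ : Chr S, 0 ≤ φ.r a) :
    0 ≤ a := by
  rw [StarOrderedRing.nonneg_iff_spectrum_nonneg (R := ℝ) a ha.2]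
  intro t ht
  obtain ⟨φ, hφ⟩ := S.exists_chr ha.1 ((spectrum.algebraMap_mem_iff ℂ).2 ht)
  have := h φ
  rwa [φ.r_def, hφ] at this

lemma Setup.le_of_chr (S : Setup M) {a b : M} (ha : S.Sa a) (hb : S.Sa b)
    (h : ∀ φ : Chr S, φ.r a ≤ φ.r b) : a ≤ b :=
  sub_nonneg.1 (S.nonneg_of_chr (hb.sub ha) fun φ => by rw [map_sub]; linarith [h φ])

lemma Setup.eq_of_chr (S : Setup M) {a b : M} (ha : S.Sa a) (hb : S.Sa b)
    (h : ∀ φ : Chr S, φ.r a = φ.r b) : a = b :=
  le_antisymm (S.le_of_chr ha hb fun φ => (h φ).le) (S.le_of_chr hb ha fun φ => (h φ).ge)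

lemma Setup.pr_of_chr (S : Setup M) {a : M} (ha : S.Sa a)
    (h : ∀ φ : Chr S, φ.r a = 0 ∨ φ.r a = 1) : S.Pr a :=
  ⟨ha.1, S.eq_of_chr (ha.mul ha) ha fun φ => by
    rw [φ.r_mul ha ha]; rcases h φ with h | h <;> simp [h], ha.2⟩

lemma Setup.norm_le_of_chr (S : Setup M) {a : M} (ha : S.Sa a) {C : ℝ} (hC : 0 ≤ C)
    (h : ∀ φ : Chr S, |φ.r a| ≤ C) : ‖a‖ ≤ C := by
  rw [← cfc_id ℝ a ha.2]
  refine norm_cfc_le hC fun t ht => ?_
  obtain ⟨φ, hφ⟩ := S.exists_chr ha.1 ((spectrum.algebraMap_mem_iff ℂ).2 ht)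
  have := h φ
  rwa [φ.r_def, hφ] at this

/-! Support and spectral projections. -/

lemma Setup.exists_supp (S : Setup M) {b : M} (hb : 0 ≤ b) : ∃ e : M, IsStarProjection e ∧
    e * b = b ∧ (∀ z, z * b = 0 → z * e = 0) ∧ ∀ z, z * b = b * z → z * e = e * z := by
  let g : ℕ → ℝ → ℝ := fun n t => 1 / (|t| + 1 / ((n : ℝ) + 1))
  have gc : ∀ n, Continuous (g n) := fun n =>
    continuous_const.div (by fun_prop) fun t => by positivity
  let y : ℕ → M := fun n => cfc (fun t => t * g n t) b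
  have hy : ∀ n, y n = b * cfc (g n) b := fun n => by
    simp only [y]; rw [cfc_mul _ _ b, cfc_id' ℝ b]
  have hn : ∀ n, ‖y n‖ ≤ 1 := fun n => norm_cfc_le zero_le_one fun t _ => by
    simp only [g, Real.norm_eq_abs, mul_one_div]
    rw [abs_div, abs_of_pos (by positivity : 0 < |t| + 1 / ((n : ℝ) + 1)),
      div_le_one (by positivity)]
    exact le_add_of_nonneg_right (by positivity)
  have hm : Monotone y := fun n m h => by
    refine cfc_mono fun t ht => mul_le_mul_of_nonneg_left ?_ (spectrum_nonneg_of_nonneg hb ht)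
    simp only [g]
    have : (n : ℝ) ≤ m := by exact_mod_cast h
    gcongr
  obtain ⟨e, he⟩ := S.mono_lim hn hm
  have h1 : e * b = b := by
    refine (he.mul_right b).unique (.of_norm (C := 1 * ‖b‖)
      (fun n => (norm_mul_le _ _).trans (by gcongr; exact hn n)) ?_)
    refine tendsto_iff_norm_sub_tendsto_zero.2 (squeeze_zero (fun _ => norm_nonneg _)
      (fun n => ?_) tendsto_one_div_add_atTop_nhds_zero_nat)
    have : y n * b - b = cfc (fun t => t * g n t * t - t) b := by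
      rw [cfc_sub _ _ b, cfc_mul _ _ b, cfc_id' ℝ b]
    rw [this]
    refine norm_cfc_le (by positivity) fun t ht => ?_
    have h0 := spectrum_nonneg_of_nonneg hb ht
    have h2 : (0 : ℝ) < 1 / ((n : ℝ) + 1) := by positivity
    simp only [g, abs_of_nonneg h0, Real.norm_eq_abs]
    generalize 1 / ((n : ℝ) + 1) = s at *
    have : t * (1 / (t + s)) * t - t = -(s * (t / (t + s))) := by field_simp; ring
    rw [this, abs_neg, abs_of_nonneg (by positivity)]
    exact mul_le_of_le_one_right h2.le ((div_le_one (by positivity)).2 (by linarith))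
  have h2 : ∀ z, z * b = 0 → z * e = 0 := fun z hz =>
    (he.mul_left z).eq (.const S _ 0) (.of_forall fun n => by rw [hy, ← mul_assoc, hz, zero_mul])
  refine ⟨e, ⟨?_, he.sa fun n => cfc_predicate _ _⟩, h1, h2, fun z hz =>
    he.comm (.of_forall fun n => (Commute.cfc_real (Commute.symm hz) _).eq.symm)⟩
  have := h2 (1 - e) (by rw [sub_mul, one_mul, h1, sub_self])
  rw [sub_mul, one_mul, sub_eq_zero] at this
  exact this.symm

lemma Setup.exists_spec (S : Setup M) {w : M} (hw : IsSelfAdjoint w) (t : ℝ) :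
    ∃ q : M, IsStarProjection q ∧ (∀ z, z * w = w * z → z * q = q * z) ∧
      w * q ≤ (t : ℂ) • q ∧ (t : ℂ) • (1 - q) ≤ w * (1 - q) := by
  set b := cfc (fun s : ℝ => max (s - t) 0) w with hb
  set c := cfc (fun s : ℝ => max (t - s) 0) w with hc
  have b0 : 0 ≤ b := cfc_nonneg fun s _ => le_max_right _ _
  have c0 : 0 ≤ c := cfc_nonneg fun s _ => le_max_right _ _
  have cb : c * b = 0 := by
    rw [hb, hc, ← cfc_mul _ _ w, ← cfc_zero ℝ w]
    refine cfc_congr fun s _ => ?_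
    rcases le_total s t with h | h
    · simp [max_eq_right (sub_nonpos.2 h)]
    · simp [max_eq_right (sub_nonpos.2 h)]
  have hd : w = (t : ℂ) • (1 : M) + b - c := by
    rw [Complex.coe_smul, ← Algebra.algebraMap_eq_smul_one, ← cfc_const t w, hb, hc,
      ← cfc_add w _ _, ← cfc_sub _ _ w]
    conv_lhs => rw [← cfc_id ℝ w]
    refine cfc_congr fun s _ => ?_
    rcases le_total s t with h | h
    · simp [max_eq_right (sub_nonpos.2 h), max_eq_left (sub_nonneg.2 h)]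
    · simp [max_eq_right (sub_nonpos.2 h), max_eq_left (sub_nonneg.2 h)]
  obtain ⟨e, he, h1, h2, h3⟩ := S.exists_supp b0
  have ce := h2 c cb
  have be : b * e = b := by
    have := congrArg star h1
    rwa [star_mul, he.isSelfAdjoint.star_eq, b0.isSelfAdjoint.star_eq] at this
  refine ⟨1 - e, he.one_sub, fun z hz => ?_, ?_, ?_⟩
  · rw [mul_sub, sub_mul, h3 z (Commute.cfc_real (Commute.symm hz) _).eq.symm, mul_one, one_mul]
  · have : w * (1 - e) = (t : ℂ) • (1 - e) - c := by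
      conv_lhs => rw [hd]
      simp only [sub_mul, add_mul, mul_sub, smul_mul_assoc, be, ce, mul_one, one_mul, smul_sub]
      abel
    rw [this]; exact sub_le_self _ c0
  · have : w * (1 - (1 - e)) = (t : ℂ) • (1 - (1 - e)) + b := by
      rw [sub_sub_cancel]
      conv_lhs => rw [hd]
      simp only [sub_mul, add_mul, smul_mul_assoc, be, ce, one_mul, sub_zero]
    rw [this]; exact le_add_of_nonneg_right b0

lemma Setup.spec_chr (S : Setup M) {a : M} (ha : S.Sa a) (t : ℝ) : ∃ q, S.Pr q ∧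
    ∀ φ : Chr S, (φ.r q = 1 ∧ t ≤ φ.r a) ∨ (φ.r q = 0 ∧ φ.r a ≤ t) := by
  obtain ⟨q, hq, h1, h2, h3⟩ := S.exists_spec ha.2 t
  have hP : S.Pr q := ⟨S.maximal q fun b hb => h1 b (S.comm _ hb _ ha.1), hq⟩
  refine ⟨1 - q, hP.one_sub, fun φ => ?_⟩
  have e2 := φ.r_mono (mul_mem ha.1 hP.1) (S.A.smul_mem hP.1 _) h2
  have e3 := φ.r_mono (S.A.smul_mem hP.one_sub.1 _) (mul_mem ha.1 hP.one_sub.1) h3
  rw [φ.r_mul ha hP.sa, φ.r_csmul] at e2
  rw [φ.r_mul ha hP.one_sub.sa, φ.r_csmul] at e3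
  rw [map_sub, φ.r_one] at e3 ⊢
  rcases φ.r01 hP with h | h
  · left; rw [h] at e3 ⊢; constructor <;> linarith
  · right; rw [h] at e2 ⊢; constructor <;> linarith

/-- A bounded additive functional which is nonnegative on projections is nonnegative on `A₊`. -/
lemma Setup.nonneg_of_pr (S : Setup M) (D : M →L[ℝ] ℝ) (h : ∀ p, S.Pr p → 0 ≤ D p) {a : M}
    (ha : a ∈ S.A) (h0 : 0 ≤ a) : 0 ≤ D a := by
  have key : ∀ n : ℕ, ∀ a ∈ S.A, 0 ≤ a → ‖a‖ ≤ 1 → -(‖D‖ * (1 / 2) ^ n) ≤ D a := by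
    intro n
    induction n with
    | zero =>
      intro a _ _ h1
      have := D.le_opNorm a
      have := neg_abs_le (D a)
      have := mul_le_mul_of_nonneg_left h1 (norm_nonneg D)
      rw [Real.norm_eq_abs] at *
      simp only [pow_zero]; linarith
    | succ n ih =>
      intro a ha h0 h1
      have sa : S.Sa a := .of_nonneg ha h0
      obtain ⟨q, hq, hφ⟩ := S.spec_chr sa (1 / 2)
      have sb := (sa.smul 2).sub hq.sa
      have hb : ∀ φ : Chr S, 0 ≤ φ.r ((2 : ℝ) • a - q) ∧ φ.r ((2 : ℝ) • a - q) ≤ 1 := fun φ => by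
        have := φ.r_nonneg ha h0
        have := (le_abs_self _).trans ((φ.r_abs_le sa).trans h1)
        rw [map_sub, map_smul, smul_eq_mul]
        rcases hφ φ with h | h <;> constructor <;> linarith [h.1, h.2]
      have := ih _ sb.1 (S.nonneg_of_chr sb fun φ => (hb φ).1)
        (S.norm_le_of_chr sb zero_le_one fun φ => abs_le.2 ⟨by linarith [(hb φ).1], (hb φ).2⟩)
      rw [map_sub, map_smul, smul_eq_mul] at this
      have := h q hq
      rw [pow_succ]; linarith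
  have key2 : ∀ a ∈ S.A, 0 ≤ a → ‖a‖ ≤ 1 → 0 ≤ D a := fun a ha h0 h1 => by
    refine le_of_tendsto' (f := fun n : ℕ => -(‖D‖ * (1 / 2) ^ n)) (x := atTop) ?_
      fun n => key n a ha h0 h1
    simpa using ((tendsto_pow_atTop_nhds_zero_of_lt_one (r := (1 / 2 : ℝ)) (by norm_num)
      (by norm_num)).const_mul ‖D‖).neg
  have hp : 0 < ‖a‖ + 1 := by positivity
  have := key2 ((‖a‖ + 1)⁻¹ • a) (S.rsmul_mem ha _) (smul_nonneg (by positivity) h0) (by
    rw [norm_smul, Real.norm_eq_abs, abs_of_pos (by positivity), inv_mul_le_iff₀ hp]; linarith)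
  rw [map_smul, smul_eq_mul] at this
  exact (mul_nonneg_iff_of_pos_left (by positivity)).1 this

/-- A bounded linear functional vanishing on projections vanishes on `A`. -/
lemma Setup.zero_of_pr (S : Setup M) (D : M →L[ℂ] ℂ) (h : ∀ p, S.Pr p → D p = 0) {a : M}
    (ha : a ∈ S.A) : D a = 0 := by
  have k1 : ∀ (L : ℂ →L[ℝ] ℝ), ∀ a ∈ S.A, 0 ≤ a → L (D a) = 0 := fun L a ha h0 => by
    have h1 := S.nonneg_of_pr (L ∘L D.restrictScalars ℝ) (fun p hp => by simp [h p hp]) ha h0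
    have h2 := S.nonneg_of_pr (-(L ∘L D.restrictScalars ℝ)) (fun p hp => by simp [h p hp]) ha h0
    simp only [neg_apply, ContinuousLinearMap.comp_apply,
      ContinuousLinearMap.coe_restrictScalars'] at h1 h2
    linarith
  have k2 : ∀ a ∈ S.A, 0 ≤ a → D a = 0 := fun a ha h0 =>
    Complex.ext (k1 Complex.reCLM a ha h0) (k1 Complex.imCLM a ha h0)
  have k3 : ∀ a, S.Sa a → D a = 0 := fun a ha => by
    have h1 := k2 (a + ‖a‖ • (1 : M)) (ha.add (.smul _ .one)).1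
      (S.nonneg_of_chr (ha.add (.smul _ .one)) fun φ => by
        have := neg_abs_le (φ.r a)
        have := φ.r_abs_le ha
        rw [map_add, map_smul, φ.r_one, smul_eq_mul]; linarith)
    rwa [map_add, ← Complex.coe_smul, map_smul, h 1 .one, smul_zero, add_zero] at h1
  have e : a = (2⁻¹ : ℂ) • (a + star a) + (2⁻¹ * -Complex.I) • (Complex.I • (a - star a)) := by
    rw [smul_smul, mul_assoc, neg_mul, Complex.I_mul_I]; module
  have s1 : S.Sa (a + star a) := ⟨add_mem ha (star_mem ha), .add_star_self a⟩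
  have s2 : S.Sa (Complex.I • (a - star a)) := ⟨S.A.smul_mem (sub_mem ha (star_mem ha)) _, by
    rw [IsSelfAdjoint, star_smul, star_sub, star_star, Complex.star_def, Complex.conj_I]; module⟩
  rw [e, map_add, map_smul, map_smul _ (2⁻¹ * -Complex.I), k3 _ s1, k3 _ s2]; simp

/-- two operators intertwined on projections -/
lemma Setup.mem_of_pr (S : Setup M) {y : M} (h : ∀ p, S.Pr p → p * y = y * p) : y ∈ S.A := by
  refine S.maximal y fun a ha => S.eq_of_kap fun c => ?_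
  have := S.zero_of_pr (S.κ ∘L (ContinuousLinearMap.mulLeftRight ℂ M (star c) y -
    ContinuousLinearMap.mulLeftRight ℂ M (star c * y) 1)) (fun p hp => by
      simp [mul_assoc, h p hp]) ha
  simpa [mul_assoc, sub_eq_zero] using this

end Vale.Agent.P078
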