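import Mathlib

/-! Strong resolvent convergence and a bounded approximation of the identity function. -/

namespace Vale.Agent.P078

open Filter Topology

lemma abs_le_of_spec {B : Type*} [CStarAlgebra B] {a : B} {t : ℝ} (h : t ∈ spectrum ℝ a) :
    |t| ≤ ‖a‖ := by
  rcases subsingleton_or_nontrivial B with h' | h'
  · simp [spectrum.of_subsingleton] at h
  · exact spectrum.norm_le_norm_of_mem h

/-- `1 / (1 + t ^ 2)` -/
noncomputable def kk (t : ℝ) : ℝ := 1 / (1 + t ^ 2)

@[fun_prop] lemma kk_cont : Continuous kk :=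
  continuous_const.div (by fun_prop) fun t => by positivity

lemma kk_pos (t : ℝ) : 0 < kk t := by unfold kk; positivity
lemma kk_mul (t : ℝ) : (1 + t ^ 2) * kk t = 1 := by unfold kk; field_simp
lemma kk_le (t : ℝ) : kk t ≤ 1 := by
  have := kk_mul t; have := kk_pos t; nlinarith [sq_nonneg t]
lemma tkk_le (t : ℝ) : |2 * t * kk t| ≤ 1 := by
  have := kk_mul t; have := kk_pos t
  rw [abs_le]; constructor <;> nlinarith [sq_nonneg (t - 1), sq_nonneg (t + 1)]

section
variable {B : Type*} [CStarAlgebra B]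

/-- the resolvent at `∓ i` -/
noncomputable def res (s : ℂ) (y : B) : B := cfc (fun t => t * kk t) y - s • cfc kk y

lemma res_norm {s : ℂ} (hs : ‖s‖ = 1) (y : B) : ‖res s y‖ ≤ 2 := by
  have h1 : ‖cfc (fun t => t * kk t) y‖ ≤ 1 := norm_cfc_le zero_le_one fun t _ => by
    have := tkk_le t
    rw [mul_assoc, abs_mul, abs_two] at this
    rw [Real.norm_eq_abs]; linarith [abs_nonneg (t * kk t)]
  have h2 : ‖cfc kk y‖ ≤ 1 := norm_cfc_le zero_le_one fun t _ => by
    rw [Real.norm_eq_abs, abs_of_pos (kk_pos t)]; exact kk_le t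
  refine (norm_sub_le _ _).trans ?_
  rw [norm_smul, hs]; linarith

lemma res_mul {s : ℂ} (hs : s * s = -1) {y : B} (hy : IsSelfAdjoint y) :
    res s y * (y + s • 1) = 1 ∧ (y + s • 1) * res s y = 1 := by
  have h1 : cfc (fun t => t * kk t) y = y * cfc kk y := by
    rw [cfc_mul _ _ y, cfc_id' ℝ y]
  have h2 : cfc kk y * y = y * cfc kk y := (Commute.cfc_real (Commute.refl y) kk).eq
  have h3 : y * (y * cfc kk y) + cfc kk y = 1 := by
    have : cfc (fun t => t * (t * kk t) + kk t) y = cfc (fun _ => (1 : ℝ)) y :=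
      cfc_congr fun t _ => by have := kk_mul t; linarith
    rwa [cfc_add y _ _, cfc_mul _ _ y, h1, cfc_id' ℝ y, cfc_const_one ℝ y] at this
  rw [res, h1]
  constructor
  · refine Eq.trans ?_ h3
    simp only [sub_mul, mul_add, mul_smul_comm, smul_mul_assoc, mul_one, smul_sub, smul_smul, hs,
      mul_assoc, h2]
    module
  · refine Eq.trans ?_ h3
    simp only [add_mul, mul_sub, mul_smul_comm, smul_mul_assoc, one_mul, smul_add, smul_smul, hs]
    module

end

variable {H : Type*} [NormedAddCommGroup H] [InnerProductSpace ℂ H] [CompleteSpace H]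

/-- data for strong resolvent convergence on a subspace -/
structure SRC (K : Submodule ℂ H) (D : Set H) (Y : ℕ → H →L[ℂ] H) (T : H →L[ℂ] H) : Prop where
  hY : ∀ n, IsSelfAdjoint (Y n)
  hT : IsSelfAdjoint T
  inv : ∀ f : ℝ → ℝ, ∀ η ∈ K, cfc f T η ∈ K
  dense : ∀ η ∈ K, η ∈ closure D
  conv : ∀ b ∈ D, Tendsto (fun n => Y n b) atTop (𝓝 (T b))

variable {K : Submodule ℂ H} {D : Set H} {Y : ℕ → H →L[ℂ] H} {T : H →L[ℂ] H}

lemma SRC.res (h : SRC K D Y T) {s : ℂ} (hs : s * s = -1) (hn : ‖s‖ = 1) {η : H} (hη : η ∈ K) :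
    Tendsto (fun n => res s (Y n) η) atTop (𝓝 (res s T η)) := by
  have hζ : P078.res s T η ∈ K := sub_mem (h.inv _ η hη) (K.smul_mem s (h.inv _ η hη))
  refine Metric.tendsto_atTop.2 fun ε hε => ?_
  set c := ‖T + s • 1‖ + 1 with hc
  have c0 : 0 < c := by positivity
  obtain ⟨b, hb, h1⟩ := Metric.mem_closure_iff.1 (h.dense _ hζ) (ε / (8 * c)) (by positivity)
  obtain ⟨N, hN⟩ := Metric.tendsto_atTop.1 (h.conv b hb) (ε / 4) (by positivity)
  refine ⟨N, fun n hn' => ?_⟩
  have h2 := hN n hn'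
  rw [dist_eq_norm] at h1 h2 ⊢
  have e1 : (T + s • 1) (P078.res s T η) = η := by
    rw [← mul_apply_eq_comp, (res_mul hs h.hT).2]; rfl
  have e2 : P078.res s T ((T + s • 1) b) = b := by
    rw [← mul_apply_eq_comp, (res_mul hs h.hT).1]; rfl
  have e3 : P078.res s (Y n) ((Y n + s • 1) b) = b := by
    rw [← mul_apply_eq_comp, (res_mul hs (h.hY n)).1]; rfl
  have e4 : P078.res s (Y n) η - P078.res s T η
      = (P078.res s (Y n) - P078.res s T) ((T + s • 1) (P078.res s T η - b))
        - P078.res s (Y n) (Y n b - T b) := by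
    have : Y n b - T b = (Y n + s • 1) b - (T + s • 1) b := by simp
    rw [this, map_sub, map_sub, map_sub, e1, e3, sub_apply, sub_apply, e2]; abel
  have n1 := res_norm hn (Y n)
  have n2 := res_norm hn T
  have n3 : ‖P078.res s (Y n) - P078.res s T‖ ≤ 4 := (norm_sub_le _ _).trans (by linarith)
  have n4 : ‖(T + s • 1) (P078.res s T η - b)‖ ≤ c * (ε / (8 * c)) :=
    ((T + s • 1).le_opNorm _).trans (by gcongr; linarith)
  have n5 : c * (ε / (8 * c)) = ε / 8 := by field_simp
  have n6 := (P078.res s (Y n) - P078.res s T).le_opNorm ((T + s • 1) (P078.res s T η - b))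
  have n7 := (P078.res s (Y n)).le_opNorm (Y n b - T b)
  have n8 := mul_le_mul n3 (n4.trans n5.le) (norm_nonneg _) (by norm_num)
  have n9 := mul_le_mul_of_nonneg_right n1 (norm_nonneg (Y n b - T b))
  rw [e4]
  refine (norm_sub_le _ _).trans_lt ?_
  linarith

/-- bounded continuous functions whose functional calculus converges -/
structure Gd (K : Submodule ℂ H) (Y : ℕ → H →L[ℂ] H) (T : H →L[ℂ] H) (f : ℝ → ℝ) : Prop where
  cont : Continuous f
  bdd : ∃ C, 0 ≤ C ∧ ∀ t, |f t| ≤ C
  conv : ∀ η ∈ K, Tendsto (fun n => cfc f (Y n) η) atTop (𝓝 (cfc f T η))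

lemma SRC.const (h : SRC K D Y T) (c : ℝ) : Gd K Y T fun _ => c :=
  ⟨continuous_const, ⟨|c|, abs_nonneg _, fun _ => le_rfl⟩, fun η _ => by
    simp only [fun n => cfc_const c (Y n) (h.hY n), cfc_const c T h.hT, tendsto_const_nhds]⟩

lemma Gd.add {f g : ℝ → ℝ} (hf : Gd K Y T f) (hg : Gd K Y T g) : Gd K Y T fun t => f t + g t := by
  obtain ⟨C, C0, hC⟩ := hf.bdd
  obtain ⟨E, E0, hE⟩ := hg.bdd
  have := hf.cont
  have := hg.cont
  refine ⟨by fun_prop, ⟨C + E, by positivity, fun t => (abs_add_le _ _).trans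
    (add_le_add (hC t) (hE t))⟩, fun η hη => ?_⟩
  simp only [fun a : H →L[ℂ] H => cfc_add a f g, add_apply]
  exact (hf.conv η hη).add (hg.conv η hη)

lemma SRC.mul (h : SRC K D Y T) {f g : ℝ → ℝ} (hf : Gd K Y T f) (hg : Gd K Y T g) :
    Gd K Y T fun t => f t * g t := by
  obtain ⟨C, C0, hC⟩ := hf.bdd
  obtain ⟨E, E0, hE⟩ := hg.bdd
  have := hf.cont
  have := hg.cont
  refine ⟨by fun_prop, ⟨C * E, by positivity, fun t => by
    rw [abs_mul]; exact mul_le_mul (hC t) (hE t) (abs_nonneg _) C0⟩, fun η hη => ?_⟩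
  simp only [fun a : H →L[ℂ] H => cfc_mul f g a, mul_apply_eq_comp]
  have h1 : Tendsto (fun n => cfc f (Y n) (cfc g (Y n) η - cfc g T η)) atTop (𝓝 0) := by
    refine squeeze_zero_norm (a := fun n => C * ‖cfc g (Y n) η - cfc g T η‖) (fun n => ?_) ?_
    · exact (ContinuousLinearMap.le_opNorm _ _).trans (mul_le_mul_of_nonneg_right
        (norm_cfc_le C0 fun t _ => hC t) (norm_nonneg _))
    · simpa using (tendsto_iff_norm_sub_tendsto_zero.1 (hg.conv η hη)).const_mul C
  simpa using h1.add (hf.conv _ (h.inv g η hη))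

lemma SRC.tkk (h : SRC K D Y T) : Gd K Y T fun t => t * kk t := by
  refine ⟨by fun_prop, ⟨1, zero_le_one, fun t => ?_⟩, fun η hη => ?_⟩
  · have := tkk_le t
    rw [mul_assoc, abs_mul, abs_two] at this
    linarith [abs_nonneg (t * kk t)]
  · have e : ∀ a : H →L[ℂ] H, cfc (fun t => t * kk t) a η
        = (2⁻¹ : ℂ) • (P078.res Complex.I a η + P078.res (-Complex.I) a η) := fun a => by
      simp only [P078.res, sub_apply, smul_apply]; module
    simp only [e]
    exact ((h.res (by simp) (by simp) hη).add (h.res (by simp) (by simp) hη)).const_smul _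

lemma SRC.kk (h : SRC K D Y T) : Gd K Y T kk := by
  refine ⟨by fun_prop, ⟨1, zero_le_one, fun t => ?_⟩, fun η hη => ?_⟩
  · rw [abs_of_pos (kk_pos t)]; exact kk_le t
  · have e : ∀ a : H →L[ℂ] H, cfc P078.kk a η
        = (2⁻¹ * Complex.I : ℂ) • (P078.res Complex.I a η - P078.res (-Complex.I) a η) :=
      fun a => by
        have : P078.res Complex.I a η - P078.res (-Complex.I) a η
            = (-2 * Complex.I : ℂ) • cfc P078.kk a η := by
          simp only [P078.res, sub_apply, smul_apply]; module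
        rw [this, smul_smul]
        have : (2⁻¹ * Complex.I * (-2 * Complex.I) : ℂ) = 1 := by
          linear_combination (-1 : ℂ) * Complex.I_mul_I
        rw [this, one_smul]
    simp only [e]
    exact ((h.res (by simp) (by simp) hη).sub (h.res (by simp) (by simp) hη)).const_smul _

lemma SRC.poly (h : SRC K D Y T) (p : Polynomial ℝ) : Gd K Y T fun t => p.eval (P078.kk t) := by
  induction p using Polynomial.induction_on with
  | C a => simpa using h.const a
  | add p q hp hq => simpa using hp.add hq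
  | monomial n a ih => simpa [pow_succ, mul_assoc] using h.mul ih h.kk

theorem SRC.exists_fun (h : SRC K D Y T) {η : ℝ} (hη : 0 < η) : ∃ f, Gd K Y T f ∧
    (∀ t, |f t| ≤ 1 + η) ∧ ∀ t, |t| ≤ 1 → |f t - t| ≤ η := by
  obtain ⟨p, hp⟩ := exists_polynomial_near_of_continuousOn 0 1 (fun s => 1 / max 1 (2 * s))
    (continuous_const.div (by fun_prop) fun s => by positivity).continuousOn η hη
  refine ⟨_, h.mul (h.mul (h.const 2) h.tkk) (h.poly p), fun t => ?_, fun t ht => ?_⟩
  · have h1 := hp _ ⟨(kk_pos t).le, kk_le t⟩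
    have h2 : |1 / max 1 (2 * P078.kk t)| ≤ 1 := by
      rw [abs_of_pos (by positivity), div_le_one (by positivity)]; exact le_max_left _ _
    have h3 : |p.eval (P078.kk t)| ≤ 1 + η := by
      have := abs_sub_abs_le_abs_sub (p.eval (P078.kk t)) (1 / max 1 (2 * P078.kk t))
      linarith
    rw [abs_mul, ← mul_assoc]
    exact (mul_le_of_le_one_left (abs_nonneg _) (tkk_le t)).trans h3
  · have h1 := hp _ ⟨(kk_pos t).le, kk_le t⟩
    have k0 := kk_pos t
    have h2 : 1 ≤ 2 * P078.kk t := by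
      have := kk_mul t
      have : t ^ 2 ≤ 1 := by rw [← sq_abs]; exact pow_le_one₀ (abs_nonneg _) ht
      nlinarith
    rw [max_eq_right h2] at h1
    have : 2 * (t * P078.kk t) * p.eval (P078.kk t) - t
        = 2 * t * P078.kk t * (p.eval (P078.kk t) - 1 / (2 * P078.kk t)) := by field_simp
    rw [this, abs_mul]
    exact (mul_le_of_le_one_left (abs_nonneg _) (tkk_le t)).trans h1.le

end Vale.Agent.P078
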