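import Vale.Agent.P078.Grp
import Vale.Agent.P078.Res

/-! The algebra spanned by normalizers and the decomposition into a discrete and a diffuse part. -/

namespace Vale.Agent.P078

open scoped ComplexOrder InnerProductSpace ComplexConjugate
open Filter Topology

variable {M : Type*} [CStarAlgebra M] [PartialOrder M] [StarOrderedRing M] {S : Setup M}

lemma N0_gen {u a : M} (hu : S.IsNor u) (ha : a ∈ S.A) : u * a ∈ S.N0 :=
  Submodule.subset_span ⟨u, a, hu, ha, rfl⟩

lemma N0_A {a : M} (ha : a ∈ S.A) : a ∈ S.N0 := by simpa using N0_gen .one ha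

lemma N0_nor {u : M} (hu : S.IsNor u) : u ∈ S.N0 := by simpa using N0_gen hu (one_mem _)

lemma N0_ind {p : M → Prop} (gen : ∀ u a, S.IsNor u → a ∈ S.A → p (u * a)) (h0 : p 0)
    (add : ∀ x y, p x → p y → p (x + y)) (smul : ∀ (c : ℂ) x, p x → p (c • x)) {b : M}
    (hb : b ∈ S.N0) : p b := by
  induction hb using Submodule.span_induction with
  | mem x hx => obtain ⟨u, a, hu, ha, rfl⟩ := hx; exact gen u a hu ha
  | zero => exact h0
  | add x y _ _ hx hy => exact add x y hx hy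
  | smul c x _ hx => exact smul c x hx

lemma N0_mul {x y : M} (hx : x ∈ S.N0) (hy : y ∈ S.N0) : x * y ∈ S.N0 := by
  refine N0_ind (p := fun x => x * y ∈ S.N0) (fun u a hu ha => ?_) (by simp)
    (fun _ _ h h' => by rw [add_mul]; exact add_mem h h')
    (fun c _ h => by rw [smul_mul_assoc]; exact S.N0.smul_mem c h) hx
  refine N0_ind (p := fun y => u * a * y ∈ S.N0) (fun v b hv hb => ?_) (by simp)
    (fun _ _ h h' => by rw [mul_add]; exact add_mem h h')
    (fun c _ h => by rw [mul_smul_comm]; exact S.N0.smul_mem c h) hy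
  have := N0_gen (hu.mul hv) (mul_mem (hv.memL ha) hb)
  simpa only [mul_assoc, hv.us'] using this

lemma N0_star {x : M} (hx : x ∈ S.N0) : star x ∈ S.N0 :=
  N0_ind (p := fun x => star x ∈ S.N0)
    (fun u a hu ha => by rw [star_mul]; exact N0_mul (N0_A (star_mem ha)) (N0_nor hu.star))
    (by simp) (fun _ _ h h' => by rw [star_add]; exact add_mem h h')
    (fun c _ h => by rw [star_smul]; exact S.N0.smul_mem _ h) hx

lemma N0_aeval {x : M} (hx : x ∈ S.N0) (p : Polynomial ℝ) : Polynomial.aeval x p ∈ S.N0 := by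
  have hc : ∀ a : ℝ, algebraMap ℝ M a ∈ S.N0 := fun a => by
    rw [Algebra.algebraMap_eq_smul_one]; exact N0_A (S.rsmul_mem (one_mem _) a)
  induction p using Polynomial.induction_on with
  | C a => simpa using hc a
  | add p q hp hq => rw [map_add]; exact add_mem hp hq
  | monomial n a ih =>
    rw [pow_succ, ← mul_assoc, map_mul, Polynomial.aeval_X]; exact N0_mul ih hx

lemma nor_right_bound (X : S.Exp) {u : M} (hu : S.IsNor u) :
    ∃ C, 0 ≤ C ∧ ∀ z, S.n2 (z * u) ≤ C * S.n2 z := by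
  obtain ⟨C, C0, hC⟩ := hu.bound
  refine ⟨√C, Real.sqrt_nonneg _, fun z => ?_⟩
  rw [S.n2_eq, S.n2_eq, ← Real.sqrt_mul C0]
  refine Real.sqrt_le_sqrt ?_
  have := (hC _ (X.mem (star z * z)) (X.pos _ (star_mul_self_nonneg z))).1
  rw [kap_conj_E X hu, X.kap] at this
  simpa only [Setup.q2, star_mul, mul_assoc] using this

lemma N0_right_bound (X : S.Exp) {b : M} (hb : b ∈ S.N0) :
    ∃ C, 0 ≤ C ∧ ∀ z, S.n2 (z * b) ≤ C * S.n2 z := by
  refine N0_ind (p := fun b => ∃ C, 0 ≤ C ∧ ∀ z, S.n2 (z * b) ≤ C * S.n2 z)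
    (fun u a hu ha => ?_) ⟨0, le_rfl, by simp⟩ ?_ ?_ hb
  · obtain ⟨C, C0, hC⟩ := nor_right_bound X hu
    refine ⟨‖a‖ * C, by positivity, fun z => ?_⟩
    rw [← mul_assoc, mul_assoc ‖a‖]
    exact (S.n2_mul_right _ ha).trans (mul_le_mul_of_nonneg_left (hC z) (norm_nonneg _))
  · rintro x y ⟨C, C0, hC⟩ ⟨D, D0, hD⟩
    refine ⟨C + D, by positivity, fun z => ?_⟩
    rw [mul_add, add_mul]
    exact (S.n2_add_le _ _).trans (add_le_add (hC z) (hD z))
  · rintro c x ⟨C, C0, hC⟩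
    refine ⟨‖c‖ * C, by positivity, fun z => ?_⟩
    rw [mul_smul_comm, S.n2_smul, mul_assoc]
    exact mul_le_mul_of_nonneg_left (hC z) (norm_nonneg _)

lemma N0_adj (X : S.Exp) {b : M} (hb : b ∈ S.N0) : ∃ b' ∈ S.N0, ∀ z, S.κ (z * b) = S.κ (b' * z) := by
  refine N0_ind (p := fun b => ∃ b' ∈ S.N0, ∀ z, S.κ (z * b) = S.κ (b' * z))
    (fun u a hu ha => ?_) ⟨0, zero_mem _, by simp⟩ ?_ ?_ hb
  · obtain ⟨h, hA, -, hh⟩ := exists_rn X hu
    refine ⟨h * (u * a), N0_mul (N0_A hA) (N0_gen hu ha), fun z => ?_⟩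
    have e : z * (u * a) = z * u * a := by rw [mul_assoc]
    have e' : a * (z * u) = star u * (u * a * z) * u := by simp only [mul_assoc, hu.su']
    rw [e, ← S.central _ ha, e', ← kap_conj_E X hu, hh _ (X.mem _), X.kap_mul hA, mul_assoc h]
  · rintro x y ⟨x', hx, h⟩ ⟨y', hy, h'⟩
    exact ⟨x' + y', add_mem hx hy, fun z => by rw [mul_add, add_mul, map_add, map_add, h, h']⟩
  · rintro c x ⟨x', hx, h⟩
    exact ⟨c • x', S.N0.smul_mem c hx, fun z => by
      rw [mul_smul_comm, smul_mul_assoc, map_smul, map_smul, h]⟩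

/-! The projections onto the Fourier coefficients. -/

/-- the Fourier component along `u` -/
noncomputable def Setup.Exp.Pi (X : S.Exp) (u z : M) : M := u * X.E (Star.star u * z)

section
variable (X : S.Exp) {u v : M}

lemma Pi_sub (u y z : M) : X.Pi u (y - z) = X.Pi u y - X.Pi u z := by
  simp only [Setup.Exp.Pi, mul_sub, map_sub]

lemma Pi_mem (hu : S.IsNor u) (z : M) : X.Pi u z ∈ S.N0 := N0_gen hu (X.mem _)

lemma Pi_gen (hu : S.IsNor u) {a : M} (ha : a ∈ S.A) : X.Pi u (u * a) = u * a := by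
  rw [Setup.Exp.Pi, hu.su', X.fix _ ha]

lemma Pi_star (hu : S.IsNor u) (z : M) : star (X.Pi u z) = X.Pi (star u) (star z) := by
  have := E_conj' X hu (star z * u)
  rw [mul_assoc (u), mul_assoc (star z), hu.us, mul_one] at this
  rw [Setup.Exp.Pi, Setup.Exp.Pi, star_star, this, star_mul, ← X.star, star_mul, star_star,
    mul_assoc u, hu.su']

lemma Pi_comm (hu : S.IsNor u) (hv : S.IsNor v) (z : M) :
    X.Pi u (X.Pi v z) = X.Pi v (X.Pi u z) := by
  have hw := hu.star.mul hv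
  obtain ⟨g1, g2, g3⟩ := g_proj X hw
  have hb := X.mem (star u * v)
  have e0 : X.E (star v * u) = star (X.E (star u * v)) := by
    rw [← X.star, star_mul, star_star]
  simp only [Setup.Exp.Pi]
  rw [← mul_assoc (star u), X.right _ (X.mem _), ← mul_assoc (star v), X.right _ (X.mem _), e0]
  generalize X.E (star u * v) = b at *
  have e1 : u * b = v * (star b * b) := by
    conv_lhs => rw [← g2]
    rw [mul_assoc, hu.us']
  have e2 : b * star v = b * star b * star u := by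
    have := congrArg star e1
    rw [star_mul, star_mul, g1.isSelfAdjoint.star_eq] at this
    have h3 : b * (star b * b) = b := by
      have := g1.isIdempotentElem.eq
      conv_lhs => enter [1]; rw [← g2]
      rw [mul_assoc, this, g2]
    rw [mul_assoc, this, ← mul_assoc, h3]
  have e3 : b * X.E (star v * z) = b * (star b * X.E (star u * z)) := by
    rw [← X.left _ hb, ← mul_assoc, e2, mul_assoc, X.left _ (mul_mem hb (star_mem hb)), mul_assoc]
  have e4 : star b * b * star b = star b := by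
    have h3 : b * (star b * b) = b := by
      have := g1.isIdempotentElem.eq
      conv_lhs => enter [1]; rw [← g2]
      rw [mul_assoc, this, g2]
    have := congrArg star h3
    rwa [star_mul, g1.isSelfAdjoint.star_eq] at this
  rw [e3, ← mul_assoc u, e1, mul_assoc v, ← mul_assoc (star b * b), e4]

lemma Pi_n2 (hu : S.IsNor u) (z : M) : S.n2 (z - X.Pi u z) ≤ S.n2 z := by
  rw [S.n2_eq, S.n2_eq]
  refine Real.sqrt_le_sqrt ?_
  have h1 := S.q2_add (X.Pi u z) (z - X.Pi u z)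
  have h2 : S.κ (star (X.Pi u z) * (z - X.Pi u z)) = 0 := by
    rw [Setup.Exp.Pi, star_mul, mul_assoc, mul_sub, hu.su', ← X.kap_mul (star_mem (X.mem _)),
      map_sub, X.fix _ (X.mem _), sub_self, mul_zero, map_zero]
  rw [h2, add_sub_cancel] at h1
  have := S.q2_nonneg (X.Pi u z)
  simp only [Complex.zero_re] at h1
  linarith

/-- removal of the components along `u` and `star u` -/
noncomputable def Setup.Exp.rho (X : S.Exp) (u z : M) : M :=
  z - X.Pi u z - X.Pi (Star.star u) (z - X.Pi u z)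

/-- removal of the components along a list -/
noncomputable def Setup.Exp.rem (X : S.Exp) : List M → M → M
  | [], z => z
  | u :: W, z => X.rem W (X.rho u z)

lemma rem_sub (W : List M) (y z : M) : X.rem W (y - z) = X.rem W y - X.rem W z := by
  induction W generalizing y z with
  | nil => rfl
  | cons u W ih =>
    simp only [Setup.Exp.rem]
    rw [← ih]; congr 1
    simp only [Setup.Exp.rho, Pi_sub]; abel

lemma rem_zero (W : List M) : X.rem W 0 = 0 := by simpa using rem_sub X W 0 0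

lemma rem_smul (W : List M) (c : ℂ) (z : M) : X.rem W (c • z) = c • X.rem W z := by
  induction W generalizing z with
  | nil => rfl
  | cons u W ih =>
    simp only [Setup.Exp.rem]
    rw [← ih]; congr 1
    simp only [Setup.Exp.rho, Setup.Exp.Pi, mul_sub, mul_smul_comm, map_sub, map_smul, smul_sub]

lemma rem_add (W : List M) (y z : M) : X.rem W (y + z) = X.rem W y + X.rem W z := by
  have := rem_sub X W (y + z) z
  rw [add_sub_cancel_right] at this
  rw [this, sub_add_cancel]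

variable {W : List M} (hW : ∀ u ∈ W, S.IsNor u)
include hW

lemma rem_sa {z : M} (hz : IsSelfAdjoint z) : IsSelfAdjoint (X.rem W z) := by
  induction W generalizing z with
  | nil => exact hz
  | cons u W ih =>
    have hu := hW u List.mem_cons_self
    refine ih (fun v hv => hW v (List.mem_cons_of_mem _ hv)) ?_
    simp only [IsSelfAdjoint, Setup.Exp.rho, star_sub, Pi_star X hu, Pi_star X hu.star, Pi_sub,
      star_star, hz.star_eq, Pi_comm X hu hu.star]
    abel

lemma rem_n2 (z : M) : S.n2 (X.rem W z) ≤ S.n2 z := by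
  induction W generalizing z with
  | nil => exact le_rfl
  | cons u W ih =>
    have hu := hW u List.mem_cons_self
    exact (ih (fun v hv => hW v (List.mem_cons_of_mem _ hv)) _).trans
      ((Pi_n2 X hu.star _).trans (Pi_n2 X hu _))

lemma rem_mem (z : M) : z - X.rem W z ∈ S.N0 := by
  induction W generalizing z with
  | nil => simp [Setup.Exp.rem]
  | cons u W ih =>
    have hu := hW u List.mem_cons_self
    have h1 := add_mem (ih (fun v hv => hW v (List.mem_cons_of_mem _ hv)) (X.rho u z))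
      (add_mem (Pi_mem X hu z) (Pi_mem X hu.star (z - X.Pi u z)))
    convert h1 using 1
    simp only [Setup.Exp.rem, Setup.Exp.rho]; abel

lemma rem_kill (hu : u ∈ W) {z : M} (hz : X.Pi u z = z) : X.rem W z = 0 := by
  induction W generalizing z with
  | nil => simp at hu
  | cons v W ih =>
    have hv := hW v List.mem_cons_self
    have hu' := hW u hu
    rcases List.mem_cons.1 hu with rfl | h
    · rw [Setup.Exp.rem, Setup.Exp.rho, hz]; simp [Setup.Exp.Pi, rem_zero]
    · refine ih (fun v hv => hW v (List.mem_cons_of_mem _ hv)) h ?_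
      simp only [Setup.Exp.rho, Pi_sub, Pi_comm X hu' hv, Pi_comm X hu' hv.star, hz]

end

lemma sa_approx (X : S.Exp) {x b : M} (hx : IsSelfAdjoint x) (hb : b ∈ S.N0) :
    ∃ y ∈ S.N0, IsSelfAdjoint y ∧ S.n2 (x - y) ≤ S.n2 (x - b) := by
  obtain ⟨W, hW, h⟩ : ∃ W : List M, (∀ u ∈ W, S.IsNor u) ∧
      ∀ W', (∀ u ∈ W', S.IsNor u) → W ⊆ W' → X.rem W' b = 0 := by
    refine N0_ind (p := fun b => ∃ W : List M, (∀ u ∈ W, S.IsNor u) ∧
      ∀ W', (∀ u ∈ W', S.IsNor u) → W ⊆ W' → X.rem W' b = 0) (fun u a hu ha => ?_)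
      ⟨[], by simp, fun W _ _ => rem_zero X W⟩ ?_ ?_ hb
    · exact ⟨[u], by simpa using hu, fun W hW h => rem_kill X hW (h (by simp)) (Pi_gen X hu ha)⟩
    · rintro x y ⟨W, hW, h⟩ ⟨V, hV, h'⟩
      refine ⟨W ++ V, fun u hu => (List.mem_append.1 hu).elim (hW u) (hV u), fun U hU hs => ?_⟩
      rw [List.append_subset] at hs
      rw [rem_add, h U hU hs.1, h' U hU hs.2, add_zero]
    · rintro c x ⟨W, hW, h⟩
      exact ⟨W, hW, fun U hU hs => by rw [rem_smul, h U hU hs, smul_zero]⟩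
  refine ⟨x - X.rem W x, rem_mem X hW x, hx.sub (rem_sa X hW hx), ?_⟩
  have := rem_n2 X hW (x - b)
  rwa [rem_sub, h W hW (List.Subset.refl W), sub_zero, ← sub_sub_cancel x (X.rem W x)] at this

/-- the closure of the span of normalizers in the GNS space -/
noncomputable def Setup.K (S : Setup M) : Submodule ℂ S.H := (S.N0.map S.ι).topologicalClosure

instance (S : Setup M) : CompleteSpace S.K :=
  (Submodule.isClosed_topologicalClosure _).completeSpace_coe

lemma Setup.ι_mem_K (S : Setup M) {b : M} (hb : b ∈ S.N0) : S.ι b ∈ S.K :=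
  Submodule.le_topologicalClosure _ ⟨b, hb, rfl⟩

lemma Setup.norm_le_of_K (S : Setup M) {v : S.H} (hv : v ∈ S.K) {c : ℝ} (c0 : 0 ≤ c)
    (h : ∀ w ∈ S.N0, ‖⟪S.ι w, v⟫_ℂ‖ ≤ c * S.n2 w) : ‖v‖ ≤ c := by
  have h1 : (S.K : Set S.H) ⊆ {ζ | ‖⟪ζ, v⟫_ℂ‖ ≤ c * ‖ζ‖} :=
    closure_minimal (by rintro _ ⟨w, hw, rfl⟩; exact h w hw)
      (isClosed_le (by fun_prop) (by fun_prop))
  have h2 : ‖⟪v, v⟫_ℂ‖ ≤ c * ‖v‖ := h1 hv
  rw [inner_self_eq_norm_sq_to_K] at h2
  simp only [norm_pow, Complex.coe_algebraMap, Complex.norm_real, norm_norm] at h2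
  rcases (norm_nonneg v).eq_or_lt with h0 | h0
  · rwa [← h0]
  · nlinarith

lemma exists_sa_seq (X : S.Exp) {x : M} (hx : IsSelfAdjoint x) : ∃ y : ℕ → M,
    (∀ n, y n ∈ S.N0 ∧ IsSelfAdjoint (y n)) ∧
      Tendsto (fun n => S.ι (y n)) atTop (𝓝 (S.K.starProjection (S.ι x))) := by
  have pyth : ∀ z ∈ S.N0, S.n2 (x - z) ^ 2 = ‖S.ι x - S.K.starProjection (S.ι x)‖ ^ 2
      + ‖S.K.starProjection (S.ι x) - S.ι z‖ ^ 2 := fun z hz => by
    have := norm_add_sq_eq_norm_sq_add_norm_sq_of_inner_eq_zero (𝕜 := ℂ) _ _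
      (S.K.starProjection_inner_eq_zero (S.ι x) _
        (sub_mem (S.K.starProjection_apply_mem (S.ι x)) (S.ι_mem_K hz)))
    rw [sub_add_sub_cancel] at this
    rw [S.n2_sub, sq, sq, sq, this]
  have ex : ∀ n : ℕ, ∃ y, (y ∈ S.N0 ∧ IsSelfAdjoint y) ∧
      ‖S.ι y - S.K.starProjection (S.ι x)‖ ≤ 1 / ((n : ℝ) + 1) := fun n => by
    obtain ⟨_, ⟨b, hb, rfl⟩, h⟩ := Metric.mem_closure_iff.1
      (S.K.starProjection_apply_mem (S.ι x)) (1 / ((n : ℝ) + 1)) (by positivity)
    obtain ⟨y, hy, sy, h'⟩ := sa_approx X hx hb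
    refine ⟨y, ⟨hy, sy⟩, ?_⟩
    rw [dist_eq_norm] at h
    have h1 := pow_le_pow_left₀ (S.n2_nonneg _) h' 2
    rw [pyth y hy, pyth b hb, add_le_add_iff_left,
      pow_le_pow_iff_left₀ (norm_nonneg _) (norm_nonneg _) two_ne_zero] at h1
    rw [norm_sub_rev]; exact h1.trans h.le
  choose y hy h using ex
  exact ⟨y, hy, tendsto_iff_norm_sub_tendsto_zero.2
    (squeeze_zero (fun _ => norm_nonneg _) h tendsto_one_div_add_atTop_nhds_zero_nat)⟩

lemma src_of_seq (X : S.Exp) {x : M} (hx : IsSelfAdjoint x) {y : ℕ → M}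
    (hy : ∀ n, y n ∈ S.N0 ∧ IsSelfAdjoint (y n))
    (h : Tendsto (fun n => S.ι (y n)) atTop (𝓝 (S.K.starProjection (S.ι x)))) :
    SRC S.K (S.N0.map S.ι) (fun n => S.π (y n))
      (S.K.starProjection * S.π x * S.K.starProjection) := by
  have pe := isStarProjection_starProjection (U := S.K)
  refine ⟨fun n => (hy n).2.map S.π, by
    simpa only [pe.isSelfAdjoint.star_eq] using (hx.map S.π).conjugate' S.K.starProjection,
    fun f η hη => ?_, fun η hη => hη, ?_⟩
  · have c : Commute (S.K.starProjection * S.π x * S.K.starProjection) S.K.starProjection := by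
      rw [Commute, SemiconjBy, mul_assoc _ _ S.K.starProjection, pe.isIdempotentElem.eq,
        ← mul_assoc, ← mul_assoc, pe.isIdempotentElem.eq]
    rw [← S.K.starProjection_eq_self_iff.2 hη, ← mul_apply_eq_comp, (c.cfc_real f).eq,
      mul_apply_eq_comp]
    exact S.K.starProjection_apply_mem _
  rintro _ ⟨b, hb, rfl⟩
  obtain ⟨b', hb', e⟩ := N0_adj X hb
  obtain ⟨C, C0, hC⟩ := N0_right_bound X (N0_star hb')
  simp only [mul_apply_eq_comp, S.K.starProjection_eq_self_iff.2 (S.ι_mem_K hb), S.π_ι]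
  refine tendsto_iff_norm_sub_tendsto_zero.2 (squeeze_zero (fun _ => norm_nonneg _)
    (g := fun n => C * ‖S.ι (y n) - S.K.starProjection (S.ι x)‖) (fun n => ?_)
    (by simpa using (tendsto_iff_norm_sub_tendsto_zero.1 h).const_mul C))
  refine S.norm_le_of_K (sub_mem (S.ι_mem_K (N0_mul (hy n).1 hb))
    (S.K.starProjection_apply_mem _)) (by positivity) fun w hw => ?_
  have pr : ∀ {w : M}, w ∈ S.N0 → ∀ ζ, ⟪S.ι w, S.K.starProjection ζ⟫_ℂ = ⟪S.ι w, ζ⟫_ℂ :=
    fun hw ζ => by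
      rw [← S.K.inner_starProjection_left_eq_right,
        S.K.starProjection_eq_self_iff.2 (S.ι_mem_K hw)]
  have e1 : ⟪S.ι w, S.ι (y n * b) - S.K.starProjection (S.ι (x * b))⟫_ℂ
      = ⟪S.ι (w * star b'), S.ι (y n) - S.K.starProjection (S.ι x)⟫_ℂ := by
    rw [inner_sub_right, inner_sub_right, pr hw, pr (N0_mul hw (N0_star hb'))]
    simp only [S.inner_ι, star_mul, star_star, ← mul_assoc, e]
  rw [e1]
  refine (norm_inner_le_norm _ _).trans ?_
  rw [mul_right_comm]
  exact mul_le_mul_of_nonneg_right (hC w) (norm_nonneg _)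

lemma approx_one (X : S.Exp) {x : M} (hx : IsSelfAdjoint x) (h1 : ‖x‖ ≤ 1) {ε : ℝ} (hε : 0 < ε) :
    ∃ y ∈ S.N0, IsSelfAdjoint y ∧ ‖y‖ ≤ 2 ∧ ‖S.ι y - S.K.starProjection (S.ι x)‖ < ε := by
  obtain ⟨y, hy, h⟩ := exists_sa_seq X hx
  have R := src_of_seq X hx hy h
  have n0 := S.n2_nonneg 1
  set η := min (1 / 2) (ε / (3 * (S.n2 1 + 1))) with hη
  have η0 : 0 < η := lt_min (by norm_num) (by positivity)
  have η1 : η ≤ 1 / 2 := min_le_left _ _
  have η2 : η * (3 * (S.n2 1 + 1)) ≤ ε := (le_div_iff₀ (by positivity)).1 (min_le_right _ _)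
  obtain ⟨f, hf, b1, b2⟩ := R.exists_fun η0
  have fc := hf.cont
  set T := S.K.starProjection * S.π x * S.K.starProjection with hT
  have k1 : S.ι 1 ∈ S.K := S.ι_mem_K (N0_A (one_mem _))
  obtain ⟨n, hn⟩ := ((tendsto_iff_norm_sub_tendsto_zero.1 (hf.conv _ k1)).eventually
    (gt_mem_nhds η0)).exists
  obtain ⟨p, hp⟩ := exists_polynomial_near_of_continuousOn (-‖y n‖) ‖y n‖ f fc.continuousOn η η0
  have sy := (hy n).2
  have hp' : ∀ t ∈ spectrum ℝ (y n), |p.eval t - f t| ≤ η := fun t ht =>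
    (hp t (abs_le.1 (abs_le_of_spec ht))).le
  refine ⟨cfc p.eval (y n), by rw [cfc_polynomial p _ sy]; exact N0_aeval (hy n).1 p,
    cfc_predicate _ _, norm_cfc_le zero_le_two fun t ht => ?_, ?_⟩
  · have := abs_sub_abs_le_abs_sub (p.eval t) (f t)
    have := hp' t ht
    have := b1 t
    rw [Real.norm_eq_abs]; linarith
  have nT : ‖T‖ ≤ 1 := by
    have := S.K.starProjection_norm_le
    have := (S.norm_π x).trans h1
    refine (norm_mul_le _ _).trans (mul_le_one₀ ((norm_mul_le _ _).trans ?_) (norm_nonneg _) ‹_›)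
    exact mul_le_one₀ ‹_› (norm_nonneg _) ‹_›
  have a1 : ‖S.ι (cfc p.eval (y n)) - S.ι (cfc f (y n))‖ ≤ η * S.n2 1 := by
    rw [← S.n2_sub, ← cfc_sub _ _ (y n)]
    exact (S.n2_le_norm _).trans (mul_le_mul_of_nonneg_right (norm_cfc_le η0.le hp') n0)
  have a2 : cfc f (S.π (y n)) (S.ι 1) = S.ι (cfc f (y n)) := by
    rw [← S.π.map_cfc f (y n) fc.continuousOn
      (AddMonoidHomClass.continuous_of_bound S.π 1 (by simpa using S.norm_π)) sy (sy.map S.π),
      S.π_ι, mul_one]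
  have a3 : ‖cfc f T (S.ι 1) - S.K.starProjection (S.ι x)‖ ≤ η * S.n2 1 := by
    have e : S.K.starProjection (S.ι x) = T (S.ι 1) := by
      simp only [hT, mul_apply_eq_comp, S.K.starProjection_eq_self_iff.2 k1, S.π_ι, mul_one]
    have e' : cfc f T - T = cfc (fun t => f t - t) T := by
      rw [cfc_sub _ _ T, cfc_id' ℝ T R.hT]
    rw [e, ← sub_apply, e']
    refine (ContinuousLinearMap.le_opNorm _ _).trans (mul_le_mul_of_nonneg_right ?_ n0)
    exact norm_cfc_le η0.le fun t ht => b2 t ((abs_le_of_spec ht).trans nT)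
  rw [a2] at hn
  have := norm_sub_le_norm_sub_add_norm_sub (S.ι (cfc p.eval (y n))) (S.ι (cfc f (y n)))
    (S.K.starProjection (S.ι x))
  have := norm_sub_le_norm_sub_add_norm_sub (S.ι (cfc f (y n))) (cfc f T (S.ι 1))
    (S.K.starProjection (S.ι x))
  nlinarith

lemma approx (X : S.Exp) {x : M} (hx : IsSelfAdjoint x) {ε : ℝ} (hε : 0 < ε) :
    ∃ y ∈ S.N0, IsSelfAdjoint y ∧ ‖y‖ ≤ 2 * ‖x‖ ∧ ‖S.ι y - S.K.starProjection (S.ι x)‖ < ε := by
  rcases eq_or_ne x 0 with rfl | h0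
  · exact ⟨0, zero_mem _, .zero M, by simp, by simpa using hε⟩
  have hp : 0 < ‖x‖ := norm_pos_iff.2 h0
  obtain ⟨y, hy, sy, ny, h⟩ := approx_one X (x := ‖x‖⁻¹ • x) ((IsSelfAdjoint.all _).smul hx)
    (by rw [norm_smul, norm_inv, norm_norm, inv_mul_cancel₀ hp.ne']) (div_pos hε hp)
  refine ⟨‖x‖ • y, by rw [← Complex.coe_smul]; exact S.N0.smul_mem _ hy,
    (IsSelfAdjoint.all _).smul sy, by rw [norm_smul, norm_norm]; nlinarith, ?_⟩
  have e : S.ι (‖x‖ • y) - S.K.starProjection (S.ι x)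
      = (‖x‖ : ℂ) • (S.ι y - S.K.starProjection (S.ι (‖x‖⁻¹ • x))) := by
    rw [smul_sub, ← map_smul, ← map_smul, ← map_smul, Complex.coe_smul, Complex.coe_smul,
      smul_smul, mul_inv_cancel₀ hp.ne', one_smul]
  rw [e, norm_smul, Complex.norm_real, norm_norm]
  rwa [lt_div_iff₀' hp] at h

theorem decomp (X : S.Exp) {x : M} (hx : IsSelfAdjoint x) : ∃ y : M, IsSelfAdjoint y ∧
    ‖y‖ ≤ 2 * ‖x‖ ∧ X.Diff (x - y) ∧ ∀ δ > (0 : ℝ), ∃ y₀ ∈ S.N0, IsSelfAdjoint y₀ ∧
      ‖y₀‖ ≤ 2 * ‖x‖ ∧ S.q2 (y₀ - y) < δ := by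
  choose z hz sz nz h using fun n : ℕ => approx X hx (ε := 1 / ((n : ℝ) + 1)) (by positivity)
  obtain ⟨y, ny, ey, hl⟩ := S.exists_lim (l := atTop) nz (tendsto_iff_norm_sub_tendsto_zero.2
    (squeeze_zero (fun _ => norm_nonneg _) (fun n => (h n).le)
      tendsto_one_div_add_atTop_nhds_zero_nat))
  refine ⟨y, hl.sa sz, ny, fun u hu => X.eq_zero fun a ha => ?_, fun δ hδ => ?_⟩
  · have := S.K.starProjection_inner_eq_zero (S.ι x) _ (S.ι_mem_K (N0_gen hu (star_mem ha)))
    rw [← ey, ← map_sub, inner_eq_zero_symm, S.inner_ι, star_mul, star_star, mul_assoc] at this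
    exact this
  · obtain ⟨n, hn⟩ := (hl.q2.eventually (gt_mem_nhds hδ)).exists
    exact ⟨z n, hz n, sz n, nz n, hn⟩

end Vale.Agent.P078
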