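import Mathlib

namespace Vale.Agent.P078

open scoped ComplexOrder
open Filter Topology

/-- Abstract non-singular setting: a C*-algebra with a faithful positive functional `κ` that is
complete on norm-bounded sets, and a maximal abelian subalgebra in the centralizer of `κ`. -/
structure Setup (M : Type*) [CStarAlgebra M] [PartialOrder M] [StarOrderedRing M] where
  κ : M →L[ℂ] ℂ
  A : StarSubalgebra ℂ M
  pos : ∀ x, 0 ≤ κ (star x * x)
  faithful : ∀ x, κ (star x * x) = 0 → x = 0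
  comm : ∀ a ∈ A, ∀ b ∈ A, a * b = b * a
  maximal : ∀ x, (∀ a ∈ A, a * x = x * a) → x ∈ A
  central : ∀ a ∈ A, ∀ x, κ (a * x) = κ (x * a)
  complete : ∀ (x : ℕ → M) (C : ℝ), (∀ n, ‖x n‖ ≤ C) →
    (∀ ε > (0 : ℝ), ∃ N, ∀ n ≥ N, ∀ m ≥ N, (κ (star (x n - x m) * (x n - x m))).re < ε) →
    ∃ y, ‖y‖ ≤ C ∧ Tendsto (fun n => (κ (star (x n - y) * (x n - y))).re) atTop (𝓝 0)
  ac : ∀ c : M, ∀ ε > (0 : ℝ), ∃ δ > (0 : ℝ), ∀ z : M, ‖z‖ ≤ 1 →
    (κ (star z * z)).re < δ → (κ (star (z * c) * (z * c))).re < ε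

variable {M : Type*} [CStarAlgebra M] [PartialOrder M] [StarOrderedRing M]

/-- squared `κ`-norm -/
noncomputable def Setup.q2 (S : Setup M) (x : M) : ℝ := (S.κ (star x * x)).re

/-- a finite partition of unity by projections of `A` -/
structure Part (S : Setup M) where
  n : ℕ
  e : Fin n → M
  mem : ∀ i, e i ∈ S.A
  proj : ∀ i, IsStarProjection (e i)
  orth : ∀ i j, i ≠ j → e i * e j = 0
  sum : ∑ i, e i = 1

variable {S : Setup M}

/-- `P ≤ Q` means that `Q` refines `P` -/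
instance : Preorder (Part S) where
  le P Q := ∀ j, ∃ i, Q.e j * P.e i = Q.e j
  le_refl P j := ⟨j, (P.proj j).isIdempotentElem⟩
  le_trans P Q R h h' k := by
    obtain ⟨j, hj⟩ := h' k
    obtain ⟨i, hi⟩ := h j
    exact ⟨i, by rw [← hj, mul_assoc, hi]⟩

instance : Nonempty (Part S) :=
  ⟨⟨1, fun _ => 1, fun _ => one_mem _, fun _ => IsStarProjection.one M,
    fun i j h => (h (Subsingleton.elim i j)).elim, by simp⟩⟩

/-- common refinement -/
noncomputable def Part.join (P Q : Part S) : Part S where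
  n := P.n * Q.n
  e k := P.e (finProdFinEquiv.symm k).1 * Q.e (finProdFinEquiv.symm k).2
  mem _ := mul_mem (P.mem _) (Q.mem _)
  proj _ := (P.proj _).mul (Q.proj _) (S.comm _ (P.mem _) _ (Q.mem _))
  orth k l h := by
    have h' : finProdFinEquiv.symm k ≠ finProdFinEquiv.symm l := fun e =>
      h (finProdFinEquiv.symm.injective e)
    set a := finProdFinEquiv.symm k
    set b := finProdFinEquiv.symm l
    have c : Q.e a.2 * P.e b.1 = P.e b.1 * Q.e a.2 := S.comm _ (Q.mem _) _ (P.mem _)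
    have : P.e a.1 * Q.e a.2 * (P.e b.1 * Q.e b.2)
        = (P.e a.1 * P.e b.1) * (Q.e a.2 * Q.e b.2) := by
      rw [mul_assoc, ← mul_assoc (Q.e a.2), c]; simp only [mul_assoc]
    rw [this]
    by_cases h1 : a.1 = b.1
    · have h2 : a.2 ≠ b.2 := fun h2 => h' (Prod.ext h1 h2)
      rw [Q.orth _ _ h2, mul_zero]
    · rw [P.orth _ _ h1, zero_mul]
  sum := by
    rw [Equiv.sum_comp finProdFinEquiv.symm (fun a : Fin P.n × Fin Q.n => P.e a.1 * Q.e a.2),
      Fintype.sum_prod_type]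
    simp only [← Finset.mul_sum, Q.sum, mul_one, P.sum]

lemma Part.le_join_left (P Q : Part S) : P ≤ P.join Q := fun k =>
  ⟨(finProdFinEquiv.symm k).1, by
    change P.e _ * Q.e _ * P.e _ = P.e _ * Q.e _
    rw [mul_assoc, S.comm _ (Q.mem _) _ (P.mem _), ← mul_assoc, (P.proj _).isIdempotentElem]⟩

lemma Part.le_join_right (P Q : Part S) : Q ≤ P.join Q := fun k =>
  ⟨(finProdFinEquiv.symm k).2, by
    change P.e _ * Q.e _ * Q.e _ = P.e _ * Q.e _
    rw [mul_assoc, (Q.proj _).isIdempotentElem]⟩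

instance : IsDirectedOrder (Part S) :=
  ⟨fun P Q => ⟨P.join Q, P.le_join_left Q, P.le_join_right Q⟩⟩

/-- pinching -/
noncomputable def Part.pinch (P : Part S) (x : M) : M := ∑ i, P.e i * x * P.e i

/-- The conditional expectation onto `A` and spectral projections (built in module `Basic`). -/
structure Setup.Exp (S : Setup M) where
  E : M →L[ℂ] M
  mem : ∀ x, E x ∈ S.A
  fix : ∀ a ∈ S.A, E a = a
  left : ∀ a ∈ S.A, ∀ x, E (a * x) = a * E x
  right : ∀ a ∈ S.A, ∀ x, E (x * a) = E x * a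
  star : ∀ x, E (star x) = star (E x)
  pos : ∀ x, 0 ≤ x → 0 ≤ E x
  norm : ∀ x, ‖E x‖ ≤ ‖x‖
  kap : ∀ x, S.κ (E x) = S.κ x
  lim : ∀ x, Tendsto (fun P : Part S => S.q2 (P.pinch x - E x)) atTop (𝓝 0)
  spec : ∀ w : M, 0 ≤ w → ∀ t : ℝ, 0 < t → ∃ q : M, IsStarProjection q ∧
    (∀ z, z * w = w * z → z * q = q * z) ∧ w * q ≤ (t : ℂ) • q ∧ (t : ℂ) • (1 - q) ≤ w * (1 - q)

/-- unitary normalizers of `A` with bounded Radon-Nikodym derivative in both directions -/
def Setup.IsNor (S : Setup M) (u : M) : Prop :=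
  star u * u = 1 ∧ u * star u = 1 ∧ (∀ a ∈ S.A, star u * a * u ∈ S.A ∧ u * a * star u ∈ S.A) ∧
    ∃ C : ℝ, ∀ a ∈ S.A, 0 ≤ a →
      (S.κ (star u * a * u)).re ≤ C * (S.κ a).re ∧ (S.κ (u * a * star u)).re ≤ C * (S.κ a).re

/-- the span of the elements `u * a` -/
noncomputable def Setup.N0 (S : Setup M) : Submodule ℂ M :=
  Submodule.span ℂ {y | ∃ u a, S.IsNor u ∧ a ∈ S.A ∧ y = u * a}

/-- diffuse elements -/
def Setup.Exp.Diff (X : S.Exp) (c : M) : Prop := ∀ u, S.IsNor u → X.E (Star.star u * c) = 0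

/-- A local colouring rule: `L` normalizers, and for each pattern of labels a partition of unity
of `A` into `r` colours, equivariant under permutations of the colours. -/
structure Rule (S : Setup M) (r : ℕ) where
  L : ℕ
  w : Fin L → M
  nor : ∀ i, S.IsNor (w i)
  Φ : (Fin L → Equiv.Perm (Fin r)) → Fin r → M
  mem : ∀ η c, Φ η c ∈ S.A
  proj : ∀ η c, IsStarProjection (Φ η c)
  orth : ∀ η c c', c ≠ c' → Φ η c * Φ η c' = 0
  sum : ∀ η, ∑ c, Φ η c = 1
  equi : ∀ η (π : Equiv.Perm (Fin r)) c, Φ (fun i => π * η i) (π c) = Φ η c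

/-- the projection on which the label equals `π` -/
noncomputable def Part.lp (Q : Part S) {Λ : Type*} [DecidableEq Λ] (lab : Fin Q.n → Λ) (π : Λ) :
    M := ∑ l ∈ Finset.univ.filter (fun l => lab l = π), Q.e l

/-- the projection of colour `c` produced by a rule from labels on the atoms of `Q` -/
noncomputable def Rule.p {r : ℕ} (R : Rule S r) (Q : Part S)
    (lab : Fin Q.n → Equiv.Perm (Fin r)) (c : Fin r) : M :=
  ∑ η : Fin R.L → Equiv.Perm (Fin r),
    R.Φ η c * (List.ofFn fun i => star (R.w i) * Q.lp lab (η i) * R.w i).prod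

/-- the pinching produced by a rule -/
noncomputable def Rule.pinch {r : ℕ} (R : Rule S r) (Q : Part S)
    (lab : Fin Q.n → Equiv.Perm (Fin r)) (x : M) : M :=
  ∑ c, R.p Q lab c * x * R.p Q lab c

/-- Statement of the non-singular theorem (assembled from N1, N2, F, disc_part). -/
def Nonsing (C : ℝ) (M : Type*) [CStarAlgebra M] [PartialOrder M] [StarOrderedRing M] : Prop :=
  ∀ (S : Setup M) (x : M), IsSelfAdjoint x → ‖x‖ ≤ 1 → ∀ r : ℕ, 1 ≤ r → ∀ δ : ℝ, 0 < δ →
    ∃ (p : Fin r → M) (a q : M), (∀ i, p i ∈ S.A) ∧ (∀ i, IsStarProjection (p i)) ∧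
      (∀ i j, i ≠ j → p i * p j = 0) ∧ ∑ i, p i = 1 ∧ a ∈ S.A ∧ IsSelfAdjoint a ∧ ‖a‖ ≤ 1 ∧
      IsStarProjection q ∧ (S.κ (1 - q)).re < δ ∧ ‖q * (∑ i, p i * x * p i - a) * q‖ ≤ C / √r

end Vale.Agent.P078
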