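import Vale.Agent.P078.Grp

/-! Discreteness: diffuse elements have non-atomic fibre measures. -/

namespace Vale.Agent.P078

open scoped ComplexOrder InnerProductSpace ComplexConjugate
open Filter Topology

variable {M : Type*} [CStarAlgebra M] [PartialOrder M] [StarOrderedRing M] {S : Setup M}

lemma Part.fiber {P Q : Part S} (h : P ≤ Q) : ∃ ι : Fin Q.n → Fin P.n,
    (∀ j, Q.e j * P.e (ι j) = Q.e j) ∧ ∀ i, P.e i = ∑ j with ι j = i, Q.e j := by
  choose ι hι using h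
  refine ⟨ι, hι, fun i => ?_⟩
  rw [← one_mul (P.e i), ← Q.sum, Finset.sum_mul, Finset.sum_filter]
  refine Finset.sum_congr rfl fun j _ => ?_
  split_ifs with hj
  · rw [← hj, hι]
  · exact Part.orth_of (hι j) (Ne.symm hj)

/-- the fibre measure of `c` -/
noncomputable def Setup.Exp.Th (X : S.Exp) (c : M) : M →L[ℂ] M :=
  X.E ∘L ContinuousLinearMap.mulLeftRight ℂ M (Star.star c) c

lemma Setup.Exp.Th_apply (X : S.Exp) (c f : M) : 
    X.Th c f = X.E (Star.star c * f * c) := rfl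

lemma Setup.Exp.Th_nonneg (X : S.Exp) (c : M) {f : M} (hf : 0 ≤ f) : 0 ≤ X.Th c f :=
  X.pos _ (star_left_conjugate_nonneg hf c)

lemma Setup.Exp.Th_sa (X : S.Exp) (c : M) {f : M} (hf : S.Pr f) : S.Sa (X.Th c f) :=
  .of_nonneg (X.mem _) (X.Th_nonneg c hf.nonneg)

/-- the fibre measure at a character -/
noncomputable def Chr.T (φ : Chr S) (X : S.Exp) (c f : M) : ℝ := φ.r (X.Th c f)

lemma Chr.T_nonneg (φ : Chr S) (X : S.Exp) (c : M) {f : M} (hf : S.Pr f) : 0 ≤ φ.T X c f :=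
  φ.r_nonneg (X.mem _) (X.Th_nonneg c hf.nonneg)

lemma Chr.T_sum (φ : Chr S) (X : S.Exp) (c : M) {J : Type*} (s : Finset J) (f : J → M) :
    φ.T X c (∑ j ∈ s, f j) = ∑ j ∈ s, φ.T X c (f j) := by
  simp only [Chr.T, map_sum]

lemma Chr.T_add (φ : Chr S) (X : S.Exp) (c f g : M) :
    φ.T X c (f + g) = φ.T X c f + φ.T X c g := by
  simp only [Chr.T, map_add]

lemma Chr.T_part (φ : Chr S) (X : S.Exp) (c e : M) (P : Part S) :
    ∑ j, φ.T X c (P.e j * e) = φ.T X c e := by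
  rw [← φ.T_sum, ← Finset.sum_mul, P.sum, one_mul]

/-- sum of squares of the fibre measure -/
noncomputable def Setup.Exp.Gf (X : S.Exp) (c e : M) (P : Part S) : M :=
  ∑ l, X.Th c (P.e l * e) * X.Th c (P.e l * e)

section
variable (X : S.Exp) (c : M) {e : M} (he : S.Pr e)
include he

lemma Setup.Exp.Gf_sa (P : Part S) : S.Sa (X.Gf c e P) :=
  .sum _ fun l _ => (X.Th_sa c ((P.pr l).mul he)).mul (X.Th_sa c ((P.pr l).mul he))

lemma Setup.Exp.Gf_chr (P : Part S) (φ : Chr S) :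
    φ.r (X.Gf c e P) = ∑ l, φ.T X c (P.e l * e) ^ 2 := by
  rw [Setup.Exp.Gf, map_sum]
  exact Finset.sum_congr rfl fun l _ => by
    rw [φ.r_mul (X.Th_sa c ((P.pr l).mul he)) (X.Th_sa c ((P.pr l).mul he)), sq]; rfl

lemma Setup.Exp.Gf_le (P : Part S) (φ : Chr S) : φ.r (X.Gf c e P) ≤ φ.T X c e ^ 2 := by
  rw [X.Gf_chr c he, ← φ.T_part X c e P]
  exact Finset.sum_sq_le_sq_sum_of_nonneg fun l _ => φ.T_nonneg X c ((P.pr l).mul he)

lemma Setup.Exp.Gf_anti : Antitone (X.Gf c e) := fun P Q h =>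
  S.le_of_chr (X.Gf_sa c he Q) (X.Gf_sa c he P) fun φ => by
    obtain ⟨ι, -, h2⟩ := Part.fiber h
    rw [X.Gf_chr c he, X.Gf_chr c he, ← Finset.sum_fiberwise _ ι]
    refine Finset.sum_le_sum fun i _ => ?_
    rw [h2 i, Finset.sum_mul, φ.T_sum]
    exact Finset.sum_sq_le_sq_sum_of_nonneg fun l _ => φ.T_nonneg X c ((Q.pr l).mul he)

lemma Setup.Exp.Gf_lim : ∃ G, S.Sa G ∧ S.Lim atTop (X.Gf c e) G ∧ ∀ P, G ≤ X.Gf c e P := by
  obtain ⟨G, hG⟩ := S.anti_lim (x := X.Gf c e) (C := ‖X.Th c e‖ ^ 2) (fun P =>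
    S.norm_le_of_chr (X.Gf_sa c he P) (by positivity) fun φ => by
      have h1 : 0 ≤ φ.r (X.Gf c e P) := by rw [X.Gf_chr c he]; positivity
      rw [abs_of_nonneg h1]
      refine (X.Gf_le c he P φ).trans ?_
      rw [← sq_abs]
      exact pow_le_pow_left₀ (abs_nonneg _) (φ.r_abs_le (X.Th_sa c he)) 2) (X.Gf_anti c he)
  refine ⟨G, ⟨hG.mem fun P => (X.Gf_sa c he P).1, hG.sa fun P => (X.Gf_sa c he P).2⟩, hG,
    fun P => hG.le (.const S _ _) (fun P => (X.Gf_sa c he P).2) (fun _ => (X.Gf_sa c he P).2) ?_⟩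
  filter_upwards [Ici_mem_atTop P] with Q hQ using X.Gf_anti c he hQ

end

lemma Setup.Exp.Gf_add (X : S.Exp) (c : M) {P Q : Part S} (h : P ≤ Q) :
    X.Gf c 1 Q = ∑ i, X.Gf c (P.e i) Q := by
  simp only [Setup.Exp.Gf]
  rw [Finset.sum_comm]
  refine Finset.sum_congr rfl fun j _ => ?_
  obtain ⟨i, hi⟩ := h j
  rw [Finset.sum_eq_single i (fun k _ hk => by rw [Part.orth_of hi hk]; simp) (by simp), hi,
    mul_one]

lemma Setup.Exp.Gf_kap (X : S.Exp) (c : M) (P : Part S) :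
    (S.κ (X.Gf c 1 P)).re = ∑ l, S.q2 (X.E (Star.star c * P.e l * c)) := by
  rw [Setup.Exp.Gf, map_sum, Complex.re_sum]
  refine Finset.sum_congr rfl fun l _ => ?_
  rw [mul_one, Setup.q2, ← X.Th_apply, (X.Th_sa c (P.pr l)).2.star_eq]

/-- localisation: a dominant atom -/
lemma exists_dom (X : S.Exp) (c : M)
    (h : ¬ Tendsto (fun P : Part S => (S.κ (X.Gf c 1 P)).re) atTop (𝓝 0)) :
    ∃ e q, S.Pr e ∧ S.Pr q ∧ q ≠ 0 ∧ ∀ φ : Chr S, φ.r q = 1 → 0 < φ.T X c e ∧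
      ∀ Q : Part S, ∃ j, 4 / 5 * φ.T X c e < φ.T X c (Q.e j * e) := by
  obtain ⟨G, sG, lG, bG⟩ := X.Gf_lim c (e := 1) .one
  have g0 : 0 < (S.κ G).re := by
    refine lt_of_le_of_ne (ge_of_tendsto' lG.re fun P => ?_) fun e => h (e ▸ lG.re)
    rw [X.Gf_kap]; exact Finset.sum_nonneg fun l _ => S.q2_nonneg _
  obtain ⟨P, hP⟩ := (lG.re.eventually (gt_mem_nhds (show (S.κ G).re < 5 / 4 * (S.κ G).re by
    linarith))).exists
  choose K sK lK bK using fun i => X.Gf_lim c (P.pr i)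
  have eG : G = ∑ i, K i := lG.eq (.sum _ fun i _ => lK i) (by
    filter_upwards [Ici_mem_atTop P] with Q hQ using X.Gf_add c hQ)
  obtain ⟨i, φ₀, h0⟩ : ∃ (i : Fin P.n) (φ : Chr S), φ.T X c (P.e i) ^ 2 < 5 / 4 * φ.r (K i) := by
    by_contra! hn
    have := S.re_le_of_chr (sG.smul (5 / 4)) (X.Gf_sa c .one P) fun φ => by
      rw [X.Gf_chr c .one, eG, map_smul, map_sum, smul_eq_mul, Finset.mul_sum]
      exact Finset.sum_le_sum fun i _ => by rw [mul_one]; exact hn i φ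
    rw [S.re_rsmul] at this; linarith
  have sT := X.Th_sa c (P.pr i)
  have sD := ((sK i).smul (5 / 4)).sub (sT.mul sT)
  have eD : ∀ φ : Chr S, φ.r ((5 / 4 : ℝ) • K i - X.Th c (P.e i) * X.Th c (P.e i))
      = 5 / 4 * φ.r (K i) - φ.T X c (P.e i) ^ 2 := fun φ => by
    rw [map_sub, map_smul, φ.r_mul sT sT, smul_eq_mul, sq]; rfl
  obtain ⟨q, hq, hφ⟩ := S.spec_chr sD ((5 / 4 * φ₀.r (K i) - φ₀.T X c (P.e i) ^ 2) / 2)
  refine ⟨P.e i, q, P.pr i, hq, fun e => ?_, fun φ h1 => ?_⟩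
  · rcases hφ φ₀ with h | h
    · simp [e] at h
    · rw [eD] at h; linarith [h.2]
  have h2 : φ.T X c (P.e i) ^ 2 < 5 / 4 * φ.r (K i) := by
    rcases hφ φ with h | h
    · rw [eD] at h; linarith [h.2]
    · linarith [h.1]
  have h3 : ∀ Q : Part S, φ.r (K i) ≤ ∑ l, φ.T X c (Q.e l * P.e i) ^ 2 := fun Q => by
    rw [← X.Gf_chr c (P.pr i)]
    exact φ.r_mono (sK i).1 (X.Gf_sa c (P.pr i) Q).1 (bK i Q)
  have T0 := φ.T_nonneg X c (P.pr i)
  have h4 : φ.r (K i) ≤ φ.T X c (P.e i) ^ 2 :=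
    (φ.r_mono (sK i).1 (X.Gf_sa c (P.pr i) P).1 (bK i P)).trans (X.Gf_le c (P.pr i) P φ)
  refine ⟨lt_of_le_of_ne T0 fun e => by rw [← e] at h2 h4; linarith, fun Q => ?_⟩
  by_contra! hn
  have h5 : ∑ l, φ.T X c (Q.e l * P.e i) ^ 2
      ≤ ∑ l, 4 / 5 * φ.T X c (P.e i) * φ.T X c (Q.e l * P.e i) :=
    Finset.sum_le_sum fun l _ => by
      rw [sq]; exact mul_le_mul_of_nonneg_right (hn l) (φ.T_nonneg X c ((Q.pr l).mul (P.pr i)))
  rw [← Finset.mul_sum, φ.T_part] at h5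
  have := h3 Q
  nlinarith

lemma exists_hom (X : S.Exp) (c : M) {e q : M} (he : S.Pr e) (hq : S.Pr q)
    (H : ∀ φ : Chr S, φ.r q = 1 → 0 < φ.T X c e ∧
      ∀ Q : Part S, ∃ j, 4 / 5 * φ.T X c e < φ.T X c (Q.e j * e)) :
    ∃ θ, S.Hm θ ∧ ∀ f, S.Pr f → ∀ φ : Chr S, φ.r q = 1 →
      4 / 5 * φ.T X c e < φ.T X c (f * e) → φ.r (θ f) = 1 := by
  have ex : ∀ f, ∃ s, S.Pr f → S.Pr s ∧ ∀ φ : Chr S,
      (φ.r s = 1 ∧ φ.r q = 1 ∧ 4 / 5 * φ.T X c e < φ.T X c (f * e)) ∨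
      (φ.r s = 0 ∧ (φ.r q = 0 ∨ φ.T X c (f * e) < 1 / 5 * φ.T X c e)) := fun f => by
    by_cases hf : S.Pr f
    swap
    · exact ⟨0, fun h => (hf h).elim⟩
    obtain ⟨s, hs, hφ⟩ := S.spec_chr ((X.Th_sa c (hf.mul he)).sub ((X.Th_sa c he).smul (1 / 2))) 0
    refine ⟨q * s, fun _ => ⟨hq.mul hs, fun φ => ?_⟩⟩
    rw [φ.r_mul hq.sa hs.sa]
    rcases φ.r01 hq with h1 | h1
    · right; simp [h1]
    obtain ⟨T0, hT⟩ := H φ h1
    obtain ⟨j, hj⟩ := hT (Part.two hf)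
    have h2 := φ.T_part X c e (Part.two hf)
    have h3 := hφ φ
    rw [map_sub, map_smul, smul_eq_mul] at h3
    change (_ ∧ 0 ≤ φ.T X c (f * e) - 1 / 2 * φ.T X c e) ∨
      (_ ∧ φ.T X c (f * e) - 1 / 2 * φ.T X c e ≤ 0) at h3
    change ∑ j : Fin 2, φ.T X c (![f, 1 - f] j * e) = _ at h2
    simp only [Fin.sum_univ_two, Matrix.cons_val_zero, Matrix.cons_val_one] at h2
    have h4 : 4 / 5 * φ.T X c e < φ.T X c (f * e) ∨ φ.T X c (f * e) < 1 / 5 * φ.T X c e := by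
      fin_cases j
      · exact .inl hj
      · right
        change _ < φ.T X c ((1 - f) * e) at hj
        linarith
    rcases h3 with h3 | h3 <;> rcases h4 with h4 | h4
    · left; simp [h1, h3.1, h4]
    · linarith [h3.2]
    · linarith [h3.2]
    · right; simp only [h3.1, mul_zero, true_and]; exact .inr h4
  choose θ hθ using ex
  refine ⟨θ, ⟨fun f hf => (hθ f hf).1, fun f g hf hg h => ?_, fun f g hf hg h => ?_⟩,
    fun f hf φ h1 h2 => ?_⟩
  · refine S.eq_of_chr ((hθ f hf).1.mul (hθ g hg).1).sa .zero fun φ => ?_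
    rw [φ.r_mul (hθ f hf).1.sa (hθ g hg).1.sa, map_zero]
    rcases (hθ f hf).2 φ with a | a
    · rcases (hθ g hg).2 φ with b | b
      · have h1 := φ.T_nonneg X c ((hf.add hg h).one_sub.mul he)
        have h2 : φ.T X c e = φ.T X c (f * e) + φ.T X c (g * e) + φ.T X c ((1 - (f + g)) * e) := by
          rw [← φ.T_add, ← φ.T_add, ← add_mul, ← add_mul, add_sub_cancel, one_mul]
        have := φ.T_nonneg X c he
        linarith [a.2.2, b.2.2]
      · rw [b.1, mul_zero]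
    · rw [a.1, zero_mul]
  · refine S.eq_of_chr ((hθ f hf).1.mul (hθ g hg).1).sa (hθ f hf).1.sa fun φ => ?_
    rw [φ.r_mul (hθ f hf).1.sa (hθ g hg).1.sa]
    rcases (hθ f hf).2 φ with a | a
    · rcases (hθ g hg).2 φ with b | b
      · rw [b.1, mul_one]
      · have h1 := φ.T_nonneg X c ((hf.one_sub.mul hg).mul he)
        have h2 : φ.T X c (g * e) = φ.T X c (f * e) + φ.T X c ((1 - f) * g * e) := by
          rw [← φ.T_add, ← add_mul, sub_mul, one_mul, h, add_sub_cancel]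
        have := φ.T_nonneg X c he
        rcases b.2 with b | b <;> linarith [a.2.2, a.2.1]
    · rw [a.1, zero_mul]
  · rcases (hθ f hf).2 φ with a | a
    · exact a.1
    · have := φ.T_nonneg X c he
      rcases a.2 with a | a <;> linarith

lemma discr_core (X : S.Exp) (c : M)
    (h : ¬ Tendsto (fun P : Part S => (S.κ (X.Gf c 1 P)).re) atTop (𝓝 0)) :
    ∃ d, d ≠ 0 ∧ (X.Diff c → X.Diff d) ∧ (∀ f, S.Pr f → ∃ g, S.Pr g ∧ f * d = d * g) ∧
      ∀ a ∈ S.A, ∀ b ∈ S.A, b * c = c * a → b * d = d * a := by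
  obtain ⟨e, q, he, hq, q0, H⟩ := exists_dom X c h
  obtain ⟨θ, hθ, H2⟩ := exists_hom X c he hq H
  obtain ⟨d, -, hd⟩ := exists_tw_lim hθ (e * c)
  have sT := X.Th_sa c he
  refine ⟨d, fun d0 => ?_, fun hc => .lim hd fun P => .sum _ fun j _ =>
    ((hc.mul_left he.1).mul_left (P.mem j)).mul_right (hθ.pr _ (P.pr j)).1,
    fun f hf => ⟨θ f, hθ.pr f hf, tw_lim_comm hθ hd hf⟩, fun a ha b hb hab =>
      hd.comm (.of_forall fun P => ?_)⟩
  · have p0 : 0 < (S.κ (q * X.Th c e)).re := by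
      refine S.re_pos (S.nonneg_of_chr (hq.sa.mul sT) fun φ => ?_) fun h0 => q0 ?_
      · rw [φ.r_mul hq.sa sT]
        exact mul_nonneg (φ.r_nonneg hq.1 hq.nonneg) (φ.T_nonneg X c he)
      · refine S.eq_of_chr hq.sa .zero fun φ => ?_
        rcases φ.r01 hq with a | a
        · rw [a, map_zero]
        · have := congrArg φ.r h0
          rw [φ.r_mul hq.sa sT, a, one_mul, map_zero] at this
          exact ((H φ a).1.ne' this).elim
    have lo : ∀ P : Part S, 4 / 5 * (S.κ (q * X.Th c e)).re ≤ S.q2 (P.tw θ (e * c)) := fun P => by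
      have sj := fun j => (hθ.pr _ (P.pr j)).sa.mul (X.Th_sa c ((P.pr j).mul he))
      have e1 : (S.q2 (P.tw θ (e * c)) : ℂ) = S.κ (∑ j, θ (P.e j) * X.Th c (P.e j * e)) := by
        rw [← P.kap_tw_self hθ, Part.tw, star_sum, Finset.sum_mul, map_sum, map_sum]
        refine Finset.sum_congr rfl fun j _ => ?_
        rw [X.Th_apply, X.kap_mul (hθ.pr _ (P.pr j)).1]
        simp only [star_mul, he.star_eq, (P.pr j).star_eq, (hθ.pr _ (P.pr j)).star_eq, mul_assoc]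
        rw [← mul_assoc e (P.e j), S.comm _ he.1 _ (P.mem j), mul_assoc (P.e j), he.sq']
      have e2 := congrArg Complex.re e1
      rw [Complex.ofReal_re] at e2
      rw [e2, ← S.re_rsmul]
      refine S.re_le_of_chr ((hq.sa.mul sT).smul _) (.sum _ fun j _ => sj j) fun φ => ?_
      have nn : ∀ j, 0 ≤ φ.r (θ (P.e j) * X.Th c (P.e j * e)) := fun j => by
        rw [φ.r_mul (hθ.pr _ (P.pr j)).sa (X.Th_sa c ((P.pr j).mul he))]
        exact mul_nonneg (φ.r_nonneg (hθ.pr _ (P.pr j)).1 (hθ.pr _ (P.pr j)).nonneg)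
          (φ.T_nonneg X c ((P.pr j).mul he))
      rw [map_smul, φ.r_mul hq.sa sT, map_sum, smul_eq_mul]
      rcases φ.r01 hq with a | a
      · rw [a, zero_mul, mul_zero]; exact Finset.sum_nonneg fun j _ => nn j
      · obtain ⟨j, hj⟩ := (H φ a).2 P
        refine le_trans ?_ (Finset.single_le_sum (fun j _ => nn j) (Finset.mem_univ j))
        rw [φ.r_mul (hθ.pr _ (P.pr j)).sa (X.Th_sa c ((P.pr j).mul he)), H2 _ (P.pr j) φ a hj, a,
          one_mul, one_mul]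
        exact hj.le
    have := ge_of_tendsto' hd.q2' lo
    rw [d0, S.q2_zero] at this; linarith
  · simp only [Part.tw, Finset.mul_sum, Finset.sum_mul]
    refine Finset.sum_congr rfl fun j _ => ?_
    rw [mul_assoc _ _ a, S.comm _ (hθ.pr _ (P.pr j)).1 _ ha, ← mul_assoc, ← mul_assoc,
      ← mul_assoc, ← mul_assoc, S.comm _ hb _ (P.mem j), mul_assoc _ b, S.comm _ hb _ he.1]
    simp only [mul_assoc]
    rw [← mul_assoc b, hab, mul_assoc]

lemma mem_of_intertwine {d : M} (h : ∀ f, S.Pr f → ∃ g, S.Pr g ∧ f * d = d * g) {b : M}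
    (hb : b ∈ S.A) : d * b * star d ∈ S.A :=
  S.mem_of_pr fun f hf => by
    obtain ⟨g, hg, e⟩ := h f hf
    have e' := congrArg star e
    rw [star_mul, star_mul, hf.star_eq, hg.star_eq] at e'
    rw [← mul_assoc, ← mul_assoc, e, mul_assoc _ _ f, e', mul_assoc d g, S.comm _ hg.1 _ hb]
    simp only [mul_assoc]

theorem discr_tendsto (X : S.Exp) {c : M} (hc : X.Diff c) :
    Tendsto (fun P : Part S => ∑ l, S.q2 (X.E (star c * P.e l * c))) atTop (𝓝 0) := by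
  simp only [← X.Gf_kap]
  by_contra h
  obtain ⟨d, d0, hd, h1, -⟩ := discr_core X c h
  have t : Tendsto (fun P : Part S => (S.κ (X.Gf (star d) 1 P)).re) atTop
      (𝓝 (S.κ (d * X.E (star d * d) * star d)).re) := by
    refine (((X.lim' (star d * d)).mul_left d).mul_right (star d)).re.congr fun P => ?_
    simp only [Setup.Exp.Gf, X.Th_apply, star_star, mul_one,
      fun l => X.fix _ (mem_of_intertwine h1 (P.mem l))]
    simp only [Part.pinch, Finset.mul_sum, Finset.sum_mul, mul_assoc]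
  obtain ⟨w, w0, hw, h2, h3⟩ := discr_core X (star d) fun h' => d0 (by
    have g0 := X.pos _ (star_mul_self_nonneg d)
    have e1 := S.eq_zero_of_re (star_right_conjugate_nonneg g0 d) (tendsto_nhds_unique t h').le
    have e2 := sqrt_eq g0
    have e3 : CFC.sqrt (X.E (star d * d)) * star d = 0 := by
      rw [← CStarRing.star_mul_self_eq_zero_iff, star_mul, star_star, mul_assoc,
        ← mul_assoc (star _), e2, ← mul_assoc, e1]
    have e4 : X.E (star d * d) * (star d * d) = 0 := by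
      conv_lhs => enter [1]; rw [← e2]
      rw [← mul_assoc, mul_assoc _ _ (star d), e3]; simp
    have e5 := X.left _ (X.mem (star d * d)) (star d * d)
    rw [e4, map_zero] at e5
    have e6 : X.E (star d * d) = 0 := by
      rw [← CStarRing.star_mul_self_eq_zero_iff, g0.isSelfAdjoint.star_eq, ← e5]
    exact S.faithful d (by rw [← X.kap, e6, map_zero]))
  refine w0 (grp_zero X ⟨fun a ha => mem_of_intertwine h2 ha, fun a ha => ?_⟩ (hw (hd hc).star))
  have := mem_of_intertwine (S := S) (d := star w) (fun f hf => ?_) ha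
  · rwa [star_star] at this
  obtain ⟨g, hg, e⟩ := h1 f hf
  have e' := congrArg star e
  rw [star_mul, star_mul, hf.star_eq, hg.star_eq] at e'
  have e'' := congrArg star (h3 f hf.1 g hg.1 e'.symm)
  rw [star_mul, star_mul, hf.star_eq, hg.star_eq] at e''
  exact ⟨g, hg, e''.symm⟩

theorem discreteness (X : S.Exp) {c : M} (hc : X.Diff c) {ε : ℝ} (hε : 0 < ε) :
    ∃ P : Part S, ∑ l, S.q2 (X.E (star c * P.e l * c)) < ε :=
  ((discr_tendsto X hc).eventually (gt_mem_nhds hε)).exists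

end Vale.Agent.P078
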