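import Vale.Agent.P078.Step

namespace Vale.Agent.P078

open Finset ComplexConjugate MeasureTheory Matrix

variable {V : Type*} [DecidableEq V] {r : ℕ}

theorem TI_final (hr : 0 < r) {a : V → V → ℂ} {u v : ℝ} (hu : 0 < u) (hv : 0 < v) {μ : V → ℝ}
    (hμ : ∀ y, 0 < μ y) {K : Finset V} (h : HZ a K) {w : V → Option (Fin r)} {σ : V → Fin r}
    (hw : ∀ i ∈ K, w i = some (σ i)) {x : V → ℂ} (hx0 : 0 < ∑ i ∈ K, ‖x i‖ ^ 2)
    (hx : 80 * u * ∑ i ∈ K, ‖x i‖ ^ 2 ≤ (∑ i ∈ K, ∑ j ∈ K, conj (x i) * pin a σ i j * x j).re)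
    {μ₀ : ℝ} (hμ0 : 0 < μ₀) (hK : ∀ i ∈ K, μ₀ ≤ μ i) :
    Real.pi * (u * μ₀ - ∑ i ∈ K, (v * μ i + 16 * v * μ i / u)) ≤ TI u v a w μ K := by
  let s : K → ℝ := fun i => √(μ i)
  have hs : ∀ i, 0 < s i := fun i => Real.sqrt_pos.2 (hμ i)
  have hs2 : ∀ i, (s i : ℂ) * s i = μ i := fun i => by
    rw [← Complex.ofReal_mul, Real.mul_self_sqrt (hμ i).le]
  let A : Matrix K K ℂ := of fun i j => s i * pin a σ i j * s j / 40 - if i = j then (u * μ i : ℂ) else 0
  let B : Matrix K K ℂ := diagonal fun i => ((2 * √v * μ i : ℝ) : ℂ)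
  have hA : A.IsHermitian := by
    ext i j
    simp only [A, conjTranspose_apply, of_apply, RCLike.star_def, map_sub, map_div₀, map_mul,
      Complex.conj_ofReal, ← pin_herm h.herm, Complex.conj_ofNat]
    by_cases hij : i = j
    · subst hij; simp
    · simp [hij, Ne.symm hij]; ring
  obtain ⟨E⟩ := exists_eig (herm_block hA B fun i => v * μ i)
  have hU : ∀ i : K, 0 ≤ u * μ i := fun i => (mul_pos hu (hμ i)).le
  let ps : K → ℝ → ℝ := fun i => psi (u * μ i) (fun _ : Unit => 4 * v * μ i ^ 2) fun _ => v * μ i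
  have key : Set.EqOn (fun τ => ∑ k, lg (E.l k) τ - ∑ i : K, (lg (v * μ i) τ + (ps i τ +
      lg (-(u * μ i)) τ))) (tot u v a w μ K) (Set.Ioi 0) := by
    intro τ hτ
    have hτ : 0 < τ := hτ
    have ht : 0 < (τ * Complex.I : ℂ).im := by simpa using hτ
    have h1 := E.log_det hτ
    have hne := fun i : K => iI_ne hτ (v * μ i)
    have h2 : scalar K (τ * Complex.I) - A - B * diagonal (fun i : K =>
        (τ * Complex.I - (v * μ i : ℝ) : ℂ)⁻¹) * Bᴴ = diagonal (fun i => (s i / 40 : ℂ)) *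
        (of fun i j : K => (if i = j then zz u v w μ (τ * Complex.I) i else 0) - pin a σ i j) *
        diagonal fun i => (s i : ℂ) := by
      ext i j
      simp only [B, diagonal_conjTranspose, diagonal_mul_diagonal, Matrix.sub_apply, scalar_apply,
        mul_diagonal, diagonal_mul, of_apply, A, diagonal_apply]
      by_cases hij : i = j
      · subst hij
        have e1 : (√v : ℂ) ^ 2 = v := by rw [← Complex.ofReal_pow, Real.sq_sqrt hv.le]
        have e2 : (μ i : ℂ) ≠ 0 := by exact_mod_cast (hμ i).ne'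
        have e3 := hne i
        simp only [if_true, zz, zt, th, hw i i.2, reduceCtorEq, if_false, pin, h.diag,
          Pi.star_apply, RCLike.star_def, Complex.conj_ofReal]
        push_cast at e3 ⊢
        generalize τ * Complex.I - v * μ i = D at e3
        rw [mul_right_comm (s i / 40 : ℂ), div_mul_eq_mul_div, hs2]
        field_simp
        rw [e1]
        ring
      · simp only [hij, if_false]; ring
    have hP : Pw a w K (zz u v w μ (τ * Complex.I)) =
        PP (mnr (pin a σ)) K (zz u v w μ (τ * Complex.I)) :=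
      PP_congr (fun T hT => cc_col a fun i hi => hw i (hT hi)) fun _ _ => rfl
    have hP0 := stab_uhp hr (h.hc w) fun y _ => zz_im u hv.le w hμ ht y
    have h3 : (∏ i, (s i / 40 : ℂ)) * Pw a w K (zz u v w μ (τ * Complex.I)) * ∏ i, (s i : ℂ) =
        (∏ i : K, ((μ i / 40 : ℝ) : ℂ)) * Pw a w K (zz u v w μ (τ * Complex.I)) := by
      rw [mul_right_comm, ← prod_mul_distrib]
      congr 1
      refine prod_congr rfl fun i _ => ?_
      rw [div_mul_eq_mul_div, hs2]; push_cast; rfl
    have h4 : ∀ i : K, ‖((μ i / 40 : ℝ) : ℂ)‖ ≠ 0 := fun i => by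
      rw [norm_ne_zero_iff]; exact_mod_cast (div_pos (hμ i) (by norm_num)).ne'
    rw [det_block _ _ _ _ hne, h2, det_mul, det_mul, det_diagonal, det_diagonal, det_eq_PP, ← hP,
      h3, norm_mul, norm_mul, norm_prod, norm_prod,
      Real.log_mul (prod_ne_zero_iff.2 fun i _ => norm_ne_zero_iff.2 (hne i))
        (mul_ne_zero (prod_ne_zero_iff.2 fun i _ => h4 i) (norm_ne_zero_iff.2 hP0)),
      Real.log_mul (prod_ne_zero_iff.2 fun i _ => h4 i) (norm_ne_zero_iff.2 hP0),
      Real.log_prod (fun i _ => norm_ne_zero_iff.2 (hne i)), Real.log_prod fun i _ => h4 i] at h1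
    have h5 : ∀ i : K, Real.log ‖Ar (u * μ i) (fun _ : Unit => 4 * v * μ i ^ 2) (fun _ => v * μ i)
        (τ * Complex.I)‖ = Real.log ‖((μ i / 40 : ℝ) : ℂ)‖ +
          Real.log ‖zz u v w μ (τ * Complex.I) i‖ := fun i => by
      rw [← Real.log_mul (h4 i) (norm_ne_zero_iff.2 fun e => by
        simpa [e] using zz_im u hv.le w hμ ht i), ← norm_mul, zt_Ar u v (hμ i), zz, hw i i.2]
      congr 2
      simp only [th, reduceCtorEq, if_false]
      push_cast
      ring
    simp only [tot, ps, psi, h5, lg, sum_add_distrib, sum_sub_distrib, sum_const, card_univ,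
      nsmul_eq_mul, Fintype.card_sum, Nat.cast_add, Complex.ofReal_neg, sub_neg_eq_add] at h1 ⊢
    rw [← sum_coe_sort K]
    linarith
  have ips : ∀ i : K, IntegrableOn (ps i) (Set.Ioi 0) := fun i =>
    psi_int (hU i) (fun _ => by positivity) _
  have i2 : ∀ i : K, IntegrableOn (fun τ => ps i τ + lg (-(u * μ i)) τ) (Set.Ioi 0) := fun i =>
    (ips i).add (lg_spec _).1
  have i3 : ∀ i : K, IntegrableOn (fun τ => lg (v * μ i) τ + (ps i τ + lg (-(u * μ i)) τ))
      (Set.Ioi 0) := fun i => (lg_spec _).1.add (i2 i)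
  rw [TI, ← setIntegral_congr_fun measurableSet_Ioi key,
    integral_sub (integrable_finsetSum _ fun k _ => (lg_spec _).1)
      (integrable_finsetSum _ fun k _ => i3 k),
    integral_finsetSum _ fun k _ => (lg_spec _).1, integral_finsetSum _ fun k _ => i3 k]
  have h6 : ∀ i : K, ∫ τ in Set.Ioi 0, lg (v * μ i) τ + (ps i τ + lg (-(u * μ i)) τ) ≤
      Real.pi * ((v * μ i + u * μ i) / 2 + 16 * v * μ i / u) := fun i => by
    rw [integral_add (lg_spec _).1 (i2 i), integral_add (ips i) (lg_spec _).1, (lg_spec _).2,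
      (lg_spec _).2, abs_neg, abs_of_nonneg (hU i), abs_of_nonneg (mul_pos hv (hμ i)).le]
    have := Psi_own hu hv (hμ i)
    rw [Psi, div_le_iff₀ Real.pi_pos] at this
    simp only [ps]
    linarith
  have h7 := sum_le_sum fun i (_ : i ∈ univ) => h6 i
  have h8 : u * μ₀ ≤ E.tp := by
    set N := ∑ i : K, ‖x i‖ ^ 2 / μ i with hN
    rw [← sum_coe_sort K] at hx0 hx
    rw [← sum_coe_sort K (fun i => ∑ j ∈ K, conj (x i) * pin a σ i j * x j)] at hx
    have hN1 : μ₀ * N ≤ ∑ i : K, ‖x i‖ ^ 2 := by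
      rw [hN, mul_sum]
      refine sum_le_sum fun i _ => ?_
      rw [← mul_div_assoc, div_le_iff₀ (hμ i), mul_comm]
      exact mul_le_mul_of_nonneg_left (hK i i.2) (sq_nonneg _)
    have hN0 : 0 < N := by
      obtain ⟨i, -, hi⟩ := exists_ne_zero_of_sum_ne_zero hx0.ne'
      exact sum_pos' (fun j _ => div_nonneg (sq_nonneg _) (hμ j).le)
        ⟨i, mem_univ _, div_pos (lt_of_le_of_ne (sq_nonneg _) hi.symm) (hμ i)⟩
    have hq : 0 < √N := Real.sqrt_pos.2 hN0
    have hq2 : (√N : ℂ) * √N = N := by rw [← Complex.ofReal_mul, Real.mul_self_sqrt hN0.le]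
    have := E.low_add ∅ (Sum.elim (fun i => x i / (s i * √N)) 0) (by simp) (by
      simp only [Fintype.sum_sum_type, Sum.elim_inl, Sum.elim_inr, Pi.zero_apply, norm_zero,
        norm_div, norm_mul, Complex.norm_real, Real.norm_eq_abs, div_pow, mul_pow, sq_abs, s,
        Real.sq_sqrt (hμ _).le, Real.sq_sqrt hN0.le, ← div_div, ← sum_div, ← hN]
      simp [hN0.ne'])
    simp only [sum_empty, zero_add, Fintype.sum_sum_type, Sum.elim_inl, Sum.elim_inr,
      Pi.zero_apply, mul_zero, sum_const_zero, add_zero, map_zero, zero_mul,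
      fromBlocks_apply₁₁] at this
    have e : ∑ i : K, ∑ j : K, conj (x i / (s i * √N)) * A i j * (x j / (s j * √N)) =
        ((∑ i : K, ∑ j ∈ K, conj (x i) * pin a σ i j * x j) / 40 -
          (u * ∑ i : K, ‖x i‖ ^ 2 : ℝ)) / N := by
      rw [sum_div, Complex.ofReal_mul, Complex.ofReal_sum, mul_sum, ← sum_sub_distrib, sum_div]
      refine sum_congr rfl fun i _ => ?_
      simp only [A, of_apply, mul_sub, sub_mul, sum_sub_distrib, mul_ite, ite_mul, mul_zero,
        zero_mul, sum_ite_eq, mem_univ, if_true, map_div₀, map_mul, Complex.conj_ofReal]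
      have e1 : ∀ j, (s j : ℂ) ≠ 0 := fun j => by exact_mod_cast (hs j).ne'
      have e2 : (√N : ℂ) ≠ 0 := by exact_mod_cast hq.ne'
      rw [← sum_coe_sort K, sub_div, sum_div, sum_div, ← conj_mul_self', ← hq2, ← hs2]
      have := e1 i
      congr 1
      · refine sum_congr rfl fun j _ => ?_
        have := e1 j
        field_simp
      · field_simp
    rw [e, Complex.div_ofReal_re, Complex.sub_re, Complex.ofReal_re, Complex.div_ofNat_re] at this
    refine le_trans ?_ this
    rw [le_div_iff₀ hN0]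
    nlinarith [mul_le_mul_of_nonneg_left hN1 hu.le]
  simp only [(lg_spec _).2, ← mul_sum, E.sum_abs, Fintype.sum_sum_type, fromBlocks_apply₁₁,
    fromBlocks_apply₂₂, diagonal_apply_eq, Complex.ofReal_re] at h7 ⊢
  have h9 : ∀ i, (A i i).re = - (u * μ i) := fun i => by simp [A, pin, h.diag]
  simp only [h9, sum_add_distrib, ← sum_div, sum_neg_distrib] at h7 ⊢
  rw [← sum_coe_sort K, ← sum_coe_sort K (fun i => 16 * v * μ i)]
  simp only [← mul_sum] at h7 ⊢
  nlinarith [Real.pi_pos, mul_le_mul_of_nonneg_left h8 Real.pi_pos.le]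

end Vale.Agent.P078
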