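import Vale.Agent.P078.Sing4
import Vale.Agent.P078.Defs

/-! The corner cut out by the support of a normal central functional. -/

namespace Vale.Agent.P078.G

open scoped ComplexOrder InnerProductSpace ComplexConjugate
open Filter Topology

universe u

set_option linter.unusedSectionVars false

variable {H : Type u} [NormedAddCommGroup H] [InnerProductSpace ℂ H] [CompleteSpace H]
  {M : VonNeumannAlgebra H} {A : StarSubalgebra ℂ (H →L[ℂ] H)}

lemma Cen.all (X : Ctx M A) {κ : (H →L[ℂ] H) →L[ℂ] ℂ} (hc : Cen A κ) {a : H →L[ℂ] H} (ha : a ∈ A)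
    (b : H →L[ℂ] H) : κ (a * b) = κ (b * a) := by
  have := X.zero_of_proj (κ.comp ((ContinuousLinearMap.mul ℂ (H →L[ℂ] H)).flip b) -
    κ.comp (ContinuousLinearMap.mul ℂ (H →L[ℂ] H) b)) (fun q hq hq' => by
      simpa [sub_eq_zero] using hc q hq hq' b) ha
  simpa [sub_eq_zero] using this

lemma Supp.small {ρ : PF H} {s : H →L[ℂ] H} (hs : Supp M ρ s) (hn : NW M ρ.κ)
    {g : (H →L[ℂ] H) → ℂ} (hg : NW M g) (g0 : g 0 = 0) {ε : ℝ} (hε : 0 < ε) :
    ∃ δ > (0 : ℝ), ∀ z ∈ M, ‖z‖ ≤ 1 → z * s = z → ρ.nn z ^ 2 < δ → (g (star z * z)).re < ε := by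
  by_contra hc
  push Not at hc
  choose z z1 z2 z3 z4 z5 using fun n : ℕ => hc (1 / ((n : ℝ) + 1)) Nat.one_div_pos_of_nat
  have h0 : Tendsto (fun n => ρ.nn (z n)) atTop (𝓝 0) := by
    have := (squeeze_zero (fun n => sq_nonneg _) (fun n => (z4 n).le)
      tendsto_one_div_add_atTop_nhds_zero_nat).sqrt
    simpa [Real.sqrt_sq (ρ.nn_nonneg _)] using this
  have h1 := (Complex.continuous_re.tendsto _).comp (hg.seq (C := 1) (Eventually.of_forall
    fun n => ⟨mul_mem (star_mem (z1 n)) (z1 n), by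
      rw [CStarRing.norm_star_mul_self]; exact mul_le_one₀ (z2 n) (norm_nonneg _) (z2 n)⟩)
    (hs.null_wot hn (fun n => ⟨z1 n, z2 n, z3 n⟩) h0))
  have := ge_of_tendsto' h1 z5
  rw [g0, Complex.zero_re] at this
  linarith

omit [CompleteSpace H] in
lemma WT.φ {ι : Type*} {l : Filter ι} {x : ι → H →L[ℂ] H} {y : H →L[ℂ] H} (h : WT l x y)
    (F : Finset H) : Tendsto (fun i => φ F (x i)) l (𝓝 (φ F y)) := by
  simpa only [φ_apply] using tendsto_finsetSum F fun ξ _ => h ξ ξ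

lemma NW.conj {g : (H →L[ℂ] H) → ℂ} (hg : NW M g) {a b : H →L[ℂ] H} (ha : a ∈ M) (hb : b ∈ M) :
    NW M fun z => g (a * z * b) := fun _ _ C h1 h2 =>
  hg.seq (x := fun z => a * z * b) (C := ‖a‖ * C * ‖b‖) (h1.mono fun _ hz =>
    ⟨mul_mem (mul_mem ha hz.1) hb, (norm_mul_le _ _).trans (mul_le_mul_of_nonneg_right
      ((norm_mul_le _ _).trans (mul_le_mul_of_nonneg_left hz.2 (norm_nonneg _)))
      (norm_nonneg _))⟩) (h2.mul a b)

lemma NW.complete {ρ : PF H} (hn : NW M ρ.κ) {x : ℕ → H →L[ℂ] H} {C : ℝ}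
    (hx : ∀ n, x n ∈ M ∧ ‖x n‖ ≤ C)
    (hc : ∀ ε > (0 : ℝ), ∃ N, ∀ n ≥ N, ∀ m ≥ N, ρ.nn (x n - x m) ^ 2 < ε) {w : H →L[ℂ] H}
    (hw : WT (hyperfilter ℕ : Filter ℕ) x w) :
    Tendsto (fun n => ρ.nn (x n - w) ^ 2) atTop (𝓝 0) := by
  have wM : w ∈ M := hw.mem (Eventually.of_forall fun n => (hx n).1)
  refine Metric.tendsto_atTop.2 fun ε hε => ?_
  obtain ⟨N, hN⟩ := hc (ε / 2) (half_pos hε)
  refine ⟨N, fun n h => ?_⟩
  have h1 := ((hn.conj (star_mem (sub_mem (hx n).1 wM)) (one_mem M)).seq (C := C + C)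
    (Eventually.of_forall fun m => ⟨sub_mem (hx n).1 (hx m).1,
      (norm_sub_le _ _).trans (add_le_add (hx n).2 (hx m).2)⟩) ((WT.const (x n)).sub hw)).norm
  simp only [mul_one] at h1
  have h2 := le_of_tendsto h1 (b := ρ.nn (x n - w) * √(ε / 2)) (Nat.hyperfilter_le_atTop
    ((eventually_ge_atTop N).mono fun m hm => (ρ.cs _ _).trans (mul_le_mul_of_nonneg_left
      (Real.le_sqrt_of_sq_le (hN n h m hm).le) (ρ.nn_nonneg _))))
  have h3 := (Complex.re_le_norm _).trans h2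
  rw [← ρ.nn_sq] at h3
  rw [Real.dist_eq, sub_zero, abs_of_nonneg (sq_nonneg _)]
  have h4 := Real.sq_sqrt (half_pos hε).le
  nlinarith [sq_nonneg (ρ.nn (x n - w) - √(ε / 2))]

lemma vn_closed (M : VonNeumannAlgebra H) : IsClosed (M : Set (H →L[ℂ] H)) := by
  have : (M : Set (H →L[ℂ] H)) = ⋂ g ∈ {g | ∀ b ∈ M, b * g = g * b}, {T | g * T = T * g} := by
    ext T
    simp only [Set.mem_iInter]
    exact ⟨fun h g hg => (hg T h).symm, fun h => mem_of_comm h⟩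
  rw [this]
  exact isClosed_biInter fun g _ => isClosed_eq (by fun_prop) (by fun_prop)

/-- an isometry of `K` onto the range of `z` -/
structure Iso (K : Type u) [NormedAddCommGroup K] [InnerProductSpace ℂ K] (z : H →L[ℂ] H) where
  V : K →L[ℂ] H
  W : H →L[ℂ] K
  adj : ∀ k v, ⟪V k, v⟫_ℂ = ⟪k, W v⟫_ℂ
  wv : ∀ k, W (V k) = k
  vw : ∀ v, V (W v) = z v

lemma exists_iso {z : H →L[ℂ] H} (hz : IsStarProjection z) :
    Nonempty (Iso (LinearMap.ker (1 - z).toLinearMap) z) := by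
  have e : ∀ k : LinearMap.ker (1 - z).toLinearMap, z k = k := fun k => by
    have : (1 - z) k.1 = 0 := k.2
    rw [sub_apply, sub_eq_zero] at this
    exact this.symm
  refine ⟨⟨Submodule.subtypeL _, z.codRestrict _ fun v => ?_, fun k v => ?_,
    fun k => Subtype.ext (e k), fun v => rfl⟩⟩
  · change (1 - z) (z v) = 0
    rw [← mul_ap, hz.one_sub_mul_self]; rfl
  · change ⟪k.1, v⟫_ℂ = ⟪k.1, z v⟫_ℂ
    rw [← inner_sa hz.isSelfAdjoint, e]

namespace Iso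
variable {K : Type u} [NormedAddCommGroup K] [InnerProductSpace ℂ K] [CompleteSpace K]
  {z : H →L[ℂ] H} (J : Iso K z)

/-- extension by zero -/
noncomputable def Φ : (K →L[ℂ] K) →L[ℂ] (H →L[ℂ] H) :=
  (ContinuousLinearMap.compL ℂ H K H J.V).comp ((ContinuousLinearMap.compL ℂ H K K).flip J.W)

/-- compression -/
noncomputable def Ψ (b : H →L[ℂ] H) : K →L[ℂ] K := J.W.comp (b.comp J.V)

lemma Φ_ap (T : K →L[ℂ] K) (v : H) : J.Φ T v = J.V (T (J.W v)) := rfl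

lemma Φ_mul (S T : K →L[ℂ] K) : J.Φ (S * T) = J.Φ S * J.Φ T := by
  ext v; simp only [mul_ap, Φ_ap, J.wv]

lemma Φ_one : J.Φ 1 = z := by ext v; exact J.vw v

lemma ΦΨ (b : H →L[ℂ] H) : J.Φ (J.Ψ b) = z * b * z := by
  ext v; simp only [mul_ap, Φ_ap, Ψ, ContinuousLinearMap.comp_apply, J.vw]

lemma ΨΦ (T : K →L[ℂ] K) : J.Ψ (J.Φ T) = T := by
  ext v; simp only [Φ_ap, Ψ, ContinuousLinearMap.comp_apply, J.wv]

lemma Φ_inj {S T : K →L[ℂ] K} (h : J.Φ S = J.Φ T) : S = T := by rw [← J.ΨΦ S, h, J.ΨΦ]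

lemma Φ_z (T : K →L[ℂ] K) : J.Φ T * z = J.Φ T := by
  simpa [J.Φ_one] using (J.Φ_mul T 1).symm

lemma z_Φ (T : K →L[ℂ] K) : z * J.Φ T = J.Φ T := by
  simpa [J.Φ_one] using (J.Φ_mul 1 T).symm

lemma norm_V (k : K) : ‖J.V k‖ = ‖k‖ := by
  have := congrArg Complex.re (J.adj k (J.V k))
  rw [J.wv, re_self, re_self] at this
  exact (pow_left_inj₀ (norm_nonneg _) (norm_nonneg _) two_ne_zero).1 this

lemma norm_W (v : H) : ‖J.W v‖ ≤ ‖v‖ := by
  have := (Complex.re_le_norm _).trans (norm_inner_le_norm (𝕜 := ℂ) (J.V (J.W v)) v)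
  rw [J.adj, re_self, J.norm_V] at this
  by_contra h
  nlinarith [norm_nonneg v]

lemma norm_Φ (T : K →L[ℂ] K) : ‖J.Φ T‖ ≤ ‖T‖ :=
  ContinuousLinearMap.opNorm_le_bound _ (norm_nonneg _) fun v => by
    rw [Φ_ap, J.norm_V]
    exact T.le_opNorm_of_le (J.norm_W v)

lemma norm_Ψ (b : H →L[ℂ] H) : ‖J.Ψ b‖ ≤ ‖b‖ :=
  ContinuousLinearMap.opNorm_le_bound _ (norm_nonneg _) fun v =>
    (J.norm_W _).trans (b.le_opNorm_of_le (J.norm_V v).le)

lemma Φ_star (T : K →L[ℂ] K) : J.Φ (star T) = star (J.Φ T) := by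
  ext v
  refine ext_inner_right ℂ fun w => ?_
  rw [inner_star, Φ_ap, Φ_ap, J.adj, inner_star, ← inner_conj_symm v, J.adj, inner_conj_symm]

/-- the corner of a subalgebra -/
noncomputable def cor (B : StarSubalgebra ℂ (H →L[ℂ] H)) (hz : z ∈ B) :
    StarSubalgebra ℂ (K →L[ℂ] K) where
  carrier := {T | J.Φ T ∈ B}
  mul_mem' ha hb := by rw [Set.mem_ofPred_eq, J.Φ_mul]; exact mul_mem ha hb
  add_mem' ha hb := by rw [Set.mem_ofPred_eq, map_add]; exact add_mem ha hb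
  algebraMap_mem' c := by
    rw [Set.mem_ofPred_eq, Algebra.algebraMap_eq_smul_one, map_smul, J.Φ_one]
    exact B.smul_mem hz c
  star_mem' ha := by rw [Set.mem_ofPred_eq, J.Φ_star]; exact star_mem ha

lemma cor_closed (hz : z ∈ M) :
    IsClosed (J.cor M.toStarSubalgebra hz : Set (K →L[ℂ] K)) :=
  (vn_closed M).preimage J.Φ.continuous

end Iso

theorem corner_aux {K : Type u} [NormedAddCommGroup K] [InnerProductSpace ℂ K] [CompleteSpace K]
    {C : ℝ}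
    (h : ∀ (N : Type u) [CStarAlgebra N] [PartialOrder N] [StarOrderedRing N], Nonsing C N)
    (X : Ctx M A) {ρ : PF H} (hc : Cen A ρ.κ) (hn : NW M ρ.κ) {z : H →L[ℂ] H} (hz : z ∈ A)
    (J : Iso K z) (hs : Supp M ρ z) {x : H →L[ℂ] H} (hx : x ∈ M) (sa : IsSelfAdjoint x) (h1 : ‖x‖ ≤ 1)
    {r : ℕ} (hr : 1 ≤ r) (F : Finset H) {δ : ℝ} (hδ : 0 < δ) :
    ∃ (p : Fin r → H →L[ℂ] H) (a q : H →L[ℂ] H), (∀ i, p i ∈ A) ∧ (∀ i, IsStarProjection (p i)) ∧
      (∀ i j, i ≠ j → p i * p j = 0) ∧ ∑ i, p i = z ∧ a ∈ A ∧ IsSelfAdjoint a ∧ ‖a‖ ≤ 1 ∧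
      a * z = a ∧ q ∈ M ∧ IsStarProjection q ∧ q * z = q ∧ (∀ ξ ∈ F, ‖(z - q) ξ‖ < δ) ∧
      ‖q * (∑ i, p i * x * p i - a) * q‖ ≤ C / √r := by
  have zM := X.sub z hz
  have := J.cor_closed zM
  let N := J.cor M.toStarSubalgebra zM
  let _ := CStarAlgebra.spectralOrder N
  have := CStarAlgebra.spectralOrderedRing N
  have zz := hs.proj.isIdempotentElem.eq
  have hM : ∀ T : N, J.Φ T.1 ∈ M := fun T => T.2
  have hΨ : ∀ b ∈ M, J.Ψ b ∈ N := fun b hb => by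
    change J.Φ (J.Ψ b) ∈ M
    rw [J.ΦΨ]; exact mul_mem (mul_mem zM hb) zM
  let κ : N →L[ℂ] ℂ := LinearMap.mkContinuous
    { toFun := fun T => ρ.κ (J.Φ T.1)
      map_add' := fun S T => by simp
      map_smul' := fun c T => by simp } ‖ρ.κ‖ fun T => ρ.κ.le_opNorm_of_le (J.norm_Φ T.1)
  have hκ : ∀ S T : N, κ (S * T) = ρ.κ (J.Φ S.1 * J.Φ T.1) := fun S T => by
    rw [← J.Φ_mul]; rfl
  have hκ' : ∀ T : N, (κ (star T * T)).re = ρ.nn (J.Φ T.1) ^ 2 := fun T => by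
    rw [hκ, ρ.nn_sq, ← J.Φ_star]; rfl
  let S : Setup N :=
    { κ := κ
      A := (J.cor A hz).comap N.subtype
      pos := fun T => by
        rw [hκ, StarMemClass.coe_star, J.Φ_star]; exact ρ.pos _
      faithful := fun T hT => by
        have := hs.kill _ (hM T) (ρ.nn_eq_zero (by rw [← ρ.nn_sq, ← hκ', hT]; simp))
        rw [J.Φ_z] at this
        exact Subtype.ext (J.Φ_inj (this.trans (map_zero _).symm))
      comm := fun a ha b hb => Subtype.ext (J.Φ_inj (by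
        rw [MulMemClass.coe_mul, MulMemClass.coe_mul, J.Φ_mul, J.Φ_mul]; exact X.comm _ ha _ hb))
      maximal := fun T hT => X.max _ (hM T) fun a ha => by
        have e : J.Φ (J.Ψ a) = z * a * z := J.ΦΨ a
        have := congrArg (fun T : N => J.Φ T.1) (hT ⟨_, hΨ a (X.sub a ha)⟩
          (show J.Φ (J.Ψ a) ∈ A from e ▸ mul_mem (mul_mem hz ha) hz))
        simp only [MulMemClass.coe_mul, J.Φ_mul, e] at this
        rwa [X.comm z hz a ha, mul_assoc a, zz, mul_assoc a, J.z_Φ, ← X.comm z hz a ha,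
          ← mul_assoc, J.Φ_z] at this
      central := fun a ha T => by rw [hκ, hκ]; exact hc.all X ha _
      complete := fun y D hy hy' => by
        have b : ∀ n, ‖J.Φ (y n).1‖ ≤ D := fun n => (J.norm_Φ _).trans (hy n)
        obtain ⟨w, w1, w2⟩ := wlim (hyperfilter ℕ) _ ((norm_nonneg _).trans (hy 0)) b
        have e : J.Φ (J.Ψ w) = w := by
          rw [J.ΦΨ]
          simpa using w2.eq (a := z) (b := z) (c := 1) (d := 1)
            (Eventually.of_forall fun n => by simp [J.z_Φ, J.Φ_z])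
        refine ⟨⟨_, hΨ w (w2.mem (Eventually.of_forall fun n => hM _))⟩, (J.norm_Ψ w).trans w1, ?_⟩
        simp only [hκ', AddSubgroupClass.coe_sub, map_sub, e] at hy' ⊢
        exact hn.complete (fun n => ⟨hM _, b n⟩) hy' w2
      ac := fun c ε hε => by
        obtain ⟨d, d0, hd⟩ := hs.small hn (hn.conj (star_mem (hM c)) (hM c)) (by simp) hε
        refine ⟨d, d0, fun y y1 y2 => ?_⟩
        have := hd _ (hM y) ((J.norm_Φ _).trans y1) (J.Φ_z _) (hκ' y ▸ y2)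
        rw [hκ', ρ.nn_sq, MulMemClass.coe_mul, J.Φ_mul, star_mul]
        simpa only [mul_assoc] using this }
  obtain ⟨d, d0, hd⟩ := hs.small hn (g := φ F) (fun _ _ _ _ h => h.φ F) (map_zero _)
    (pow_pos hδ 2)
  have hsa : ∀ T : N, IsSelfAdjoint T → IsSelfAdjoint (J.Φ T.1) := fun T hT => by
    rw [IsSelfAdjoint, ← J.Φ_star, ← StarMemClass.coe_star, hT.star_eq]
  have hpr : ∀ T : N, IsStarProjection T → IsStarProjection (J.Φ T.1) := fun T hT =>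
    ⟨by rw [IsIdempotentElem, ← J.Φ_mul, ← MulMemClass.coe_mul, hT.isIdempotentElem.eq],
      hsa T hT.isSelfAdjoint⟩
  obtain ⟨p, a, q, p1, p2, p3, p4, a1, a2, a3, q1, q2, q3⟩ := h N S ⟨_, hΨ x hx⟩
    (Subtype.ext (J.Φ_inj (by
      simp only [StarMemClass.coe_star, J.Φ_star, J.ΦΨ, star_mul, sa.star_eq,
        hs.proj.isSelfAdjoint.star_eq, mul_assoc]))) ((J.norm_Ψ x).trans h1) r hr d d0
  refine ⟨fun i => J.Φ (p i).1, J.Φ a.1, J.Φ q.1, p1, fun i => hpr _ (p2 i), fun i j hij => ?_, ?_,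
    a1, hsa a a2, (J.norm_Φ _).trans a3, J.Φ_z _, hM q, hpr q q1, J.Φ_z _, fun ξ hξ => ?_, ?_⟩
  · rw [← J.Φ_mul, ← MulMemClass.coe_mul, p3 i j hij]; simp
  · rw [← map_sum, ← AddSubmonoidClass.coe_finsetSum, p4]; exact J.Φ_one
  · have e : J.Φ (1 - q).1 = z - J.Φ q.1 := by
      rw [AddSubgroupClass.coe_sub, map_sub, OneMemClass.coe_one, J.Φ_one]
    have a := hd _ (hM (1 - q)) (hpr _ q1.one_sub).norm_le (J.Φ_z _) (by
      rwa [← hκ', q1.one_sub.isSelfAdjoint.star_eq, q1.one_sub.isIdempotentElem.eq])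
    have b := le_φ F (star_mul_self_nonneg (J.Φ (1 - q).1)) hξ
    rw [re_star_mul, e] at b
    rw [e] at a
    exact lt_of_pow_lt_pow_left₀ 2 hδ.le (b.trans_lt a)
  · refine le_trans (le_of_eq_of_le (congrArg _ ?_)
      (J.norm_Φ (q * (∑ i, p i * ⟨_, hΨ x hx⟩ * p i - a) * q).1)) q3
    simp only [MulMemClass.coe_mul, AddSubgroupClass.coe_sub, AddSubmonoidClass.coe_finsetSum,
      J.Φ_mul, map_sub, map_sum, J.ΦΨ, ← mul_assoc, J.Φ_z]
    simp only [mul_assoc, J.z_Φ]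

theorem corner {C : ℝ}
    (h : ∀ (N : Type u) [CStarAlgebra N] [PartialOrder N] [StarOrderedRing N], Nonsing C N)
    (X : Ctx M A) {ρ : PF H} (hc : Cen A ρ.κ) (hn : NW M ρ.κ) {z : H →L[ℂ] H} (hz : z ∈ A)
    (hs : Supp M ρ z) {x : H →L[ℂ] H} (hx : x ∈ M) (sa : IsSelfAdjoint x) (h1 : ‖x‖ ≤ 1) {r : ℕ}
    (hr : 1 ≤ r) (F : Finset H) {δ : ℝ} (hδ : 0 < δ) :
    ∃ (p : Fin r → H →L[ℂ] H) (a q : H →L[ℂ] H), (∀ i, p i ∈ A) ∧ (∀ i, IsStarProjection (p i)) ∧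
      (∀ i j, i ≠ j → p i * p j = 0) ∧ ∑ i, p i = z ∧ a ∈ A ∧ IsSelfAdjoint a ∧ ‖a‖ ≤ 1 ∧
      a * z = a ∧ q ∈ M ∧ IsStarProjection q ∧ q * z = q ∧ (∀ ξ ∈ F, ‖(z - q) ξ‖ < δ) ∧
      ‖q * (∑ i, p i * x * p i - a) * q‖ ≤ C / √r := by
  have : CompleteSpace (LinearMap.ker (1 - z).toLinearMap) :=
    (ContinuousLinearMap.isClosed_ker _).completeSpace_coe
  obtain ⟨J⟩ := exists_iso hs.proj
  exact corner_aux h X hc hn hz J hs hx sa h1 hr F hδ

end Vale.Agent.P078.G
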