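import Vale.Agent.P078.Sing5
import Vale.Agent.P078.Sing6

/-! Reduction of the paving theorem to the non-singular setting. -/

namespace Vale.Agent.P078

open scoped ComplexOrder InnerProductSpace ComplexConjugate
open Filter Topology

universe u

namespace G

variable {H : Type u} [NormedAddCommGroup H] [InnerProductSpace ℂ H] [CompleteSpace H]
  {M : VonNeumannAlgebra H} {A : StarSubalgebra ℂ (H →L[ℂ] H)}

lemma exists_max (X : Ctx M A) (F : Finset H) {γ : ℝ} (hγ : 0 < γ) :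
    ∃ ρ : PF H, Cen A ρ.κ ∧ NW M ρ.κ ∧ ∃ z ∈ A, Supp M ρ z ∧ ∀ ρ' : PF H, Cen A ρ'.κ →
      NW M ρ'.κ → ρ'.nn (1 - (1 - z)) = 0 → ∀ s ∈ A, Supp M ρ' s → (φ F s).re ≤ γ := by
  let T : Set ℝ := {r | ∃ ρ : PF H, Cen A ρ.κ ∧ NW M ρ.κ ∧ ∃ z ∈ A, Supp M ρ z ∧ r = (φ F z).re}
  have hT : BddAbove T := ⟨(φ F 1).re, by
    rintro _ ⟨ρ, -, -, z, -, hz, rfl⟩; exact φ_mono F hz.proj.le_one⟩
  have hne : T.Nonempty := by
    let ρ : PF H := ⟨0, fun _ => le_rfl⟩
    have hc : Cen A ρ.κ := fun _ _ _ _ => rfl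
    obtain ⟨s, h1, h2⟩ := exists_supp X ρ hc
    exact ⟨_, ρ, hc, fun _ _ _ _ _ => tendsto_const_nhds, s, h1, h2, rfl⟩
  obtain ⟨_, ⟨ρ, c1, c2, z, c3, c4, rfl⟩, h2⟩ := exists_lt_of_lt_csSup hne (sub_lt_self (sSup T) hγ)
  refine ⟨ρ, c1, c2, z, c3, c4, fun ρ' d1 d2 d3 s d4 d5 => ?_⟩
  rw [sub_sub_cancel] at d3
  have hc : Cen A (ρ.add ρ').κ := fun e he he' b =>
    congrArg₂ (· + ·) (c1 e he he' b) (d1 e he he' b)
  obtain ⟨t, t1, t2⟩ := exists_supp X _ hc
  have b1 := le_csSup hT ⟨_, hc, fun l w C a b => (c2 l w C a b).add (d2 l w C a b), t, t1, t2, rfl⟩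
  have tz : t * z = z := by
    ext v
    exact t2.fix (z v) fun w hw h => by rw [← mul_ap, c4.kill w hw (ρ.nn_add_zero ρ' h).1]; rfl
  have ts : t * s = s := by
    ext v
    exact t2.fix (s v) fun w hw h => by rw [← mul_ap, d5.kill w hw (ρ.nn_add_zero ρ' h).2]; rfl
  have pr : IsStarProjection (z + s) := c4.proj.add d5.proj (d5.kill z (X.sub z c3) d3)
  have b2 := φ_nonneg F (pr.sub_of_mul_eq_right t2.proj (by rw [mul_add, tz, ts])).nonneg
  simp only [map_sub, map_add, Complex.sub_re, Complex.add_re] at b2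
  linarith

theorem unit_case {C : ℝ}
    (h : ∀ (N : Type u) [CStarAlgebra N] [PartialOrder N] [StarOrderedRing N], Nonsing C N)
    (X : Ctx M A) {x : H →L[ℂ] H} (hx : x ∈ M) (sa : IsSelfAdjoint x) (h1 : ‖x‖ ≤ 1) (r : ℕ)
    [NeZero r] (F : Finset H) {δ t : ℝ} (hδ : 0 < δ) (ht : 0 < t) :
    ∃ (p : Fin (r + r) → H →L[ℂ] H) (a q : H →L[ℂ] H), IsPart A p ∧ a ∈ A ∧ IsSelfAdjoint a ∧
      ‖a‖ ≤ 1 ∧ q ∈ M ∧ IsStarProjection q ∧ (∀ ξ ∈ F, ‖(1 - q) ξ‖ < δ) ∧
      ‖q * (∑ i, p i * x * p i - a) * q‖ ≤ C / √r + ((r : ℝ)⁻¹ + 4 * t) := by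
  obtain ⟨ρ, c1, c2, z, hz, hs, hmax⟩ := exists_max X F (γ := (t * (δ / 2) / 2) ^ 2 / 2)
    (by positivity)
  have z1 := hs.proj
  have hy := sub_mem (one_mem A) hz
  obtain ⟨p, a, q, p1, p2, p3, p4, a1, a2, a3, a4, q1, q2, q3, q4, q5⟩ :=
    corner h X c1 c2 hz hs hx sa h1 (NeZero.one_le (n := r)) F (half_pos hδ)
  obtain ⟨P, b, s, hP, b1, b2, b3, s1, s2, s3, s4, s5⟩ :=
    singular X F hy z1.one_sub ht (half_pos hδ) hmax hx sa h1 r
  have pz : ∀ i, p i * z = p i := fun i => by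
    rw [← p4, Finset.mul_sum, Finset.sum_eq_single i (fun j _ hj => p3 i j hj.symm) (by simp),
      (p2 i).isIdempotentElem.eq]
  have zp : ∀ i, z * p i = p i := fun i => by rw [X.comm z hz _ (p1 i), pz]
  have py : ∀ i j, p i * ((1 - z) * P j) = 0 := fun i j => by
    rw [← mul_assoc, mul_sub, mul_one, pz, sub_self, zero_mul]
  have yP : ∀ j, (1 - z) * P j = P j * (1 - z) := fun j => X.comm _ hy _ (hP.mem j)
  have part : IsPart A (Sum.elim p fun j => (1 - z) * P j) := by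
    refine ⟨?_, ?_, ?_, ?_⟩
    · rintro (i | j)
      exacts [p1 i, mul_mem hy (hP.mem j)]
    · rintro (i | j)
      exacts [p2 i, z1.one_sub.mul (hP.proj j) (yP j)]
    · rintro (i | i) (j | j) hij
      · exact p3 i j fun e => hij (by rw [e])
      · exact py i j
      · exact (X.comm _ (mul_mem hy (hP.mem i)) _ (p1 j)).trans (py j i)
      · change (1 - z) * P i * ((1 - z) * P j) = 0
        rw [yP j, mul_assoc, ← mul_assoc (P i), hP.orth i j fun e => hij (by rw [e])]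
        simp
    · simp [Fintype.sum_sum_type, p4, ← Finset.mul_sum, hP.sum]
  have za : z * a = a := by rw [X.comm z hz a a1, a4]
  have ys : (1 - z) * s = s := swap_sa s2.isSelfAdjoint z1.one_sub.isSelfAdjoint s2.isSelfAdjoint s3
  have zq : z * q = q := swap_sa q2.isSelfAdjoint z1.isSelfAdjoint q2.isSelfAdjoint q3
  have qy : q * (1 - z) = 0 := by rw [mul_sub, mul_one, q3, sub_self]
  have yq : (1 - z) * q = 0 := by rw [sub_mul, one_mul, zq, sub_self]
  have sz : s * z = 0 := by rw [← s3, mul_assoc, z1.one_sub_mul_self, mul_zero]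
  have zs : z * s = 0 := by rw [← ys, ← mul_assoc, z1.mul_one_sub_self, zero_mul]
  refine ⟨_, a + (1 - z) * b * (1 - z), q + s, part.comp finSumFinEquiv.symm,
    add_mem a1 (mul_mem (mul_mem hy b1) hy), a2.add (b2.conjugate_self z1.one_sub.isSelfAdjoint),
    ?_, add_mem q1 s1, q2.add s2 (by rw [← ys, ← mul_assoc, qy, zero_mul]), fun ξ hξ => ?_, ?_⟩
  · have := (isPart_two hz z1).norm_le ![a, b] zero_le_one (fun i => by
      fin_cases i; exacts [a3, b3])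
    simpa [za, a4] using this
  · have : (1 - (q + s)) ξ = (z - q) ξ + (1 - z - s) ξ := by
      rw [← add_apply]; congr 1; abel
    rw [this]
    linarith [norm_add_le ((z - q) ξ) ((1 - z - s) ξ), q4 ξ hξ, s4 ξ hξ]
  · refine le_trans (le_of_eq (congrArg _ ?_)) ((norm_add_le _ _).trans (add_le_add q5 s5))
    rw [Equiv.sum_comp finSumFinEquiv.symm fun k => Sum.elim p (fun j => (1 - z) * P j) k * x *
      Sum.elim p (fun j => (1 - z) * P j) k, Fintype.sum_sum_type]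
    simp only [Sum.elim_inl, Sum.elim_inr]
    have e1 : z * (∑ i, p i * x * p i - a) * z = ∑ i, p i * x * p i - a := by
      simp only [mul_sub, sub_mul, Finset.mul_sum, Finset.sum_mul, za, a4, ← mul_assoc, zp]
      simp only [mul_assoc, pz]
    have e2 : ∑ i, p i * x * p i + ∑ j, (1 - z) * P j * x * ((1 - z) * P j) -
        (a + (1 - z) * b * (1 - z)) = z * (∑ i, p i * x * p i - a) * z +
          (1 - z) * (∑ j, P j * x * P j - b) * (1 - z) := by
      rw [e1, mul_sub (1 - z), sub_mul _ _ (1 - z), Finset.mul_sum, Finset.sum_mul,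
        Finset.sum_congr rfl fun j _ => show (1 - z) * (P j * x * P j) * (1 - z) =
          (1 - z) * P j * x * ((1 - z) * P j) by rw [mul_assoc, mul_assoc, ← yP]; simp only [mul_assoc]]
      abel
    rw [e2]
    generalize ∑ i, p i * x * p i - a = T, ∑ j, P j * x * P j - b = T'
    generalize 1 - z = y at qy yq s3 ys
    simp only [mul_add, add_mul, ← mul_assoc, q3, qy, sz, s3, add_zero, zero_add]
    simp only [mul_assoc, zq, yq, zs, ys, mul_zero, add_zero, zero_add]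

end G

theorem final_of_nonsing (C : ℝ)
    (h : ∀ (M : Type u) [CStarAlgebra M] [PartialOrder M] [StarOrderedRing M], Nonsing C M) :
    ∃ C' : ℝ, ∀ (H : Type u) [NormedAddCommGroup H] [InnerProductSpace ℂ H] [CompleteSpace H]
      (M : VonNeumannAlgebra H) (A : StarSubalgebra ℂ (H →L[ℂ] H)), IsMASA M A →
      ∀ ε : ℝ, 0 < ε → ε < 1 → ∃ r : ℕ, 1 ≤ r ∧ (r : ℝ) ≤ C' / ε ^ 2 ∧
        ∀ x ∈ M, IsSelfAdjoint x → SoPavable M A x ε r := by
  set K := 2 * |C| + 2 with hK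
  have K2 : 2 ≤ K := by linarith [abs_nonneg C]
  refine ⟨2 * (K ^ 2 + 1), fun H _ _ _ M A hA ε e0 e1 => ?_⟩
  have X := G.ctx_of_masa hA
  set r := ⌈(K / ε) ^ 2⌉₊ with hr
  have r0 : 0 < r := Nat.ceil_pos.2 (by positivity)
  have : NeZero r := ⟨r0.ne'⟩
  have r1 : (K / ε) ^ 2 ≤ r := Nat.le_ceil _
  have r2 : (r : ℝ) < (K / ε) ^ 2 + 1 := Nat.ceil_lt_add_one (by positivity)
  refine ⟨r + r, by omega, ?_, fun x hx sa F δ hδ => ?_⟩
  · rw [div_pow] at r2
    have : 1 ≤ 1 / ε ^ 2 := one_le_one_div (by positivity) (by nlinarith)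
    rw [Nat.cast_add, mul_div_assoc, add_div]
    linarith
  obtain ⟨p, a, q, hp, a1, a2, a3, q1, q2, q3, q4⟩ := G.unit_case h X
    (G.vn_smul hx ((‖x‖⁻¹ : ℝ) : ℂ)) (by rw [Complex.coe_smul]; exact (IsSelfAdjoint.all _).smul sa)
    (by
      rw [norm_smul, Complex.norm_real, norm_inv, norm_norm]
      exact inv_mul_le_one_of_le₀ le_rfl (norm_nonneg _)) r F hδ (t := ε / 8) (by positivity)
  have e : ((‖x‖ : ℝ) : ℂ) • ((‖x‖⁻¹ : ℝ) : ℂ) • x = x := by
    by_cases h0 : x = 0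
    · simp [h0]
    · rw [smul_smul, ← Complex.ofReal_mul, mul_inv_cancel₀ (norm_ne_zero_iff.2 h0)]; simp
  refine ⟨p, ((‖x‖ : ℝ) : ℂ) • a, q, hp.mem, hp.proj, hp.orth, hp.sum, A.smul_mem a1 _,
    by rw [Complex.coe_smul]; exact (IsSelfAdjoint.all _).smul a2, ?_, q1, q2, q3, ?_⟩
  · rw [norm_smul, Complex.norm_real, norm_norm]
    exact mul_le_of_le_one_right (norm_nonneg _) a3
  · have e2 : q * (∑ i, p i * x * p i - ((‖x‖ : ℝ) : ℂ) • a) * q = ((‖x‖ : ℝ) : ℂ) •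
        (q * (∑ i, p i * (((‖x‖⁻¹ : ℝ) : ℂ) • x) * p i - a) * q) := by
      rw [← smul_mul_assoc, ← mul_smul_comm, smul_sub, Finset.smul_sum]
      simp only [← smul_mul_assoc _ _ (p _), ← mul_smul_comm _ (p _), e]
    rw [e2, norm_smul, Complex.norm_real, norm_norm, mul_comm]
    refine mul_le_mul_of_nonneg_right (q4.trans ?_) (norm_nonneg _)
    have b1 : K / ε ≤ √r := Real.le_sqrt_of_sq_le r1
    have b0 : 0 < K / ε := by positivity
    have b2 : C / √r ≤ |C| / (K / ε) :=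
      div_le_div₀ (abs_nonneg _) (le_abs_self _) b0 b1
    have b3 : (r : ℝ)⁻¹ ≤ (K / ε)⁻¹ := by
      have : 1 ≤ K / ε := by rw [le_div_iff₀ e0]; linarith
      exact inv_anti₀ b0 (by nlinarith)
    have b4 : |C| / (K / ε) + (K / ε)⁻¹ = ε / 2 := by
      rw [hK]; field_simp
    linarith

end Vale.Agent.P078
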