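import Vale.Agent.P078.FreeFour
import Vale.Agent.P078.Discr

/-! The free part: random local colourings pave diffuse elements. -/

namespace Vale.Agent.P078

open scoped ComplexOrder InnerProductSpace ComplexConjugate
open Filter Topology

variable {M : Type*} [CStarAlgebra M] [PartialOrder M] [StarOrderedRing M] {S : Setup M}

lemma mul_prod_of_mem {L : List M} (h : ∀ a ∈ L, S.Pr a) {a : M} (ha : a ∈ L) :
    a * L.prod = L.prod := by
  induction L with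
  | nil => simp at ha
  | cons b L ih =>
    have h' := fun v hv => h v (List.mem_cons_of_mem _ hv)
    rw [List.prod_cons]
    rcases List.mem_cons.1 ha with rfl | ha'
    · exact (h a List.mem_cons_self).sq' _
    · rw [← mul_assoc, S.comm _ (h' a ha').1 _ (h b List.mem_cons_self).1, mul_assoc, ih h' ha']

lemma Chr.r_ofFn (φ : Chr S) {L : ℕ} {J : Type*} [DecidableEq J] {a : Fin L → M}
    (ha : ∀ i, S.Pr (a i)) {s t : Fin L → J} (h : ∀ i, φ.r (a i) = if s i = t i then 1 else 0) :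
    φ.r (List.ofFn a).prod = if s = t then 1 else 0 := by
  rw [(φ.r_prod fun b hb => ?_).2, List.map_ofFn, List.prod_ofFn]
  · simp only [Function.comp, h]
    rw [Finset.prod_ite_zero]; simp [funext_iff]
  · obtain ⟨i, rfl⟩ := List.mem_ofFn.1 hb
    exact ha i

section
variable {r : ℕ} (R : Rule S r) (Q : Part S)

/-- the set of points with prescribed atoms of the neighbours -/
noncomputable def Rule.f (l : Fin R.L → Fin Q.n) : M :=
  (List.ofFn fun i => star (R.w i) * Q.e (l i) * R.w i).prod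

lemma Rule.f_mem (l : Fin R.L → Fin Q.n) :
    ∀ a ∈ List.ofFn fun i => star (R.w i) * Q.e (l i) * R.w i, S.Pr a := fun a ha => by
  obtain ⟨i, rfl⟩ := List.mem_ofFn.1 ha
  exact (R.nor i).conj_pr (Q.pr _)

lemma Rule.f_pr (l : Fin R.L → Fin Q.n) : S.Pr (R.f Q l) := .prod (R.f_mem Q l)

lemma Rule.p_eq (lab : Fin Q.n → Equiv.Perm (Fin r)) (c : Fin r) :
    R.p Q lab c = ∑ l, R.Φ (fun i => lab (l i)) c * R.f Q l := by
  refine S.eq_of_chr (R.p_sa Q lab c) (.sum _ fun l _ => (R.pr _ c).sa.mul (R.f_pr Q l).sa)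
    fun φ => ?_
  have h : ∀ i, ∃ m, ∀ m', φ.r (star (R.w i) * Q.e m' * R.w i) = if m' = m then 1 else 0 :=
    fun i => exists_ind (fun m => φ.r01 ((R.nor i).conj_pr (Q.pr m))) (by
      rw [← map_sum, ← Finset.sum_mul, ← Finset.mul_sum, Q.sum, mul_one, (R.nor i).1, φ.r_one])
  choose l hl using h
  have e1 : ∀ k, φ.r (R.f Q k) = if k = l then 1 else 0 := fun k =>
    φ.r_ofFn (fun i => (R.nor i).conj_pr (Q.pr _)) fun i => hl i _
  have e2 : ∀ η : Fin R.L → Equiv.Perm (Fin r),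
      φ.r (List.ofFn fun i => star (R.w i) * Q.lp lab (η i) * R.w i).prod
        = if η = fun i => lab (l i) then 1 else 0 := fun η =>
    φ.r_ofFn (fun i => (R.nor i).conj_pr (Q.lp_pr lab _)) fun i => by
      rw [Part.lp, Finset.mul_sum, Finset.sum_mul, map_sum]
      simp [hl, eq_comm]
  rw [Rule.p, map_sum, map_sum]
  simp only [φ.r_mul (R.pr _ c).sa (R.pat_pr Q lab _).sa,
    φ.r_mul (R.pr _ c).sa (R.f_pr Q _).sa, e1, e2]
  simp

lemma Rule.nor' : ∀ w ∈ List.ofFn R.w, S.IsNor w := fun w hw => by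
  obtain ⟨i, rfl⟩ := List.mem_ofFn.1 hw
  exact R.nor i

lemma Rule.f_gl {l : Fin R.L → Fin Q.n} {T : Finset (Fin Q.n)} {i : Fin R.L} (hi : l i ∈ T) :
    R.f Q l * Q.gl (List.ofFn R.w) T = 0 := by
  have h1 : star (R.w i) * Q.e (l i) * R.w i * R.f Q l = R.f Q l :=
    mul_prod_of_mem (R.f_mem Q l) (List.mem_ofFn.2 ⟨i, rfl⟩)
  have h2 : (1 - star (R.w i) * Q.eT T * R.w i) * Q.gl (List.ofFn R.w) T
      = Q.gl (List.ofFn R.w) T := mul_prod_of_mem (S := S) (fun a ha => by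
    obtain ⟨w, hw, rfl⟩ := List.mem_map.1 ha
    exact ((R.nor' w hw).conj_pr (Q.eT_pr T)).one_sub)
      (List.mem_map.2 ⟨_, List.mem_ofFn.2 ⟨i, rfl⟩, rfl⟩)
  have h3 : Q.e (l i) * Q.eT T = Q.e (l i) := by
    rw [Part.eT, Finset.mul_sum, Finset.sum_eq_single_of_mem _ hi
      fun m _ hm => Q.orth _ _ hm.symm, (Q.pr _).sq]
  rw [S.comm _ ((R.nor i).conj_pr (Q.pr _)).1 _ (R.f_pr Q l).1] at h1
  rw [← h2, ← h1, mul_assoc, ← mul_assoc (star (R.w i) * _ * _), mul_sub, mul_one]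
  simp only [mul_assoc, (R.nor i).us']
  rw [← mul_assoc (Q.e _), h3]; simp

/-- the multiplier removing the dependence on the labels seen by the rule -/
noncomputable def Rule.g (α : Fin Q.n → Equiv.Perm (Fin r)) : M :=
  Q.gl (List.ofFn R.w) (Finset.univ.filter fun m => α m ≠ 1)

lemma Rule.g_pr (α : Fin Q.n → Equiv.Perm (Fin r)) : S.Pr (R.g Q α) := Q.gl_pr R.nor' _

variable (B : HB (Equiv.Perm (Fin r)) 1)

lemma Rule.f_mu (ξ : (Fin Q.n → Equiv.Perm (Fin r)) → M) (l : Fin R.L → Fin Q.n)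
    {ω ω' : Fin Q.n → Equiv.Perm (Fin r)} (h : ∀ m, m ∉ Set.range l → ω m = ω' m) :
    R.f Q l * B.mu (R.g Q) ξ ω = R.f Q l * B.mu (R.g Q) ξ ω' := by
  rw [HB.mu]
  generalize B.F ξ = η
  simp only [HB.F, Finset.mul_sum, mul_smul_comm, Pi.mul_apply]
  refine Finset.sum_congr rfl fun α _ => ?_
  by_cases hα : ∃ i, α (l i) ≠ 1
  · obtain ⟨i, hi⟩ := hα
    rw [← mul_assoc, Rule.g, R.f_gl Q (i := i) (by simpa using hi)]; simp
  · congr 1
    refine Finset.prod_congr rfl fun m _ => ?_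
    by_cases hm : m ∈ Set.range l
    · obtain ⟨i, rfl⟩ := hm
      have : α (l i) = 1 := by_contra fun h' => hα ⟨i, h'⟩
      rw [this, B.symm, B.symm (ω' _), B.const]
    · rw [h m hm]

lemma Rule.ip_colour (ξ : (Fin Q.n → Equiv.Perm (Fin r)) → M) (c c' : Fin r) :
    S.ip (B.mu (R.g Q) ξ) ((fun ω => R.p Q ω c) * B.mu (R.g Q) ξ)
      = S.ip (B.mu (R.g Q) ξ) ((fun ω => R.p Q ω c') * B.mu (R.g Q) ξ) := by
  set ζ := B.mu (R.g Q) ξ with hζ
  have e : ∀ c, S.ip ζ ((fun ω => R.p Q ω c) * ζ) = ∑ l, ∑ ω,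
      S.κ (star (R.f Q l * ζ ω) * (R.Φ (fun i => ω (l i)) c * (R.f Q l * ζ ω))) := fun c => by
    rw [Finset.sum_comm]
    refine Finset.sum_congr rfl fun ω _ => ?_
    rw [Pi.mul_apply, R.p_eq, Finset.sum_mul, Finset.mul_sum, map_sum]
    refine Finset.sum_congr rfl fun l _ => ?_
    rw [star_mul, (R.f_pr Q l).star_eq, mul_assoc, mul_assoc, ← mul_assoc (R.f Q l),
      S.comm _ (R.f_pr Q l).1 _ (R.mem _ c), mul_assoc, (R.f_pr Q l).sq']
  rw [e, e]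
  refine Finset.sum_congr rfl fun l _ => ?_
  classical
  let τ : Fin Q.n → Equiv.Perm (Fin r) := fun m =>
    if m ∈ Set.range l then Equiv.swap c c' else 1
  rw [← Equiv.sum_comp (Equiv.mulLeft τ)]
  refine Finset.sum_congr rfl fun ω _ => ?_
  have h1 : R.f Q l * ζ (Equiv.mulLeft τ ω) = R.f Q l * ζ ω :=
    R.f_mu Q B ξ l fun m hm => by simp only [τ, Equiv.coe_mulLeft, Pi.mul_apply, if_neg hm, one_mul]
  have h2 : R.Φ (fun i => Equiv.mulLeft τ ω (l i)) c = R.Φ (fun i => ω (l i)) c' := by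
    rw [← R.equi (fun i => ω (l i)) (Equiv.swap c c') c', Equiv.swap_apply_right]
    simp [τ]
  rw [h1, h2]

lemma Rule.key (hr : 1 ≤ r) (c : Fin r) (ξ : (Fin Q.n → Equiv.Perm (Fin r)) → M) :
    (S.ip (B.mu (R.g Q) ξ) ((fun ω => R.p Q ω c) * B.mu (R.g Q) ξ)).re
      ≤ (1 / √r) ^ 2 * S.nn (B.mu (R.g Q) ξ) ^ 2 := by
  have r0 : (0 : ℝ) < r := by exact_mod_cast hr
  have e : (r : ℂ) * S.ip (B.mu (R.g Q) ξ) ((fun ω => R.p Q ω c) * B.mu (R.g Q) ξ)
      = S.ip (B.mu (R.g Q) ξ) (B.mu (R.g Q) ξ) := by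
    have h1 := Finset.sum_congr (s₁ := Finset.univ) rfl fun c' _ => R.ip_colour Q B ξ c c'
    rw [Finset.sum_const, Finset.card_univ, Fintype.card_fin, nsmul_eq_mul] at h1
    rw [h1]
    simp only [Setup.ip, Pi.mul_apply]
    rw [Finset.sum_comm]
    simp only [← map_sum, ← Finset.mul_sum, ← Finset.sum_mul, R.p_sum, one_mul]
  rw [S.nn_sq, ← e, div_pow, Real.sq_sqrt r0.le, ← Complex.ofReal_natCast,
    Complex.re_ofReal_mul, one_pow, ← mul_assoc, one_div, inv_mul_cancel₀ r0.ne', one_mul]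

lemma Rule.p_deg (c : Fin r) :
    (fun ω => R.p Q ω c) ∈ Deg M (Fin Q.n) (Equiv.Perm (Fin r)) R.L := by
  have : (fun ω => R.p Q ω c) = ∑ l, fun ω : Fin Q.n → Equiv.Perm (Fin r) =>
      R.Φ (fun i => ω (l i)) c * R.f Q l := by
    funext ω; rw [R.p_eq, Finset.sum_apply]
  rw [this]
  refine Submodule.sum_mem _ fun l _ => Submodule.subset_span ⟨Finset.univ.image l,
    Finset.card_image_le.trans (by simp), fun ω ω' h => ?_⟩
  simp only [fun i => h (l i) (Finset.mem_image_of_mem _ (Finset.mem_univ i))]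

end

/-- bounded random words of bounded degree, uniformly absolutely continuous -/
structure Good {Λ : Type*} (ξ : (Q : Part S) → (Fin Q.n → Λ) → M) : Prop where
  deg : ∃ d, ∀ Q, ξ Q ∈ Deg M (Fin Q.n) Λ d
  bdd : ∃ B, 0 ≤ B ∧ ∀ Q ω, ‖ξ Q ω‖ ≤ B
  uac : ∀ K, ∀ ε > (0 : ℝ), ∃ δ > (0 : ℝ), ∀ y, ‖y‖ ≤ K → S.n2 y ≤ δ →
    ∀ Q ω, S.n2 (y * ξ Q ω) ≤ ε

section
variable {Λ : Type*} {ξ : (Q : Part S) → (Fin Q.n → Λ) → M}

lemma Good.one : Good (S := S) (Λ := Λ) fun _ _ => 1 :=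
  ⟨⟨0, fun _ => Deg.const 1⟩, ⟨1, zero_le_one, fun _ _ => (Setup.Pr.one (S := S)).norm_le⟩,
    fun _ ε hε => ⟨ε, hε, fun y _ h _ _ => by rwa [mul_one]⟩⟩

lemma Good.const (h : Good ξ) (x : M) : Good (S := S) fun Q => (fun _ => x) * ξ Q := by
  obtain ⟨⟨d, hd⟩, ⟨B, B0, hB⟩, hu⟩ := h
  refine ⟨⟨0 + d, fun Q => Deg.mul (Deg.const x) (hd Q)⟩, ⟨‖x‖ * B, by positivity, fun Q ω =>
    (norm_mul_le _ _).trans (mul_le_mul_of_nonneg_left (hB Q ω) (norm_nonneg _))⟩,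
    fun K ε hε => ?_⟩
  obtain ⟨δ, hδ, H⟩ := hu (K * ‖x‖) ε hε
  obtain ⟨δ', hδ', H'⟩ := S.ac_n2 x K hδ
  refine ⟨δ' / 2, by positivity, fun y hy h Q ω => ?_⟩
  rw [Pi.mul_apply, ← mul_assoc]
  exact H _ ((norm_mul_le _ _).trans (mul_le_mul_of_nonneg_right hy (norm_nonneg _)))
    (H' y hy (by linarith)).le Q ω

lemma Good.proj (h : Good ξ) {p : (Q : Part S) → (Fin Q.n → Λ) → M} (hp : ∀ Q ω, S.Pr (p Q ω))
    {L : ℕ} (hL : ∀ Q, p Q ∈ Deg M (Fin Q.n) Λ L) : Good (S := S) fun Q => p Q * ξ Q := by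
  obtain ⟨⟨d, hd⟩, ⟨B, B0, hB⟩, hu⟩ := h
  refine ⟨⟨L + d, fun Q => Deg.mul (hL Q) (hd Q)⟩, ⟨B, B0, fun Q ω =>
    (norm_mul_le _ _).trans ((mul_le_of_le_one_left (norm_nonneg _) (hp Q ω).norm_le).trans
      (hB Q ω))⟩, fun K ε hε => ?_⟩
  obtain ⟨δ, hδ, H⟩ := hu K ε hε
  refine ⟨δ, hδ, fun y hy h Q ω => ?_⟩
  rw [Pi.mul_apply, ← mul_assoc]
  refine H _ ((norm_mul_le _ _).trans
    ((mul_le_of_le_one_right (norm_nonneg _) (hp Q ω).norm_le).trans hy)) ?_ Q ω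
  exact (S.n2_mul_right y (hp Q ω).1).trans
    ((mul_le_of_le_one_left (S.n2_nonneg _) (hp Q ω).norm_le).trans h)

lemma Good.small [Fintype Λ] [DecidableEq Λ] {o : Λ} (B : HB Λ o) (h : Good ξ)
    {z : (Q : Part S) → Finset (Fin Q.n) → M} (hz : ∀ d, Neg d z) {ε : ℝ} (hε : 0 < ε) :
    ∀ᶠ Q : Part S in atTop, S.nn ((fun α => z Q (Finset.univ.filter fun m => α m ≠ o)) * B.F (ξ Q))
      ≤ ε * √(Fintype.card (Fin Q.n → Λ)) := by
  obtain ⟨⟨d, hd⟩, ⟨D, D0, hD⟩, hu⟩ := h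
  obtain ⟨K, hK⟩ := hz d
  have n0 := S.n2_nonneg 1
  obtain ⟨δ, hδ, H⟩ := hu K (ε ^ 2 / (D * S.n2 1 + 1)) (by positivity)
  filter_upwards [hK δ hδ] with Q hQ
  obtain ⟨y, y0, y1, y2, y3⟩ := hQ
  rw [← sq_le_sq₀ (S.nn_nonneg _) (by positivity), S.nn_sq', mul_pow,
    Real.sq_sqrt (Nat.cast_nonneg _)]
  have h1 : ∀ α : Fin Q.n → Λ, S.q2 (z Q (Finset.univ.filter fun m => α m ≠ o) * B.F (ξ Q) α)
      ≤ (S.κ (star (B.F (ξ Q) α) * (y * B.F (ξ Q) α))).re := fun α => by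
    rcases le_or_gt (Finset.univ.filter fun m => α m ≠ o).card d with hα | hα
    · refine S.re_mono ?_
      simpa only [star_mul, mul_assoc] using
        star_left_conjugate_le_conjugate (y3 _ hα) (B.F (ξ Q) α)
    · simp [B.F_eq_zero (hd Q) hα]
  have h2 : ∑ α, (S.κ (star (B.F (ξ Q) α) * (y * B.F (ξ Q) α))).re
      = ∑ ω, (S.κ (star (ξ Q ω) * (y * ξ Q ω))).re := by
    have : S.ip (B.F (ξ Q)) ((fun _ => y) * B.F (ξ Q)) = S.ip (ξ Q) ((fun _ => y) * ξ Q) := by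
      rw [B.ip_F, B.F_const, B.F_F]
    rw [← Complex.re_sum, ← Complex.re_sum]
    exact congrArg Complex.re this
  have h3 : ∀ ω, (S.κ (star (ξ Q ω) * (y * ξ Q ω))).re ≤ ε ^ 2 := fun ω => by
    refine ((Complex.re_le_norm _).trans (S.cs _ _)).trans ?_
    have h4 := H y y1 y2 Q ω
    rw [le_div_iff₀ (by positivity)] at h4
    have h5 := (S.n2_le_norm (ξ Q ω)).trans (mul_le_mul_of_nonneg_right (hD Q ω) n0)
    have h6 := S.n2_nonneg (y * ξ Q ω)
    nlinarith [mul_le_mul_of_nonneg_right h5 h6]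
  refine (Finset.sum_le_sum fun α _ => h1 α).trans (h2 ▸ ?_)
  refine (Finset.sum_le_card_nsmul _ _ _ fun ω _ => h3 ω).trans (le_of_eq ?_)
  rw [Finset.card_univ, nsmul_eq_mul, mul_comm]

end

lemma Rule.moment (X : S.Exp) {x : M} {r : ℕ} (hr : 1 ≤ r) (R : Rule S r)
    (hC : ∀ w ∈ List.ofFn R.w, ∀ v ∈ List.ofFn R.w, ∀ ε > (0 : ℝ), ∃ P : Part S,
      ∑ l, S.q2 (X.E (star (w * x * star v) * P.e l * (w * x * star v))) < ε) (c : Fin r) (k : ℕ) :
    Good (S := S) (fun Q ω => (R.p Q ω c * x * R.p Q ω c) ^ k) ∧ ∀ ε > (0 : ℝ),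
      ∀ᶠ Q : Part S in atTop, S.nn (fun ω => (R.p Q ω c * x * R.p Q ω c) ^ k) ≤
        ((2 * (1 / √r) * ‖x‖) ^ k * S.n2 1 + ε)
          * √(Fintype.card (Fin Q.n → Equiv.Perm (Fin r))) := by
  obtain ⟨B⟩ := exists_HB (1 : Equiv.Perm (Fin r))
  induction k with
  | zero =>
    simp only [pow_zero]
    refine ⟨Good.one, fun ε hε => .of_forall fun Q => ?_⟩
    have n0 := S.n2_nonneg 1
    rw [← sq_le_sq₀ (S.nn_nonneg _) (by positivity), S.nn_sq', mul_pow,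
      Real.sq_sqrt (Nat.cast_nonneg _), Finset.sum_const, Finset.card_univ, nsmul_eq_mul,
      mul_comm, ← S.n2_sq]
    gcongr; linarith
  | succ k ih =>
    obtain ⟨h1, h2⟩ := ih
    have h3 := h1.proj (fun Q ω => R.p_pr Q ω c) fun Q => R.p_deg Q c
    have e : ∀ Q : Part S, (fun ω => (R.p Q ω c * x * R.p Q ω c) ^ (k + 1))
        = (fun ω => R.p Q ω c) * (fun _ => x) * (fun ω => R.p Q ω c)
          * fun ω => (R.p Q ω c * x * R.p Q ω c) ^ k := fun Q => by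
      funext ω; simp only [Pi.mul_apply, pow_succ']
    refine ⟨?_, fun ε hε => ?_⟩
    · have := (h3.const x).proj (fun Q ω => R.p_pr Q ω c) fun Q => R.p_deg Q c
      convert this using 2 with Q
      rw [e]; simp only [mul_assoc]
    · set b := 2 * (1 / √r) * ‖x‖ with hb
      have b0 : 0 ≤ b := by positivity
      filter_upwards [h2 (ε / (b + 1)) (by positivity),
        h3.small B (Neg.corner X R.nor' hC) (ε := ε / (b + 1)) (by positivity)] with Q h4 h5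
      rw [e]
      refine (B.step S (fun α => (R.g_pr Q α).2) (fun ω => (R.p_pr Q ω c).2) (by positivity)
        (R.key Q B hr c) x _).trans ?_
      refine (add_le_add (mul_le_mul_of_nonneg_left h4 b0) h5).trans (le_of_eq ?_)
      rw [pow_succ]; field_simp; ring

lemma pinch_pow {r : ℕ} {p : Fin r → M} (hp : ∀ c, S.Pr (p c))
    (ho : ∀ c c', c ≠ c' → p c * p c' = 0) (x : M) (k : ℕ) :
    (∑ c, p c * x * p c) ^ (k + 1) = ∑ c, (p c * x * p c) ^ (k + 1) := by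
  induction k with
  | zero => simp
  | succ k ih =>
    rw [pow_succ, ih, Finset.sum_mul_sum]
    refine Finset.sum_congr rfl fun c _ => ?_
    rw [Finset.sum_eq_single c (fun c' _ h => ?_) (by simp), ← pow_succ]
    rw [pow_succ]
    simp only [mul_assoc]
    rw [← mul_assoc (p c) (p c'), ho _ _ h.symm]; simp

theorem free_core (X : S.Exp) {x : M} (hx : IsSelfAdjoint x) {r : ℕ} (hr : 1 ≤ r) (R : Rule S r)
    (hC : ∀ w ∈ List.ofFn R.w, ∀ v ∈ List.ofFn R.w, ∀ ε > (0 : ℝ), ∃ P : Part S,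
      ∑ l, S.q2 (X.E (star (w * x * star v) * P.e l * (w * x * star v))) < ε) (k : ℕ) {δ : ℝ}
    (hδ : 0 < δ) : ∃ (Q : Part S) (lab : Fin Q.n → Equiv.Perm (Fin r)),
      (S.κ (R.pinch Q lab x ^ (2 * k))).re ≤ r * (3 * ‖x‖ / √r) ^ (2 * k) * (S.κ 1).re + δ := by
  have r1 : (1 : ℝ) ≤ r := by exact_mod_cast hr
  have k1 : 0 ≤ (S.κ 1).re := S.re_nonneg zero_le_one
  rcases k with _ | k
  · refine ⟨Classical.arbitrary _, fun _ => 1, ?_⟩
    simp only [mul_zero, pow_zero, mul_one]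
    nlinarith
  set a := (2 * (1 / √r) * ‖x‖) ^ (k + 1) * S.n2 1 with ha
  have a0 : 0 ≤ a := mul_nonneg (by positivity) (S.n2_nonneg 1)
  obtain ⟨ε, hε, H⟩ : ∃ ε > (0 : ℝ), r * (a + ε) ^ 2 ≤ r * a ^ 2 + δ := by
    have : Tendsto (fun ε : ℝ => r * (a + ε) ^ 2) (𝓝[>] 0) (𝓝 (r * (a + 0) ^ 2)) :=
      (Continuous.tendsto (by fun_prop) 0).mono_left nhdsWithin_le_nhds
    obtain ⟨ε, h1, h2⟩ := ((this.eventually (gt_mem_nhds (by
      rw [add_zero]; exact lt_add_of_pos_right _ hδ))).and self_mem_nhdsWithin).exists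
    exact ⟨ε, h2, h1.le⟩
  obtain ⟨Q, hQ⟩ := (eventually_all.2 fun c => (R.moment X hr hC c (k + 1)).2 ε hε).exists
  refine ⟨Q, ?_⟩
  have h1 : ∑ lab, (S.κ (R.pinch Q lab x ^ (2 * (k + 1)))).re
      ≤ ∑ _lab : Fin Q.n → Equiv.Perm (Fin r), r * (a + ε) ^ 2 := by
    have e : ∀ lab, (S.κ (R.pinch Q lab x ^ (2 * (k + 1)))).re
        = ∑ c, S.q2 ((R.p Q lab c * x * R.p Q lab c) ^ (k + 1)) := fun lab => by
      rw [Rule.pinch, show 2 * (k + 1) = 2 * k + 1 + 1 by ring,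
        pinch_pow (R.p_pr Q lab) (fun _ _ => R.p_orth Q lab), map_sum, Complex.re_sum]
      refine Finset.sum_congr rfl fun c _ => ?_
      have hs : IsSelfAdjoint (R.p Q lab c * x * R.p Q lab c) := by
        simpa only [(R.p_pr Q lab c).star_eq] using hx.conjugate (R.p Q lab c)
      rw [Setup.q2, (hs.pow _).star_eq, ← pow_add]
      congr 3; ring
    simp only [e]
    rw [Finset.sum_comm, Finset.sum_const, Finset.card_univ, nsmul_eq_mul]
    simp only [← S.nn_sq']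
    refine (Finset.sum_le_card_nsmul _ _ _ fun c _ =>
      pow_le_pow_left₀ (S.nn_nonneg _) (hQ c) 2).trans (le_of_eq ?_)
    rw [Finset.card_univ, Fintype.card_fin, nsmul_eq_mul, mul_pow,
      Real.sq_sqrt (Nat.cast_nonneg _)]
    ring
  obtain ⟨lab, -, h2⟩ := Finset.exists_le_of_sum_le Finset.univ_nonempty h1
  refine ⟨lab, (h2.trans H).trans ?_⟩
  rw [ha, mul_pow, S.n2_sq, S.q2_one, ← pow_mul, mul_comm (k + 1), mul_assoc (r : ℝ)]
  gcongr
  rw [mul_one_div, div_mul_eq_mul_div]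
  gcongr; norm_num

omit [PartialOrder M] [StarOrderedRing M] in
lemma diff_aux (w x v u : M) (h : v * star v = 1) (h' : star v * v = 1) :
    star u * (w * x * star v) = v * (star (star w * u * v) * x) * star v := by
  simp only [star_mul, star_star, mul_assoc]
  rw [← mul_assoc v, h, one_mul]

lemma Setup.Exp.Diff.conj {X : S.Exp} {x w v : M} (hd : X.Diff x) (hw : S.IsNor w)
    (hv : S.IsNor v) : X.Diff (w * x * Star.star v) := fun u hu => by
  rw [diff_aux w x v u hv.us hv.su, E_conj' X hv, hd _ ((hw.star.mul hu).mul hv)]; simp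

/-- `free_part` from the discreteness statement -/
theorem free_part_of (X : S.Exp) (hdis : ∀ c, X.Diff c → ∀ ε > (0 : ℝ),
    ∃ P : Part S, ∑ l, S.q2 (X.E (star c * P.e l * c)) < ε) {x : M} (hx : IsSelfAdjoint x)
    (hd : X.Diff x) {r : ℕ} (hr : 1 ≤ r) (R : Rule S r) (k : ℕ) {δ : ℝ} (hδ : 0 < δ) :
    ∃ (Q : Part S) (lab : Fin Q.n → Equiv.Perm (Fin r)), (S.κ (R.pinch Q lab x ^ (2 * k))).re ≤
      r * (3 * ‖x‖ / √r) ^ (2 * k) * (S.κ 1).re + δ :=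
  free_core X hx hr R (fun w hw v hv => hdis _ (hd.conj (R.nor' w hw) (R.nor' v hv))) k hδ

theorem free_part (X : S.Exp) {x : M} (hx : IsSelfAdjoint x) (hd : X.Diff x) {r : ℕ} (hr : 1 ≤ r)
    (R : Rule S r) (k : ℕ) {δ : ℝ} (hδ : 0 < δ) : ∃ (Q : Part S)
      (lab : Fin Q.n → Equiv.Perm (Fin r)), (S.κ (R.pinch Q lab x ^ (2 * k))).re ≤
        r * (3 * ‖x‖ / √r) ^ (2 * k) * (S.κ 1).re + δ :=
  free_part_of X (fun _ hc _ hε => discreteness X hc hε) hx hd hr R k hδ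

end Vale.Agent.P078
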