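import Vale.Agent.P078.FreeNeg

/-! A real Fourier transform on labelings and operator-valued random variables. -/

namespace Vale.Agent.P078

open scoped ComplexOrder InnerProductSpace ComplexConjugate
open Filter Topology

/-- a symmetric orthogonal matrix with one constant row -/
structure HB (Λ : Type*) [Fintype Λ] [DecidableEq Λ] (o : Λ) where
  U : Λ → Λ → ℝ
  symm : ∀ a b, U a b = U b a
  orth : ∀ a b, ∑ c, U a c * U b c = if a = b then 1 else 0
  const : ∀ b c, U o b = U o c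
  zero : ∀ a, a ≠ o → ∑ c, U a c = 0

lemma exists_HB {Λ : Type*} [Fintype Λ] [DecidableEq Λ] (o : Λ) : Nonempty (HB Λ o) := by
  have : Nonempty Λ := ⟨o⟩
  have N0 : (0 : ℝ) < Fintype.card Λ := by exact_mod_cast Fintype.card_pos
  set s : ℝ := (√(Fintype.card Λ))⁻¹ with hs
  have s0 : 0 < s := by positivity
  have s1 : (Fintype.card Λ : ℝ) * (s * s) = 1 := by
    rw [hs, ← mul_inv, Real.mul_self_sqrt N0.le, mul_inv_cancel₀ N0.ne']
  let v : Λ → ℝ := fun a => (if a = o then 1 else 0) + s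
  have hv : ∑ c, v c * v c = 2 * (1 + s) := by
    have : ∀ c, v c * v c = (if c = o then 1 + 2 * s else 0) + s * s := fun c => by
      simp only [v]; split_ifs <;> ring
    simp only [this, Finset.sum_add_distrib, Finset.sum_ite_eq', Finset.mem_univ, if_true,
      Finset.sum_const, Finset.card_univ, nsmul_eq_mul, s1]
    ring
  let U : Λ → Λ → ℝ := fun a b => (if a = b then 1 else 0) - v a * v b / (1 + s)
  have ho : ∀ b, U o b = -s := fun b => by
    simp only [U, v, if_true, eq_comm (a := o)]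
    field_simp; ring
  have horth : ∀ a b, ∑ c, U a c * U b c = if a = b then 1 else 0 := fun a b => by
    have : ∀ c, U a c * U b c = (if a = c then (if b = c then 1 else 0) else 0)
        - (if a = c then v b * v c / (1 + s) else 0) - (if b = c then v a * v c / (1 + s) else 0)
        + v a * v b / (1 + s) ^ 2 * (v c * v c) := fun c => by
      simp only [U]; split_ifs <;> field_simp <;> ring
    simp only [this, Finset.sum_add_distrib, Finset.sum_sub_distrib, Finset.sum_ite_eq,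
      Finset.mem_univ, if_true, ← Finset.mul_sum, hv]
    simp only [eq_comm (a := b)]
    field_simp; ring
  refine ⟨⟨U, fun a b => by simp only [U, eq_comm (a := a), mul_comm], horth,
    fun b c => by rw [ho, ho], fun a ha => ?_⟩⟩
  have := horth a o
  simp only [ho, ← Finset.sum_mul, if_neg ha, mul_eq_zero, neg_eq_zero, s0.ne', or_false] at this
  exact this

variable {M : Type*} [CStarAlgebra M] [PartialOrder M] [StarOrderedRing M] {S : Setup M}

section Hil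
variable {Ω : Type*} [Fintype Ω]

/-- inner product of random variables -/
noncomputable def Setup.ip (S : Setup M) (ξ ζ : Ω → M) : ℂ := ∑ ω, S.κ (star (ξ ω) * ζ ω)

/-- a random variable as a vector -/
noncomputable def Setup.vec (S : Setup M) (ξ : Ω → M) : PiLp 2 (fun _ : Ω => S.H) :=
  WithLp.toLp 2 fun ω => S.ι (ξ ω)

/-- norm of random variables -/
noncomputable def Setup.nn (S : Setup M) (ξ : Ω → M) : ℝ := ‖S.vec ξ‖

lemma Setup.nn_nonneg (S : Setup M) (ξ : Ω → M) : 0 ≤ S.nn ξ := norm_nonneg _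

lemma Setup.inner_vec (S : Setup M) (ξ ζ : Ω → M) : ⟪S.vec ξ, S.vec ζ⟫_ℂ = S.ip ξ ζ := by
  simp only [Setup.vec, PiLp.inner_apply, S.inner_ι, Setup.ip]

lemma Setup.nn_sq (S : Setup M) (ξ : Ω → M) : S.nn ξ ^ 2 = (S.ip ξ ξ).re := by
  rw [Setup.nn, ← S.inner_vec, ← inner_self_eq_norm_sq (𝕜 := ℂ)]; rfl

lemma Setup.nn_sq' (S : Setup M) (ξ : Ω → M) : S.nn ξ ^ 2 = ∑ ω, S.q2 (ξ ω) := by
  rw [S.nn_sq, Setup.ip, Complex.re_sum]; rfl

lemma Setup.nn_add_le (S : Setup M) (ξ ζ : Ω → M) : S.nn (ξ + ζ) ≤ S.nn ξ + S.nn ζ := by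
  have : S.vec (ξ + ζ) = S.vec ξ + S.vec ζ := by
    ext ω; simp [Setup.vec]
  rw [Setup.nn, this]; exact norm_add_le _ _

lemma Setup.ip_le (S : Setup M) (ξ ζ : Ω → M) : (S.ip ξ ζ).re ≤ S.nn ξ * S.nn ζ := by
  rw [← S.inner_vec]; exact re_inner_le_norm (𝕜 := ℂ) _ _

lemma Setup.nn_mul_le (S : Setup M) {b : Ω → M} {B : ℝ} (hB : 0 ≤ B) (hb : ∀ ω, ‖b ω‖ ≤ B)
    (ξ : Ω → M) : S.nn (b * ξ) ≤ B * S.nn ξ := by
  rw [← sq_le_sq₀ (S.nn_nonneg _) (mul_nonneg hB (S.nn_nonneg _)), mul_pow, S.nn_sq', S.nn_sq',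
    Finset.mul_sum]
  exact Finset.sum_le_sum fun ω _ => (S.q2_mul_left _ _).trans
    (mul_le_mul_of_nonneg_right (pow_le_pow_left₀ (norm_nonneg _) (hb ω) 2) (S.q2_nonneg _))

lemma Setup.ip_mul (S : Setup M) {b : Ω → M} (hb : ∀ ω, IsSelfAdjoint (b ω)) (ξ ζ : Ω → M) :
    S.ip (b * ξ) ζ = S.ip ξ (b * ζ) := by
  simp only [Setup.ip, Pi.mul_apply, star_mul, fun ω => (hb ω).star_eq, mul_assoc]

end Hil

section Four
variable {Λ : Type*} [Fintype Λ] [DecidableEq Λ] {o : Λ} (B : HB Λ o)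
  {I : Type*} [Fintype I] [DecidableEq I]

/-- product basis -/
def HB.u (α ω : I → Λ) : ℝ := ∏ l, B.U (α l) (ω l)

lemma HB.u_symm (α ω : I → Λ) : B.u α ω = B.u ω α := by simp only [HB.u, B.symm (α _)]

lemma HB.u_orth (α β : I → Λ) : ∑ ω, B.u α ω * B.u β ω = if α = β then 1 else 0 := by
  simp only [HB.u, ← Finset.prod_mul_distrib]
  rw [← Fintype.prod_sum (fun l c => B.U (α l) c * B.U (β l) c)]
  simp only [B.orth]
  rw [Finset.prod_ite_zero]; simp [funext_iff]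

/-- the Fourier transform -/
noncomputable def HB.F (ξ : (I → Λ) → M) : (I → Λ) → M := fun α => ∑ ω, B.u α ω • ξ ω

omit [PartialOrder M] [StarOrderedRing M] in
lemma HB.F_F (ξ : (I → Λ) → M) : B.F (B.F ξ) = ξ := by
  funext α
  simp only [HB.F, Finset.smul_sum, smul_smul]
  rw [Finset.sum_comm]
  have : ∀ β, ∑ ω, B.u α ω * B.u ω β = if α = β then 1 else 0 := fun β => by
    simp only [B.u_symm _ β, B.u_orth]
  simp only [← Finset.sum_smul, this]
  simp

omit [PartialOrder M] [StarOrderedRing M] in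
lemma HB.F_sub (ξ ζ : (I → Λ) → M) : B.F (ξ - ζ) = B.F ξ - B.F ζ := by
  funext α
  simp only [HB.F, Pi.sub_apply, smul_sub, Finset.sum_sub_distrib]

omit [PartialOrder M] [StarOrderedRing M] in
lemma HB.F_const (x : M) (ξ : (I → Λ) → M) : B.F ((fun _ => x) * ξ) = (fun _ => x) * B.F ξ := by
  funext α
  simp only [HB.F, Pi.mul_apply, Finset.mul_sum, mul_smul_comm]

lemma HB.ip_F (S : Setup M) (ξ ζ : (I → Λ) → M) : S.ip (B.F ξ) ζ = S.ip ξ (B.F ζ) := by
  simp only [Setup.ip, HB.F, star_sum, Finset.sum_mul, Finset.mul_sum, map_sum, star_smul,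
    star_trivial, smul_mul_assoc, mul_smul_comm]
  rw [Finset.sum_comm]
  simp only [B.u_symm]

lemma HB.nn_F (S : Setup M) (ξ : (I → Λ) → M) : S.nn (B.F ξ) = S.nn ξ := by
  rw [← sq_eq_sq₀ (S.nn_nonneg _) (S.nn_nonneg _), S.nn_sq, S.nn_sq, B.ip_F, B.F_F]

/-- Fourier multipliers -/
noncomputable def HB.mu (g ξ : (I → Λ) → M) : (I → Λ) → M := B.F (g * B.F ξ)

lemma HB.nn_mu (S : Setup M) {g : (I → Λ) → M} (hg : ∀ α, ‖g α‖ ≤ 1) (ξ : (I → Λ) → M) :
    S.nn (B.mu g ξ) ≤ S.nn ξ := by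
  rw [HB.mu, B.nn_F, ← B.nn_F S ξ]
  simpa using S.nn_mul_le zero_le_one hg (B.F ξ)

omit [PartialOrder M] [StarOrderedRing M] in
lemma HB.mu_add (g ξ : (I → Λ) → M) : B.mu g ξ + B.mu (1 - g) ξ = ξ := by
  rw [HB.mu, HB.mu, sub_mul, one_mul, B.F_sub, B.F_F]; abel

lemma HB.step (S : Setup M) {g p : (I → Λ) → M} (hg : ∀ α, IsStarProjection (g α))
    (hp : ∀ ω, IsStarProjection (p ω)) {t : ℝ} (ht : 0 ≤ t)
    (key : ∀ ξ, (S.ip (B.mu g ξ) (p * B.mu g ξ)).re ≤ t ^ 2 * S.nn (B.mu g ξ) ^ 2) (x : M)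
    (ξ : (I → Λ) → M) : S.nn (p * (fun _ => x) * p * ξ) ≤ 2 * t * ‖x‖ * S.nn ξ
      + S.nn ((1 - g) * (fun _ => x) * (1 - g) * B.F (p * ξ)) := by
  have pp : p * p = p := funext fun ω => (hp ω).isIdempotentElem.eq
  have gg : g * g = g := funext fun ω => (hg ω).isIdempotentElem.eq
  have p1 : ∀ ζ, S.nn (p * ζ) ≤ S.nn ζ := fun ζ => by
    simpa using S.nn_mul_le zero_le_one (fun ω => (hp ω).norm_le) ζ
  have x1 : ∀ ζ : (I → Λ) → M, S.nn ((fun _ => x) * ζ) ≤ ‖x‖ * S.nn ζ := fun ζ =>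
    S.nn_mul_le (norm_nonneg _) (fun _ => le_rfl) ζ
  have h1 : ∀ ζ, S.nn (p * B.mu g ζ) ≤ t * S.nn (B.mu g ζ) := fun ζ => by
    rw [← sq_le_sq₀ (S.nn_nonneg _) (mul_nonneg ht (S.nn_nonneg _)), mul_pow, S.nn_sq (p * _),
      S.ip_mul fun ω => (hp ω).isSelfAdjoint, ← mul_assoc, pp]
    exact key ζ
  have h2 : S.nn (B.mu g (p * ξ)) ≤ t * S.nn ξ := by
    have e : S.ip (B.mu g (p * ξ)) (B.mu g (p * ξ)) = S.ip (p * B.mu g (p * ξ)) ξ := by
      rw [S.ip_mul fun ω => (hp ω).isSelfAdjoint]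
      simp only [HB.mu, B.ip_F, B.F_F, S.ip_mul fun ω => (hg ω).isSelfAdjoint, ← mul_assoc, gg]
    have h3 := S.nn_sq (B.mu g (p * ξ))
    rw [e] at h3
    have h4 := (S.ip_le _ _).trans (mul_le_mul_of_nonneg_right (h1 (p * ξ)) (S.nn_nonneg ξ))
    rcases (S.nn_nonneg (B.mu g (p * ξ))).eq_or_lt with h | h
    · rw [← h]; exact mul_nonneg ht (S.nn_nonneg _)
    · refine le_of_mul_le_mul_left ?_ h
      nlinarith
  have g1 : ∀ α, ‖(1 - g) α‖ ≤ 1 := fun α => (hg α).one_sub.norm_le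
  set ζ := (fun _ => x) * B.mu (1 - g) (p * ξ) with hζ
  have e : p * (fun _ => x) * p * ξ = p * ((fun _ => x) * B.mu g (p * ξ)) + p * B.mu g ζ
      + p * B.mu (1 - g) ζ := by
    rw [add_assoc, ← mul_add, B.mu_add, hζ, ← mul_add, ← mul_add, B.mu_add]
    simp only [mul_assoc]
  have h5 : S.nn ζ ≤ ‖x‖ * S.nn ξ :=
    (x1 _).trans (mul_le_mul_of_nonneg_left ((B.nn_mu S g1 _).trans (p1 ξ)) (norm_nonneg _))
  have h6 : S.nn (B.mu (1 - g) ζ) = S.nn ((1 - g) * (fun _ => x) * (1 - g) * B.F (p * ξ)) := by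
    rw [HB.mu, B.nn_F, hζ, B.F_const, HB.mu, B.F_F]; simp only [mul_assoc]
  have h7 := (h1 ζ).trans (mul_le_mul_of_nonneg_left
    ((B.nn_mu S (fun α => (hg α).norm_le) ζ).trans h5) ht)
  have h8 := ((p1 _).trans (x1 _)).trans (mul_le_mul_of_nonneg_left h2 (norm_nonneg x))
  have h9 := p1 (B.mu (1 - g) ζ)
  rw [e, ← h6]
  refine (S.nn_add_le _ _).trans ?_
  have := S.nn_add_le (p * ((fun _ => x) * B.mu g (p * ξ))) (p * B.mu g ζ)
  nlinarith

/-- random variables of degree at most `d` -/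
noncomputable def Deg (M : Type*) [CStarAlgebra M] (I Λ : Type*) (d : ℕ) : Submodule ℝ ((I → Λ) → M) :=
  Submodule.span ℝ
    {G | ∃ J : Finset I, J.card ≤ d ∧ ∀ ω ω', (∀ l ∈ J, ω l = ω' l) → G ω = G ω'}

omit [PartialOrder M] [StarOrderedRing M] [Fintype Λ] [DecidableEq Λ] [Fintype I] in
lemma Deg.mul {d d' : ℕ} {ξ ζ : (I → Λ) → M} (h : ξ ∈ Deg M I Λ d) (h' : ζ ∈ Deg M I Λ d') :
    ξ * ζ ∈ Deg M I Λ (d + d') := by
  have := Submodule.mul_mem_mul h h'
  rw [Deg, Deg, Submodule.span_mul_span] at this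
  refine Submodule.span_mono ?_ this
  rintro _ ⟨G, ⟨J, hJ, hG⟩, G', ⟨J', hJ', hG'⟩, rfl⟩
  refine ⟨J ∪ J', (Finset.card_union_le _ _).trans (add_le_add hJ hJ'), fun ω ω' e => ?_⟩
  simp only [Pi.mul_apply]
  rw [hG ω ω' fun l hl => e l (Finset.mem_union_left _ hl),
    hG' ω ω' fun l hl => e l (Finset.mem_union_right _ hl)]

omit [PartialOrder M] [StarOrderedRing M] [Fintype Λ] [DecidableEq Λ] [Fintype I]
  [DecidableEq I] in
lemma Deg.const (x : M) : (fun _ => x) ∈ Deg M I Λ 0 :=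
  Submodule.subset_span ⟨∅, le_rfl, fun _ _ _ => rfl⟩

omit [PartialOrder M] [StarOrderedRing M] in
lemma HB.F_eq_zero {d : ℕ} {ξ : (I → Λ) → M} (h : ξ ∈ Deg M I Λ d) {α : I → Λ}
    (hα : d < (Finset.univ.filter fun l => α l ≠ o).card) : B.F ξ α = 0 := by
  induction h using Submodule.span_induction with
  | zero => simp [HB.F]
  | add ξ ζ _ _ h h' =>
    simp only [HB.F, Pi.add_apply, smul_add, Finset.sum_add_distrib] at h h' ⊢
    rw [h, h', add_zero]
  | smul t ξ _ h =>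
    simp only [HB.F, Pi.smul_apply, smul_comm _ t, ← Finset.smul_sum] at h ⊢
    rw [h, smul_zero]
  | mem G hG =>
    obtain ⟨J, hJ, hG⟩ := hG
    obtain ⟨l, hl, hlJ⟩ := Finset.exists_mem_notMem_of_card_lt_card (hJ.trans_lt hα)
    have hl' : α l ≠ o := (Finset.mem_filter.1 hl).2
    let σ : (I → Λ) × Λ → (I → Λ) × Λ := fun z => (Function.update z.1 l z.2, z.1 l)
    have hσ : Function.Involutive σ := fun z => by simp [σ]
    have e := Equiv.sum_comp (hσ.toPerm σ) fun z => B.u α z.1 • G z.1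
    have e1 : ∀ z : (I → Λ) × Λ, B.u α (hσ.toPerm σ z).1 • G (hσ.toPerm σ z).1
        = (B.U (α l) z.2 * ∏ m ∈ Finset.univ.erase l, B.U (α m) (z.1 m)) • G z.1 := fun z => by
      change B.u α (Function.update z.1 l z.2) • G (Function.update z.1 l z.2) = _
      rw [hG _ z.1 fun m hm => Function.update_of_ne (ne_of_mem_of_not_mem hm hlJ) _ _, HB.u,
        ← Finset.mul_prod_erase _ _ (Finset.mem_univ l), Function.update_self]
      congr 2
      exact Finset.prod_congr rfl fun m hm => by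
        rw [Function.update_of_ne (Finset.ne_of_mem_erase hm)]
    simp only [e1, Fintype.sum_prod_type, ← Finset.sum_smul, ← Finset.sum_mul, B.zero _ hl',
      zero_mul, zero_smul, Finset.sum_const_zero, Finset.sum_const, Finset.card_univ,
      ← Nat.cast_smul_eq_nsmul ℝ, smul_assoc, ← Finset.smul_sum] at e
    have : Nonempty Λ := ⟨o⟩
    exact (smul_eq_zero.1 e.symm).resolve_left (by exact_mod_cast Fintype.card_ne_zero)

end Four

end Vale.Agent.P078
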