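import Vale.Agent.P078.Nor

/-! Uniformly negligible families of small blocks of a diffuse element. -/

namespace Vale.Agent.P078

open scoped ComplexOrder InnerProductSpace ComplexConjugate
open Filter Topology

variable {M : Type*} [CStarAlgebra M] [PartialOrder M] [StarOrderedRing M] {S : Setup M}

lemma conj_sum_le {J : Type*} (T : Finset J) (a : J → M) {y : M} (hy : 0 ≤ y) :
    star (∑ l ∈ T, a l) * y * ∑ l ∈ T, a l ≤ (T.card : ℝ) • ∑ l ∈ T, star (a l) * y * a l := by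
  have h : 0 ≤ ∑ l ∈ T, ∑ m ∈ T, star (a l - a m) * y * (a l - a m) :=
    Finset.sum_nonneg fun l _ => Finset.sum_nonneg fun m _ => star_left_conjugate_nonneg hy _
  have e1 : star (∑ l ∈ T, a l) * y * ∑ l ∈ T, a l
      = ∑ l ∈ T, ∑ m ∈ T, star (a l) * y * a m := by
    rw [star_sum, Finset.sum_mul, Finset.sum_mul_sum]
  have e2 : ∑ l ∈ T, ∑ m ∈ T, star (a m) * y * a l = ∑ l ∈ T, ∑ m ∈ T, star (a l) * y * a m :=
    Finset.sum_comm
  have e3 : ∑ l ∈ T, ∑ m ∈ T, star (a l - a m) * y * (a l - a m)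
      = (2 : ℝ) • ((T.card : ℝ) • ∑ l ∈ T, star (a l) * y * a l
        - ∑ l ∈ T, ∑ m ∈ T, star (a l) * y * a m) := by
    simp only [star_sub, sub_mul, mul_sub, Finset.sum_sub_distrib, Finset.sum_const, e2,
      ← Finset.smul_sum, ← Nat.cast_smul_eq_nsmul ℝ]
    module
  rw [e3] at h
  have h' := smul_nonneg (by norm_num : (0 : ℝ) ≤ 2⁻¹) h
  rw [smul_smul, inv_mul_cancel₀ two_ne_zero, one_smul, sub_nonneg] at h'
  rwa [e1]

lemma add_sq_le (a b : M) :
    star (a + b) * (a + b) ≤ (2 : ℝ) • (star a * a + star b * b) := by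
  have h : 0 ≤ star (a - b) * (a - b) := star_mul_self_nonneg _
  rw [← sub_nonneg]
  convert h using 1
  simp only [star_add, star_sub, add_mul, mul_add, sub_mul, mul_sub]
  module

lemma mul_sq_le {a : M} (ha : ‖a‖ ≤ 1) (z : M) : star (a * z) * (a * z) ≤ star z * z := by
  have h1 : star a * a ≤ 1 := by
    refine CStarAlgebra.star_mul_le_algebraMap_norm_sq.trans ?_
    rw [Algebra.algebraMap_eq_smul_one]
    have : ‖a‖ ^ 2 ≤ 1 := pow_le_one₀ (norm_nonneg _) ha
    simpa using smul_le_smul_of_nonneg_right this (zero_le_one' M)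
  simpa only [star_mul, mul_assoc, one_mul] using star_left_conjugate_le_conjugate h1 z

/-- the sum of the atoms in `T` -/
noncomputable def Part.eT (Q : Part S) (T : Finset (Fin Q.n)) : M := ∑ l ∈ T, Q.e l

lemma Part.eT_pr (Q : Part S) (T : Finset (Fin Q.n)) : S.Pr (Q.eT T) := by
  have := Setup.Pr.sum (S := S) (p := fun l => if l ∈ T then Q.e l else 0)
    (fun l => by split_ifs; exacts [Q.pr l, .zero])
    (fun i j h => by split_ifs <;> simp [Q.orth i j h])
  rwa [Finset.sum_ite_mem, Finset.univ_inter] at this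

lemma Part.eT_conj_le (Q : Part S) {T : Finset (Fin Q.n)} {d : ℕ} (hT : T.card ≤ d) {y : M}
    (hy : 0 ≤ y) : Q.eT T * y * Q.eT T ≤ (d : ℝ) • Q.pinch y := by
  have h := conj_sum_le T Q.e hy
  have h0 : ∀ l, 0 ≤ Q.e l * y * Q.e l := fun l => by
    simpa only [(Q.pr l).star_eq] using star_left_conjugate_nonneg hy (Q.e l)
  simp only [fun l => (Q.pr l).star_eq] at h
  rw [show star (∑ l ∈ T, Q.e l) = Q.eT T from (Q.eT_pr T).star_eq] at h
  refine h.trans ((smul_le_smul_of_nonneg_left (Finset.sum_le_univ_sum_of_nonneg h0)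
    (Nat.cast_nonneg _)).trans ?_)
  exact smul_le_smul_of_nonneg_right (by exact_mod_cast hT) (Q.pinch_nonneg hy)

lemma Part.n2_pinch_le (Q : Part S) (y : M) : S.n2 (Q.pinch y) ≤ S.n2 y := by
  rw [S.n2_eq, S.n2_eq]; exact Real.sqrt_le_sqrt (Q.q2_pinch_le y)

lemma Setup.n2_rsmul (S : Setup M) {t : ℝ} (ht : 0 ≤ t) (y : M) : S.n2 (t • y) = t * S.n2 y := by
  rw [← Complex.coe_smul, S.n2_smul, Complex.norm_real, Real.norm_of_nonneg ht]

/-- families dominated by one bounded operator of small 2-norm -/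
def Neg (d : ℕ) (z : (Q : Part S) → Finset (Fin Q.n) → M) : Prop :=
  ∃ K : ℝ, ∀ ε > (0 : ℝ), ∀ᶠ Q : Part S in atTop, ∃ y : M, 0 ≤ y ∧ ‖y‖ ≤ K ∧ S.n2 y ≤ ε ∧
    ∀ T, T.card ≤ d → star (z Q T) * z Q T ≤ y

namespace Neg
variable {d : ℕ} {z z' : (Q : Part S) → Finset (Fin Q.n) → M}

lemma zero : Neg (S := S) d fun _ _ => 0 :=
  ⟨0, fun ε hε => .of_forall fun _ => ⟨0, le_rfl, by simp, by simpa using hε.le, by simp⟩⟩

lemma congr (h : Neg d z) (e : ∀ Q T, z Q T = z' Q T) : Neg d z' := by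
  rwa [← show z = z' from funext fun Q => funext (e Q)]

lemma add (h : Neg d z) (h' : Neg d z') : Neg (S := S) d fun Q T => z Q T + z' Q T := by
  obtain ⟨K, h⟩ := h
  obtain ⟨K', h'⟩ := h'
  refine ⟨2 * (K + K'), fun ε hε => ?_⟩
  filter_upwards [h (ε / 4) (by positivity), h' (ε / 4) (by positivity)] with Q hQ hQ'
  obtain ⟨y, y0, y1, y2, y3⟩ := hQ
  obtain ⟨w, w0, w1, w2, w3⟩ := hQ'
  refine ⟨(2 : ℝ) • (y + w), smul_nonneg (by norm_num) (add_nonneg y0 w0), ?_, ?_, fun T hT => ?_⟩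
  · rw [norm_smul, Real.norm_ofNat]
    have := norm_add_le y w
    linarith
  · rw [S.n2_rsmul (by norm_num)]
    have := S.n2_add_le y w
    linarith
  · exact (add_sq_le _ _).trans
      (smul_le_smul_of_nonneg_left (add_le_add (y3 T hT) (w3 T hT)) (by norm_num))

lemma left (h : Neg d z) {a : (Q : Part S) → Finset (Fin Q.n) → M} (ha : ∀ Q T, ‖a Q T‖ ≤ 1) :
    Neg (S := S) d fun Q T => a Q T * z Q T := by
  obtain ⟨K, h⟩ := h
  refine ⟨K, fun ε hε => (h ε hε).mono fun Q ⟨y, y0, y1, y2, y3⟩ =>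
    ⟨y, y0, y1, y2, fun T hT => (mul_sq_le (ha Q T) _).trans (y3 T hT)⟩⟩

lemma sub (h : Neg d z) (h' : Neg d z') : Neg (S := S) d fun Q T => z Q T - z' Q T :=
  (h.add (h'.left (a := fun _ _ => -1) fun _ _ => by
    rw [norm_neg]; exact (Setup.Pr.one (S := S)).norm_le)).congr fun Q T => by
      rw [neg_one_mul, sub_eq_add_neg]

lemma right (h : Neg d z) (c : M) : Neg (S := S) d fun Q T => z Q T * c := by
  obtain ⟨K, h⟩ := h
  refine ⟨‖c‖ * K * ‖c‖, fun ε hε => ?_⟩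
  obtain ⟨δ, hδ, H⟩ := S.ac_n2 c K (ε := ε / (‖c‖ + 1)) (by positivity)
  filter_upwards [h (δ / 2) (by positivity)] with Q hQ
  obtain ⟨y, y0, y1, y2, y3⟩ := hQ
  refine ⟨star c * y * c, star_left_conjugate_nonneg y0 c, ?_, ?_, fun T hT => ?_⟩
  · refine (norm_mul_le _ _).trans (mul_le_mul_of_nonneg_right ((norm_mul_le _ _).trans ?_)
      (norm_nonneg _))
    rw [norm_star]; gcongr
  · have h1 := H y y1 (by linarith)
    rw [lt_div_iff₀ (by positivity)] at h1
    have h2 := S.n2_mul_left (star c) (y * c)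
    have h3 := S.n2_nonneg (y * c)
    rw [norm_star, ← mul_assoc] at h2
    nlinarith
  · simpa only [star_mul, mul_assoc] using star_left_conjugate_le_conjugate (y3 T hT) c

lemma eT (h : Neg d z) : Neg (S := S) d fun Q T => z Q T * Q.eT T := by
  obtain ⟨K, h⟩ := h
  refine ⟨d * K, fun ε hε => ?_⟩
  filter_upwards [h (ε / (d + 1)) (by positivity)] with Q hQ
  obtain ⟨y, y0, y1, y2, y3⟩ := hQ
  refine ⟨(d : ℝ) • Q.pinch y, smul_nonneg (Nat.cast_nonneg _) (Q.pinch_nonneg y0), ?_, ?_,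
    fun T hT => ?_⟩
  · rw [norm_smul, Real.norm_natCast]
    exact mul_le_mul_of_nonneg_left ((Q.norm_pinch y).trans y1) (Nat.cast_nonneg _)
  · rw [S.n2_rsmul (Nat.cast_nonneg _)]
    have h1 := (Q.n2_pinch_le y).trans y2
    rw [le_div_iff₀ (by positivity)] at h1
    have := S.n2_nonneg (Q.pinch y)
    nlinarith
  · refine le_trans ?_ (Q.eT_conj_le hT y0)
    simpa only [star_mul, mul_assoc, (Q.eT_pr T).star_eq] using
      star_left_conjugate_le_conjugate (y3 T hT) (Q.eT T)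

end Neg

lemma sq_le_norm_smul {a : M} (ha : 0 ≤ a) : a * a ≤ ‖a‖ • a := by
  have h1 : star (CFC.sqrt a) * a * CFC.sqrt a ≤ ‖a‖ • (star (CFC.sqrt a) * CFC.sqrt a) :=
    CStarAlgebra.star_left_conjugate_le_norm_smul
  have h2 : star (CFC.sqrt a) * a * CFC.sqrt a = a * a := by
    have e := CFC.sqrt_mul_sqrt_self a
    rw [(CFC.sqrt_nonneg a).isSelfAdjoint.star_eq]
    generalize CFC.sqrt a = s at *
    rw [← e]; simp only [mul_assoc]
  rwa [h2, sqrt_eq ha] at h1

lemma Part.pinch_sum (Q : Part S) {J : Type*} (T : Finset J) (a : J → M) :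
    Q.pinch (∑ j ∈ T, a j) = ∑ j ∈ T, Q.pinch (a j) := by
  simp only [Part.pinch, Finset.mul_sum, Finset.sum_mul]
  exact Finset.sum_comm

lemma Neg.base (X : S.Exp) {C : M}
    (hC : ∀ ε > (0 : ℝ), ∃ P : Part S, ∑ l, S.q2 (X.E (star C * P.e l * C)) < ε) (d : ℕ) :
    Neg (S := S) d fun Q T => Q.eT T * C * Q.eT T := by
  refine ⟨d * (d * ‖C‖ ^ 2), fun ε hε => ?_⟩
  set η := ε / ((d : ℝ) ^ 2 + 1) with hη
  have η0 : 0 < η := by positivity
  obtain ⟨P, hP⟩ := hC (η ^ 2) (by positivity)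
  have ht : Tendsto (fun Q : Part S => ∑ l, S.q2 (Q.pinch (star C * P.e l * C))) atTop
      (𝓝 (∑ l, S.q2 (X.E (star C * P.e l * C)))) :=
    tendsto_finset_sum _ fun l _ => (X.lim' _).q2'
  filter_upwards [ht.eventually (gt_mem_nhds hP), Ici_mem_atTop P] with Q hQ hPQ
  set a : Fin P.n → M := fun l => Q.pinch (star C * P.e l * C) with ha
  have c0 : ∀ l, 0 ≤ star C * P.e l * C := fun l => star_left_conjugate_nonneg (P.pr l).nonneg C
  have a0 : ∀ l, 0 ≤ a l := fun l => Q.pinch_nonneg (c0 l)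
  have aa0 : ∀ l, 0 ≤ a l * a l := fun l => by
    simpa only [(a0 l).isSelfAdjoint.star_eq] using star_mul_self_nonneg (a l)
  set Y := ∑ l, a l * a l with hY
  have Y0 : 0 ≤ Y := Finset.sum_nonneg fun l _ => aa0 l
  have hCC : ‖star C * C‖ = ‖C‖ ^ 2 := by rw [CStarRing.norm_star_mul_self, sq]
  have an : ∀ l, ‖a l‖ ≤ ‖C‖ ^ 2 := fun l => by
    refine (Q.norm_pinch _).trans (hCC ▸ CStarAlgebra.norm_le_norm_of_nonneg_of_le (c0 l) ?_)
    simpa using star_left_conjugate_le_conjugate (P.pr l).le_one C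
  have Yn : ‖Y‖ ≤ ‖C‖ ^ 2 * ‖C‖ ^ 2 := by
    have h1 : Y ≤ (‖C‖ ^ 2) • Q.pinch (star C * C) := by
      have : Q.pinch (star C * C) = ∑ l, a l := by
        rw [← Q.pinch_sum, ← Finset.sum_mul, ← Finset.mul_sum, P.sum, mul_one]
      rw [this, Finset.smul_sum]
      exact Finset.sum_le_sum fun l _ => (sq_le_norm_smul (a0 l)).trans
        (smul_le_smul_of_nonneg_right (an l) (a0 l))
    refine (CStarAlgebra.norm_le_norm_of_nonneg_of_le Y0 h1).trans ?_
    rw [norm_smul, Real.norm_of_nonneg (by positivity)]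
    exact mul_le_mul_of_nonneg_left ((Q.norm_pinch _).trans hCC.le) (by positivity)
  have s0 := CFC.sqrt_nonneg Y
  have sn : ‖CFC.sqrt Y‖ ≤ ‖C‖ ^ 2 := by
    have h1 : ‖CFC.sqrt Y‖ * ‖CFC.sqrt Y‖ = ‖Y‖ := by
      rw [← CStarRing.norm_star_mul_self, sqrt_eq Y0]
    exact (mul_self_le_mul_self_iff (norm_nonneg _) (by positivity)).2 (h1 ▸ Yn)
  have s2 : S.n2 (CFC.sqrt Y) ≤ η := by
    rw [← sq_le_sq₀ (S.n2_nonneg _) η0.le, S.n2_sq, Setup.q2, sqrt_eq Y0, hY, map_sum,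
      Complex.re_sum]
    refine le_trans (le_of_eq (Finset.sum_congr rfl fun l _ => ?_)) hQ.le
    rw [Setup.q2, (a0 l).isSelfAdjoint.star_eq]
  have as : ∀ l, a l ≤ CFC.sqrt Y := fun l => by
    rw [← CFC.sqrt_mul_self (a l) (a0 l)]
    exact CFC.sqrt_le_sqrt _ _ (Finset.single_le_sum (fun l _ => aa0 l) (Finset.mem_univ l))
  have d0 : (0 : ℝ) ≤ d := Nat.cast_nonneg _
  refine ⟨(d : ℝ) • (d : ℝ) • CFC.sqrt Y, smul_nonneg d0 (smul_nonneg d0 s0), ?_, ?_,
    fun T hT => ?_⟩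
  · rw [norm_smul, norm_smul, Real.norm_natCast]; gcongr
  · rw [S.n2_rsmul d0, S.n2_rsmul d0]
    have : η * ((d : ℝ) ^ 2 + 1) = ε := by rw [hη]; field_simp
    nlinarith [mul_le_mul_of_nonneg_left s2 (mul_nonneg d0 d0)]
  · have e : star (Q.eT T * C * Q.eT T) * (Q.eT T * C * Q.eT T)
        = ∑ l ∈ T, Q.eT T * (star C * Q.e l * C) * Q.eT T := by
      simp only [star_mul, (Q.eT_pr T).star_eq, mul_assoc, (Q.eT_pr T).sq']
      simp only [← Finset.mul_sum, ← Finset.sum_mul]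
      rfl
    rw [e]
    have h1 : ∀ l ∈ T, Q.eT T * (star C * Q.e l * C) * Q.eT T ≤ (d : ℝ) • CFC.sqrt Y :=
      fun l _ => by
        obtain ⟨L, hL⟩ := hPQ l
        have h2 : Q.e l ≤ P.e L := ((Q.proj l).le_iff_mul_eq_left (P.proj L)).2 hL
        have h3 := star_left_conjugate_le_conjugate (star_left_conjugate_le_conjugate h2 C) (Q.eT T)
        rw [(Q.eT_pr T).star_eq] at h3
        exact h3.trans ((Q.eT_conj_le hT (c0 L)).trans (smul_le_smul_of_nonneg_left (as L) d0))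
    refine (Finset.sum_le_card_nsmul _ _ _ h1).trans ?_
    rw [← Nat.cast_smul_eq_nsmul ℝ]
    exact smul_le_smul_of_nonneg_right (by exact_mod_cast hT) (smul_nonneg d0 s0)

/-- the projection onto the points none of whose `ws`-neighbours lies in an atom of `T` -/
noncomputable def Part.gl (Q : Part S) (ws : List M) (T : Finset (Fin Q.n)) : M :=
  (ws.map fun w => 1 - star w * Q.eT T * w).prod

lemma Part.gl_pr (Q : Part S) {ws : List M} (h : ∀ w ∈ ws, S.IsNor w) (T : Finset (Fin Q.n)) :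
    S.Pr (Q.gl ws T) :=
  .prod fun a ha => by
    obtain ⟨w, hw, rfl⟩ := List.mem_map.1 ha
    exact ((h w hw).conj_pr (Q.eT_pr T)).one_sub

lemma Part.gl_cons (Q : Part S) (w : M) (ws : List M) (T : Finset (Fin Q.n)) :
    Q.gl (w :: ws) T = (1 - star w * Q.eT T * w) * Q.gl ws T := by
  simp [Part.gl]

lemma Neg.gl_right {d : ℕ} {z : (Q : Part S) → Finset (Fin Q.n) → M} {ws : List M}
    (h : ∀ w ∈ ws, S.IsNor w)
    (hz : ∀ w ∈ ws, Neg (S := S) d fun Q T => z Q T * (star w * Q.eT T * w)) :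
    Neg (S := S) d fun Q T => z Q T * (1 - Q.gl ws T) := by
  induction ws with
  | nil => exact Neg.zero.congr fun Q T => by simp [Part.gl]
  | cons w ws ih =>
    have h' := fun v hv => h v (List.mem_cons_of_mem _ hv)
    have ih' := ih h' fun v hv => hz v (List.mem_cons_of_mem _ hv)
    refine (((hz w List.mem_cons_self).add ih').sub
      ((ih'.right (star w)).eT.right w)).congr fun Q T => ?_
    rw [Q.gl_cons, S.comm _ ((h w List.mem_cons_self).conj_pr (Q.eT_pr T)).one_sub.1 _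
      (Q.gl_pr h' T).1]
    noncomm_ring

lemma Neg.gl_left {d : ℕ} {z : (Q : Part S) → Finset (Fin Q.n) → M} {ws : List M}
    (h : ∀ w ∈ ws, S.IsNor w)
    (hz : ∀ w ∈ ws, Neg (S := S) d fun Q T => star w * Q.eT T * w * z Q T) :
    Neg (S := S) d fun Q T => (1 - Q.gl ws T) * z Q T := by
  induction ws with
  | nil => exact Neg.zero.congr fun Q T => by simp [Part.gl]
  | cons w ws ih =>
    have h' := fun v hv => h v (List.mem_cons_of_mem _ hv)
    have ih' := ih h' fun v hv => hz v (List.mem_cons_of_mem _ hv)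
    refine ((hz w List.mem_cons_self).add (ih'.left (a := fun Q T => 1 - star w * Q.eT T * w)
      fun Q T => ((h w List.mem_cons_self).conj_pr (Q.eT_pr T)).one_sub.norm_le)).congr
      fun Q T => ?_
    rw [Q.gl_cons]
    noncomm_ring

lemma Neg.corner (X : S.Exp) {x : M} {ws : List M} (h : ∀ w ∈ ws, S.IsNor w)
    (hC : ∀ w ∈ ws, ∀ v ∈ ws, ∀ ε > (0 : ℝ), ∃ P : Part S,
      ∑ l, S.q2 (X.E (star (w * x * star v) * P.e l * (w * x * star v))) < ε) (d : ℕ) :
    Neg (S := S) d fun Q T => (1 - Q.gl ws T) * x * (1 - Q.gl ws T) := by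
  refine Neg.gl_right h fun v hv => ?_
  refine (Neg.gl_left (z := fun Q T => x * (star v * Q.eT T * v)) h fun w hw => ?_).congr
    fun Q T => by rw [mul_assoc (1 - Q.gl ws T)]
  refine (((Neg.base X (hC w hw v hv) d).left (a := fun _ _ => star w)
    fun _ _ => (h w hw).star.norm_le).right v).congr fun Q T => ?_
  simp only [mul_assoc]

end Vale.Agent.P078
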