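import Vale.Agent.P078.Nor

/-! Diffuse elements: closure properties; a diffuse element normalizing `A` vanishes. -/

namespace Vale.Agent.P078

open scoped ComplexOrder InnerProductSpace ComplexConjugate
open Filter Topology

variable {M : Type*} [CStarAlgebra M] [PartialOrder M] [StarOrderedRing M] {S : Setup M}

namespace Setup.Exp.Diff
variable {X : S.Exp} {c d a : M}

lemma zero : X.Diff 0 := fun _ _ => by simp
lemma add (hc : X.Diff c) (hd : X.Diff d) : X.Diff (c + d) := fun u hu => by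
  rw [mul_add, map_add, hc u hu, hd u hu, add_zero]
lemma sub (hc : X.Diff c) (hd : X.Diff d) : X.Diff (c - d) := fun u hu => by
  rw [mul_sub, map_sub, hc u hu, hd u hu, sub_zero]
lemma smul (hc : X.Diff c) (t : ℂ) : X.Diff (t • c) := fun u hu => by
  rw [mul_smul_comm, map_smul, hc u hu, smul_zero]
lemma sum {J : Type*} (s : Finset J) {f : J → M} (h : ∀ j ∈ s, X.Diff (f j)) :
    X.Diff (∑ j ∈ s, f j) := fun u hu => by
  rw [Finset.mul_sum, map_sum]; exact Finset.sum_eq_zero fun j hj => h j hj u hu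
lemma E_eq (hc : X.Diff c) : X.E c = 0 := by simpa using hc 1 .one
lemma mul_right (hc : X.Diff c) (ha : a ∈ S.A) : X.Diff (c * a) := fun u hu => by
  rw [← mul_assoc, X.right a ha, hc u hu, zero_mul]
lemma nor_left (hc : X.Diff c) {w : M} (hw : S.IsNor w) : X.Diff (w * c) := fun u hu => by
  have := hc _ (hw.star.mul hu)
  rwa [star_mul, star_star, mul_assoc] at this
lemma nor_right (hc : X.Diff c) {w : M} (hw : S.IsNor w) : X.Diff (c * w) := fun u hu => by
  have := E_conj X hw (w * (Star.star u * c))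
  have h2 := hc _ (hu.mul hw.star)
  rw [star_mul, star_star, mul_assoc] at h2
  rw [h2, hw.su', mul_assoc] at this
  simpa using this
lemma mul_left (hc : X.Diff c) (ha : a ∈ S.A) : X.Diff (a * c) := fun u hu => by
  have : Star.star u * (a * c) = Star.star u * a * u * (Star.star u * c) := by
    simp only [mul_assoc, hu.us']
  rw [this, X.left _ (hu.memL ha), hc u hu, mul_zero]
lemma star (hc : X.Diff c) : X.Diff (Star.star c) := fun u hu => by
  rw [← star_mul, X.star, (hc.nor_right hu).E_eq, star_zero]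
lemma lim {I : Type*} {l : Filter I} [l.NeBot] {x : I → M} (h : S.Lim l x c)
    (hx : ∀ i, X.Diff (x i)) : X.Diff c := fun u hu =>
  ((h.mul_left _).exp X).eq (.const S l 0) (.of_forall fun i => hx i u hu)

end Setup.Exp.Diff

/-- elements normalizing `A` on both sides -/
structure Setup.Grp (S : Setup M) (v : M) : Prop where
  l : ∀ a ∈ S.A, v * a * star v ∈ S.A
  r : ∀ a ∈ S.A, star v * a * v ∈ S.A

lemma Setup.Grp.star {v : M} (h : S.Grp v) : S.Grp (star v) :=
  ⟨by simpa using h.r, by simpa using h.l⟩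

lemma Setup.Grp.mul_left {v b : M} (h : S.Grp v) (hb : b ∈ S.A) : S.Grp (b * v) :=
  ⟨fun a ha => by
    simpa only [star_mul, mul_assoc] using mul_mem (mul_mem hb (h.l a ha)) (star_mem hb),
   fun a ha => by
    simpa only [star_mul, mul_assoc] using h.r _ (mul_mem (mul_mem (star_mem hb) ha) hb)⟩

lemma Setup.Grp.mul_right {v b : M} (h : S.Grp v) (hb : b ∈ S.A) : S.Grp (v * b) := by
  simpa using (h.star.mul_left (star_mem hb)).star

lemma Setup.Grp.l1 {v : M} (h : S.Grp v) : v * Star.star v ∈ S.A := by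
  simpa using h.l 1 (one_mem _)

lemma Setup.Grp.r1 {v : M} (h : S.Grp v) : Star.star v * v ∈ S.A := by
  simpa using h.r 1 (one_mem _)

omit [PartialOrder M] [StarOrderedRing M] in
lemma pi_star {v : M} (h : v * star v * v = v) : star v * star (star v) * star v = star v := by
  have := congrArg star h
  rwa [star_mul, star_mul, ← mul_assoc] at this

lemma Setup.Grp.pi_left {v p : M} (h : S.Grp v) (hv : v * Star.star v * v = v) (hp : S.Pr p) :
    p * v * Star.star (p * v) * (p * v) = p * v := by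
  have : p * v * Star.star (p * v) * (p * v) = p * (v * Star.star v * p) * v := by
    simp only [star_mul, hp.star_eq, mul_assoc, hp.sq']
  rw [this, S.comm _ h.l1 _ hp.1, hp.sq', mul_assoc, hv]

lemma Setup.Grp.pi_right {v p : M} (h : S.Grp v) (hv : v * Star.star v * v = v) (hp : S.Pr p) :
    v * p * Star.star (v * p) * (v * p) = v * p := by
  have := pi_star (h.star.pi_left (pi_star hv) hp)
  simpa only [star_mul, star_star, hp.star_eq] using this

lemma Setup.Grp.pr {v : M} (h : S.Grp v) (hv : v * Star.star v * v = v) :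
    S.Pr (v * Star.star v) :=
  ⟨h.l1, by rw [IsIdempotentElem, ← mul_assoc, hv], .mul_star_self v⟩

lemma Setup.Grp.cut {v : M} (h : S.Grp v) (hv : v * Star.star v * v = v) (h0 : v ≠ 0) :
    ∃ (C : ℝ) (p : M), S.Pr p ∧ p * v ≠ 0 ∧
      ∀ a ∈ S.A, 0 ≤ a → S.ψ (p * v) a ≤ C * (S.κ a).re := by
  have hq := h.pr hv
  obtain ⟨C, p, hp, h1, h2⟩ := S.rn_cut v (S.re_pos hq.nonneg fun e => h0 (by
    rw [← hv, e, zero_mul]))
  refine ⟨C, p, hp, fun e => ?_, fun a ha a0 => ?_⟩
  · refine h1.not_ge (S.re_le_of_chr hq.sa hp.one_sub.sa fun φ => ?_)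
    have h3 : φ.r (p * (v * Star.star v)) = 0 := by rw [← mul_assoc, e, zero_mul, map_zero]
    rw [φ.r_mul hp.sa hq.sa] at h3
    rw [map_sub, φ.r_one]
    rcases φ.r01 hp with a | a <;> rcases φ.r01 hq with b | b <;> rw [a, b] at h3 ⊢ <;> linarith
  · have : Star.star (p * v) * a * (p * v) = Star.star v * (a * p) * v := by
      simp only [star_mul, hp.star_eq, mul_assoc]
      rw [← mul_assoc p, S.comm _ hp.1 _ ha, mul_assoc, hp.sq']
    rw [S.ψ_apply, this]; exact h2 a ha a0

lemma Setup.Grp.nor {v : M} (h : S.Grp v) (hv : v * Star.star v * v = v) (h2 : v * v = 0)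
    {C D : ℝ} (hC : ∀ a ∈ S.A, 0 ≤ a → S.ψ v a ≤ C * (S.κ a).re)
    (hD : ∀ a ∈ S.A, 0 ≤ a → S.ψ (Star.star v) a ≤ D * (S.κ a).re) :
    ∃ u, S.IsNor u ∧ Star.star u * v = Star.star v * v := by
  have hp := h.pr hv
  have hv' := pi_star hv
  have hr := h.star.pr hv'
  rw [star_star] at hr hv'
  have h2' : Star.star v * Star.star v = 0 := by rw [← star_mul, h2, star_zero]
  have pr : v * Star.star v * (Star.star v * v) = 0 := by
    rw [mul_assoc, ← mul_assoc (Star.star v), h2']; simp
  have hz : S.Pr (1 - (v * Star.star v + Star.star v * v)) := (hp.add hr pr).one_sub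
  set z := 1 - (v * Star.star v + Star.star v * v) with hzd
  have zv : z * v = 0 := by
    rw [hzd, sub_mul, add_mul, hv, mul_assoc, h2]; simp
  have vz : v * z = 0 := by
    rw [hzd, mul_sub, mul_add, ← mul_assoc, h2, ← mul_assoc, hv]; simp
  have zv' : z * Star.star v = 0 := by rw [← hz.star_eq, ← star_mul, vz, star_zero]
  have vz' : Star.star v * z = 0 := by rw [← hz.star_eq, ← star_mul, zv, star_zero]
  have sa : Star.star (v + Star.star v + z) = v + Star.star v + z := by
    rw [star_add, star_add, star_star, hz.star_eq, add_comm v]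
  have k0 : ∀ a ∈ S.A, v * a * v = 0 := fun a ha => by
    have : v * a * v = v * (Star.star v * v * a) * v := by
      rw [← mul_assoc v, ← mul_assoc v, hv]
    rw [this, S.comm _ hr.1 _ ha]
    simp only [mul_assoc, h2, mul_zero]
  have key : ∀ a ∈ S.A, (v + Star.star v + z) * a * (v + Star.star v + z)
      = v * a * Star.star v + Star.star v * a * v + z * a * z := fun a ha => by
    have k1 := k0 a ha
    have k2 : Star.star v * a * Star.star v = 0 := by
      have := congrArg Star.star (k0 _ (star_mem ha))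
      simpa only [star_mul, star_star, star_zero, mul_assoc] using this
    have c := S.comm _ hz.1 _ ha
    have k3 : v * a * z = 0 := by rw [mul_assoc, ← c, ← mul_assoc, vz, zero_mul]
    have k4 : Star.star v * a * z = 0 := by rw [mul_assoc, ← c, ← mul_assoc, vz', zero_mul]
    have k5 : z * a * v = 0 := by rw [c, mul_assoc, zv, mul_zero]
    have k6 : z * a * Star.star v = 0 := by rw [c, mul_assoc, zv', mul_zero]
    simp only [add_mul, mul_add, k1, k2, k3, k4, k5, k6]; abel
  have one : (v + Star.star v + z) * (v + Star.star v + z) = 1 := by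
    have := key 1 (one_mem _)
    simp only [mul_one, hz.sq] at this
    rw [this, hzd, add_sub_cancel]
  have bd : ∀ a ∈ S.A, 0 ≤ a → (S.κ ((v + Star.star v + z) * a * (v + Star.star v + z))).re
      ≤ (C + D + 1) * (S.κ a).re := fun a ha a0 => by
    have h1 := hC a ha a0
    have h3 := hD a ha a0
    have sa : S.Sa a := .of_nonneg ha a0
    have h4 := S.re_le_of_chr ((hz.sa.mul sa).mul hz.sa) sa fun φ => by
      have := φ.r_nonneg ha a0
      rw [φ.r_mul (hz.sa.mul sa) hz.sa, φ.r_mul hz.sa sa]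
      rcases φ.r01 hz with b | b <;> rw [b] <;> linarith
    rw [S.ψ_apply] at h1 h3
    rw [star_star] at h3
    rw [key a ha, map_add, map_add, Complex.add_re, Complex.add_re]; linarith
  refine ⟨v + Star.star v + z, ?_, by rw [sa, add_mul, add_mul, h2, zv]; simp⟩
  simp only [Setup.IsNor, sa, and_self]
  refine ⟨one, one, fun a ha => ?_, _, bd⟩
  rw [key a ha]
  exact add_mem (add_mem (h.l a ha) (h.r a ha)) (mul_mem (mul_mem hz.1 ha) hz.1)

lemma Setup.Grp.polar {w : M} (h : S.Grp w) (h0 : w ≠ 0) :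
    ∃ b ∈ S.A, b * w ≠ 0 ∧ b * w * Star.star (b * w) * (b * w) = b * w := by
  have sa : S.Sa (w * Star.star w) := ⟨h.l1, .mul_star_self w⟩
  obtain ⟨φ₀, h1⟩ : ∃ φ : Chr S, 0 < φ.r (w * Star.star w) := by
    by_contra! hn
    exact h0 ((CStarRing.mul_star_self_eq_zero_iff w).1 (le_antisymm
      (S.le_of_chr sa .zero fun φ => by simpa using hn φ) (mul_star_self_nonneg w)))
  obtain ⟨p, hp, hφ⟩ := S.spec_chr sa (φ₀.r (w * Star.star w) / 2)
  have p0 : p ≠ 0 := fun e => by
    rcases hφ φ₀ with h | h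
    · simp [e] at h
    · linarith [h.2]
  have s1 := (sa.mul hp.sa).add hp.one_sub.sa
  set a := w * Star.star w * p + (1 - p) with ha
  have pos : IsStrictlyPositive a := by
    rw [StarOrderedRing.isStrictlyPositive_iff_spectrum_pos (R := ℝ) a s1.2]
    intro t ht
    obtain ⟨φ, e⟩ := S.exists_chr s1.1 ((spectrum.algebraMap_mem_iff ℂ).2 ht)
    have e' : φ.r a = t := by rw [φ.r_def, e]; rfl
    rw [← e', ha, map_add, φ.r_mul sa hp.sa, map_sub, φ.r_one]
    rcases hφ φ with h | h <;> rw [h.1] <;> linarith [h.2]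
  have e1 := CFC.conjugate_rpow_neg_one_half a pos
  have ss : S.Sa (a ^ (-(1 / 2) : ℝ)) :=
    ⟨by rw [CFC.rpow_def]; exact S.cfc_nn_mem s1.1 _, CFC.rpow_nonneg.isSelfAdjoint⟩
  set s := a ^ (-(1 / 2) : ℝ)
  have e2 : s * p * w * Star.star (s * p * w) = p := by
    refine S.eq_of_chr ⟨(h.mul_left (ss.mul hp.sa).1).l1, .mul_star_self _⟩ hp.sa fun φ => ?_
    have : s * p * w * Star.star (s * p * w) = s * p * (w * Star.star w) * (s * p) := by
      rw [star_mul, (ss.mul hp.sa).2.star_eq]; simp only [mul_assoc]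
    have e3 := congrArg φ.r e1
    rw [φ.r_mul (ss.mul s1) ss, φ.r_mul ss s1, ha, map_add, φ.r_mul sa hp.sa, map_sub,
      φ.r_one] at e3
    rw [this, φ.r_mul ((ss.mul hp.sa).mul sa) (ss.mul hp.sa), φ.r_mul (ss.mul hp.sa) sa,
      φ.r_mul ss hp.sa]
    rcases φ.r01 hp with b | b <;> rw [b] at e3 ⊢ <;> linarith
  refine ⟨s * p, (ss.mul hp.sa).1, fun e => p0 (by rw [← e2, e, zero_mul]), ?_⟩
  rw [e2, ← mul_assoc, ← mul_assoc, S.comm _ hp.1 _ ss.1, mul_assoc s p p, hp.sq]

theorem grp_zero (X : S.Exp) {w : M} (h : S.Grp w) (hd : X.Diff w) : w = 0 := by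
  by_contra h0
  obtain ⟨b, hb, v0, hv⟩ := h.polar h0
  have g1 := h.mul_left hb
  have d1 := hd.mul_left hb
  set v := b * w
  obtain ⟨f, hf, f0⟩ := exists_cut (S := S) (w := v) fun hm => v0 (by
    rw [← X.fix _ hm, d1.E_eq])
  have g2 := (g1.mul_left hf.one_sub.1).mul_right hf.1
  have d2 := (d1.mul_left hf.one_sub.1).mul_right hf.1
  have i2 := (g1.mul_left hf.one_sub.1).pi_right (g1.pi_left hv hf.one_sub) hf
  set v₁ := (1 - f) * v * f with hv₁
  obtain ⟨C, p, hp, p0, hC⟩ := g2.cut i2 f0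
  have g3 := g2.mul_left hp.1
  have d3 := d2.mul_left hp.1
  have i3 := g2.pi_left i2 hp
  set v₂ := p * v₁ with hv₂
  obtain ⟨D, q, hq, q0, hD⟩ := g3.star.cut (pi_star i3) (star_ne_zero.2 p0)
  have e : q * star v₂ = star (v₂ * q) := by rw [star_mul v₂, hq.star_eq]
  rw [e] at q0 hD
  have g4 := g3.mul_right hq.1
  obtain ⟨u, hu, eu⟩ := g4.nor (g3.pi_right i3 hq) (C := C) (D := D) (by
    have : v₂ * q * (v₂ * q) = p * ((1 - f) * v) * (f * q * p * (1 - f)) * v * f * q := by
      simp only [hv₂, hv₁, mul_assoc]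
    rw [this, mul_assoc f, S.comm _ hf.1 _ (hq.mul hp).1, mul_assoc (q * p) f,
      hf.2.mul_one_sub_self]
    simp) (fun a ha a0 => by
    refine le_trans ?_ (hC a ha a0)
    have sa : S.Sa (star v₂ * a * v₂) :=
      .of_nonneg (g3.r a ha) (star_left_conjugate_nonneg a0 _)
    have : star (v₂ * q) * a * (v₂ * q) = q * (star v₂ * a * v₂) * q := by
      simp only [star_mul v₂, hq.star_eq, mul_assoc]
    rw [S.ψ_apply, S.ψ_apply, this]
    refine S.re_le_of_chr ((hq.sa.mul sa).mul hq.sa) sa fun φ => ?_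
    have := φ.r_nonneg sa.1 (star_left_conjugate_nonneg a0 _)
    rw [φ.r_mul (hq.sa.mul sa) hq.sa, φ.r_mul hq.sa sa]
    rcases φ.r01 hq with b | b <;> rw [b] <;> linarith) hD
  have := d3.mul_right hq.1 u hu
  rw [eu, X.fix _ g4.r1, CStarRing.star_mul_self_eq_zero_iff] at this
  exact q0 (by rw [this, star_zero])

end Vale.Agent.P078
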