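import Vale.Agent.P078.Defs

/-! The GNS space of a setup, the 2-norm and bounded limits. -/

namespace Vale.Agent.P078

open scoped ComplexOrder InnerProductSpace ComplexConjugate
open Filter Topology

variable {M : Type*} [CStarAlgebra M] [PartialOrder M] [StarOrderedRing M] {S : Setup M}

lemma sqrt_eq {a : M} (ha : 0 ≤ a) : star (CFC.sqrt a) * CFC.sqrt a = a := by
  rw [(CFC.sqrt_nonneg a).isSelfAdjoint.star_eq, CFC.sqrt_mul_sqrt_self a]

lemma Setup.kap_nonneg (S : Setup M) {a : M} (ha : 0 ≤ a) : 0 ≤ S.κ a := by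
  rw [← sqrt_eq ha]; exact S.pos _

lemma Setup.re_nonneg (S : Setup M) {a : M} (ha : 0 ≤ a) : 0 ≤ (S.κ a).re :=
  (S.kap_nonneg ha).1

lemma Setup.re_mono (S : Setup M) {a b : M} (h : a ≤ b) : (S.κ a).re ≤ (S.κ b).re := by
  have := S.re_nonneg (sub_nonneg.2 h)
  rw [map_sub, Complex.sub_re] at this; linarith

lemma Setup.kap_eq_re (S : Setup M) {a : M} (ha : 0 ≤ a) : S.κ a = ((S.κ a).re : ℂ) := by
  have := S.kap_nonneg ha
  exact Complex.ext rfl (by simpa using this.2.symm)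

lemma Setup.eq_zero_of_re (S : Setup M) {a : M} (ha : 0 ≤ a) (h : (S.κ a).re ≤ 0) : a = 0 := by
  have h1 : S.κ (star (CFC.sqrt a) * CFC.sqrt a) = 0 := by
    rw [sqrt_eq ha, S.kap_eq_re ha, le_antisymm h (S.re_nonneg ha)]; simp
  rw [← sqrt_eq ha, S.faithful _ h1, mul_zero]

lemma Setup.re_pos (S : Setup M) {a : M} (ha : 0 ≤ a) (h : a ≠ 0) : 0 < (S.κ a).re :=
  lt_of_not_ge fun h' => h (S.eq_zero_of_re ha h')

/-- the functional as a positive linear map -/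
noncomputable def Setup.plm (S : Setup M) : M →ₚ[ℂ] ℂ :=
  PositiveLinearMap.mk₀ (S.κ : M →ₗ[ℂ] ℂ) fun _ ha => S.kap_nonneg ha

lemma Setup.kap_star (S : Setup M) (x : M) : S.κ (star x) = conj (S.κ x) :=
  map_star S.plm x

lemma Setup.re_star (S : Setup M) (x : M) : (S.κ (star x)).re = (S.κ x).re := by
  rw [S.kap_star, Complex.conj_re]

lemma Setup.kap_sa (S : Setup M) {a : M} (ha : IsSelfAdjoint a) :
    S.κ a = ((S.κ a).re : ℂ) := by
  have := S.kap_star a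
  rw [ha.star_eq] at this
  exact (Complex.conj_eq_iff_re.1 this.symm).symm

/-- the GNS Hilbert space -/
abbrev Setup.H (S : Setup M) : Type _ := S.plm.GNS

/-- the canonical map into the GNS space -/
noncomputable def Setup.ι (S : Setup M) : M →ₗ[ℂ] S.H :=
  (UniformSpace.Completion.toComplL (𝕜 := ℂ) (E := S.plm.PreGNS)).toLinearMap ∘ₗ
    S.plm.toPreGNS.toLinearMap

/-- the GNS representation -/
noncomputable def Setup.π (S : Setup M) : M →⋆ₐ[ℂ] (S.H →L[ℂ] S.H) := S.plm.gnsStarAlgHom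

lemma Setup.ι_apply (S : Setup M) (x : M) :
    S.ι x = ((S.plm.toPreGNS x : S.plm.PreGNS) : S.H) := rfl

lemma Setup.inner_ι (S : Setup M) (x y : M) : ⟪S.ι x, S.ι y⟫_ℂ = S.κ (star x * y) := by
  rw [S.ι_apply, S.ι_apply, UniformSpace.Completion.inner_coe]; rfl

lemma Setup.π_ι (S : Setup M) (a x : M) : S.π a (S.ι x) = S.ι (a * x) := by
  rw [S.ι_apply, S.ι_apply]
  exact S.plm.gnsNonUnitalStarAlgHom_apply_coe

lemma Setup.norm_π (S : Setup M) (a : M) : ‖S.π a‖ ≤ ‖a‖ :=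
  NonUnitalStarAlgHom.norm_apply_le S.π a

/-- the 2-norm -/
noncomputable def Setup.n2 (S : Setup M) (x : M) : ℝ := ‖S.ι x‖

lemma Setup.n2_nonneg (S : Setup M) (x : M) : 0 ≤ S.n2 x := norm_nonneg _

lemma Setup.n2_sq (S : Setup M) (x : M) : S.n2 x ^ 2 = S.q2 x := by
  rw [Setup.n2, Setup.q2, ← S.inner_ι, ← inner_self_eq_norm_sq (𝕜 := ℂ)]; rfl

lemma Setup.q2_nonneg (S : Setup M) (x : M) : 0 ≤ S.q2 x := by rw [← S.n2_sq]; positivity

lemma Setup.n2_eq (S : Setup M) (x : M) : S.n2 x = √(S.q2 x) := by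
  rw [← S.n2_sq, Real.sqrt_sq (S.n2_nonneg x)]

lemma Setup.kap_sq (S : Setup M) (x : M) : S.κ (star x * x) = (S.q2 x : ℂ) :=
  S.kap_eq_re (star_mul_self_nonneg x)

@[simp] lemma Setup.n2_zero (S : Setup M) : S.n2 0 = 0 := by simp [Setup.n2]
@[simp] lemma Setup.q2_zero (S : Setup M) : S.q2 0 = 0 := by simp [Setup.q2]

lemma Setup.q2_eq_zero (S : Setup M) {x : M} (h : S.q2 x ≤ 0) : x = 0 :=
  S.faithful x (by rw [S.kap_sq, le_antisymm h (S.q2_nonneg x)]; simp)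

lemma Setup.n2_eq_zero (S : Setup M) {x : M} (h : S.n2 x ≤ 0) : x = 0 :=
  S.q2_eq_zero (by rw [← S.n2_sq, le_antisymm h (S.n2_nonneg x)]; simp)

lemma Setup.q2_pos (S : Setup M) {x : M} (h : x ≠ 0) : 0 < S.q2 x :=
  lt_of_not_ge fun h' => h (S.q2_eq_zero h')

lemma Setup.ι_inj (S : Setup M) {x y : M} (h : S.ι x = S.ι y) : x = y :=
  sub_eq_zero.1 (S.n2_eq_zero (by rw [Setup.n2, map_sub, h]; simp))

lemma Setup.n2_sub (S : Setup M) (x y : M) : S.n2 (x - y) = ‖S.ι x - S.ι y‖ := by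
  rw [Setup.n2, map_sub]

lemma Setup.n2_add_le (S : Setup M) (x y : M) : S.n2 (x + y) ≤ S.n2 x + S.n2 y := by
  simp only [Setup.n2, map_add]; exact norm_add_le _ _
@[simp] lemma Setup.n2_neg (S : Setup M) (x : M) : S.n2 (-x) = S.n2 x := by simp [Setup.n2]
lemma Setup.n2_sub_le (S : Setup M) (x y : M) : S.n2 (x - y) ≤ S.n2 x + S.n2 y := by
  simp only [Setup.n2, map_sub]; exact norm_sub_le _ _
lemma Setup.n2_sub_rev (S : Setup M) (x y : M) : S.n2 (x - y) = S.n2 (y - x) := by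
  simp only [Setup.n2, map_sub]; exact norm_sub_rev _ _
lemma Setup.n2_tri (S : Setup M) (x y z : M) : S.n2 (x - z) ≤ S.n2 (x - y) + S.n2 (y - z) := by
  have := S.n2_add_le (x - y) (y - z); rwa [sub_add_sub_cancel] at this
lemma Setup.n2_smul (S : Setup M) (c : ℂ) (x : M) : S.n2 (c • x) = ‖c‖ * S.n2 x := by
  simp only [Setup.n2, map_smul]; exact norm_smul _ _
lemma Setup.n2_sum_le (S : Setup M) {κ : Type*} (s : Finset κ) (f : κ → M) :
    S.n2 (∑ i ∈ s, f i) ≤ ∑ i ∈ s, S.n2 (f i) := by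
  simp only [Setup.n2, map_sum]; exact norm_sum_le _ _

lemma Setup.q2_sub_rev (S : Setup M) (x y : M) : S.q2 (x - y) = S.q2 (y - x) := by
  rw [← S.n2_sq, ← S.n2_sq, S.n2_sub_rev]

lemma Setup.q2_add (S : Setup M) (x y : M) :
    S.q2 (x + y) = S.q2 x + 2 * (S.κ (star x * y)).re + S.q2 y := by
  simp only [← S.n2_sq, Setup.n2, map_add]; rw [norm_add_sq (𝕜 := ℂ), S.inner_ι]; rfl

lemma Setup.q2_sub (S : Setup M) (x y : M) :
    S.q2 (x - y) = S.q2 x - 2 * (S.κ (star x * y)).re + S.q2 y := by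
  simp only [← S.n2_sq, Setup.n2, map_sub]; rw [norm_sub_sq (𝕜 := ℂ), S.inner_ι]; rfl

lemma Setup.q2_smul (S : Setup M) (c : ℝ) (x : M) : S.q2 ((c : ℂ) • x) = c ^ 2 * S.q2 x := by
  rw [← S.n2_sq, ← S.n2_sq, S.n2_smul, mul_pow, Complex.norm_real, Real.norm_eq_abs, sq_abs]

lemma Setup.cs (S : Setup M) (x y : M) : ‖S.κ (star x * y)‖ ≤ S.n2 x * S.n2 y := by
  rw [← S.inner_ι]; exact norm_inner_le_norm _ _

lemma Setup.kap_le (S : Setup M) (y : M) : ‖S.κ y‖ ≤ S.n2 1 * S.n2 y := by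
  simpa using S.cs 1 y

lemma Setup.q2_one (S : Setup M) : S.q2 1 = (S.κ 1).re := by simp [Setup.q2]

lemma Setup.q2_proj (S : Setup M) {p : M} (hp : IsStarProjection p) : S.q2 p = (S.κ p).re := by
  rw [Setup.q2, hp.isSelfAdjoint.star_eq, hp.isIdempotentElem.eq]

lemma Setup.n2_mul_left (S : Setup M) (a x : M) : S.n2 (a * x) ≤ ‖a‖ * S.n2 x := by
  rw [Setup.n2, ← S.π_ι]
  exact ((S.π a).le_opNorm _).trans (mul_le_mul_of_nonneg_right (S.norm_π a) (norm_nonneg _))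

lemma Setup.n2_le_norm (S : Setup M) (x : M) : S.n2 x ≤ ‖x‖ * S.n2 1 := by
  simpa using S.n2_mul_left x 1

lemma Setup.q2_mul_left (S : Setup M) (a x : M) : S.q2 (a * x) ≤ ‖a‖ ^ 2 * S.q2 x := by
  rw [← S.n2_sq, ← S.n2_sq, ← mul_pow]
  exact pow_le_pow_left₀ (S.n2_nonneg _) (S.n2_mul_left a x) 2

lemma Setup.eq_of_kap (S : Setup M) {x y : M}
    (h : ∀ c, S.κ (star c * x) = S.κ (star c * y)) : x = y := by
  have := h (x - y)
  rw [← sub_eq_zero, ← map_sub, ← mul_sub] at this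
  exact sub_eq_zero.1 (S.faithful _ this)

/-! The abelian algebra. -/

lemma Setup.cfc_mem (S : Setup M) {a : M} (ha : a ∈ S.A) (f : ℝ → ℝ) : cfc f a ∈ S.A :=
  S.maximal _ fun b hb => (Commute.cfc_real (S.comm a ha b hb) f).eq.symm

lemma Setup.cfc_nn_mem (S : Setup M) {a : M} (ha : a ∈ S.A) (f : NNReal → NNReal) :
    cfc f a ∈ S.A :=
  S.maximal _ fun b hb => (Commute.cfc_nnreal (S.comm a ha b hb) f).eq.symm

lemma Setup.sqrt_mem (S : Setup M) {a : M} (ha : a ∈ S.A) : CFC.sqrt a ∈ S.A := by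
  rw [CFC.sqrt_eq_cfc]; exact S.cfc_nn_mem ha _

lemma Setup.isClosed_A (S : Setup M) : IsClosed (S.A : Set M) := by
  have : (S.A : Set M) = ⋂ b ∈ S.A, {x | b * x = x * b} := by
    ext x
    simp only [Set.mem_iInter, Set.mem_ofPred_eq, SetLike.mem_coe]
    exact ⟨fun hx b hb => S.comm b hb x hx, S.maximal x⟩
  rw [this]
  exact isClosed_biInter fun b _ => isClosed_eq (by fun_prop) (by fun_prop)

lemma Setup.rsmul_mem (S : Setup M) {a : M} (ha : a ∈ S.A) (t : ℝ) : t • a ∈ S.A := by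
  rw [← Complex.coe_smul]; exact S.A.smul_mem ha _

lemma Setup.kap_mul_nonneg (S : Setup M) {x a : M} (hx : 0 ≤ x) (ha : a ∈ S.A) (h0 : 0 ≤ a) :
    0 ≤ (S.κ (x * a)).re := by
  have h1 := S.sqrt_mem ha
  have : S.κ (x * a) = S.κ (star (CFC.sqrt a) * x * CFC.sqrt a) := by
    rw [mul_assoc, S.central _ (star_mem h1), mul_assoc, (CFC.sqrt_nonneg a).isSelfAdjoint.star_eq,
      CFC.sqrt_mul_sqrt_self a]
  rw [this]
  exact S.re_nonneg (star_left_conjugate_nonneg hx _)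

lemma Setup.q2_mul_right (S : Setup M) (x : M) {a : M} (ha : a ∈ S.A) :
    S.q2 (x * a) ≤ ‖a‖ ^ 2 * S.q2 x := by
  have h1 : algebraMap ℝ M (‖a‖ ^ 2) - a * star a ∈ S.A := by
    refine sub_mem ?_ (mul_mem ha (star_mem ha))
    rw [Algebra.algebraMap_eq_smul_one]; exact S.rsmul_mem (one_mem _) _
  have h2 := S.kap_mul_nonneg (star_mul_self_nonneg x) h1
    (sub_nonneg.2 CStarAlgebra.mul_star_le_algebraMap_norm_sq)
  have h3 : S.κ (star (x * a) * (x * a)) = S.κ (star x * x * (a * star a)) := by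
    rw [star_mul, mul_assoc, S.central _ (star_mem ha)]; simp only [mul_assoc]
  rw [mul_sub, map_sub, Complex.sub_re, ← h3, Algebra.algebraMap_eq_smul_one, mul_smul_comm,
    mul_one, ← Complex.coe_smul, map_smul, smul_eq_mul, Complex.re_ofReal_mul] at h2
  unfold Setup.q2; linarith

lemma Setup.n2_mul_right (S : Setup M) (x : M) {a : M} (ha : a ∈ S.A) :
    S.n2 (x * a) ≤ ‖a‖ * S.n2 x := by
  rw [← sq_le_sq₀ (S.n2_nonneg _) (mul_nonneg (norm_nonneg _) (S.n2_nonneg _)), mul_pow,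
    S.n2_sq, S.n2_sq]
  exact S.q2_mul_right x ha

lemma Setup.ac_n2 (S : Setup M) (c : M) (C : ℝ) {ε : ℝ} (hε : 0 < ε) :
    ∃ δ > (0 : ℝ), ∀ z : M, ‖z‖ ≤ C → S.n2 z < δ → S.n2 (z * c) < ε := by
  set D := |C| + 1 with hD
  have hD0 : 0 < D := by positivity
  obtain ⟨δ, hδ, h⟩ := S.ac c ((ε / D) ^ 2) (by positivity)
  refine ⟨√δ * D, by positivity, fun z hz hn => ?_⟩
  have e1 : ‖((D⁻¹ : ℝ) : ℂ)‖ = D⁻¹ := by
    rw [Complex.norm_real, Real.norm_eq_abs, abs_of_pos (by positivity)]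
  have h1 : ‖((D⁻¹ : ℝ) : ℂ) • z‖ ≤ 1 := by
    rw [norm_smul, e1, inv_mul_le_iff₀ hD0]; have := le_abs_self C; linarith
  have h2 : S.q2 (((D⁻¹ : ℝ) : ℂ) • z) < δ := by
    rw [← S.n2_sq, S.n2_smul, e1, ← Real.sq_sqrt hδ.le]
    refine pow_lt_pow_left₀ ?_ (mul_nonneg (by positivity) (S.n2_nonneg _)) two_ne_zero
    rw [inv_mul_lt_iff₀ hD0]; linarith
  have h3 : S.q2 (((D⁻¹ : ℝ) : ℂ) • z * c) < (ε / D) ^ 2 := h _ h1 h2
  rw [← S.n2_sq, smul_mul_assoc, S.n2_smul, e1] at h3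
  have h4 := lt_of_pow_lt_pow_left₀ 2 (by positivity) h3
  rw [inv_mul_lt_iff₀ hD0, mul_div_cancel₀ _ hD0.ne'] at h4
  exact h4

/-! Bounded limits. -/

/-- bounded convergence in the 2-norm -/
structure Setup.Lim (S : Setup M) {I : Type*} (l : Filter I) (x : I → M) (y : M) : Prop where
  bdd : ∃ C, ∀ i, ‖x i‖ ≤ C
  tend : Tendsto (fun i => S.n2 (x i - y)) l (𝓝 0)

section
variable {I : Type*} {l : Filter I} {x x' : I → M} {y y' : M}

lemma Setup.Lim.ι (h : S.Lim l x y) : Tendsto (fun i => S.ι (x i)) l (𝓝 (S.ι y)) :=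
  tendsto_iff_norm_sub_tendsto_zero.2 (by simpa only [S.n2_sub] using h.tend)

lemma Setup.Lim.of_ι {C : ℝ} (hC : ∀ i, ‖x i‖ ≤ C)
    (h : Tendsto (fun i => S.ι (x i)) l (𝓝 (S.ι y))) : S.Lim l x y :=
  ⟨⟨C, hC⟩, by simpa only [S.n2_sub] using tendsto_iff_norm_sub_tendsto_zero.1 h⟩

lemma Setup.Lim.q2 (h : S.Lim l x y) : Tendsto (fun i => S.q2 (x i - y)) l (𝓝 0) := by
  simpa only [S.n2_sq, ne_eq, OfNat.ofNat_ne_zero, not_false_eq_true, zero_pow] using h.tend.pow 2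

lemma Setup.Lim.of_q2 {C : ℝ} (hC : ∀ i, ‖x i‖ ≤ C)
    (h : Tendsto (fun i => S.q2 (x i - y)) l (𝓝 0)) : S.Lim l x y :=
  ⟨⟨C, hC⟩, by simpa only [S.n2_eq, Real.sqrt_zero] using h.sqrt⟩

lemma Setup.Lim.of_norm {C : ℝ} (hC : ∀ i, ‖x i‖ ≤ C) (h : Tendsto x l (𝓝 y)) : S.Lim l x y := by
  refine ⟨⟨C, hC⟩, squeeze_zero (fun _ => S.n2_nonneg _) (fun i => S.n2_le_norm _) ?_⟩
  simpa using (tendsto_iff_norm_sub_tendsto_zero.1 h).mul_const (S.n2 1)

lemma Setup.Lim.const (S : Setup M) (l : Filter I) (y : M) : S.Lim l (fun _ => y) y :=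
  ⟨⟨‖y‖, fun _ => le_rfl⟩, by simpa using tendsto_const_nhds⟩

lemma Setup.Lim.add (h : S.Lim l x y) (h' : S.Lim l x' y') :
    S.Lim l (fun i => x i + x' i) (y + y') := by
  obtain ⟨C, hC⟩ := h.bdd
  obtain ⟨C', hC'⟩ := h'.bdd
  exact .of_ι (fun i => (norm_add_le _ _).trans (add_le_add (hC i) (hC' i)))
    (by simpa only [map_add] using h.ι.add h'.ι)

lemma Setup.Lim.smul (h : S.Lim l x y) (c : ℂ) : S.Lim l (fun i => c • x i) (c • y) := by
  obtain ⟨C, hC⟩ := h.bdd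
  exact .of_ι (C := ‖c‖ * C) (fun i => by rw [norm_smul]; gcongr; exact hC i)
    (by simpa only [map_smul] using h.ι.const_smul c)

lemma Setup.Lim.neg (h : S.Lim l x y) : S.Lim l (fun i => -x i) (-y) := by
  simpa using h.smul (-1)

lemma Setup.Lim.sub (h : S.Lim l x y) (h' : S.Lim l x' y') :
    S.Lim l (fun i => x i - x' i) (y - y') := by
  simpa only [sub_eq_add_neg] using h.add h'.neg

lemma Setup.Lim.sum {J : Type*} (s : Finset J) {f : J → I → M} {g : J → M}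
    (h : ∀ j ∈ s, S.Lim l (f j) (g j)) : S.Lim l (fun i => ∑ j ∈ s, f j i) (∑ j ∈ s, g j) := by
  classical
  induction s using Finset.induction_on with
  | empty => simpa using Setup.Lim.const S l 0
  | insert a s ha ih =>
    simp only [Finset.sum_insert ha]
    exact (h a (Finset.mem_insert_self _ _)).add (ih fun j hj => h j (Finset.mem_insert_of_mem hj))

lemma Setup.Lim.mul_left (h : S.Lim l x y) (c : M) : S.Lim l (fun i => c * x i) (c * y) := by
  obtain ⟨C, hC⟩ := h.bdd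
  refine .of_ι (C := ‖c‖ * C) (fun i => (norm_mul_le _ _).trans (by gcongr; exact hC i)) ?_
  simp only [← S.π_ι]
  exact ((S.π c).continuous.tendsto _).comp h.ι

lemma Setup.Lim.mul_right (h : S.Lim l x y) (c : M) : S.Lim l (fun i => x i * c) (y * c) := by
  obtain ⟨C, hC⟩ := h.bdd
  refine ⟨⟨C * ‖c‖, fun i => (norm_mul_le _ _).trans (by gcongr; exact hC i)⟩, ?_⟩
  refine tendsto_order.2 ⟨fun a ha => .of_forall fun i => ha.trans_le (S.n2_nonneg _),
    fun ε hε => ?_⟩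
  obtain ⟨δ, hδ, H⟩ := S.ac_n2 c (C + ‖y‖) hε
  filter_upwards [h.tend.eventually (gt_mem_nhds hδ)] with i hi
  rw [← sub_mul]
  exact H _ ((norm_sub_le _ _).trans (by gcongr; exact hC i)) hi

lemma Setup.Lim.mul (h : S.Lim l x y) (h' : S.Lim l x' y') :
    S.Lim l (fun i => x i * x' i) (y * y') := by
  obtain ⟨C, hC⟩ := h.bdd
  obtain ⟨C', hC'⟩ := h'.bdd
  have h1 : S.Lim l (fun i => x i * (x' i - y')) 0 := by
    refine ⟨⟨|C| * (C' + ‖y'‖), fun i => (norm_mul_le _ _).trans ?_⟩, ?_⟩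
    · exact mul_le_mul ((hC i).trans (le_abs_self C))
        ((norm_sub_le _ _).trans (by gcongr; exact hC' i)) (norm_nonneg _) (abs_nonneg _)
    · refine squeeze_zero (g := fun i => C * S.n2 (x' i - y')) (fun _ => S.n2_nonneg _)
        (fun i => ?_) (by simpa using h'.tend.const_mul C)
      rw [sub_zero]
      exact (S.n2_mul_left _ _).trans (mul_le_mul_of_nonneg_right (hC i) (S.n2_nonneg _))
  simpa [mul_sub] using h1.add (h.mul_right y')

lemma Setup.Lim.congr (h : S.Lim l x y) (e : ∀ i, x i = x' i) : S.Lim l x' y :=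
  funext e ▸ h

lemma Setup.Lim.comp {J : Type*} {l' : Filter J} (h : S.Lim l x y) {f : J → I}
    (hf : Tendsto f l' l) : S.Lim l' (fun j => x (f j)) y :=
  ⟨let ⟨C, hC⟩ := h.bdd; ⟨C, fun _ => hC _⟩, h.tend.comp hf⟩

lemma Setup.Lim.eq [l.NeBot] (h : S.Lim l x y) (h' : S.Lim l x' y')
    (e : ∀ᶠ i in l, x i = x' i) : y = y' :=
  S.ι_inj (tendsto_nhds_unique (h.ι.congr' (e.mono fun i hi => by rw [hi])) h'.ι)

lemma Setup.Lim.unique [l.NeBot] (h : S.Lim l x y) (h' : S.Lim l x y') : y = y' :=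
  h.eq h' (.of_forall fun _ => rfl)

lemma Setup.Lim.kap (h : S.Lim l x y) : Tendsto (fun i => S.κ (x i)) l (𝓝 (S.κ y)) := by
  have := (tendsto_const_nhds (x := S.ι 1)).inner (𝕜 := ℂ) h.ι
  simpa only [S.inner_ι, star_one, one_mul] using this

lemma Setup.Lim.re (h : S.Lim l x y) :
    Tendsto (fun i => (S.κ (x i)).re) l (𝓝 (S.κ y).re) :=
  (Complex.continuous_re.tendsto _).comp h.kap

lemma Setup.Lim.q2' (h : S.Lim l x y) : Tendsto (fun i => S.q2 (x i)) l (𝓝 (S.q2 y)) := by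
  simpa only [← S.n2_sq, Setup.n2] using h.ι.norm.pow 2

lemma Setup.Lim.star_eq [l.NeBot] (h : S.Lim l x y) (h' : S.Lim l (fun i => star (x i)) y') :
    star y = y' := by
  refine S.eq_of_kap fun c => ?_
  have h1 := (h'.mul_left (star c)).kap
  have h2 := (Complex.continuous_conj.tendsto _).comp (h.mul_right c).kap
  refine tendsto_nhds_unique ?_ h1
  rw [← star_mul, S.kap_star]
  exact h2.congr fun i => by simp only [Function.comp, ← star_mul, S.kap_star]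

lemma Setup.Lim.sa [l.NeBot] (h : S.Lim l x y) (hx : ∀ i, IsSelfAdjoint (x i)) :
    IsSelfAdjoint y :=
  h.star_eq (h.congr fun i => (hx i).star_eq.symm)

end

lemma Setup.nonneg_of_kap (S : Setup M) {y : M} (hy : IsSelfAdjoint y)
    (h : ∀ c, 0 ≤ (S.κ (star c * y * c)).re) : 0 ≤ y := by
  set c := cfc (fun t : ℝ => √(max (-t) 0)) y with hc
  set d := cfc (fun t : ℝ => max (-t) 0) y with hd
  have hcs : IsSelfAdjoint c := cfc_predicate _ _
  have hds : IsSelfAdjoint d := cfc_predicate _ _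
  have e : star c * y * c = -(star d * d) := by
    rw [hcs.star_eq, hds.star_eq, hc, hd]
    conv_lhs => enter [1, 2]; rw [← cfc_id ℝ y]
    rw [← cfc_mul _ _ y, ← cfc_mul _ _ y, ← cfc_mul _ _ y, ← cfc_neg]
    refine cfc_congr fun t _ => ?_
    simp only [id]
    rw [mul_right_comm, Real.mul_self_sqrt (le_max_right _ _)]
    rcases le_total (-t) 0 with h | h
    · simp [max_eq_right h]
    · simp [max_eq_left h]
  have h1 := h c
  rw [e, map_neg, Complex.neg_re] at h1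
  have h2 : d = 0 := S.q2_eq_zero (by unfold Setup.q2; linarith)
  have h3 : y = cfc (fun t : ℝ => max t 0) y - d := by
    rw [hd, ← cfc_sub _ _ y]
    conv_lhs => rw [← cfc_id ℝ y]
    refine cfc_congr fun t _ => ?_
    simp only [id]
    rcases le_total t 0 with h | h
    · rw [max_eq_right h, max_eq_left (by linarith)]; ring
    · rw [max_eq_left h, max_eq_right (by linarith)]; ring
  rw [h3, h2, sub_zero]
  exact cfc_nonneg fun t _ => le_max_right _ _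

section
variable {I : Type*} {l : Filter I} {x x' : I → M} {y y' : M}

lemma Setup.Lim.nonneg [l.NeBot] (h : S.Lim l x y) (hs : ∀ i, IsSelfAdjoint (x i))
    (hx : ∀ᶠ i in l, 0 ≤ x i) : 0 ≤ y :=
  S.nonneg_of_kap (h.sa hs) fun c =>
    ge_of_tendsto ((h.mul_left (star c)).mul_right c).re
      (hx.mono fun _ hi => S.re_nonneg (star_left_conjugate_nonneg hi c))

lemma Setup.Lim.nonneg' [l.NeBot] (h : S.Lim l x y) (hx : ∀ i, 0 ≤ x i) : 0 ≤ y :=
  h.nonneg (fun i => (hx i).isSelfAdjoint) (.of_forall hx)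

lemma Setup.Lim.le [l.NeBot] (h : S.Lim l x y) (h' : S.Lim l x' y')
    (hs : ∀ i, IsSelfAdjoint (x i)) (hs' : ∀ i, IsSelfAdjoint (x' i))
    (hx : ∀ᶠ i in l, x i ≤ x' i) : y ≤ y' :=
  sub_nonneg.1 ((h'.sub h).nonneg (fun i => (hs' i).sub (hs i))
    (hx.mono fun _ hi => sub_nonneg.2 hi))

lemma Setup.Lim.comm [l.NeBot] (h : S.Lim l x y) {b b' : M}
    (hx : ∀ᶠ i in l, b * x i = x i * b') : b * y = y * b' :=
  (h.mul_left b).eq (h.mul_right b') hx

lemma Setup.Lim.mem [l.NeBot] (h : S.Lim l x y) (hx : ∀ i, x i ∈ S.A) : y ∈ S.A :=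
  S.maximal y fun a ha => h.comm (.of_forall fun i => S.comm a ha _ (hx i))

lemma Setup.Lim.proj [l.NeBot] (h : S.Lim l x y) (hx : ∀ i, IsStarProjection (x i)) :
    IsStarProjection y :=
  ⟨(h.mul h).eq h (.of_forall fun i => (hx i).isIdempotentElem.eq),
    h.sa fun i => (hx i).isSelfAdjoint⟩

end

lemma Setup.isClosed_ball (S : Setup M) (C : ℝ) : IsClosed (S.ι '' {x | ‖x‖ ≤ C}) := by
  refine IsSeqClosed.isClosed fun ξ η hξ hl => ?_
  choose x hx e using hξ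
  obtain ⟨y, hy, h⟩ := S.complete x C hx fun ε hε => by
    obtain ⟨N, hN⟩ := Metric.cauchySeq_iff.1 hl.cauchySeq (√ε) (Real.sqrt_pos.2 hε)
    refine ⟨N, fun n hn m hm => ?_⟩
    have := hN n hn m hm
    rw [dist_eq_norm, ← e, ← e, ← S.n2_sub, S.n2_eq] at this
    exact (Real.sqrt_lt_sqrt_iff (S.q2_nonneg _)).1 this
  refine ⟨y, hy, tendsto_nhds_unique (Setup.Lim.of_q2 hx h).ι ?_⟩
  simpa only [e] using hl

section
variable {I : Type*} {l : Filter I} {x : I → M} {y : M}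

lemma Setup.exists_lim (S : Setup M) [l.NeBot] {C : ℝ} (hC : ∀ i, ‖x i‖ ≤ C) {ξ : S.H}
    (h : Tendsto (fun i => S.ι (x i)) l (𝓝 ξ)) : ∃ y, ‖y‖ ≤ C ∧ S.ι y = ξ ∧ S.Lim l x y := by
  obtain ⟨y, hy, e⟩ := (S.isClosed_ball C).mem_of_tendsto h (.of_forall fun i => ⟨x i, hC i, rfl⟩)
  exact ⟨y, hy, e, .of_ι hC (e ▸ h)⟩

lemma Setup.Lim.norm_le [l.NeBot] (h : S.Lim l x y) {C : ℝ} (hC : ∀ i, ‖x i‖ ≤ C) : ‖y‖ ≤ C := by
  obtain ⟨z, hz, -, h'⟩ := S.exists_lim hC h.ι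
  rwa [h.unique h']

end

lemma Setup.net_lim (S : Setup M) {I : Type*} [Preorder I] [IsDirectedOrder I] [Nonempty I]
    {x : I → M} {C D : ℝ} (hC : ∀ i, ‖x i‖ ≤ C) (m : I → ℝ) (hm : ∀ i, D ≤ m i)
    (h : ∀ i j, i ≤ j → S.q2 (x i - x j) ≤ m i - m j) : ∃ y, ‖y‖ ≤ C ∧ S.Lim atTop x y := by
  have hb : BddBelow (Set.range m) := ⟨D, by rintro _ ⟨i, rfl⟩; exact hm i⟩
  have hc : Cauchy (map (fun i => S.ι (x i)) atTop) := by
    refine Metric.cauchy_iff.2 ⟨inferInstance, fun ε hε => ?_⟩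
    obtain ⟨i, hi⟩ := exists_lt_of_ciInf_lt (f := m)
      (lt_add_of_pos_right (⨅ i, m i) (by positivity : 0 < (ε / 2) ^ 2))
    have key : ∀ j, i ≤ j → dist (S.ι (x i)) (S.ι (x j)) < ε / 2 := fun j hj => by
      rw [dist_eq_norm, ← S.n2_sub]
      refine lt_of_pow_lt_pow_left₀ 2 (by positivity) ?_
      have := h i j hj
      have := ciInf_le hb j
      rw [S.n2_sq]; linarith
    refine ⟨_, image_mem_map (Ici_mem_atTop i), ?_⟩
    rintro _ ⟨j, hj, rfl⟩ _ ⟨k, hk, rfl⟩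
    have := dist_triangle_left (S.ι (x j)) (S.ι (x k)) (S.ι (x i))
    have := key j hj
    have := key k hk
    linarith
  obtain ⟨ξ, hξ⟩ := CompleteSpace.complete hc
  obtain ⟨y, hy, -, h'⟩ := S.exists_lim (l := atTop) hC hξ
  exact ⟨y, hy, h'⟩

lemma Setup.q2_le_of_nonneg (S : Setup M) {d : M} (hd : 0 ≤ d) : S.q2 d ≤ ‖d‖ * (S.κ d).re := by
  have h1 : star (CFC.sqrt d) * d * CFC.sqrt d ≤ ‖d‖ • (star (CFC.sqrt d) * CFC.sqrt d) :=
    CStarAlgebra.star_left_conjugate_le_norm_smul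
  have h2 : star (CFC.sqrt d) * d * CFC.sqrt d = star d * d := by
    have e := CFC.sqrt_mul_sqrt_self d
    rw [(CFC.sqrt_nonneg d).isSelfAdjoint.star_eq, hd.isSelfAdjoint.star_eq]
    generalize CFC.sqrt d = s at *
    rw [← e]; simp only [mul_assoc]
  have h3 := S.re_mono h1
  rwa [h2, sqrt_eq hd, ← Complex.coe_smul, map_smul, smul_eq_mul, Complex.re_ofReal_mul] at h3

lemma Setup.anti_lim (S : Setup M) {I : Type*} [Preorder I] [IsDirectedOrder I] [Nonempty I]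
    {x : I → M} {C : ℝ} (hC : ∀ i, ‖x i‖ ≤ C) (hm : Antitone x) : ∃ y, S.Lim atTop x y := by
  have hC0 : 0 ≤ C := (norm_nonneg _).trans (hC (Classical.arbitrary I))
  refine (S.net_lim (D := -(2 * C * (‖S.κ‖ * C))) hC
    (fun i => 2 * C * (S.κ (x i)).re) (fun i => ?_) fun i j hij => ?_).imp fun y h => h.2
  · have h1 := (Complex.abs_re_le_norm (S.κ (x i))).trans (S.κ.le_opNorm _)
    have h2 := mul_le_mul_of_nonneg_left (hC i) (norm_nonneg S.κ)
    have h3 := neg_abs_le (S.κ (x i)).re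
    nlinarith
  · have h0 := sub_nonneg.2 (hm hij)
    have h1 := S.q2_le_of_nonneg h0
    have h2 := S.re_nonneg h0
    have h3 : ‖x i - x j‖ ≤ 2 * C := by
      have := norm_sub_le (x i) (x j); have := hC i; have := hC j; linarith
    rw [map_sub, Complex.sub_re] at h1 h2
    nlinarith

lemma Setup.mono_lim (S : Setup M) {I : Type*} [Preorder I] [IsDirectedOrder I] [Nonempty I]
    {x : I → M} {C : ℝ} (hC : ∀ i, ‖x i‖ ≤ C) (hm : Monotone x) : ∃ y, S.Lim atTop x y := by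
  obtain ⟨y, h⟩ := S.anti_lim (x := fun i => -x i) (C := C) (by simpa using hC)
    fun i j hij => neg_le_neg (hm hij)
  exact ⟨-y, by simpa using h.neg⟩

end Vale.Agent.P078
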