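import Mathlib

namespace Vale.Agent.P078

open Finset ComplexConjugate MeasureTheory Set Filter Topology

/-- logarithmic kernel -/
noncomputable def lg (a τ : ℝ) : ℝ := Real.log ‖(τ * Complex.I - a : ℂ)‖ - Real.log τ

lemma lg_eq (a τ : ℝ) : lg a τ = Real.log (τ ^ 2 + a ^ 2) / 2 - Real.log τ := by
  have : ‖(τ * Complex.I - a : ℂ)‖ = √(τ ^ 2 + a ^ 2) := by
    rw [Complex.norm_eq_sqrt_sq_add_sq]
    simp [add_comm]
  rw [lg, this, Real.log_sqrt (by positivity)]

lemma lg_aux {a : ℝ} (ha : 0 < a) :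
    IntegrableOn (lg a) (Ioi 0) ∧ ∫ τ in Ioi 0, lg a τ = Real.pi / 2 * a := by
  let G : ℝ → ℝ := fun τ => τ * Real.log (τ ^ 2 + a ^ 2) / 2 - τ * Real.log τ +
    a * Real.arctan (τ / a)
  have hc : ContinuousWithinAt G (Ici 0) 0 := by
    refine Continuous.continuousWithinAt ?_
    refine ((Continuous.div_const (continuous_id.mul (Continuous.log (by fun_prop)
      fun x => by positivity)) 2).sub Real.continuous_mul_log).add ?_
    exact continuous_const.mul (Real.continuous_arctan.comp (by fun_prop))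
  have hd : ∀ τ ∈ Ioi (0 : ℝ), HasDerivAt G (lg a τ) τ := by
    intro τ hτ
    have h0 : 0 < τ := hτ
    have h1 : HasDerivAt (fun τ : ℝ => Real.log (τ ^ 2 + a ^ 2)) (2 * τ / (τ ^ 2 + a ^ 2)) τ := by
      have := ((hasDerivAt_pow 2 τ).add_const (a ^ 2)).log (by positivity)
      simpa using this
    have h2 := (((hasDerivAt_id τ).mul h1).div_const 2).sub (Real.hasDerivAt_mul_log h0.ne')
    have h3 := (((hasDerivAt_id τ).div_const a).arctan).const_mul a
    refine ((h2.add h3).congr_deriv ?_).congr_of_eventuallyEq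
      (Eventually.of_forall fun x => by simp [G])
    rw [lg_eq]
    simp only [id]
    field_simp
    ring
  have hp : ∀ τ ∈ Ioi (0 : ℝ), 0 ≤ lg a τ := by
    intro τ hτ
    have h0 : 0 < τ := hτ
    have : Real.log (τ ^ 2) ≤ Real.log (τ ^ 2 + a ^ 2) :=
      Real.log_le_log (by positivity) (by nlinarith)
    rw [Real.log_pow] at this
    rw [lg_eq]
    push_cast at this
    linarith
  have hl : Tendsto G atTop (𝓝 (Real.pi / 2 * a)) := by
    have h1 : Tendsto (fun τ : ℝ => τ * Real.log (τ ^ 2 + a ^ 2) / 2 - τ * Real.log τ) atTop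
        (𝓝 0) := by
      refine squeeze_zero' (g := fun τ => a ^ 2 / τ) ?_ ?_ (tendsto_const_nhds.div_atTop tendsto_id)
      · filter_upwards [eventually_gt_atTop 0] with τ h0
        have := mul_nonneg h0.le (hp τ h0)
        rw [lg_eq] at this
        linarith
      · filter_upwards [eventually_gt_atTop 0] with τ h0
        have e : Real.log (τ ^ 2 + a ^ 2) = 2 * Real.log τ + Real.log (1 + a ^ 2 / τ ^ 2) := by
          have : τ ^ 2 + a ^ 2 = τ ^ 2 * (1 + a ^ 2 / τ ^ 2) := by field_simp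
          rw [this, Real.log_mul (by positivity) (by positivity), Real.log_pow]
          norm_num
        have h2 : Real.log (1 + a ^ 2 / τ ^ 2) ≤ a ^ 2 / τ ^ 2 := by
          have := Real.log_le_sub_one_of_pos (by positivity : 0 < 1 + a ^ 2 / τ ^ 2)
          linarith
        have h3 : τ * (a ^ 2 / τ ^ 2) = a ^ 2 / τ := by field_simp
        have h4 : 0 ≤ a ^ 2 / τ := by positivity
        rw [e]
        nlinarith
    have h2 : Tendsto (fun τ : ℝ => a * Real.arctan (τ / a)) atTop (𝓝 (a * (Real.pi / 2))) :=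
      ((Real.tendsto_arctan_atTop.mono_right nhdsWithin_le_nhds).comp
        (tendsto_id.atTop_div_const ha)).const_mul a
    have := h1.add h2
    rwa [zero_add, mul_comm] at this
  refine ⟨integrableOn_Ioi_deriv_of_nonneg hc hd hp hl, ?_⟩
  rw [integral_Ioi_of_hasDerivAt_of_nonneg hc hd hp hl]
  simp [G]

lemma lg_abs (a : ℝ) : lg a = lg |a| := by
  funext τ; rw [lg_eq, lg_eq, sq_abs]

lemma lg_spec (a : ℝ) :
    IntegrableOn (lg a) (Ioi 0) ∧ ∫ τ in Ioi 0, lg a τ = Real.pi / 2 * |a| := by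
  rcases eq_or_ne a 0 with rfl | ha
  · have : lg 0 = 0 := by
      funext τ; rw [lg_eq]; simp
    rw [this]
    exact ⟨integrableOn_zero, by simp⟩
  · rw [lg_abs]; exact lg_aux (abs_pos.2 ha)

variable {n : Type*} [Fintype n] [DecidableEq n]

/-- spectral data of a Hermitian matrix -/
structure Eig (M : Matrix n n ℂ) where
  l : n → ℝ
  e : n → n → ℂ
  dec : ∀ i j, M i j = ∑ k, l k * (e i k * conj (e j k))
  row : ∀ i j, ∑ k, e i k * conj (e j k) = if i = j then 1 else 0
  col : ∀ k m, ∑ i, conj (e i k) * e i m = if k = m then 1 else 0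
  det : ∀ t : ℂ, (Matrix.scalar n t - M).det = ∏ k, (t - l k)

lemma exists_eig {M : Matrix n n ℂ} (h : M.IsHermitian) : Nonempty (Eig M) := by
  refine ⟨⟨h.eigenvalues, fun i k => (h.eigenvectorUnitary : Matrix n n ℂ) i k, fun i j => ?_,
    fun i j => ?_, fun k m => ?_, fun t => ?_⟩⟩
  · conv_lhs => rw [h.spectral_theorem, Unitary.conjStarAlgAut_apply]
    rw [Matrix.mul_apply]
    refine sum_congr rfl fun k _ => ?_
    rw [Matrix.mul_diagonal, Matrix.star_apply]
    simp only [Function.comp_apply, Complex.coe_algebraMap, RCLike.star_def]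
    ring
  · have := congrFun (congrFun (Unitary.coe_mul_star_self h.eigenvectorUnitary) i) j
    rw [Matrix.mul_apply, Matrix.one_apply] at this
    exact this
  · have := congrFun (congrFun (Unitary.coe_star_mul_self h.eigenvectorUnitary) k) m
    rw [Matrix.mul_apply, Matrix.one_apply] at this
    exact this
  · rw [← Matrix.eval_charpoly, h.charpoly_eq, Polynomial.eval_prod]
    simp

namespace Eig

variable {M : Matrix n n ℂ} (E : Eig M)

/-- trace of the positive part -/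
noncomputable def tp : ℝ := ∑ k, max (E.l k) 0

lemma nsq (z : ℂ) : z * conj z = ((‖z‖ ^ 2 : ℝ) : ℂ) := by
  rw [Complex.mul_conj, Complex.normSq_eq_norm_sq]

lemma col1 (k : n) : ∑ i, ‖E.e i k‖ ^ 2 = 1 := by
  have := E.col k k
  simp only [if_true, mul_comm (conj _), nsq] at this
  exact_mod_cast this

lemma row1 (i : n) : ∑ k, ‖E.e i k‖ ^ 2 = 1 := by
  have := E.row i i
  simp only [if_true, nsq] at this
  exact_mod_cast this

lemma diag_eq (S : Finset n) : ∑ i ∈ S, (M i i).re = ∑ k, E.l k * ∑ i ∈ S, ‖E.e i k‖ ^ 2 := by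
  simp only [E.dec, nsq, ← Complex.ofReal_mul, ← Complex.ofReal_sum, Complex.ofReal_re, mul_sum]
  exact sum_comm

lemma form_eq (x : n → ℂ) : (∑ i, ∑ j, conj (x i) * M i j * x j).re =
    ∑ k, E.l k * ‖∑ i, conj (x i) * E.e i k‖ ^ 2 := by
  have : ∑ i, ∑ j, conj (x i) * M i j * x j =
      ∑ k, E.l k * ((∑ i, conj (x i) * E.e i k) * conj (∑ i, conj (x i) * E.e i k)) := by
    simp only [E.dec, map_sum, map_mul, Complex.conj_conj, sum_mul, mul_sum]
    rw [sum_comm]
    conv_rhs => rw [sum_comm]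
    refine sum_congr rfl fun j _ => ?_
    rw [sum_comm]
    exact sum_congr rfl fun k _ => sum_congr rfl fun i _ => by ring
  rw [this]
  simp only [nsq, ← Complex.ofReal_mul, ← Complex.ofReal_sum, Complex.ofReal_re]

lemma wt_le (ω : n → ℝ) (h0 : ∀ k, 0 ≤ ω k) (h1 : ∀ k, ω k ≤ 1) : ∑ k, E.l k * ω k ≤ E.tp :=
  sum_le_sum fun k _ => by
    rcases le_total (E.l k) 0 with h | h
    · exact (mul_nonpos_of_nonpos_of_nonneg h (h0 k)).trans (le_max_right _ _)
    · exact (mul_le_of_le_one_right h (h1 k)).trans (le_max_left _ _)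

lemma cs (S : Finset n) (x y : n → ℂ) :
    ‖∑ i ∈ S, x i * y i‖ ^ 2 ≤ (∑ i ∈ S, ‖x i‖ ^ 2) * ∑ i ∈ S, ‖y i‖ ^ 2 := by
  refine le_trans ?_ (sum_mul_sq_le_sq_mul_sq S (fun i => ‖x i‖) fun i => ‖y i‖)
  refine pow_le_pow_left₀ (norm_nonneg _) ((norm_sum_le _ _).trans (le_of_eq ?_)) 2
  simp

lemma low_add (S : Finset n) (x : n → ℂ) (hx : ∀ i ∈ S, x i = 0) (hx1 : ∑ i, ‖x i‖ ^ 2 ≤ 1) :
    ∑ i ∈ S, (M i i).re + (∑ i, ∑ j, conj (x i) * M i j * x j).re ≤ E.tp := by
  rw [E.diag_eq, E.form_eq, ← sum_add_distrib]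
  simp only [← mul_add]
  refine E.wt_le _ (fun k => by positivity) fun k => ?_
  have h1 : ∑ i, conj (x i) * E.e i k = ∑ i ∈ Sᶜ, conj (x i) * E.e i k := by
    rw [← sum_add_sum_compl S, sum_eq_zero fun i hi => by simp [hx i hi], zero_add]
  have h2 := cs Sᶜ (fun i => conj (x i)) fun i => E.e i k
  have h3 := E.col1 k
  rw [← sum_add_sum_compl S] at h3
  have h4 : ∑ i ∈ Sᶜ, ‖conj (x i)‖ ^ 2 ≤ 1 := by
    simp only [Complex.norm_conj]
    exact (sum_le_sum_of_subset_of_nonneg (subset_univ _) fun _ _ _ => by positivity).trans hx1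
  have h5 : 0 ≤ ∑ i ∈ Sᶜ, ‖E.e i k‖ ^ 2 := by positivity
  rw [h1]
  nlinarith

lemma low_sub (S : Finset n) (x : n → ℂ) (hx : ∀ i ∉ S, x i = 0) (hx1 : ∑ i, ‖x i‖ ^ 2 ≤ 1) :
    ∑ i ∈ S, (M i i).re - (∑ i, ∑ j, conj (x i) * M i j * x j).re ≤ E.tp := by
  rw [E.diag_eq, E.form_eq, ← sum_sub_distrib]
  simp only [← mul_sub]
  have h3 : ∀ k, ∑ i ∈ S, ‖E.e i k‖ ^ 2 ≤ 1 := fun k =>
    (sum_le_sum_of_subset_of_nonneg (subset_univ _) fun _ _ _ => by positivity).trans (E.col1 k).le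
  refine E.wt_le _ (fun k => ?_) fun k => by linarith [h3 k, sq_nonneg ‖∑ i, conj (x i) * E.e i k‖]
  have h1 : ∑ i, conj (x i) * E.e i k = ∑ i ∈ S, conj (x i) * E.e i k :=
    (sum_subset (subset_univ _) fun i _ hi => by simp [hx i hi]).symm
  have h2 := cs S (fun i => conj (x i)) fun i => E.e i k
  have h4 : ∑ i ∈ S, ‖conj (x i)‖ ^ 2 ≤ 1 := by
    simp only [Complex.norm_conj]
    exact (sum_le_sum_of_subset_of_nonneg (subset_univ _) fun _ _ _ => by positivity).trans hx1
  have h5 : 0 ≤ ∑ i ∈ S, ‖E.e i k‖ ^ 2 := by positivity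
  rw [h1]
  nlinarith

lemma sum_abs : ∑ k, |E.l k| = 2 * E.tp - ∑ i, (M i i).re := by
  rw [E.diag_eq, tp, mul_sum, ← sum_sub_distrib]
  refine sum_congr rfl fun k _ => ?_
  rw [E.col1, mul_one]
  rcases le_total (E.l k) 0 with h | h
  · rw [abs_of_nonpos h, max_eq_right h]; ring
  · rw [abs_of_nonneg h, max_eq_left h]; ring

lemma log_det {τ : ℝ} (hτ : 0 < τ) : Real.log ‖(Matrix.scalar n (τ * Complex.I) - M).det‖ =
    ∑ k, lg (E.l k) τ + Fintype.card n * Real.log τ := by
  rw [E.det, norm_prod, Real.log_prod fun k _ => norm_ne_zero_iff.2 fun h => by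
    simpa [hτ.ne'] using congrArg Complex.im h]
  simp [lg]

/-- the spectral projection onto the positive part -/
lemma exists_proj : ∃ P : n → n → ℂ, ∃ p : n → ℝ, (∀ i, P i i = p i) ∧ (∀ i, 0 ≤ p i) ∧
    (∀ i, p i ≤ 1) ∧ (∀ i, ∑ j, ‖P i j‖ ^ 2 = p i) ∧ (∀ i j, ‖P i j‖ ^ 2 ≤ p i * p j) ∧
    (∀ i j, i ≠ j → ‖P i j‖ ^ 2 ≤ (1 - p i) * (1 - p j)) ∧ (∀ i j, P j i = conj (P i j)) ∧
    E.tp = (∑ i, ∑ j, conj (P i j) * M i j).re := by
  set S := univ.filter fun k => 0 < E.l k
  have hp : ∀ i, ∑ k ∈ Sᶜ, ‖E.e i k‖ ^ 2 = 1 - ∑ k ∈ S, ‖E.e i k‖ ^ 2 := fun i => by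
    rw [← E.row1 i, ← sum_add_sum_compl S]; ring
  have key : ∀ (T : Finset n) (c : n → ℂ) (m : n), ∑ j, (∑ k ∈ T, c k * conj (E.e j k)) * E.e j m =
      if m ∈ T then c m else 0 := by
    intro T c m
    simp only [sum_mul, mul_assoc]
    rw [sum_comm]
    simp only [← mul_sum, E.col, mul_ite, mul_one, mul_zero, sum_ite_eq']
  refine ⟨fun i j => ∑ k ∈ S, E.e i k * conj (E.e j k), fun i => ∑ k ∈ S, ‖E.e i k‖ ^ 2,
    fun i => by simp only [nsq, Complex.ofReal_sum], fun i => by positivity, fun i => ?_,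
    fun i => ?_, fun i j => ?_, fun i j hij => ?_, fun i j => ?_, ?_⟩
  · have : 0 ≤ ∑ k ∈ Sᶜ, ‖E.e i k‖ ^ 2 := by positivity
    linarith [hp i]
  · apply Complex.ofReal_injective
    simp only [Complex.ofReal_sum, ← nsq]
    simp only [map_sum, map_mul, Complex.conj_conj, mul_sum]
    rw [sum_comm]
    refine sum_congr rfl fun m hm => ?_
    simp only [mul_left_comm _ (conj (E.e i m)), ← mul_sum, key, if_pos hm]
    ring
  · simpa using cs S (fun k => E.e i k) fun k => conj (E.e j k)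
  · have h1 := E.row i j
    rw [if_neg hij, ← sum_add_sum_compl S] at h1
    have := cs Sᶜ (fun k => E.e i k) fun k => conj (E.e j k)
    dsimp only
    rw [eq_neg_of_add_eq_zero_left h1, norm_neg, ← hp, ← hp]
    simpa using this
  · simp only [map_sum, map_mul, Complex.conj_conj]
    exact sum_congr rfl fun k _ => mul_comm _ _
  · have : ∑ i, ∑ j, conj (∑ k ∈ S, E.e i k * conj (E.e j k)) * M i j = ∑ k ∈ S, (E.l k : ℂ) := by
      have h1 : ∀ i k, ∑ j, E.e j k * M i j = E.l k * E.e i k := by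
        intro i k
        have := key univ (fun m => E.l m * E.e i m) k
        rw [if_pos (Finset.mem_univ _)] at this
        rw [← this]
        refine sum_congr rfl fun j _ => ?_
        rw [E.dec, mul_comm]
        simp only [mul_assoc]
      simp only [map_sum, map_mul, Complex.conj_conj, sum_mul, mul_assoc]
      rw [sum_congr rfl fun i _ => sum_comm, sum_comm]
      refine sum_congr rfl fun k _ => ?_
      simp only [← mul_sum, h1, mul_left_comm _ (E.l k : ℂ), E.col, if_true, mul_one]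
    rw [this, ← Complex.ofReal_sum, Complex.ofReal_re, tp, sum_filter]
    refine sum_congr rfl fun k _ => ?_
    split_ifs with h
    · exact max_eq_left h.le
    · exact max_eq_right (not_lt.1 h)

end Eig

end Vale.Agent.P078
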