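import Vale.Agent.P078.PDefs

namespace Vale.Agent.P078

open Finset ComplexConjugate MeasureTheory Polynomial

variable {V : Type*} [DecidableEq V] {r : ℕ}

lemma qq_coeff0 {φ : ℂ[X]} (hφ : φ.coeff 0 = 0) {c : Finset V → ℂ} (hc : c ∅ = 1) (U : Finset V)
    (z : V → ℂ) : (qq φ c U z).coeff 0 = 1 := by
  rw [qq, finsetSum_coeff, sum_eq_single ∅]
  · simp [hc]
  · intro T _ hT
    rw [coeff_C_mul, coeff_zero_eq_eval_zero, eval_pow, ← coeff_zero_eq_eval_zero, hφ,
      zero_pow (card_ne_zero.2 (nonempty_iff_ne_empty.2 hT)), mul_zero]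
  · simp

lemma qq_image {V' : Type*} [DecidableEq V'] {f : V → V'} {U : Finset V} (hf : Set.InjOn f U)
    (φ : ℂ[X]) {c : Finset V → ℂ} {c' : Finset V' → ℂ} (hc : ∀ T ⊆ U, c' (T.image f) = c T)
    {z : V → ℂ} {z' : V' → ℂ} (hz : ∀ i ∈ U, z' (f i) = z i) :
    qq φ c' (U.image f) z' = qq φ c U z := by
  unfold qq
  symm
  refine sum_nbij' (fun T => T.image f) (fun T' => U.filter fun i => f i ∈ T') ?_ ?_ ?_ ?_ ?_
  · intro T hT; exact mem_powerset.2 (image_subset_image (mem_powerset.1 hT))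
  · intro T _; exact mem_powerset.2 (filter_subset _ _)
  · intro T hT
    have hT := mem_powerset.1 hT
    ext x
    simp only [mem_filter, mem_image]
    exact ⟨fun ⟨hx, y, hy, e⟩ => hf (hT hy) hx e ▸ hy, fun hx => ⟨hT hx, x, hx, rfl⟩⟩
  · intro T hT
    have hT := mem_powerset.1 hT
    ext x
    simp only [mem_filter, mem_image]
    refine ⟨fun ⟨y, hy, e⟩ => e ▸ hy.2, fun hx => ?_⟩
    obtain ⟨y, hy, e⟩ := mem_image.1 (hT hx)
    exact ⟨y, ⟨hy, e ▸ hx⟩, e⟩
  · intro T hT
    have hT := mem_powerset.1 hT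
    have hf' : Set.InjOn f T := hf.mono hT
    rw [hc T hT, card_image_of_injOn hf', prod_image hf',
      prod_congr rfl fun i hi => congrArg Inv.inv (hz i (hT hi))]

lemma TP_image {V' : Type*} [DecidableEq V'] {a : V → V → ℂ} {a' : V' → V' → ℂ}
    {w : V → Option (Fin r)} {w' : V' → Option (Fin r)} {μ : V → ℝ} {μ' : V' → ℝ} {U : Finset V}
    {f : V → V'} (hf : Set.InjOn f U) (π : Equiv.Perm (Fin r)) (s : V → ℂ)
    (hs : ∀ i, conj (s i) * s i = 1)
    (h : ∀ i ∈ U, ∀ j ∈ U, a' (f i) (f j) = conj (s i) * a i j * s j)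
    (hw : ∀ i ∈ U, w' (f i) = (w i).map π) (hμ : ∀ i ∈ U, μ' (f i) = μ i) (n : ℕ) (φ : ℂ[X])
    (v : ℝ) : TP n φ v a' w' μ' (U.image f) = TP n φ v a w μ U := by
  have key : ∀ (a : V → V → ℂ) (a' : V' → V' → ℂ),
      (∀ i ∈ U, ∀ j ∈ U, a' (f i) (f j) = conj (s i) * a i j * s j) →
      TT n φ (36 / √r) v a' w' μ' (U.image f) = TT n φ (36 / √r) v a w μ U := by
    intro a a' h
    refine setIntegral_congr_fun measurableSet_Ioi fun τ _ => ?_
    unfold tl
    rw [qq_image hf φ (fun T hT => cc_image (hf.mono hT) π s hs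
      (fun i hi j hj => h i (hT hi) j (hT hj)) fun i hi => hw i (hT hi))
      (z := zz (36 / √r) v w μ (τ * Complex.I)) fun i hi => ?_]
    rw [zz, zz, hw i hi, hμ i hi]
    cases w i <;> simp [th]
  rw [TP, TP, key a a' h, key (fun i j => - a i j) _ fun i hi j hj => by rw [h i hi j hj]; ring]

lemma TP_congr {a a' : V → V → ℂ} {w w' : V → Option (Fin r)} {μ μ' : V → ℝ} {U : Finset V}
    (h : ∀ i ∈ U, ∀ j ∈ U, a' i j = a i j) (hw : ∀ i ∈ U, w' i = w i) (hμ : ∀ i ∈ U, μ' i = μ i)
    (n : ℕ) (φ : ℂ[X]) (v : ℝ) : TP n φ v a' w' μ' U = TP n φ v a w μ U := by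
  have := TP_image (f := id) (U := U) (a := a) (a' := a') (w := w) (w' := w') (μ := μ) (μ' := μ')
    (Set.injOn_id _) 1 (fun _ => 1) (by simp) (by simpa using h) (by simpa using hw) hμ n φ v
  rwa [image_id] at this

lemma TP_perm (a : V → V → ℂ) (w : V → Option (Fin r)) (μ : V → ℝ) (U : Finset V)
    (π : Equiv.Perm (Fin r)) (n : ℕ) (φ : ℂ[X]) (v : ℝ) :
    TP n φ v a (fun i => (w i).map π) μ U = TP n φ v a w μ U := by
  have := TP_image (f := id) (U := U) (a := a) (a' := a) (w := w) (w' := fun i => (w i).map π)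
    (μ := μ) (μ' := μ) (Set.injOn_id _) π (fun _ => 1) (by simp) (by simp) (by simp) (by simp) n φ v
  rwa [image_id] at this

lemma TP_empty (a : V → V → ℂ) (w : V → Option (Fin r)) (μ : V → ℝ) (n : ℕ) (φ : ℂ[X]) (v : ℝ) :
    TP n φ v a w μ ∅ = 0 := by
  simp [TP, TT, tl, qq, cc_empty, TL_one]

lemma TP_smul (a : V → V → ℂ) (w : V → Option (Fin r)) {μ : V → ℝ} (hμ : ∀ y, 0 < μ y)
    (U : Finset V) {c : ℝ} (hc : 0 < c) (n : ℕ) (φ : ℂ[X]) (v : ℝ) :
    TP n φ v a w (fun y => μ y * c) U = TP n φ v a w μ U * c := by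
  have key : ∀ a : V → V → ℂ, TT n φ (36 / √r) v a w (fun y => μ y * c) U =
      TT n φ (36 / √r) v a w μ U * c := by
    intro a
    have := integral_comp_mul_left_Ioi (tl n φ (36 / √r) v a w μ U) 0 (inv_pos.2 hc)
    rw [mul_zero, inv_inv, smul_eq_mul, mul_comm] at this
    rw [TT, TT, ← this]
    refine setIntegral_congr_fun measurableSet_Ioi fun τ hτ => ?_
    have hτ : 0 < τ := hτ
    unfold tl
    congr 3
    funext y
    have h1 : (c : ℂ) ≠ 0 := by exact_mod_cast hc.ne'
    have h2 : (μ y : ℂ) ≠ 0 := by exact_mod_cast (hμ y).ne'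
    have h3 : (τ * Complex.I : ℂ) - v * (μ y * c) ≠ 0 := fun e => by
      have := congrArg Complex.im e
      simp [hτ.ne'] at this
    have h4 : (τ * Complex.I : ℂ) - c * (v * μ y) ≠ 0 := by rwa [mul_comm (c : ℂ), mul_assoc]
    simp only [zz, zt]
    push_cast
    field_simp
  rw [TP, TP, key, key, add_mul]

lemma TP_meas {α : Type*} [MeasurableSpace α] {a : α → V → V → ℂ} {w : α → V → Option (Fin r)}
    {μ : α → V → ℝ} (ha : ∀ i j, Measurable fun x => a x i j)
    (hw : ∀ i o, MeasurableSet {x | w x i = o}) (hμ : ∀ i, Measurable fun x => μ x i)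
    (U : Finset V) (n : ℕ) {φ : ℂ[X]} (hφ : φ.coeff 0 = 0) (v : ℝ) :
    Measurable fun x => TP n φ v (a x) (w x) (μ x) U := by
  have hw' : ∀ i (g : Option (Fin r) → ℂ), Measurable fun x => g (w x i) := fun i g => by
    have : (fun x => g (w x i)) = fun x => ∑ o, if w x i = o then g o else 0 := by
      funext x; simp
    rw [this]
    exact Finset.measurable_sum _ fun o _ => Measurable.ite (hw i o) measurable_const measurable_const
  have key : ∀ a : α → V → V → ℂ, (∀ i j, Measurable fun x => a x i j) →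
      Measurable fun x => TT n φ (36 / √r) v (a x) (w x) (μ x) U := by
    intro a ha
    have h1 : Measurable fun p : α × ℝ => tl n φ (36 / √r) v (a p.1) (w p.1) (μ p.1) U p.2 := by
      refine Complex.measurable_re.comp (TL_meas n (fun p => qq_coeff0 hφ (cc_empty _ _) _ _)
        fun k => ?_)
      simp only [qq, finsetSum_coeff, coeff_C_mul]
      refine Finset.measurable_sum _ fun T _ => Measurable.mul_const (Measurable.mul ?_
        (Finset.measurable_prod _ fun y _ => Measurable.inv ?_)) _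
      · unfold cc
        refine Finset.measurable_sum _ fun σ _ => Measurable.mul (Finset.measurable_prod _ fun i _ =>
          (hw' i fun o => wt o (σ i)).comp measurable_fst) ?_
        simp only [Matrix.det_apply', Matrix.of_apply]
        refine Finset.measurable_sum _ fun π _ => Measurable.const_mul
          (Finset.measurable_prod _ fun i _ => Measurable.neg ?_) _
        split_ifs
        · exact (ha _ _).comp measurable_fst
        · exact measurable_const
      · have h2 : Measurable fun p : α × ℝ => (μ p.1 y : ℂ) :=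
          Complex.measurable_ofReal.comp ((hμ y).comp measurable_fst)
        have h3 : Measurable fun p : α × ℝ => (p.2 : ℂ) :=
          Complex.measurable_ofReal.comp measurable_snd
        unfold zz zt
        exact ((hw' y fun o => (th o : ℂ)).comp measurable_fst).mul
          ((measurable_const.add ((h3.mul_const _).div h2)).sub ((h2.const_mul _).div
            ((h3.mul_const _).sub (h2.const_mul _))))
    exact (h1.stronglyMeasurable.integral_prod_right' (ν := volume.restrict (Set.Ioi 0))).measurable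
  exact (key a ha).add (key (fun x i j => - a x i j) fun i j => (ha i j).neg)

lemma qq_loc (hr : 0 < r) {φ : ℂ[X]} (hφ : φ.coeff 0 = 0) {a : V → V → ℂ}
    (w : V → Option (Fin r)) (z : V → ℂ) {K K' : Finset V} (hK : K ⊆ K') {i : V} {n : ℕ}
    (h : V → ℕ) (hi : h i = 0) (hfar : ∀ y ∈ K', y ∉ K → n < h y)
    (hedge : ∀ x ∈ insert i K', ∀ y ∈ insert i K', a x y ≠ 0 → h x ≤ h y + 1) :
    X ^ (n + 1) ∣ qq φ (cc a w) (insert i K') z * qq φ (cc a w) K z -
      qq φ (cc a w) (insert i K) z * qq φ (cc a w) K' z := by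
  classical
  let d : Finset V → ℂ := fun T => cc a w T * ∏ y ∈ T, (z y)⁻¹
  let F : Finset V × Finset V → ℂ[X] := fun p => C (d p.1 * d p.2) * φ ^ (p.1.card + p.2.card)
  have e : ∀ U U' : Finset V, ∃ s, qq φ (cc a w) U z * qq φ (cc a w) U' z =
      ∑ p ∈ (U.powerset ×ˢ U'.powerset).filter (fun p => p.1.card + p.2.card ≤ n), F p +
        X ^ (n + 1) * s := by
    intro U U'
    obtain ⟨s, hs⟩ : X ^ (n + 1) ∣ ∑ p ∈ (U.powerset ×ˢ U'.powerset).filter
        (fun p => ¬ p.1.card + p.2.card ≤ n), F p :=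
      dvd_sum fun p hp => by
        have h1 : n + 1 ≤ p.1.card + p.2.card := not_le.1 (mem_filter.1 hp).2
        exact dvd_mul_of_dvd_right ((pow_dvd_pow_of_dvd (X_dvd_iff.2 hφ) (n + 1)).trans
          (pow_dvd_pow φ h1)) (C (d p.1 * d p.2))
    refine ⟨s, ?_⟩
    rw [← hs, sum_filter_add_sum_filter_not, qq, qq, sum_mul_sum, sum_product]
    refine sum_congr rfl fun T _ => sum_congr rfl fun T' _ => ?_
    simp only [F, d, pow_add, map_mul]
    ring
  have hρ : ∀ T : Finset V, ∃ ρ, T.card ≤ n → 0 < ρ ∧ ρ ≤ n + 1 ∧ ∀ y ∈ T, h y ≠ ρ := by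
    intro T
    by_cases hT : T.card ≤ n
    · obtain ⟨ρ, h1, h2⟩ := exists_mem_notMem_of_card_lt_card (s := T.image h)
        (t := Icc 1 (n + 1)) (by rw [Nat.card_Icc]; have := card_image_le (s := T) (f := h); omega)
      exact ⟨ρ, fun _ => ⟨(mem_Icc.1 h1).1, (mem_Icc.1 h1).2, fun y hy e =>
        h2 (e ▸ mem_image_of_mem h hy)⟩⟩
    · exact ⟨0, fun h' => (hT h').elim⟩
  choose ρ hρ using hρ
  let mix : ℕ → Finset V → Finset V → Finset V := fun k T T' =>
    T.filter (fun y => h y < k) ∪ T'.filter fun y => ¬ h y < k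
  let sw : Finset V × Finset V → Finset V × Finset V := fun p =>
    (mix (ρ (p.1 ∪ p.2)) p.1 p.2, mix (ρ (p.1 ∪ p.2)) p.2 p.1)
  have hU : ∀ p, (sw p).1 ∪ (sw p).2 = p.1 ∪ p.2 := fun p => by
    ext y; simp only [sw, mix, mem_union, mem_filter]; tauto
  have hinv : ∀ p, sw (sw p) = p := fun p => by
    have : sw (sw p) = (mix (ρ (p.1 ∪ p.2)) (sw p).1 (sw p).2,
        mix (ρ (p.1 ∪ p.2)) (sw p).2 (sw p).1) := by rw [← hU p]
    rw [this]
    ext y <;> simp only [sw, mix, mem_union, mem_filter] <;> tauto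
  have hdis : ∀ k (T T' : Finset V), Disjoint (T.filter fun y => h y < k)
      (T'.filter fun y => ¬ h y < k) := fun k T T' =>
    disjoint_left.2 fun y h1 h2 => (mem_filter.1 h2).2 (mem_filter.1 h1).2
  have hcard : ∀ p, (sw p).1.card + (sw p).2.card = p.1.card + p.2.card := fun p => by
    simp only [sw, mix]
    rw [card_union_of_disjoint (hdis _ _ _), card_union_of_disjoint (hdis _ _ _),
      ← card_filter_add_card_filter_not (s := p.1) fun y => h y < ρ (p.1 ∪ p.2),
      ← card_filter_add_card_filter_not (s := p.2) fun y => h y < ρ (p.1 ∪ p.2)]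
    ring
  have hd : ∀ k (T T' : Finset V), T ⊆ insert i K' → T' ⊆ insert i K' → (∀ y ∈ T', h y ≠ k) →
      d (mix k T T') = d (T.filter fun y => h y < k) * d (T'.filter fun y => ¬ h y < k) := by
    intro k T T' h1 h2 h3
    simp only [d, mix]
    rw [cc_union hr (hdis _ _ _) fun x hx y hy => ?_, prod_union (hdis _ _ _)]
    · ring
    · by_contra h4
      have := hedge y (h2 (mem_filter.1 hy).1) x (h1 (mem_filter.1 hx).1) h4
      have h5 := (mem_filter.1 hx).2
      have h6 := (mem_filter.1 hy).2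
      have := h3 y (mem_filter.1 hy).1
      omega
  have hsub : ∀ p : Finset V × Finset V, p.1.card + p.2.card ≤ n → (p.1 ∪ p.2).card ≤ n :=
    fun p hp => (card_union_le _ _).trans hp
  obtain ⟨s, hs⟩ := e (insert i K') K
  obtain ⟨s', hs'⟩ := e (insert i K) K'
  refine ⟨s - s', ?_⟩
  rw [hs, hs', sum_nbij' sw sw (g := F) (t := ((insert i K).powerset ×ˢ K'.powerset).filter
    fun p => p.1.card + p.2.card ≤ n) ?_ ?_ (fun p _ => hinv p) (fun p _ => hinv p) ?_]
  · ring
  · intro p hp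
    simp only [mem_filter, mem_product, mem_powerset] at hp ⊢
    obtain ⟨⟨h1, h2⟩, h3⟩ := hp
    obtain ⟨h4, h5, -⟩ := hρ _ (hsub p h3)
    refine ⟨⟨fun y hy => ?_, fun y hy => ?_⟩, (hcard p).trans_le h3⟩
    · simp only [sw, mix, mem_union, mem_filter] at hy
      rcases hy with hy | hy
      · rcases mem_insert.1 (h1 hy.1) with rfl | h6
        · exact mem_insert_self _ _
        · by_contra h7
          have := hfar y h6 fun h8 => h7 (mem_insert_of_mem h8)
          omega
      · exact mem_insert_of_mem (h2 hy.1)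
    · simp only [sw, mix, mem_union, mem_filter] at hy
      rcases hy with hy | hy
      · exact hK (h2 hy.1)
      · rcases mem_insert.1 (h1 hy.1) with rfl | h6
        · omega
        · exact h6
  · intro p hp
    simp only [mem_filter, mem_product, mem_powerset] at hp ⊢
    obtain ⟨⟨h1, h2⟩, h3⟩ := hp
    obtain ⟨h4, h5, -⟩ := hρ _ (hsub p h3)
    refine ⟨⟨fun y hy => ?_, fun y hy => ?_⟩, (hcard p).trans_le h3⟩
    · simp only [sw, mix, mem_union, mem_filter] at hy
      rcases hy with hy | hy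
      · exact insert_subset_insert _ hK (h1 hy.1)
      · exact mem_insert_of_mem (h2 hy.1)
    · simp only [sw, mix, mem_union, mem_filter] at hy
      rcases hy with hy | hy
      · by_contra h7
        have := hfar y (h2 hy.1) h7
        omega
      · rcases mem_insert.1 (h1 hy.1) with rfl | h6
        · omega
        · exact h6
  · intro p hp
    simp only [mem_filter, mem_product, mem_powerset] at hp
    obtain ⟨⟨h1, h2⟩, h3⟩ := hp
    obtain ⟨-, -, h6⟩ := hρ _ (hsub p h3)
    have h2' : p.2 ⊆ insert i K' := (h2.trans hK).trans (subset_insert _ _)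
    have h7 := fun y hy => h6 y (mem_union_left _ hy)
    have h8 := fun y hy => h6 y (mem_union_right _ hy)
    have h9 := hd _ _ _ h1 h1 h7
    have h10 := hd _ _ _ h2' h2' h8
    simp only [mix, filter_union_filter_not_eq] at h9 h10
    simp only [F]
    rw [hcard p, h9, h10]
    simp only [sw]
    rw [hd _ _ _ h1 h2' h8, hd _ _ _ h2' h1 h7]
    congr 2
    ring

lemma Par.loc {Λ ε : ℝ} (P : Par V r Λ ε) (hr : 0 < r) {a : V → V → ℂ} (w : V → Option (Fin r))
    {μ : V → ℝ} (hμ : ∀ y, 0 < μ y) {K K' : Finset V} (hK : K ⊆ K') {i : V}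
    (ha : HZ a (insert i K')) (h : V → ℕ) (hi : h i = 0) (hfar : ∀ y ∈ K', y ∉ K → P.n < h y)
    (hedge : ∀ x ∈ insert i K', ∀ y ∈ insert i K', a x y ≠ 0 → h x ≤ h y + 1) :
    TP P.n P.φ P.v a w μ (insert i K') - TP P.n P.φ P.v a w μ K' =
      TP P.n P.φ P.v a w μ (insert i K) - TP P.n P.φ P.v a w μ K := by
  have key : ∀ a : V → V → ℂ, HZ a (insert i K') →
      (∀ x ∈ insert i K', ∀ y ∈ insert i K', a x y ≠ 0 → h x ≤ h y + 1) →
      TT P.n P.φ (36 / √r) P.v a w μ (insert i K') + TT P.n P.φ (36 / √r) P.v a w μ K =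
        TT P.n P.φ (36 / √r) P.v a w μ (insert i K) + TT P.n P.φ (36 / √r) P.v a w μ K' := by
    intro a ha hedge
    have h' := ha.mono (subset_insert _ _)
    unfold TT
    rw [← integral_add (P.int a w μ _ ha hμ) (P.int a w μ _ (h'.mono hK) hμ),
      ← integral_add (P.int a w μ _ (ha.mono (insert_subset_insert _ hK)) hμ) (P.int a w μ _ h' hμ)]
    refine setIntegral_congr_fun measurableSet_Ioi fun τ _ => ?_
    have h0 := fun U => qq_coeff0 P.φ0 (cc_empty a w) U (zz (36 / √r) P.v w μ (τ * Complex.I))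
    simp only [tl]
    rw [← Complex.add_re, ← Complex.add_re, ← TL_mul _ (h0 _) (h0 _), ← TL_mul _ (h0 _) (h0 _),
      TL_congr (by rw [mul_coeff_zero, h0, h0, one_mul]) (by rw [mul_coeff_zero, h0, h0, one_mul])
        (qq_loc hr P.φ0 w _ hK h hi hfar hedge)]
  have h1 := key a ha hedge
  have h2 := key _ ha.neg fun x hx y hy e => hedge x hx y hy (neg_ne_zero.1 e)
  unfold TP
  linarith

end Vale.Agent.P078
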