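import Vale.Agent.P078.Loc
import Vale.Agent.P078.MDefs

namespace Vale.Agent.P078

open Finset ComplexConjugate MeasureTheory

section
variable (Γ : Type*) {Ω : Type*} [Group Γ] [MulAction Γ Ω]

/-- base point of the orbit -/
noncomputable def bp (ω : Ω) : Ω := (Quotient.mk (MulAction.orbitRel Γ Ω) ω).out

lemma exists_tr (ω : Ω) : ∃ γ : Γ, γ • bp Γ ω = ω :=
  MulAction.orbitRel_apply.1 ((MulAction.orbitRel Γ Ω).symm (Quotient.mk_out ω))

/-- a group element moving the base point to `ω` -/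
noncomputable def tr (ω : Ω) : Γ := (exists_tr Γ ω).choose

lemma tr_spec (ω : Ω) : tr Γ ω • bp Γ ω = ω := (exists_tr Γ ω).choose_spec

variable {Γ}

lemma bp_smul (γ : Γ) (ω : Ω) : bp Γ (γ • ω) = bp Γ ω :=
  congrArg Quotient.out (Quotient.sound (MulAction.orbitRel_apply.2 ⟨γ, rfl⟩))

/-- neighbourhood -/
def nb [DecidableEq Ω] (W : Finset Γ) (ω : Ω) : Finset Ω := W.image fun γ => γ • ω

lemma mem_nb [DecidableEq Ω] {W : Finset Γ} {ω y : Ω} : y ∈ nb W ω ↔ ∃ γ ∈ W, γ • ω = y :=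
  mem_image

end

lemma meas_piece {Ω β γ : Type*} [MeasurableSpace Ω] [MeasurableSpace γ] (s : Finset β)
    {g : Ω → β} (hg : ∀ ω, g ω ∈ s) (hm : ∀ b ∈ s, MeasurableSet {ω | g ω = b}) {f : β → Ω → γ}
    (hf : ∀ b, Measurable (f b)) : Measurable fun ω => f (g ω) ω := fun A hA => by
  have : (fun ω => f (g ω) ω) ⁻¹' A = ⋃ b ∈ s, {ω | g ω = b} ∩ f b ⁻¹' A := by
    ext ω
    simp only [Set.mem_preimage, Set.mem_iUnion, Set.mem_inter_iff, Set.mem_setOf_eq]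
    exact ⟨fun h => ⟨_, hg ω, rfl, h⟩, fun ⟨b, _, e, h⟩ => e ▸ h⟩
  rw [this]
  exact s.measurableSet_biUnion fun b hb => (hm b hb).inter (hf b hA)

variable {Ω Γ : Type*} [MeasurableSpace Ω] [Group Γ] [MulAction Γ Ω]

namespace MSys

variable (D : MSys Ω Γ)

instance : IsFiniteMeasure D.μ := ⟨D.fin.lt_top⟩

open Classical in
/-- the kernel on points -/
noncomputable def a (y ω : Ω) : ℂ :=
  if bp Γ y = bp Γ ω then D.b (tr Γ y) (tr Γ ω) (bp Γ ω) else 0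

/-- the mass of a point -/
noncomputable def m (ω : Ω) : ℝ := D.ρ (tr Γ ω) (bp Γ ω)

lemma m_pos (ω : Ω) : 0 < D.m ω := D.ρ_pos _ _

lemma ρ_congr {γ γ' : Γ} {ω : Ω} (h : γ • ω = γ' • ω) : D.ρ γ ω = D.ρ γ' ω := by
  have h1 : (γ'⁻¹ * γ) • ω = ω := by rw [mul_smul, h, inv_smul_smul]
  have := D.ρ_mul γ' (γ'⁻¹ * γ) ω
  rwa [mul_inv_cancel_left, h1, D.ρ_fix _ _ h1, mul_one] at this

lemma m_smul (γ : Γ) (ω : Ω) : D.m (γ • ω) = D.ρ γ ω * D.m ω := by
  rw [m, m, bp_smul, D.ρ_congr (γ' := γ * tr Γ ω), D.ρ_mul, tr_spec]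
  rw [mul_smul, tr_spec, ← bp_smul γ ω, tr_spec]

lemma chart (ω : Ω) : ∃ s : Γ → ℂ, (∀ γ, conj (s γ) * s γ = 1) ∧
    ∀ γ γ' : Γ, D.a (γ • ω) (γ' • ω) = conj (s γ) * D.b γ γ' ω * s γ' := by
  choose s hs hs' using fun γ : Γ => D.b_phase (γ * tr Γ ω) (tr Γ (γ • ω)) (bp Γ ω) (by
    rw [mul_smul, tr_spec, ← bp_smul γ ω, tr_spec])
  refine ⟨s, fun γ => by rw [Complex.conj_mul', hs]; simp, fun γ γ' => ?_⟩
  rw [a, if_pos (by rw [bp_smul, bp_smul]), bp_smul, hs', D.b_herm (tr Γ (γ' • ω)), hs', map_mul,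
    ← D.b_herm, D.b_equi, tr_spec, Complex.conj_conj]
  ring

lemma a_supp {x y : Ω} (h : D.a x y ≠ 0) : ∃ s ∈ D.S, x = s • y := by
  unfold a at h
  split_ifs at h with e
  · obtain ⟨s, hs, h⟩ := D.b_supp _ _ _ h
    rw [tr_spec, ← e, tr_spec] at h
    exact ⟨s, hs, h⟩
  · exact (h rfl).elim

variable [DecidableEq Ω]

lemma hz {K : Finset Ω} {ω : Ω} (hK : ∀ y ∈ K, ∃ γ : Γ, γ • ω = y) : HZ D.a K := by
  classical
  refine ⟨fun i j => ?_, fun i => by simp [a, D.b_diag], fun x y => ?_⟩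
  · unfold a
    by_cases e : bp Γ i = bp Γ j
    · rw [if_pos e, if_pos e.symm, D.b_herm, e]
    · rw [if_neg e, if_neg (Ne.symm e), map_zero]
  · have h1 : ∀ i ∈ K, bp Γ i = bp Γ ω := fun i hi => by
      obtain ⟨γ, rfl⟩ := hK i hi; exact bp_smul _ _
    have h2 : ∀ i ∈ K, tr Γ i • bp Γ ω = i := fun i hi => by rw [← h1 i hi, tr_spec]
    have h3 : Set.InjOn (tr Γ) (K : Set Ω) := fun i hi j hj e => by rw [← h2 i hi, e, h2 j hj]
    have := D.b_contr (bp Γ ω) (K.image (tr Γ)) (fun i hi j hj e => by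
      obtain ⟨i, hi', rfl⟩ := mem_image.1 hi
      obtain ⟨j, hj', rfl⟩ := mem_image.1 hj
      simp only [h2 i hi', h2 j hj'] at e
      rw [e]) (fun γ => x (γ • bp Γ ω)) fun γ => y (γ • bp Γ ω)
    simp only [sum_image h3] at this
    have e : ∀ f : Ω → ℂ, ∑ i ∈ K, ‖f (tr Γ i • bp Γ ω)‖ ^ 2 = ∑ i ∈ K, ‖f i‖ ^ 2 := fun f =>
      sum_congr rfl fun i hi => by rw [h2 i hi]
    rw [e, e] at this
    refine le_trans (le_of_eq (congrArg _ (sum_congr rfl fun i hi => sum_congr rfl fun j hj =>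
      ?_))) this
    rw [h2 i hi, h2 j hj, a, if_pos ((h1 i hi).trans (h1 j hj).symm), h1 j hj]

include D in
omit [DecidableEq Ω] in
lemma meas_fix (γ : Γ) : MeasurableSet {ω : Ω | γ • ω = ω} := by
  obtain ⟨t, ht, h⟩ := D.sep γ
  have : {ω : Ω | γ • ω = ω} = {ω | t (γ • ω) = t ω} := by
    ext ω; exact ⟨fun e => congrArg t e, fun e => by_contra fun e' => h ω e' e⟩
  rw [this]
  exact measurableSet_eq_fun (ht.comp (D.act γ)) ht

include D in
omit [DecidableEq Ω] in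
lemma meas_eq (γ γ' : Γ) : MeasurableSet {ω : Ω | γ • ω = γ' • ω} := by
  have : {ω : Ω | γ • ω = γ' • ω} = {ω | (γ'⁻¹ * γ) • ω = ω} := by
    ext ω; simp [mul_smul, inv_smul_eq_iff]
  rw [this]
  exact D.meas_fix _

include D in
lemma meas_nb (W : Finset Γ) (γ γ' : Γ) : MeasurableSet {ω : Ω | γ • ω ∈ nb W (γ' • ω)} := by
  have : {ω : Ω | γ • ω ∈ nb W (γ' • ω)} = ⋃ δ ∈ W, {ω | (δ * γ') • ω = γ • ω} := by
    ext ω; simp [mem_nb, mul_smul]
  rw [this]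
  exact W.measurableSet_biUnion fun δ _ => D.meas_eq _ _

include D in
lemma meas_nb' (W : Finset Γ) (γ : Γ) : MeasurableSet {ω : Ω | γ • ω ∈ nb W ω} := by
  simpa using D.meas_nb W γ 1

include D in
omit [DecidableEq Ω] in
lemma exists_classes (W : Finset Γ) : ∃ (N : ℕ) (t : Ω → ℕ), Measurable t ∧ (∀ ω, t ω < N) ∧
    ∀ γ ∈ W, ∀ ω, t (γ • ω) = t ω → γ • ω = ω := by
  classical
  choose t ht h using D.sep
  let e := Fintype.equivFin (W → Fin 4)
  refine ⟨_, fun ω => e fun γ => t γ ω, ?_, fun ω => (e _).2, fun γ hγ ω h' => ?_⟩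
  · exact (measurable_of_countable fun f : W → Fin 4 => (e f : ℕ)).comp
      (measurable_pi_lambda _ fun γ => ht γ)
  · by_contra h''
    exact h γ ω h'' (congrFun (e.injective (Fin.ext h')) ⟨γ, hγ⟩)

omit [DecidableEq Ω] in
lemma exists_bound (W : Finset Γ) : ∃ Λ : ℝ, 1 ≤ Λ ∧ ∀ γ ∈ W, ∀ ω, D.m (γ • ω) ≤ Λ * D.m ω := by
  choose C hC using D.ρ_bdd
  refine ⟨1 + ∑ γ ∈ W, |C γ|, le_add_of_nonneg_right (by positivity), fun γ hγ ω => ?_⟩
  rw [m_smul]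
  have := single_le_sum (f := fun γ => |C γ|) (fun _ _ => abs_nonneg _) hγ
  exact mul_le_mul_of_nonneg_right (by linarith [hC γ ω, le_abs_self (C γ)]) (D.m_pos ω).le

lemma meas_T {r : ℕ} (n : ℕ) {φ : Polynomial ℂ} (hφ : φ.coeff 0 = 0) (v : ℝ)
    {w : Ω → Ω → Option (Fin r)} (hw : ∀ (γ : Γ) o, MeasurableSet {ω | w ω (γ • ω) = o})
    {K : Ω → Finset Ω} (W : Finset Γ) (hK : ∀ ω, K ω ⊆ nb W ω)
    (hm : ∀ γ : Γ, MeasurableSet {ω | γ • ω ∈ K ω}) :
    Measurable fun ω => TP n φ v D.a (w ω) D.m (K ω) / D.m ω := by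
  classical
  obtain ⟨lo, -⟩ := exists_wellOrder Γ
  let rep : Ω → Finset Γ := fun ω =>
    W.filter fun γ => γ • ω ∈ K ω ∧ ∀ γ' ∈ W, γ' • ω = γ • ω → γ ≤ γ'
  have h1 : ∀ γ, MeasurableSet {ω | γ ∈ rep ω} := fun γ => by
    simp only [rep, mem_filter, Set.setOf_and]
    refine (MeasurableSet.const _).inter ((hm γ).inter ?_)
    have : {ω : Ω | ∀ γ' ∈ W, γ' • ω = γ • ω → γ ≤ γ'} =
        ⋂ γ' ∈ W, {ω : Ω | γ' • ω = γ • ω}ᶜ ∪ {_ω | γ ≤ γ'} := by
      ext ω; simp [imp_iff_not_or (a := _ = _)]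
    rw [this]
    exact W.measurableSet_biInter fun γ' _ => (D.meas_eq _ _).compl.union (MeasurableSet.const _)
  have h2 : (fun ω => TP n φ v D.a (w ω) D.m (K ω) / D.m ω) = fun ω =>
      TP n φ v (fun γ γ' => D.b γ γ' ω) (fun γ => w ω (γ • ω)) (fun γ => D.ρ γ ω) (rep ω) := by
    funext ω
    obtain ⟨s, hs, hs'⟩ := D.chart ω
    have e : K ω = (rep ω).image fun γ => γ • ω := by
      ext y
      refine ⟨fun hy => ?_, fun hy => ?_⟩
      · obtain ⟨γ, h1, h2⟩ := exists_min_image (W.filter fun γ => γ • ω = y) id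
          ((mem_nb.1 (hK ω hy)).imp fun γ h => mem_filter.2 h)
        obtain ⟨h1, e⟩ := mem_filter.1 h1
        exact mem_image.2 ⟨γ, mem_filter.2 ⟨h1, e ▸ hy, fun γ' h3 h4 =>
          h2 γ' (mem_filter.2 ⟨h3, h4.trans e⟩)⟩, e⟩
      · obtain ⟨γ, h1, rfl⟩ := mem_image.1 hy
        exact (mem_filter.1 h1).2.1
    have hi : Set.InjOn (fun γ : Γ => γ • ω) (rep ω) := fun γ h γ' h' e => by
      obtain ⟨h1, -, h2⟩ := mem_filter.1 h
      obtain ⟨h3, -, h4⟩ := mem_filter.1 h'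
      exact le_antisymm (h2 γ' h3 e.symm) (h4 γ h1 e)
    rw [e, TP_image hi 1 s hs (fun γ _ γ' _ => hs' γ γ') (w := fun γ => w ω (γ • ω)) (by simp)
      (fun γ _ => D.m_smul γ ω), TP_smul _ _ (fun γ => D.ρ_pos γ ω) _ (D.m_pos ω),
      mul_div_cancel_right₀ _ (D.m_pos ω).ne']
  rw [h2]
  refine meas_piece W.powerset (g := rep) (fun ω => mem_powerset.2 (filter_subset _ _))
    (fun G hG => ?_) (f := fun G ω => TP n φ v (fun γ γ' => D.b γ γ' ω) (fun γ => w ω (γ • ω))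
      (fun γ => D.ρ γ ω) G) fun G => TP_meas D.b_meas hw D.ρ_meas G n hφ v
  have : {ω | rep ω = G} = ⋂ γ ∈ W, if γ ∈ G then {ω | γ ∈ rep ω} else {ω | γ ∈ rep ω}ᶜ := by
    ext ω
    simp only [Set.mem_setOf_eq, Set.mem_iInter]
    refine ⟨fun e γ _ => by split_ifs with h <;> simpa [e] using h, fun h => ?_⟩
    ext γ
    by_cases hγ : γ ∈ W
    · have := h γ hγ
      split_ifs at this with h' <;> simpa [h'] using this
    · exact iff_of_false (fun h' => hγ (mem_filter.1 h').1) fun h' => hγ (mem_powerset.1 hG h')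
  rw [this]
  refine W.measurableSet_biInter fun γ _ => ?_
  split_ifs
  · exact h1 γ
  · exact (h1 γ).compl

omit [DecidableEq Ω] in
lemma mtp_real (γ : Γ) {f : Ω → ℝ} (hf : Measurable f) :
    ∫ ω, D.ρ γ ω * f (γ • ω) ∂D.μ = ∫ ω, f ω ∂D.μ := by
  have h0 := (D.ρ_meas γ).ennreal_ofReal
  have e : (D.μ.withDensity fun ω => ENNReal.ofReal (D.ρ γ ω)).map (fun ω => γ • ω) = D.μ := by
    ext s hs
    rw [Measure.map_apply (D.act γ) hs, withDensity_apply _ (D.act γ hs),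
      ← lintegral_indicator (D.act γ hs), ← lintegral_indicator_one hs,
      ← D.mtp γ _ (measurable_one.indicator hs)]
    refine lintegral_congr fun ω => ?_
    by_cases h : γ • ω ∈ s <;> simp [Set.indicator, h]
  conv_rhs => rw [← e]
  rw [integral_map (D.act γ).aemeasurable hf.aestronglyMeasurable,
    integral_withDensity_eq_integral_toReal_smul h0 (by simp)]
  refine integral_congr_ae (ae_of_all _ fun ω => ?_)
  simp [ENNReal.toReal_ofReal (D.ρ_pos γ ω).le]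

omit [DecidableEq Ω] in
lemma int_of {f : Ω → ℝ} (hf : Measurable f) {C : ℝ} (h : ∀ ω, |f ω| ≤ C) : Integrable f D.μ :=
  Integrable.of_bound hf.aestronglyMeasurable C (ae_of_all _ h)

lemma pair_sum (W : Finset Γ) {F : Ω → Ω → ℝ} (hm : ∀ γ : Γ, Measurable fun ω => F ω (γ • ω))
    {C : ℝ} (hb : ∀ γ ∈ W, ∀ ω, |F ω (γ • ω)| ≤ C) :
    Integrable (fun ω => ∑ y ∈ nb W ω, F ω y) D.μ ∧ ∫ ω, ∑ y ∈ nb W ω, F ω y ∂D.μ =
      ∑ γ ∈ W, ∫ ω, F ω (γ • ω) / (W.filter fun δ => δ • ω = γ • ω).card ∂D.μ := by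
  have e : (fun ω => ∑ y ∈ nb W ω, F ω y) =
      fun ω => ∑ γ ∈ W, F ω (γ • ω) / (W.filter fun δ => δ • ω = γ • ω).card := by
    funext ω
    rw [sum_comp (fun y => F ω y / (W.filter fun δ => δ • ω = y).card) fun γ : Γ => γ • ω]
    refine sum_congr rfl fun y hy => ?_
    have : (0 : ℝ) < (W.filter fun δ => δ • ω = y).card := by
      exact_mod_cast card_pos.2 ((mem_nb.1 hy).imp fun γ h => mem_filter.2 h)
    rw [nsmul_eq_mul, mul_div_cancel₀ _ this.ne']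
  have hi : ∀ γ ∈ W, Integrable
      (fun ω => F ω (γ • ω) / (W.filter fun δ => δ • ω = γ • ω).card) D.μ := fun γ hγ => by
    refine D.int_of ((hm γ).div ?_) (C := C) fun ω => ?_
    · simp only [card_filter, Nat.cast_sum, Nat.cast_ite]
      exact Finset.measurable_sum _ fun δ _ =>
        Measurable.ite (D.meas_eq _ _) measurable_const measurable_const
    · have : (1 : ℝ) ≤ (W.filter fun δ => δ • ω = γ • ω).card := by
        exact Nat.one_le_cast.2 (card_pos.2 ⟨γ, by simp [hγ]⟩)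
      rw [abs_div, Nat.abs_cast]
      exact (div_le_self (abs_nonneg _) this).trans (hb γ hγ ω)
  rw [e]
  exact ⟨integrable_finsetSum _ hi, integral_finsetSum _ hi⟩

lemma pair_mtp {W : Finset Γ} (hW : ∀ γ ∈ W, γ⁻¹ ∈ W) {F : Ω → Ω → ℝ}
    (hm : ∀ γ : Γ, Measurable fun ω => F ω (γ • ω) / D.m ω)
    {C : ℝ} (hb : ∀ γ ∈ W, ∀ ω, |F ω (γ • ω)| ≤ C * D.m ω) :
    Integrable (fun ω => ∑ y ∈ nb W ω, F ω y / D.m ω) D.μ ∧
    Integrable (fun ω => ∑ y ∈ nb W ω, F y ω / D.m ω) D.μ ∧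
    ∫ ω, ∑ y ∈ nb W ω, F ω y / D.m ω ∂D.μ = ∫ ω, ∑ y ∈ nb W ω, F y ω / D.m ω ∂D.μ := by
  obtain ⟨Λ, hΛ, hb'⟩ := D.exists_bound W
  have hm' : ∀ γ : Γ, Measurable fun ω => F (γ • ω) ω / D.m ω := fun γ => by
    have : (fun ω => F (γ • ω) ω / D.m ω) =
        fun ω => F (γ • ω) (γ⁻¹ • γ • ω) / D.m (γ • ω) * D.ρ γ ω := by
      funext ω
      have := D.ρ_pos γ ω
      rw [inv_smul_smul, m_smul]
      field_simp
    rw [this]
    exact ((hm γ⁻¹).comp (D.act γ)).mul (D.ρ_meas γ)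
  obtain ⟨h1, h2⟩ := D.pair_sum W (F := fun ω y => F ω y / D.m ω) hm (C := C) fun γ hγ ω => by
    rw [abs_div, abs_of_pos (D.m_pos ω), div_le_iff₀ (D.m_pos ω)]; exact hb γ hγ ω
  obtain ⟨h3, h4⟩ := D.pair_sum W (F := fun ω y => F y ω / D.m ω) hm' (C := |C| * Λ)
    fun γ hγ ω => by
      have := hb γ⁻¹ (hW γ hγ) (γ • ω)
      rw [inv_smul_smul] at this
      rw [abs_div, abs_of_pos (D.m_pos ω), div_le_iff₀ (D.m_pos ω), mul_assoc]
      exact this.trans (mul_le_mul (le_abs_self C) (hb' γ hγ ω) (D.m_pos _).le (abs_nonneg C))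
  refine ⟨h1, h3, ?_⟩
  rw [h2, h4]
  refine sum_nbij' (fun γ => γ⁻¹) (fun γ => γ⁻¹) hW hW (by simp) (by simp) fun γ _ => ?_
  rw [← D.mtp_real γ (f := fun ω => F (γ⁻¹ • ω) ω / D.m ω /
    (W.filter fun δ => δ • ω = γ⁻¹ • ω).card) ((hm' _).div ?_)]
  · refine integral_congr_ae (ae_of_all _ fun ω => ?_)
    have h5 : (W.filter fun δ => δ • γ • ω = ω).card = (W.filter fun δ => δ • ω = γ • ω).card :=
      card_nbij' (fun γ => γ⁻¹) (fun γ => γ⁻¹)
        (fun δ h => by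
          simp only [coe_filter, Set.mem_setOf_eq] at h ⊢
          exact ⟨hW δ h.1, by rw [inv_smul_eq_iff, h.2]⟩)
        (fun δ h => by
          simp only [coe_filter, Set.mem_setOf_eq] at h ⊢
          exact ⟨hW δ h.1, by rw [inv_smul_eq_iff, h.2]⟩) (by simp [Set.LeftInvOn])
        (by simp [Set.RightInvOn, Set.LeftInvOn])
    have := D.ρ_pos γ ω
    simp only [inv_smul_smul, m_smul, h5]
    field_simp
  · simp only [card_filter, Nat.cast_sum, Nat.cast_ite]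
    exact Finset.measurable_sum _ fun δ _ =>
      Measurable.ite (D.meas_eq _ _) measurable_const measurable_const

end MSys

end Vale.Agent.P078
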