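import Vale.Agent.P078.M1

namespace Vale.Agent.P078

open Finset ComplexConjugate MeasureTheory

lemma tele {V α : Type*} [DecidableEq V] [LinearOrder α] (κ : V → α) (f : Finset V → ℝ)
    (Y : Finset V) : Set.InjOn κ Y → f Y - f ∅ = ∑ j ∈ Y,
      (f (insert j (Y.filter fun y => κ y < κ j)) - f (Y.filter fun y => κ y < κ j)) := by
  induction Y using Finset.induction_on_max_value κ with
  | empty => simp
  | insert a Y ha hmax ih =>
    intro h
    have h1 : (insert a Y).filter (fun y => κ y < κ a) = Y := by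
      ext y
      simp only [mem_filter, mem_insert]
      refine ⟨fun ⟨h1, h2⟩ => h1.resolve_left fun e => by simp [e] at h2, fun hy =>
        ⟨Or.inr hy, (hmax y hy).lt_of_ne fun e => ha ?_⟩⟩
      rwa [← h (by simp [hy]) (by simp) e]
    rw [sum_insert ha, h1, sum_congr rfl fun j hj => by
      rw [filter_insert, if_neg (not_lt.2 (hmax j hj))], ← ih (h.mono (by simp))]
    ring

variable {Ω Γ : Type*} [MeasurableSpace Ω] [Group Γ] [MulAction Γ Ω] [DecidableEq Ω]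

/-- measurable finite-range set valued functions -/
def MS (Γ : Type*) [Group Γ] [MulAction Γ Ω] (K : Ω → Finset Ω) : Prop :=
  (∃ W : Finset Γ, ∀ ω, K ω ⊆ nb W ω) ∧ ∀ γ : Γ, MeasurableSet {ω | γ • ω ∈ K ω}

lemma MS.ins (D : MSys Ω Γ) {K : Ω → Finset Ω} (h : MS Γ K) (γ : Γ) :
    MS Γ fun ω => insert (γ • ω) (K ω) := by
  classical
  obtain ⟨⟨W, hW⟩, h⟩ := h
  refine ⟨⟨insert γ W, fun ω => ?_⟩, fun δ => ?_⟩
  · rw [nb, image_insert]; exact insert_subset_insert _ (hW ω)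
  · simp only [mem_insert, Set.setOf_or]
    exact (D.meas_eq _ _).union (h δ)

lemma MS.ins1 (D : MSys Ω Γ) {K : Ω → Finset Ω} (h : MS Γ K) :
    MS Γ fun ω => insert ω (K ω) := by simpa using h.ins D 1

lemma MS.filt {K : Ω → Finset Ω} (h : MS Γ K) {q : Ω → Ω → Prop} [∀ ω, DecidablePred (q ω)]
    (hq : ∀ γ : Γ, MeasurableSet {ω | q ω (γ • ω)}) : MS Γ fun ω => (K ω).filter (q ω) := by
  obtain ⟨⟨W, hW⟩, h⟩ := h
  refine ⟨⟨W, fun ω => (filter_subset _ _).trans (hW ω)⟩, fun δ => ?_⟩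
  simp only [mem_filter, Set.setOf_and]
  exact (h δ).inter (hq δ)

lemma MS.nb (D : MSys Ω Γ) (W : Finset Γ) : MS Γ (nb W : Ω → Finset Ω) :=
  ⟨⟨W, fun _ => Subset.refl _⟩, D.meas_nb' W⟩

/-- data for the colouring algorithm -/
structure Ctx (D : MSys Ω Γ) (r : ℕ) (Λ ε : ℝ) where
  P : Par Ω r Λ ε
  W : Finset Γ
  hr : 0 < r
  one : 1 ∈ W
  inv : ∀ γ ∈ W, γ⁻¹ ∈ W
  hgt : ∀ ω, ∃ h : Ω → ℕ, h ω = 0 ∧ (∀ y, y ∉ nb W ω → P.n < h y) ∧
    ∀ x y, D.a x y ≠ 0 → h x ≤ h y + 1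
  nbr : ∀ x y, D.a x y ≠ 0 → D.m y ≤ Λ * D.m x

namespace Ctx

variable {D : MSys Ω Γ} {r : ℕ} {Λ ε : ℝ} (c : Ctx D r Λ ε)

noncomputable def T (w : Ω → Option (Fin r)) (K : Finset Ω) : ℝ :=
  TP c.P.n c.P.φ c.P.v D.a w D.m K

noncomputable def Δ (w : Ω → Option (Fin r)) (ω : Ω) (K : Finset Ω) : ℝ :=
  c.T w (insert ω K) - c.T w K

noncomputable def past {α : Type*} [LinearOrder α] (κ : Ω → α) (ω : Ω) : Finset Ω :=
  (nb c.W ω).filter fun y => κ y < κ ω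

noncomputable def J {α : Type*} [LinearOrder α] (κ : Ω → α) (w : Ω → Option (Fin r)) : ℝ :=
  ∫ ω, c.Δ w ω (c.past κ ω) / D.m ω ∂D.μ

def Key {α : Type*} [LinearOrder α] (κ : Ω → α) : Prop :=
  (∀ γ : Γ, MeasurableSet {ω | κ (γ • ω) < κ ω}) ∧ ∀ ω, Set.InjOn κ (nb c.W ω : Finset Ω)

lemma Key.meas {α : Type*} [LinearOrder α] {κ : Ω → α} (h : c.Key κ) (γ γ' : Γ) :
    MeasurableSet {ω | κ (γ • ω) < κ (γ' • ω)} := by
  have := D.act γ' (h.1 (γ * γ'⁻¹))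
  simpa [mul_smul] using this

lemma self_mem (ω : Ω) : ω ∈ nb c.W ω := mem_nb.2 ⟨1, c.one, one_smul _ _⟩

lemma nb_symm {ω y : Ω} (h : y ∈ nb c.W ω) : ω ∈ nb c.W y := by
  obtain ⟨γ, hγ, rfl⟩ := mem_nb.1 h
  exact mem_nb.2 ⟨γ⁻¹, c.inv γ hγ, inv_smul_smul _ _⟩

omit [MeasurableSpace Ω] in
lemma orb {W : Finset Γ} {K : Finset Ω} {ω : Ω} (h : K ⊆ nb W ω) : ∀ y ∈ K, ∃ γ : Γ, γ • ω = y :=
  fun y hy => (mem_nb.1 (h hy)).imp fun _ h => h.2

lemma hz1 {W : Finset Γ} {K : Finset Ω} {ω i : Ω} (h : K ⊆ nb W ω) (hi : i ∈ nb W ω) :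
    HZ D.a (insert i K) := D.hz (orb (insert_subset hi h))

lemma meas_T {w : Ω → Option (Fin r)} (hw : ∀ o, MeasurableSet {ω | w ω = o}) {K : Ω → Finset Ω}
    (hK : MS Γ K) : Measurable fun ω => c.T w (K ω) / D.m ω := by
  obtain ⟨⟨W, hW⟩, h⟩ := hK
  exact D.meas_T _ c.P.φ0 _ (w := fun _ => w) (fun γ o => D.act γ (hw o)) W hW h

lemma meas_Δ {w : Ω → Option (Fin r)} (hw : ∀ o, MeasurableSet {ω | w ω = o}) {K : Ω → Finset Ω}
    (hK : MS Γ K) : Measurable fun ω => c.Δ w ω (K ω) / D.m ω := by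
  simp only [Δ, sub_div]
  exact (c.meas_T hw (hK.ins1 D)).sub (c.meas_T hw hK)

lemma Δ_bdd (w : Ω → Option (Fin r)) {K : Finset Ω} {ω : Ω} (h : K ⊆ nb c.W ω) (hω : ω ∉ K) :
    |c.Δ w ω K| ≤ c.P.B * D.m ω :=
  c.P.bdd _ w _ K ω hω (hz1 h (c.self_mem ω)) D.m_pos fun y _ => c.nbr ω y

lemma int_Δ {w : Ω → Option (Fin r)} (hw : ∀ o, MeasurableSet {ω | w ω = o}) {K : Ω → Finset Ω}
    (hK : MS Γ K) (h : ∀ ω, K ω ⊆ nb c.W ω) (hω : ∀ ω, ω ∉ K ω) :
    Integrable (fun ω => c.Δ w ω (K ω) / D.m ω) D.μ :=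
  D.int_of (c.meas_Δ hw hK) (C := c.P.B) fun ω => by
    rw [abs_div, abs_of_pos (D.m_pos ω), div_le_iff₀ (D.m_pos ω)]
    exact c.Δ_bdd w (h ω) (hω ω)

lemma Δ_loc (w : Ω → Option (Fin r)) {K K' : Finset Ω} {ω : Ω} (hK : K ⊆ K')
    (hz : HZ D.a (insert ω K')) (h : ∀ y ∈ K', y ∉ K → y ∉ nb c.W ω) :
    c.Δ w ω K' = c.Δ w ω K := by
  obtain ⟨g, h1, h2, h3⟩ := c.hgt ω
  exact c.P.loc c.hr w D.m_pos hK hz g h1 (fun y hy hy' => h2 y (h y hy hy'))
    fun x _ y _ => h3 x y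

lemma ms_past {α : Type*} [LinearOrder α] {κ : Ω → α} (h : c.Key κ) : MS Γ (c.past κ) :=
  (MS.nb D c.W).filt h.1

lemma int_J {α : Type*} [LinearOrder α] {κ : Ω → α} (h : c.Key κ) {w : Ω → Option (Fin r)}
    (hw : ∀ o, MeasurableSet {ω | w ω = o}) :
    Integrable (fun ω => c.Δ w ω (c.past κ ω) / D.m ω) D.μ :=
  c.int_Δ hw (c.ms_past h) (fun _ => filter_subset _ _) fun ω => by simp [past]

variable {α β : Type*} [LinearOrder α] [LinearOrder β] (κ : Ω → α) (κ' : Ω → β)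
  (w : Ω → Option (Fin r))

noncomputable def XX (ω y : Ω) : Finset Ω :=
  (nb c.W ω).filter fun x => x ∈ nb c.W y ∧ κ x < κ ω ∧ κ' x < κ' y

noncomputable def FF (ω y : Ω) : ℝ := if κ y < κ ω ∧ κ' ω < κ' y then
  c.Δ w ω (insert y (c.XX κ κ' ω y)) - c.Δ w ω (c.XX κ κ' ω y) else 0

lemma FF_symm (ω y : Ω) : c.FF κ' κ w ω y = c.FF κ κ' w y ω := by
  have : c.XX κ' κ ω y = c.XX κ κ' y ω := by ext x; simp only [XX, mem_filter]; tauto
  simp only [FF, Δ, this, and_comm, insert_comm ω y]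
  split_ifs
  · ring
  · rfl

variable {κ κ'}

lemma FF_sum (h' : c.Key κ') (ω : Ω) : c.Δ w ω (c.past κ ω) -
    c.Δ w ω ((nb c.W ω).filter fun x => κ x < κ ω ∧ κ' x < κ' ω) =
      ∑ y ∈ nb c.W ω, c.FF κ κ' w ω y := by
  have hp : c.past κ ω ⊆ nb c.W ω := filter_subset _ _
  have h1 := tele κ' (c.Δ w ω) _ ((h'.2 ω).mono hp)
  have h2 := tele κ' (c.Δ w ω) ((c.past κ ω).filter fun x => κ' x < κ' ω)
    ((h'.2 ω).mono ((filter_subset _ _).trans hp))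
  rw [sum_congr rfl (g := fun j => c.Δ w ω (insert j ((c.past κ ω).filter fun y => κ' y < κ' j)) -
    c.Δ w ω ((c.past κ ω).filter fun y => κ' y < κ' j)) fun j hj => by
      have : ((c.past κ ω).filter fun x => κ' x < κ' ω).filter (fun y => κ' y < κ' j) =
          (c.past κ ω).filter fun y => κ' y < κ' j := by
        ext x
        simp only [mem_filter]
        exact ⟨fun h => ⟨h.1.1, h.2⟩, fun h => ⟨⟨h.1, h.2.trans (mem_filter.1 hj).2⟩, h.2⟩⟩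
      rw [this]] at h2
  rw [← sum_filter_add_sum_filter_not _ fun x => κ' x < κ' ω, ← h2] at h1
  rw [← filter_filter]
  refine (by unfold past at h1 ⊢; linarith : _ = ∑ j ∈ (c.past κ ω).filter fun x => ¬ κ' x < κ' ω,
      (c.Δ w ω (insert j ((c.past κ ω).filter fun y => κ' y < κ' j)) -
        c.Δ w ω ((c.past κ ω).filter fun y => κ' y < κ' j))).trans ?_
  rw [past, filter_filter, sum_filter]
  refine sum_congr rfl fun j hj => ?_
  unfold FF
  refine if_ctx_congr (and_congr_right fun h3 => ⟨fun h4 => (not_lt.1 h4).lt_of_ne fun e => ?_,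
    fun h4 => not_lt.2 h4.le⟩) (fun _ => ?_) fun _ => rfl
  · rw [h'.2 ω (c.self_mem ω) hj e] at h3
    exact lt_irrefl _ h3
  · set Y := ((nb c.W ω).filter fun y => κ y < κ ω).filter fun y => κ' y < κ' j
    have hY : Y ⊆ nb c.W ω := (filter_subset _ _).trans (filter_subset _ _)
    have hX : c.XX κ κ' ω j ⊆ Y := fun x hx => by
      simp only [XX, Y, mem_filter] at hx ⊢; tauto
    have hf : ∀ y ∈ Y, y ∉ c.XX κ κ' ω j → y ∉ nb c.W j := fun x hx => by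
      simp only [XX, Y, mem_filter] at hx ⊢; tauto
    have h4 := c.Δ_loc w hX (hz1 hY hj) hf
    have h5 := c.Δ_loc w (insert_subset_insert ω hX) (hz1 (insert_subset (c.self_mem ω) hY) hj)
      fun y hy hy' => hf y ((mem_insert.1 hy).resolve_left fun e => hy' (e ▸ mem_insert_self _ _))
        fun h => hy' (mem_insert_of_mem h)
    simp only [Δ, insert_comm j ω] at h4 h5 ⊢
    linarith

variable {w}

lemma FF_mtp (h : c.Key κ) (h' : c.Key κ') (hw : ∀ o, MeasurableSet {ω | w ω = o}) :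
    ∫ ω, ∑ y ∈ nb c.W ω, c.FF κ κ' w ω y / D.m ω ∂D.μ =
      ∫ ω, ∑ y ∈ nb c.W ω, c.FF κ κ' w y ω / D.m ω ∂D.μ := by
  refine (D.pair_mtp c.inv (fun γ => ?_) (C := 2 * |c.P.B|) fun γ hγ ω => ?_).2.2
  · have hX : MS Γ fun ω => c.XX κ κ' ω (γ • ω) := (MS.nb D c.W).filt fun δ =>
      (D.meas_nb _ δ γ).inter ((h.1 δ).inter (h'.meas c δ γ))
    simp only [FF, ite_div, sub_div, zero_div]
    refine Measurable.ite ((h.1 γ).inter ?_) ((c.meas_Δ hw (hX.ins D γ)).sub (c.meas_Δ hw hX))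
      measurable_const
    have := h'.meas c 1 γ
    simp only [one_smul] at this
    exact this
  · have := D.m_pos ω
    unfold FF
    split_ifs with h1
    · have h2 : ω ∉ c.XX κ κ' ω (γ • ω) := by simp [XX]
      have h3 := c.Δ_bdd w (filter_subset _ _) h2
      have h4 := c.Δ_bdd w (K := insert (γ • ω) (c.XX κ κ' ω (γ • ω)))
        (insert_subset (mem_nb.2 ⟨γ, hγ, rfl⟩) (filter_subset _ _)) fun h5 =>
          (mem_insert.1 h5).elim (fun e => by rw [← e] at h1; exact lt_irrefl _ h1.1) h2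
      have := mul_le_mul_of_nonneg_right (le_abs_self c.P.B) this.le
      refine (abs_sub _ _).trans ?_
      unfold XX at h4 ⊢
      linarith
    · rw [abs_zero]; positivity

theorem J_eq (h : c.Key κ) (h' : c.Key κ') (hw : ∀ o, MeasurableSet {ω | w ω = o}) :
    c.J κ w = c.J κ' w := by
  have hA := c.int_Δ hw ((MS.nb D c.W).filt (q := fun ω x => κ x < κ ω ∧ κ' x < κ' ω) fun δ =>
    (h.1 δ).inter (h'.1 δ)) (fun _ => filter_subset _ _) fun ω => by simp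
  have h1 := integral_sub (c.int_J h hw) hA
  have h2 := integral_sub (c.int_J h' hw) hA
  have h3 := c.FF_mtp h h' hw
  simp only [← sub_div, c.FF_sum w h', sum_div] at h1
  simp only [← sub_div, and_comm (a := κ _ < κ _), c.FF_sum w h, sum_div, c.FF_symm κ κ'] at h2
  simp only [and_comm (a := κ _ < κ _)] at h1
  unfold J
  linarith

end Ctx

end Vale.Agent.P078
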