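import Vale.Agent.P078.M2

namespace Vale.Agent.P078

open Finset ComplexConjugate MeasureTheory

/-- first element of `G` in the order given by `π` -/
noncomputable def first {r : ℕ} (hr : 0 < r) (π : Equiv.Perm (Fin r)) (G : Finset (Fin r)) :
    Fin r :=
  π (if h : (univ.filter fun j => π j ∈ G).Nonempty then min' _ h else ⟨0, hr⟩)

lemma first_mem {r : ℕ} (hr : 0 < r) (π : Equiv.Perm (Fin r)) {G : Finset (Fin r)}
    (hG : G.Nonempty) : first hr π G ∈ G := by
  obtain ⟨k, hk⟩ := hG
  have h : (univ.filter fun j => π j ∈ G).Nonempty := ⟨π.symm k, by simpa using hk⟩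
  rw [first, dif_pos h]
  exact (mem_filter.1 (min'_mem _ h)).2

lemma first_equi {r : ℕ} (hr : 0 < r) (σ π : Equiv.Perm (Fin r)) {G G' : Finset (Fin r)}
    (h : ∀ k, σ k ∈ G' ↔ k ∈ G) : first hr (σ * π) G' = σ (first hr π G) := by
  simp only [first, Equiv.Perm.mul_apply, h]

variable {Ω Γ : Type*} [MeasurableSpace Ω] [Group Γ] [MulAction Γ Ω] [DecidableEq Ω]

namespace Ctx

variable {D : MSys Ω Γ} {r : ℕ} {Λ ε : ℝ} (c : Ctx D r Λ ε)

open Classical in
/-- good colours -/
noncomputable def GS (w : Ω → Option (Fin r)) (ω : Ω) : Finset (Fin r) :=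
  univ.filter fun k => c.T (Function.update w ω (some k)) (nb c.W ω) ≤
    c.T (Function.update w ω none) (nb c.W ω) + ε * D.m ω

/-- the colouring after `s` rounds -/
noncomputable def col (t : Ω → ℕ) (l : Ω → Equiv.Perm (Fin r)) : ℕ → Ω → Option (Fin r)
  | 0 => fun _ => none
  | s + 1 => fun ω => if t ω = s then some (first c.hr (l ω) (c.GS (col t l s) ω)) else col t l s ω

/-- the final colour -/
noncomputable def fc (t : Ω → ℕ) (l : Ω → Equiv.Perm (Fin r)) (ω : Ω) : Fin r :=
  first c.hr (l ω) (c.GS (c.col t l (t ω)) ω)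

variable {t : Ω → ℕ} {l : Ω → Equiv.Perm (Fin r)}

lemma col_eq (s : ℕ) (ω : Ω) : c.col t l s ω = if t ω < s then some (c.fc t l ω) else none := by
  induction s with
  | zero => simp [col]
  | succ s ih =>
    rw [col]
    dsimp only
    split_ifs with h1 h2 h2
    · rw [fc, h1]
    · omega
    · rw [ih, if_pos (by omega)]
    · rw [ih, if_neg (by omega)]

lemma mem_GS {w : Ω → Option (Fin r)} {ω : Ω} {k : Fin r} : k ∈ c.GS w ω ↔
    c.T (Function.update w ω (some k)) (nb c.W ω) ≤
      c.T (Function.update w ω none) (nb c.W ω) + ε * D.m ω := by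
  simp only [GS, mem_filter, mem_univ, true_and]

lemma GS_ne (w : Ω → Option (Fin r)) (ω : Ω) : (c.GS w ω).Nonempty := by
  obtain ⟨k, hk⟩ := c.P.step D.a w D.m ((nb c.W ω).erase ω) ω (notMem_erase _ _)
    (hz1 (erase_subset _ _) (c.self_mem ω)) D.m_pos fun y _ => c.nbr ω y
  rw [insert_erase (c.self_mem ω)] at hk
  exact ⟨k, c.mem_GS.2 hk⟩

lemma GS_congr {w w' : Ω → Option (Fin r)} {ω : Ω} (h : ∀ y ∈ nb c.W ω, w' y = w y) :
    c.GS w' ω = c.GS w ω := by
  have : ∀ o, c.T (Function.update w' ω o) (nb c.W ω) = c.T (Function.update w ω o) (nb c.W ω) :=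
    fun o => TP_congr (fun _ _ _ _ => rfl) (fun y hy => by
      simp only [Function.update_apply, h y hy]) (fun _ _ => rfl) _ _ _
  simp only [GS, this]

lemma GS_equi (w : Ω → Option (Fin r)) (ω : Ω) (π : Equiv.Perm (Fin r)) (k : Fin r) :
    π k ∈ c.GS (fun y => (w y).map π) ω ↔ k ∈ c.GS w ω := by
  have : ∀ o : Option (Fin r), c.T (Function.update (fun y => (w y).map π) ω (o.map π))
      (nb c.W ω) = c.T (Function.update w ω o) (nb c.W ω) := fun o => by
    rw [T, T, ← TP_perm D.a (Function.update w ω o) D.m _ π]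
    refine TP_congr (fun _ _ _ _ => rfl) (fun y _ => ?_) (fun _ _ => rfl) _ _ _
    simp only [Function.update_apply]
    split_ifs <;> rfl
  have h1 := this (some k)
  have h2 := this none
  simp only [Option.map_some, Option.map_none] at h1 h2
  simp only [GS, mem_filter, h1, h2, mem_univ]

lemma col_equi (π : Equiv.Perm (Fin r)) (s : ℕ) :
    c.col t (fun ω => π * l ω) s = fun ω => (c.col t l s ω).map π := by
  induction s with
  | zero => rfl
  | succ s ih =>
    funext ω
    simp only [col, ih]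
    split_ifs
    · rw [first_equi _ _ _ (c.GS_equi _ ω π), Option.map_some]
    · rfl

lemma col_loc (t : Ω → ℕ) (s : ℕ) : ∃ W' : Finset Γ, ∀ (l l' : Ω → Equiv.Perm (Fin r)) (ω : Ω),
    (∀ γ ∈ W', l' (γ • ω) = l (γ • ω)) → c.col t l' s ω = c.col t l s ω := by
  classical
  induction s with
  | zero => exact ⟨∅, fun _ _ _ _ => rfl⟩
  | succ s ih =>
    obtain ⟨W', ih⟩ := ih
    refine ⟨insert 1 (image₂ (· * ·) W' c.W), fun l l' ω h => ?_⟩
    have h1 : ∀ y ∈ nb c.W ω, c.col t l' s y = c.col t l s y := fun y hy => by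
      obtain ⟨δ, hδ, rfl⟩ := mem_nb.1 hy
      exact ih l l' _ fun γ hγ => by
        rw [← mul_smul]; exact h _ (mem_insert_of_mem (mem_image₂_of_mem hγ hδ))
    have h2 := h 1 (mem_insert_self _ _)
    rw [one_smul] at h2
    simp only [col, c.GS_congr h1, h1 ω (c.self_mem ω), h2]

lemma col_meas (ht : Measurable t) (hl : ∀ π, MeasurableSet {ω | l ω = π}) (s : ℕ) :
    ∀ o, MeasurableSet {ω | c.col t l s ω = o} := by
  induction s with
  | zero => intro o; simp [col]
  | succ s ih =>
    intro o
    have h1 : ∀ o, Measurable fun ω =>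
        c.T (Function.update (c.col t l s) ω o) (nb c.W ω) / D.m ω := fun o =>
      D.meas_T _ c.P.φ0 _ (fun γ o' => by
        have : {ω | Function.update (c.col t l s) ω o (γ • ω) = o'} = ({ω | γ • ω = ω} ∩
            {_ω | o = o'}) ∪ ({ω | γ • ω = ω}ᶜ ∩ {ω | c.col t l s (γ • ω) = o'}) := by
          ext ω; by_cases h : γ • ω = ω <;> simp [Function.update_apply, h]
        rw [this]
        exact ((D.meas_fix γ).inter (MeasurableSet.const _)).union
          ((D.meas_fix γ).compl.inter (D.act γ (ih o')))) c.W (fun _ => Subset.refl _)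
        (D.meas_nb' c.W)
    have h2 : ∀ k, MeasurableSet {ω | k ∈ c.GS (c.col t l s) ω} := fun k => by
      convert measurableSet_le (h1 (some k)) ((h1 none).add_const ε) using 1
      ext ω
      have := D.m_pos ω
      simp only [Set.mem_setOf_eq, mem_GS]
      rw [div_add' _ _ _ this.ne', div_le_div_iff_of_pos_right this]
    have h3 : ∀ G, MeasurableSet {ω | c.GS (c.col t l s) ω = G} := fun G => by
      simp only [Finset.ext_iff, Set.setOf_forall]
      exact MeasurableSet.iInter fun k => (h2 k).iff (MeasurableSet.const _)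
    have h4 : MeasurableSet {ω | some (first c.hr (l ω) (c.GS (c.col t l s) ω)) = o} := by
      have : {ω | some (first c.hr (l ω) (c.GS (c.col t l s) ω)) = o} =
          ⋃ π, ⋃ G, {ω | l ω = π} ∩ {ω | c.GS (c.col t l s) ω = G} ∩
            {_ω | some (first c.hr π G) = o} := by
        ext ω; simp
      rw [this]
      exact MeasurableSet.iUnion fun π => MeasurableSet.iUnion fun G =>
        ((hl π).inter (h3 G)).inter (MeasurableSet.const _)
    have h5 : MeasurableSet {ω | t ω = s} := ht (measurableSet_singleton s)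
    convert (h5.inter h4).union (h5.compl.inter (ih o)) using 1
    ext ω
    by_cases h : t ω = s <;> simp [col, h]

lemma key_nat {κ : Ω → ℕ} (h : Measurable κ) (hi : ∀ ω, Set.InjOn κ (nb c.W ω : Finset Ω)) :
    c.Key κ := ⟨fun γ => measurableSet_lt (h.comp (D.act γ)) h, hi⟩

lemma J_init (ht : Measurable t) (hi : ∀ ω, Set.InjOn t (nb c.W ω : Finset Ω)) :
    c.J t (fun _ => none) ≤ ε * D.μ.real Set.univ := by
  have hk : c.Key fun ω => toLex (D.m ω, t ω) := by
    refine ⟨fun γ => ?_, fun ω x hx y hy e => hi ω hx hy (congrArg (fun p => (ofLex p).2) e)⟩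
    convert (measurableSet_lt (D.ρ_meas γ) (measurable_const (a := (1 : ℝ)))).union
      ((measurableSet_eq_fun (D.ρ_meas γ) (measurable_const (a := (1 : ℝ)))).inter
        (measurableSet_lt (ht.comp (D.act γ)) ht)) using 1
    ext ω
    have := D.m_pos ω
    simp [Prod.Lex.toLex_lt_toLex, D.m_smul, this, this.ne']
  have hw : ∀ o, MeasurableSet {_ω : Ω | (none : Option (Fin r)) = o} := fun _ =>
    MeasurableSet.const _
  rw [c.J_eq (c.key_nat ht hi) hk hw, mul_comm, ← smul_eq_mul, ← integral_const]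
  refine integral_mono (c.int_J hk hw) (integrable_const _) fun ω => ?_
  refine (div_le_iff₀ (D.m_pos ω)).2 (c.P.init D.a D.m _ ω (by simp [past])
    (hz1 (filter_subset _ _) (c.self_mem ω)) D.m_pos fun y hy => ?_)
  exact (Prod.Lex.toLex_lt_toLex.1 (mem_filter.1 hy).2).elim le_of_lt fun h => h.1.le

lemma J_step (ht : Measurable t) {N : ℕ} (hN : ∀ ω, t ω < N)
    (hi : ∀ ω, Set.InjOn t (nb c.W ω : Finset Ω)) (hl : ∀ π, MeasurableSet {ω | l ω = π}) (s : ℕ) :
    c.J t (c.col t l (s + 1)) ≤ c.J t (c.col t l s) + ∫ ω, (if t ω = s then ε else 0) ∂D.μ := by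
  have h5 : MeasurableSet {ω | t ω = s} := ht (measurableSet_singleton s)
  have hk : c.Key fun ω => if t ω = s then N else t ω :=
    c.key_nat (Measurable.ite h5 measurable_const ht) fun ω x hx y hy e => hi ω hx hy (by
      have := hN x
      have := hN y
      split_ifs at e <;> omega)
  rw [c.J_eq (c.key_nat ht hi) hk (c.col_meas ht hl _),
    c.J_eq (c.key_nat ht hi) hk (c.col_meas ht hl _), J, J,
    ← integral_add (c.int_J hk (c.col_meas ht hl _)) (D.int_of (Measurable.ite h5
      measurable_const measurable_const) (C := |ε|) fun ω => by split_ifs <;> simp)]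
  refine integral_mono (c.int_J hk (c.col_meas ht hl _)) ((c.int_J hk (c.col_meas ht hl _)).add
    (D.int_of (Measurable.ite h5 measurable_const measurable_const) (C := |ε|) fun ω => by
      split_ifs <;> simp)) fun ω => ?_
  have h1 : ∀ K : Finset Ω, (∀ y ∈ K, t y ≠ s) →
      c.T (c.col t l (s + 1)) K = c.T (c.col t l s) K := fun K hK =>
    TP_congr (fun _ _ _ _ => rfl) (fun y hy => by simp [col, hK y hy]) (fun _ _ => rfl) _ _ _
  have h2 : ∀ y ∈ c.past (fun ω => if t ω = s then N else t ω) ω, t y ≠ s := fun y hy e => by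
    have h9 := (mem_filter.1 hy).2
    have := hN ω
    dsimp only at h9
    split_ifs at h9 <;> omega
  have hm := D.m_pos ω
  dsimp only
  by_cases h : t ω = s
  · have h3 : ∀ y ∈ nb c.W ω, y ≠ ω → t y ≠ s := fun y hy h' e =>
      h' (hi ω hy (c.self_mem ω) (e.trans h.symm))
    have h4 : insert ω (c.past (fun ω => if t ω = s then N else t ω) ω) = nb c.W ω := by
      ext y
      simp only [past, mem_insert, mem_filter]
      refine ⟨fun h' => h'.elim (fun e => e ▸ c.self_mem ω) fun h => h.1, fun hy => ?_⟩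
      by_cases e : y = ω
      · exact Or.inl e
      · exact Or.inr ⟨hy, by rw [if_pos h, if_neg (h3 y hy e)]; exact hN y⟩
    have h6 := c.mem_GS.1 (first_mem c.hr (l ω) (c.GS_ne (c.col t l s) ω))
    have h7 : c.T (c.col t l (s + 1)) (nb c.W ω) = c.T (Function.update (c.col t l s) ω
        (some (first c.hr (l ω) (c.GS (c.col t l s) ω)))) (nb c.W ω) :=
      TP_congr (fun _ _ _ _ => rfl) (fun y hy => by
        by_cases e : y = ω
        · simp [col, e, h]
        · simp [col, e, h3 y hy e]) (fun _ _ => rfl) _ _ _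
    have h8 : Function.update (c.col t l s) ω none = c.col t l s :=
      Function.update_eq_self_iff.2 (by rw [col_eq, if_neg (by omega)])
    rw [← h7, h8] at h6
    rw [if_pos h, div_add' _ _ _ hm.ne', div_le_div_iff_of_pos_right hm, Δ, Δ, h4, h1 _ h2]
    linarith
  · rw [if_neg h, add_zero, Δ, Δ, h1 _ h2, h1 _ fun y hy => (mem_insert.1 hy).elim
      (fun e => e ▸ h) (h2 y)]

lemma J_all (ht : Measurable t) {N : ℕ} (hN : ∀ ω, t ω < N)
    (hi : ∀ ω, Set.InjOn t (nb c.W ω : Finset Ω)) (hl : ∀ π, MeasurableSet {ω | l ω = π}) :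
    c.J t (c.col t l N) ≤ 2 * ε * D.μ.real Set.univ := by
  have h1 : ∀ s, c.J t (c.col t l s) ≤ ε * D.μ.real Set.univ +
      ∑ j ∈ range s, ∫ ω, (if t ω = j then ε else 0) ∂D.μ := by
    intro s
    induction s with
    | zero => simpa [col] using c.J_init ht hi
    | succ s ih => rw [sum_range_succ]; linarith [c.J_step ht hN hi hl s]
  refine (h1 N).trans (le_of_eq ?_)
  rw [← integral_finsetSum _ fun j _ => D.int_of (Measurable.ite (p := fun ω => t ω = j)
    (ht (measurableSet_singleton j))
    measurable_const measurable_const) (C := |ε|) fun ω => by split_ifs <;> simp]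
  simp [hN]
  ring

end Ctx

end Vale.Agent.P078
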