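import Vale.Agent.P078.M3

namespace Vale.Agent.P078

open Finset ComplexConjugate MeasureTheory

variable {Ω Γ : Type*} [MeasurableSpace Ω] [Group Γ] [MulAction Γ Ω] [DecidableEq Ω]

namespace Ctx

variable {D : MSys Ω Γ} {r : ℕ} {Λ ε : ℝ} (c : Ctx D r Λ ε)

noncomputable def HH (w : Ω → Option (Fin r)) (B : Finset Γ) (ω : Ω) : ℝ :=
  (c.T w (nb B ω) + ε * ∑ y ∈ nb B ω, D.m y) / D.m ω

variable {t t' : Ω → ℕ} {N : ℕ} {w : Ω → Option (Fin r)} {B : Finset Γ}

lemma H_class (ht : Measurable t) (hN : ∀ ω, t ω < N)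
    (hi : ∀ ω, Set.InjOn t (nb c.W ω : Finset Ω)) (hw : ∀ o, MeasurableSet {ω | w ω = o})
    (hB : B ⊆ c.W) (hBB : ∀ γ ∈ B, ∀ γ' ∈ B, γ * γ'⁻¹ ∈ c.W) (ht' : Measurable t')
    (hs : ∀ ω ω₁, t' ω₁ = t' ω → ∀ x ∈ nb B ω₁, ∀ y ∈ nb B ω, x = y ∨ D.a x y ≠ 0 → ω₁ = ω)
    (k : ℕ) : (∀ ω, t' ω = k → 0 ≤ c.HH w B ω) ∧
      Integrable (fun ω => if t' ω = k then c.HH w B ω else 0) D.μ ∧
      ∫ ω, (if t' ω = k then c.HH w B ω else 0) ∂D.μ ≤ c.J t w + ε * D.μ.real Set.univ := by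
  classical
  let U : Ω → Prop := fun y => ∃ γ ∈ B, t' (γ⁻¹ • y) = k
  have hU : MeasurableSet {y | U y} := by
    have : {y | U y} = ⋃ γ ∈ B, {y | t' (γ⁻¹ • y) = k} := by ext; simp [U]
    rw [this]
    exact B.measurableSet_biUnion fun γ _ => (ht'.comp (D.act _)) (measurableSet_singleton k)
  have hU1 : ∀ ω, t' ω = k → ∀ y ∈ nb B ω, U y := fun ω h y hy => by
    obtain ⟨γ, hγ, rfl⟩ := mem_nb.1 hy
    exact ⟨γ, hγ, by rwa [inv_smul_smul]⟩
  let κ : Ω → ℕ := fun y => if U y then t y else N + t y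
  have hk : c.Key κ := c.key_nat (Measurable.ite hU ht (ht.const_add N)) fun ω x hx y hy e =>
    hi ω hx hy (by
      have := hN x
      have := hN y
      simp only [κ] at e
      split_ifs at e <;> omega)
  let g : Ω → ℝ := fun y => c.Δ w y (c.past κ y) + ε * D.m y
  have hp : ∀ y, y ∉ c.past κ y := fun y => by simp [past]
  have hg : ∀ y, 0 ≤ g y := fun y => by
    have := c.P.low D.a w D.m _ y (hp y) (hz1 (filter_subset _ _) (c.self_mem y)) D.m_pos
      fun x _ => c.nbr y x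
    simp only [g, Δ, T]
    linarith
  have hg' : ∀ y, g y / D.m y = c.Δ w y (c.past κ y) / D.m y + ε := fun y => by
    rw [div_add' _ _ _ (D.m_pos y).ne']
  let F : Ω → Ω → ℝ := fun ω y => if t' ω = k ∧ y ∈ nb B ω then g y else 0
  have hnb : ∀ ω : Ω, nb B ω ⊆ nb c.W ω := fun ω => image_subset_image hB
  obtain ⟨Λ', hΛ', hb'⟩ := D.exists_bound c.W
  obtain ⟨h1, h2, h3⟩ := D.pair_mtp c.inv (F := F) (fun γ => by
    have : (fun ω => F ω (γ • ω) / D.m ω) = fun ω => if t' ω = k ∧ γ • ω ∈ nb B ω then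
        (c.Δ w (γ • ω) (c.past κ (γ • ω)) / D.m (γ • ω) + ε) * D.ρ γ ω else 0 := by
      funext ω
      have := D.ρ_pos γ ω
      simp only [F, ← hg']
      split_ifs
      · rw [D.m_smul]; field_simp
      · simp
    rw [this]
    exact Measurable.ite ((ht' (measurableSet_singleton k)).inter (D.meas_nb' B γ))
      ((((c.meas_Δ hw (c.ms_past hk)).comp (D.act γ)).add_const ε).mul (D.ρ_meas γ))
      measurable_const) (C := (|c.P.B| + |ε|) * Λ') fun γ hγ ω => by
    have h0 := D.m_pos ω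
    simp only [F]
    split_ifs
    · have h1 := c.Δ_bdd w (filter_subset _ _) (hp (γ • ω))
      have h2 := D.m_pos (γ • ω)
      have h3 := mul_le_mul_of_nonneg_right (le_abs_self c.P.B) h2.le
      have h4 := mul_le_mul_of_nonneg_left (hb' γ hγ ω) (by positivity : 0 ≤ |c.P.B| + |ε|)
      refine (abs_add_le _ _).trans ?_
      rw [abs_mul, abs_of_pos h2]
      unfold past at h1 ⊢
      linarith
    · rw [abs_zero]; positivity
  have h4 : ∀ ω, ∑ y ∈ nb c.W ω, F ω y / D.m ω = if t' ω = k then c.HH w B ω else 0 := by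
    intro ω
    split_ifs with h
    · have hinj : Set.InjOn t (nb B ω : Finset Ω) := (hi ω).mono (hnb ω)
      have h5 := tele t (c.T w) _ hinj
      rw [T, T, TP_empty, sub_zero, ← T] at h5
      rw [HH, h5, mul_sum, ← sum_add_distrib, ← sum_div]
      congr 1
      simp only [F, h, true_and]
      rw [← sum_filter, filter_mem_eq_inter, inter_eq_right.2 (hnb ω)]
      refine sum_congr rfl fun y hy => congrArg (· + _) ?_
      have hy' := hU1 ω h y hy
      have hUp : ∀ x ∈ insert y (c.past κ y), U x := fun x hx => by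
        rcases mem_insert.1 hx with rfl | hx
        · exact hy'
        · have := (mem_filter.1 hx).2
          have := hN y
          by_contra h6
          simp only [κ, if_pos hy', if_neg h6] at *
          omega
      refine c.P.loc c.hr w D.m_pos (fun x hx => ?_) (hz1 (filter_subset _ _) (c.self_mem y))
        (fun x => if x ∈ nb B ω then 0 else c.P.n + 1) (if_pos hy) (fun x hx hx' => ?_)
        fun x hx x' _ ha => ?_
      · obtain ⟨hx, h6⟩ := mem_filter.1 hx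
        refine mem_filter.2 ⟨?_, by simpa only [κ, if_pos hy', if_pos (hU1 ω h x hx)] using h6⟩
        obtain ⟨γ, hγ, rfl⟩ := mem_nb.1 hx
        obtain ⟨γ', hγ', rfl⟩ := mem_nb.1 hy
        exact mem_nb.2 ⟨_, hBB γ hγ γ' hγ', by rw [mul_smul, inv_smul_smul]⟩
      · rw [if_neg fun h6 => hx' (mem_filter.2 ⟨h6, by
          simpa only [κ, if_pos hy', if_pos (hU1 ω h x h6)] using (mem_filter.1 hx).2⟩)]
        exact Nat.lt_succ_self _
      · split_ifs with h6 h7 h7 <;> try omega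
        obtain ⟨γ, hγ, h8⟩ := hUp x hx
        have h9 : x ∈ nb B (γ⁻¹ • x) := mem_nb.2 ⟨γ, hγ, smul_inv_smul _ _⟩
        rw [hs ω _ (h8.trans h.symm) x h9 x' h7 (Or.inr ha)] at h9
        exact (h6 h9).elim
    · simp [F, h]
  refine ⟨fun ω h => ?_, by simpa only [h4] using h1, ?_⟩
  · have := h4 ω
    rw [if_pos h] at this
    rw [← this]
    exact sum_nonneg fun y _ => div_nonneg (by simp only [F]; split_ifs; exacts [hg y, le_rfl])
      (D.m_pos ω).le
  · simp only [h4] at h3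
    rw [h3, c.J_eq (c.key_nat ht hi) hk hw, mul_comm, ← smul_eq_mul, ← integral_const, J,
      ← integral_add (c.int_J hk hw) (integrable_const _)]
    refine integral_mono h2 ((c.int_J hk hw).add (integrable_const _)) fun y => ?_
    dsimp only
    rw [← hg', ← sum_div]
    refine div_le_div_of_nonneg_right ?_ (D.m_pos y).le
    simp only [F]
    rw [← sum_filter, sum_const, nsmul_eq_mul]
    refine mul_le_of_le_one_left (hg y) (Nat.cast_le_one.2 (card_le_one.2 fun x hx x' hx' => ?_))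
    obtain ⟨-, h5, h6⟩ := mem_filter.1 hx
    obtain ⟨-, h7, h8⟩ := mem_filter.1 hx'
    exact hs x' x (h5.trans h7.symm) y h6 y h8 (Or.inl rfl)

lemma H_bad {σ : Ω → Fin r} (hσ : ∀ ω, w ω = some (σ ω)) {Λ' : ℝ} (hΛ : 0 < Λ')
    (hb : ∀ γ ∈ B, ∀ ω, D.m (γ⁻¹ • ω) ≤ Λ' * D.m ω) {ω : Ω} (h : ¬ D.Good B (2880 / √r) σ ω) :
    36 / √r / Λ' ≤ c.HH w B ω := by
  classical
  simp only [MSys.Good, not_forall, not_le] at h
  obtain ⟨F, hF, hi, x, hx⟩ := h
  obtain ⟨s, hs, hs'⟩ := D.chart ω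
  let x' : Ω → ℂ := fun y => ∑ γ ∈ F, if γ • ω = y then conj (s γ) * x γ else 0
  have h1 : ∀ γ ∈ F, x' (γ • ω) = conj (s γ) * x γ := fun γ hγ => by
    simp only [x']
    rw [sum_eq_single γ (fun γ' h' h'' => if_neg fun e => h'' (hi h' hγ e)) fun h => (h hγ).elim,
      if_pos rfl]
  have h2 : ∀ f : Ω → ℂ → ℂ, (∀ y, f y 0 = 0) →
      ∑ y ∈ nb B ω, f y (x' y) = ∑ γ ∈ F, f (γ • ω) (conj (s γ) * x γ) := fun f hf => by
    rw [nb, ← sum_subset (image_subset_image hF) fun y _ hy => by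
      rw [show x' y = 0 from sum_eq_zero fun γ hγ => if_neg fun e => hy (mem_image.2 ⟨γ, hγ, e⟩),
        hf], sum_image hi]
    exact sum_congr rfl fun γ hγ => by rw [h1 γ hγ]
  have h3 : ∑ y ∈ nb B ω, ‖x' y‖ ^ 2 = ∑ γ ∈ F, ‖x γ‖ ^ 2 := by
    have := h2 (fun _ z => (‖z‖ ^ 2 : ℝ)) (by simp)
    have e : ∀ γ, ‖conj (s γ) * x γ‖ ^ 2 = ‖x γ‖ ^ 2 := fun γ => by
      have := congrArg norm (hs γ)
      rw [norm_mul, norm_one, Complex.norm_conj] at this
      rw [norm_mul, Complex.norm_conj, mul_pow, sq, this, one_mul]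
    simp only [e] at this
    exact_mod_cast this
  have h4 : ∑ i ∈ nb B ω, ∑ j ∈ nb B ω, conj (x' i) * pin D.a σ i j * x' j =
      ∑ γ ∈ F, ∑ γ' ∈ F, if σ (γ • ω) = σ (γ' • ω) then conj (x γ) * D.b γ γ' ω * x γ' else 0 := by
    rw [h2 (fun i z => ∑ j ∈ nb B ω, conj z * pin D.a σ i j * x' j) (by simp)]
    refine sum_congr rfl fun γ _ => ?_
    rw [h2 (fun j z => conj (conj (s γ) * x γ) * pin D.a σ (γ • ω) j * z) (by simp)]
    refine sum_congr rfl fun γ' _ => ?_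
    simp only [pin, hs', map_mul, Complex.conj_conj]
    split_ifs
    · linear_combination (conj (x γ) * D.b γ γ' ω * x γ' * (conj (s γ') * s γ')) * hs γ +
        conj (x γ) * D.b γ γ' ω * x γ' * hs γ'
    · simp
  have hm := D.m_pos ω
  have := c.P.final D.a w D.m (nb B ω) σ x' (D.m ω / Λ') (D.hz (orb (Subset.refl _))) D.m_pos
    (fun i _ y _ => c.nbr i y) (fun i _ => hσ i) (by positivity) (fun i hi => by
      obtain ⟨γ, hγ, rfl⟩ := mem_nb.1 hi
      have := hb γ hγ (γ • ω)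
      rw [inv_smul_smul, mul_comm] at this
      exact (div_le_iff₀ hΛ).2 this) (by rwa [h3, h4])
  rw [HH, le_div_iff₀ hm, div_mul_eq_mul_div, mul_div_assoc, T]
  linarith

end Ctx

open Pointwise in
lemma MSys.exists_W (D : MSys Ω Γ) (n : ℕ) (W₀ : Finset Γ) : ∃ W : Finset Γ, W₀ ⊆ W ∧ 1 ∈ W ∧
    (∀ γ ∈ W, γ⁻¹ ∈ W) ∧ ∀ ω, ∃ h : Ω → ℕ, h ω = 0 ∧ (∀ y, y ∉ nb W ω → n < h y) ∧
      ∀ x y, D.a x y ≠ 0 → h x ≤ h y + 1 := by
  classical
  let S := insert 1 D.S
  have h1 : (1 : Γ) ∈ S := mem_insert_self _ _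
  refine ⟨(S ^ n ∪ W₀) ∪ (S ^ n ∪ W₀)⁻¹, subset_union_right.trans subset_union_left,
    by simp [one_mem_pow h1], fun γ => by simp only [mem_union, mem_inv', inv_inv]; tauto,
    fun ω => ⟨fun y => sInf {j | y ∈ nb (S ^ j) ω ∨ j = n + 1}, ?_, fun y hy => ?_,
      fun x y h => ?_⟩⟩
  · exact Nat.sInf_eq_zero.2 (Or.inl (Or.inl (mem_nb.2 ⟨1, by simp, one_smul _ _⟩)))
  · by_contra h
    rcases Nat.sInf_mem (s := {j | y ∈ nb (S ^ j) ω ∨ j = n + 1}) ⟨n + 1, Or.inr rfl⟩ with h2 | h2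
    · exact hy (image_subset_image ((pow_subset_pow_right h1 (not_lt.1 h)).trans
        (subset_union_left.trans subset_union_left)) h2)
    · exact h (h2.ge)
  · obtain ⟨s, hs, rfl⟩ := D.a_supp h
    rcases Nat.sInf_mem (s := {j | y ∈ nb (S ^ j) ω ∨ j = n + 1}) ⟨n + 1, Or.inr rfl⟩ with h2 | h2
    · obtain ⟨γ, hγ, e⟩ := mem_nb.1 h2
      refine Nat.sInf_le (Or.inl (mem_nb.2 ⟨s * γ, ?_, by rw [mul_smul, e]⟩))
      rw [pow_succ']
      exact mul_mem_mul (mem_insert_of_mem hs) hγ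
    · exact (Nat.sInf_le (Or.inr rfl)).trans (h2.ge.trans (Nat.le_succ _))

omit [DecidableEq Ω] in
theorem meas_of_par (hP : ∀ [DecidableEq Ω] (r : ℕ) (Λ ε : ℝ), 0 < r → 1 ≤ Λ → 0 < ε →
    Nonempty (Par Ω r Λ ε)) : MeasStmt 2880 Ω Γ := by
  classical
  intro D r hr B δ hδ
  have r0 : (0 : ℝ) < √r := Real.sqrt_pos.2 (by exact_mod_cast hr)
  obtain ⟨Λ, hΛ, hb⟩ := D.exists_bound ((D.S ∪ B).image fun γ => γ⁻¹)
  obtain ⟨N', t', ht', hN', hs⟩ := D.exists_classes
    ((B ×ˢ insert 1 D.S ×ˢ B).image fun p => p.1⁻¹ * p.2.1 * p.2.2)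
  set m := D.μ.real Set.univ
  have hm : 0 ≤ m := measureReal_nonneg
  set ε := δ * (36 / √r / Λ) / (3 * N' * m + 1) with hε
  have ε0 : 0 < ε := by positivity
  obtain ⟨P⟩ := hP r Λ ε hr hΛ ε0
  obtain ⟨W, hW, h1, h2, h3⟩ := D.exists_W P.n (B ∪ image₂ (fun γ γ' => γ * γ'⁻¹) B B)
  let c : Ctx D r Λ ε := ⟨P, W, hr, h1, h2, h3, fun x y h => by
    obtain ⟨s, hs, rfl⟩ := D.a_supp h
    simpa using hb s⁻¹ (mem_image_of_mem _ (mem_union_left _ hs)) (s • y)⟩
  obtain ⟨N, t, ht, hN, hi⟩ := D.exists_classes (image₂ (fun γ γ' => γ * γ'⁻¹) W W)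
  have hi' : ∀ ω, Set.InjOn t (nb c.W ω : Finset Ω) := fun ω x hx y hy e => by
    obtain ⟨γ, hγ, rfl⟩ := mem_nb.1 hx
    obtain ⟨γ', hγ', rfl⟩ := mem_nb.1 hy
    simpa [mul_smul, e] using hi _ (mem_image₂_of_mem hγ hγ') (γ' • ω)
  have hc : ∀ l ω, c.col t l N ω = some (c.fc t l ω) := fun l ω => by rw [c.col_eq, if_pos (hN ω)]
  obtain ⟨W', hW'⟩ := c.col_loc t N
  let w : Fin (W'.card + 1) → Γ := Fin.cons 1 fun i => W'.equivFin.symm i
  obtain ⟨-, tL, htL, -, hL⟩ := D.exists_classes (univ.image fun p : _ × _ => w p.1 * (w p.2)⁻¹)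
  let lab : (Fin (W'.card + 1) → ℕ) → (Fin (W'.card + 1) → Equiv.Perm (Fin r)) → ℕ →
    Equiv.Perm (Fin r) := fun p η k => if h : ∃ i, p i = k then η h.choose else η 0
  refine ⟨W'.card, w, fun ω η => c.fc t (fun y => lab (fun i => tL (w i • ω)) η (tL y)) ω,
    fun η k => ?_, fun ω η π => ?_, fun l hl => ?_⟩
  · have : {ω | c.fc t (fun y => lab (fun i => tL (w i • ω)) η (tL y)) ω = k} = ⋃ p,
        {ω | (fun i => tL (w i • ω)) = p} ∩
          {ω | c.col t (fun y => lab p η (tL y)) N ω = some k} := by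
      ext ω; simp [hc]
    rw [this]
    refine MeasurableSet.iUnion fun p => MeasurableSet.inter
      (measurable_pi_lambda _ (fun i => htL.comp (D.act (w i))) (measurableSet_singleton p))
      (c.col_meas ht (fun π => ?_) N _)
    exact htL (MeasurableSet.of_discrete (s := {k | lab p η k = π}))
  · have e : ∀ p k, lab p (fun i => π * η i) k = π * lab p η k := fun p k => by
      simp only [lab]; split_ifs <;> rfl
    have := congrFun (c.col_equi (t := t)
      (l := fun y => lab (fun i => tL (w i • ω)) η (tL y)) π N) ω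
    simpa only [hc, Option.map_some, Option.some.injEq, e] using this
  · have e : (fun ω => c.fc t (fun y => lab (fun i => tL (w i • ω)) (fun i => l (w i • ω))
        (tL y)) ω) = c.fc t l := by
      funext ω
      refine Option.some.inj ((hc _ ω).symm.trans ((hW' l _ ω fun γ hγ => ?_).trans (hc l ω)))
      have h4 : ∃ i, tL (w i • ω) = tL (γ • ω) := ⟨(W'.equivFin ⟨γ, hγ⟩).succ, by simp [w]⟩
      have h5 := hL _ (mem_image_of_mem _ (mem_univ (h4.choose, (W'.equivFin ⟨γ, hγ⟩).succ)))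
        (γ • ω)
      have h6 : w (W'.equivFin ⟨γ, hγ⟩).succ = γ := by simp [w]
      simp only [h6, mul_smul, inv_smul_smul] at h5
      simp only [lab, dif_pos h4, h5 h4.choose_spec]
    rw [e]
    have h4 := c.H_class ht hN hi' (c.col_meas ht hl N) (subset_union_left.trans hW)
      (fun γ hγ γ' hγ' => hW (mem_union_right _ (mem_image₂_of_mem hγ hγ'))) ht'
      fun ω ω₁ e x hx y hy h => by
        obtain ⟨γ, hγ, rfl⟩ := mem_nb.1 hx
        obtain ⟨γ', hγ', rfl⟩ := mem_nb.1 hy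
        obtain ⟨s, hs', h⟩ : ∃ s ∈ insert 1 D.S, γ • ω₁ = s • γ' • ω := h.elim
          (fun h => ⟨1, mem_insert_self _ _, by rwa [one_smul]⟩) fun h =>
            (D.a_supp h).imp fun s h => ⟨mem_insert_of_mem h.1, h.2⟩
        have h7 := hs _ (mem_image_of_mem _ (mem_product.2 ⟨hγ, mem_product.2 ⟨hs', hγ'⟩⟩ :
          (γ, s, γ') ∈ _)) ω
        simp only [mul_smul, ← h, inv_smul_smul] at h7
        exact h7 e
    have h5 : c.HH (c.col t l N) B =
        fun ω => ∑ k ∈ range N', if t' ω = k then c.HH (c.col t l N) B ω else 0 := by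
      funext ω; simp [hN']
    have h6 : Integrable (c.HH (c.col t l N) B) D.μ := by
      rw [h5]; exact integrable_finsetSum _ fun k _ => (h4 k).2.1
    have h7 : ∫ ω, c.HH (c.col t l N) B ω ∂D.μ ≤ N' * (3 * ε * m) := by
      rw [h5, integral_finsetSum _ fun k _ => (h4 k).2.1]
      refine (sum_le_card_nsmul _ _ (3 * ε * m) fun k _ => ?_).trans (by simp)
      linarith [(h4 k).2.2, c.J_all ht hN hi' hl]
    have h8 := mul_meas_ge_le_integral_of_nonneg (ae_of_all _ fun ω => (h4 _).1 ω rfl) h6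
      (36 / √r / Λ)
    refine (measure_mono (t := {ω | 36 / √r / Λ ≤ c.HH (c.col t l N) B ω}) fun ω hω =>
      c.H_bad (hc l) (by positivity) (fun γ hγ =>
      hb _ (mem_image_of_mem _ (mem_union_right _ hγ))) hω).trans ?_
    rw [← ofReal_measureReal]
    refine ENNReal.ofReal_le_ofReal (le_of_mul_le_mul_left (h8.trans (h7.trans ?_))
      (by positivity))
    have : ε * (3 * N' * m + 1) = δ * (36 / √r / Λ) := div_mul_cancel₀ _ (by positivity)
    linarith

end Vale.Agent.P078
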