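import Mathlib

namespace Vale.Agent.P078

open Finset ComplexConjugate

variable {V : Type*} [DecidableEq V]

/-- multi-affine polynomial with coefficient function `c` -/
noncomputable def PP (c : Finset V → ℂ) (U : Finset V) (z : V → ℂ) : ℂ :=
  ∑ T ∈ U.powerset, (∏ y ∈ U \ T, z y) * c T

lemma PP_empty (c : Finset V → ℂ) (z : V → ℂ) : PP c ∅ z = c ∅ := by simp [PP]

lemma PP_insert (c : Finset V → ℂ) {U : Finset V} {i : V} (hi : i ∉ U) (z : V → ℂ) :
    PP c (insert i U) z = z i * PP c U z + PP (fun T => c (insert i T)) U z := by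
  unfold PP
  rw [sum_powerset_insert hi, mul_sum]
  congr 1
  · refine sum_congr rfl fun T hT => ?_
    have hT' : i ∉ T := fun h => hi (mem_powerset.1 hT h)
    rw [insert_sdiff_of_notMem _ hT', prod_insert (fun h => hi (mem_sdiff.1 h).1), mul_assoc]
  · refine sum_congr rfl fun T _ => ?_
    rw [insert_sdiff_insert, sdiff_insert_of_notMem hi]

lemma PP_congr {c c' : Finset V → ℂ} {U : Finset V} {z z' : V → ℂ}
    (hc : ∀ T ⊆ U, c T = c' T) (hz : ∀ y ∈ U, z y = z' y) : PP c U z = PP c' U z' :=
  sum_congr rfl fun T hT => by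
    rw [hc T (mem_powerset.1 hT), prod_congr rfl fun y hy => hz y (mem_sdiff.1 hy).1]

lemma PP_sum {ι : Type*} (s : Finset ι) (k : ι → ℂ) (c : ι → Finset V → ℂ) (U : Finset V)
    (z : V → ℂ) : PP (fun T => ∑ j ∈ s, k j * c j T) U z = ∑ j ∈ s, k j * PP (c j) U z := by
  unfold PP
  simp only [mul_sum]
  rw [sum_comm]
  exact sum_congr rfl fun j _ => sum_congr rfl fun T _ => by ring

lemma PP_union {U₁ U₂ : Finset V} (hd : Disjoint U₁ U₂) (z : V → ℂ) :
    ∀ c c₁ c₂ : Finset V → ℂ, (∀ T₁ ⊆ U₁, ∀ T₂ ⊆ U₂, c (T₁ ∪ T₂) = c₁ T₁ * c₂ T₂) →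
      PP c (U₁ ∪ U₂) z = PP c₁ U₁ z * PP c₂ U₂ z := by
  induction U₂ using Finset.induction_on with
  | empty =>
    intro c c₁ c₂ h
    rw [union_empty, PP_empty]
    unfold PP
    rw [sum_mul]
    refine sum_congr rfl fun T hT => ?_
    have := h T (mem_powerset.1 hT) ∅ (Subset.refl _)
    rw [union_empty] at this
    rw [this, mul_assoc]
  | insert i U hi ih =>
    intro c c₁ c₂ h
    have hd' : Disjoint U₁ U := hd.mono_right (subset_insert _ _)
    have hi1 : i ∉ U₁ := fun h' => disjoint_left.1 hd h' (mem_insert_self _ _)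
    rw [union_insert, PP_insert _ (by simp [hi, hi1]), PP_insert _ hi,
      ih hd' c c₁ c₂ fun T₁ h₁ T₂ h₂ => h T₁ h₁ T₂ (h₂.trans (subset_insert _ _)),
      ih hd' (fun T => c (insert i T)) c₁ (fun T => c₂ (insert i T)) fun T₁ h₁ T₂ h₂ => by
        rw [← union_insert]; exact h T₁ h₁ _ (insert_subset_insert _ h₂)]
    ring

lemma PP_conj (c : Finset V → ℂ) (U : Finset V) (z : V → ℂ) (hc : ∀ T ⊆ U, conj (c T) = c T) :
    conj (PP c U z) = PP c U (fun y => conj (z y)) := by
  unfold PP
  rw [map_sum]
  exact sum_congr rfl fun T hT => by rw [map_mul, map_prod, hc T (mem_powerset.1 hT)]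

lemma PP_continuous {X : Type*} [TopologicalSpace X] (c : Finset V → ℂ) (U : Finset V)
    {z : X → V → ℂ} (hz : ∀ y, Continuous fun x => z x y) : Continuous fun x => PP c U (z x) :=
  continuous_finsetSum _ fun _ _ => (continuous_finsetProd _ fun y _ => hz y).mul continuous_const

/-- principal minor of `-m` -/
noncomputable def mnr (m : V → V → ℂ) (T : Finset V) : ℂ :=
  (Matrix.of fun i j : T => - m i j).det

lemma mnr_map {V' : Type*} [DecidableEq V'] {m : V → V → ℂ} {m' : V' → V' → ℂ} {T : Finset V}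
    {T' : Finset V'} (e : T ≃ T') (s : T → ℂ) (hs : ∀ i, conj (s i) * s i = 1)
    (h : ∀ i j : T, m' (e i) (e j) = conj (s i) * m i j * s j) : mnr m' T' = mnr m T := by
  unfold mnr
  rw [← Matrix.det_submatrix_equiv_self e]
  have : (Matrix.of fun i j : T' => - m' i j).submatrix e e =
      Matrix.diagonal (fun i => conj (s i)) * (Matrix.of fun i j : T => - m i j) *
        Matrix.diagonal s := by
    ext i j
    simp [h]
  rw [this, Matrix.det_mul, Matrix.det_mul, Matrix.det_diagonal, Matrix.det_diagonal,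
    mul_right_comm, ← prod_mul_distrib]
  simp [hs]

lemma det_eq_PP (m : V → V → ℂ) (U : Finset V) (z : V → ℂ) :
    (Matrix.of fun i j : U => (if i = j then z i else 0) - m i j).det = PP (mnr m) U z := by
  let D := (Matrix.detRowAlternating : (U → ℂ) [⋀^U]→ₗ[ℂ] ℂ)
  let N : Matrix U U ℂ := Matrix.of fun i j : U => - m i j
  have h1 : (Matrix.of fun i j : U => (if i = j then z i else 0) - m i j).det =
      D ((fun i : U => N.row i) + fun i : U => z i • (1 : Matrix U U ℂ).row i) := by
    change _ = Matrix.det _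
    congr 1
    ext i j
    simp [N, Matrix.one_apply, Matrix.row]
    ring
  rw [h1, D.map_add_univ]
  have h2 : ∀ s : Finset U, D (s.piecewise (fun i : U => N.row i) fun i : U => z i • (1 : Matrix U U ℂ).row i)
      = (∏ i ∈ (univ \ s : Finset U), z i) * (N.submatrix (↑) (↑) : Matrix s s ℂ).det := by
    intro s
    have : (s.piecewise (fun i : U => N.row i) fun i : U => z i • (1 : Matrix U U ℂ).row i) =
        fun i : U => (if i ∈ s then 1 else z i) • s.piecewise N.row (1 : Matrix U U ℂ).row i := by
      funext i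
      by_cases h : i ∈ s <;> simp [h]
    rw [this, D.map_smul_univ, ← Matrix.det_piecewise_one_eq_submatrix_det, smul_eq_mul]
    congr 1
    rw [prod_ite]
    simp only [prod_const_one, one_mul]
    congr 1
    ext i; simp
  simp only [h2]
  unfold PP
  refine sum_bij' (fun s _ => s.map (Function.Embedding.subtype _))
    (fun T _ => T.subtype (· ∈ U)) ?_ ?_ ?_ ?_ ?_
  · intro s _
    rw [mem_powerset]
    intro x hx
    obtain ⟨y, _, rfl⟩ := mem_map.1 hx
    exact y.2
  · intro T _; exact mem_univ _
  · intro s _; ext x; simp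
  · intro T hT
    exact subtype_map_of_mem fun x hx => mem_powerset.1 hT hx
  · intro s _
    congr 1
    · have : U \ s.map (Function.Embedding.subtype _) =
          (univ \ s).map (Function.Embedding.subtype _) := by
        ext x
        simp only [mem_sdiff, mem_map, mem_univ, true_and, Function.Embedding.coe_subtype,
          Subtype.exists, exists_and_right, exists_eq_right]
        tauto
      rw [this, prod_map]
      rfl
    · unfold mnr
      rw [← Matrix.det_submatrix_equiv_self (s.equivMap (Function.Embedding.subtype _))]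
      rfl

lemma mnr_empty (m : V → V → ℂ) : mnr m ∅ = 1 := by
  unfold mnr
  exact Matrix.det_isEmpty

lemma mnr_union {m : V → V → ℂ} {T₁ T₂ : Finset V} (hd : Disjoint T₁ T₂)
    (h : ∀ i ∈ T₁, ∀ j ∈ T₂, m j i = 0) : mnr m (T₁ ∪ T₂) = mnr m T₁ * mnr m T₂ := by
  unfold mnr
  rw [← Matrix.det_submatrix_equiv_self (Equiv.Finset.union T₁ T₂ hd)]
  have : (Matrix.of fun i j : ↥(T₁ ∪ T₂) => - m i j).submatrix (Equiv.Finset.union T₁ T₂ hd)
      (Equiv.Finset.union T₁ T₂ hd) = Matrix.fromBlocks (Matrix.of fun i j : T₁ => - m i j)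
        (Matrix.of fun (i : T₁) (j : T₂) => - m i j) 0 (Matrix.of fun i j : T₂ => - m i j) := by
    ext (i | i) (j | j) <;> simp
    exact h _ j.2 _ i.2
  rw [this, Matrix.det_fromBlocks_zero₂₁]

variable {r : ℕ}

/-- distribution of the colour of a site in a given mode -/
noncomputable def wt (o : Option (Fin r)) (s : Fin r) : ℂ :=
  match o with
  | none => 1 / r
  | some c => if s = c then 1 else 0

/-- pinched matrix -/
def pin (a : V → V → ℂ) (σ : V → Fin r) (i j : V) : ℂ := if σ i = σ j then a i j else 0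

/-- expected principal minor -/
noncomputable def cc (a : V → V → ℂ) (w : V → Option (Fin r)) (T : Finset V) : ℂ :=
  ∑ σ : T → Fin r, (∏ i : T, wt (w i) (σ i)) *
    (Matrix.of fun i j : T => - if σ i = σ j then a i j else 0).det

lemma cc_map {V' : Type*} [DecidableEq V'] {a : V → V → ℂ} {a' : V' → V' → ℂ}
    {w : V → Option (Fin r)} {w' : V' → Option (Fin r)} {T : Finset V}
    {T' : Finset V'} (e : T ≃ T') (π : Equiv.Perm (Fin r)) (s : T → ℂ)
    (hs : ∀ i, conj (s i) * s i = 1)
    (h : ∀ i j : T, a' (e i) (e j) = conj (s i) * a i j * s j)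
    (hw : ∀ i : T, w' (e i) = (w i).map π) : cc a' w' T' = cc a w T := by
  unfold cc
  symm
  refine Fintype.sum_equiv (Equiv.arrowCongr e π) _ _ fun σ => ?_
  congr 1
  · refine Fintype.prod_equiv e _ _ fun i => ?_
    rw [hw]
    cases w i <;> simp [wt]
  · rw [← Matrix.det_submatrix_equiv_self e]
    have : (Matrix.of fun i j : T' => - if (Equiv.arrowCongr e π σ) i = (Equiv.arrowCongr e π σ) j
        then a' i j else 0).submatrix e e = Matrix.diagonal (fun i => conj (s i)) *
          (Matrix.of fun i j : T => - if σ i = σ j then a i j else 0) * Matrix.diagonal s := by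
      ext i j
      by_cases hh : σ i = σ j <;> simp [h, hh]
    rw [this, Matrix.det_mul, Matrix.det_mul, Matrix.det_diagonal, Matrix.det_diagonal,
      mul_right_comm, ← prod_mul_distrib]
    simp [hs]

lemma cc_congr {a a' : V → V → ℂ} {w w' : V → Option (Fin r)} {T : Finset V}
    (h : ∀ i ∈ T, ∀ j ∈ T, a' i j = a i j) (hw : ∀ i ∈ T, w' i = w i) : cc a' w' T = cc a w T :=
  cc_map (Equiv.refl _) 1 (fun _ => 1) (by simp) (fun i j => by simpa using h i i.2 j j.2)
    fun i => by simpa using hw i i.2

lemma cc_col (a : V → V → ℂ) {w : V → Option (Fin r)} {σ : V → Fin r} {T : Finset V}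
    (h : ∀ i ∈ T, w i = some (σ i)) : cc a w T = mnr (pin a σ) T := by
  unfold cc
  rw [sum_eq_single (fun i : T => σ i)]
  · have : ∏ i : T, wt (w i) (σ i) = 1 := prod_eq_one fun i _ => by rw [h i i.2]; simp [wt]
    rw [this, one_mul]
    rfl
  · intro τ _ hτ
    obtain ⟨i, hi⟩ := Function.ne_iff.1 hτ
    rw [prod_eq_zero (mem_univ i) (by rw [h i i.2]; simp [wt, hi]), zero_mul]
  · simp

lemma cc_free (a : V → V → ℂ) {w : V → Option (Fin r)} {i : V} (hi : w i = none) (hr : 0 < r)
    (T : Finset V) : cc a w T = ∑ s : Fin r, (1 / r : ℂ) * cc a (Function.update w i (some s)) T := by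
  have hr' : (r : ℂ) ≠ 0 := by exact_mod_cast hr.ne'
  by_cases hT : i ∈ T
  · unfold cc
    simp only [mul_sum]
    rw [sum_comm]
    refine sum_congr rfl fun σ _ => ?_
    simp only [← mul_assoc]
    rw [← sum_mul]
    congr 1
    have : ∀ s, ∏ j : T, wt (Function.update w i (some s) j) (σ j) =
        wt (some s) (σ ⟨i, hT⟩) * ∏ j ∈ univ.erase (⟨i, hT⟩ : T), wt (w j) (σ j) := by
      intro s
      rw [← mul_prod_erase univ _ (mem_univ (⟨i, hT⟩ : T))]
      congr 1
      · simp
      · refine prod_congr rfl fun j hj => ?_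
        rw [Function.update_of_ne fun h => (mem_erase.1 hj).1 (Subtype.ext h)]
    simp only [this]
    rw [← mul_prod_erase univ _ (mem_univ (⟨i, hT⟩ : T))]
    simp [hi, wt]
  · have : ∀ s, cc a (Function.update w i (some s)) T = cc a w T := fun s =>
      cc_congr (fun _ _ _ _ => rfl) fun j hj => Function.update_of_ne (fun h : j = i => hT (h ▸ hj)) _ _
    simp only [this]
    rw [sum_const, card_univ, Fintype.card_fin, nsmul_eq_mul, ← mul_assoc, mul_one_div_cancel hr',
      one_mul]

/-- induction on the number of free sites -/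
lemma free_ind {U : Finset V} {p : (V → Option (Fin r)) → Prop} (hr : 0 < r)
    (h0 : ∀ w (σ : V → Fin r), (∀ i ∈ U, w i = some (σ i)) → p w)
    (h1 : ∀ w, ∀ i ∈ U, w i = none → (∀ s, p (Function.update w i (some s))) → p w) (w) : p w := by
  generalize hn : (U.filter fun i => w i = none).card = n
  induction n generalizing w with
  | zero =>
    refine h0 w (fun i => (w i).getD ⟨0, hr⟩) fun i hi => ?_
    have := filter_eq_empty_iff.1 (card_eq_zero.1 hn) hi
    cases h : w i with
    | none => exact (this h).elim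
    | some c => rfl
  | succ n ih =>
    obtain ⟨i, hi⟩ := card_pos.1 (by rw [hn]; exact n.succ_pos : 0 < (U.filter fun i => w i = none).card)
    obtain ⟨hiU, hi0⟩ := mem_filter.1 hi
    refine h1 w i hiU hi0 fun s => ih _ ?_
    have : (U.filter fun j => Function.update w i (some s) j = none) =
        (U.filter fun j => w j = none).erase i := by
      ext j
      by_cases hj : j = i
      · subst hj; simp
      · simp [hj]
    rw [this, card_erase_of_mem hi, hn]
    rfl

lemma cc_empty (a : V → V → ℂ) (w : V → Option (Fin r)) : cc a w ∅ = 1 := by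
  simp [cc]

lemma cc_union (hr : 0 < r) {a : V → V → ℂ} {T₁ T₂ : Finset V} (hd : Disjoint T₁ T₂)
    (h : ∀ i ∈ T₁, ∀ j ∈ T₂, a j i = 0) (w : V → Option (Fin r)) :
    cc a w (T₁ ∪ T₂) = cc a w T₁ * cc a w T₂ := by
  induction w using free_ind (U := T₁ ∪ T₂) hr with
  | h0 w σ hσ =>
    rw [cc_col a hσ, cc_col a fun i hi => hσ i (mem_union_left _ hi),
      cc_col a fun i hi => hσ i (mem_union_right _ hi)]
    exact mnr_union hd fun i hi j hj => by simp [pin, h i hi j hj]
  | h1 w i hi h0 ih =>
    rw [cc_free a h0 hr]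
    simp only [ih]
    rcases mem_union.1 hi with hi | hi
    · have : ∀ s, cc a (Function.update w i (some s)) T₂ = cc a w T₂ := fun s =>
        cc_congr (fun _ _ _ _ => rfl) fun j hj => Function.update_of_ne
          (fun h : j = i => disjoint_left.1 hd hi (h ▸ hj)) _ _
      simp only [this]
      rw [cc_free a h0 hr T₁, sum_mul]
      simp only [mul_assoc]
    · have : ∀ s, cc a (Function.update w i (some s)) T₁ = cc a w T₁ := fun s =>
        cc_congr (fun _ _ _ _ => rfl) fun j hj => Function.update_of_ne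
          (fun h : j = i => disjoint_left.1 hd (h ▸ hj) hi) _ _
      simp only [this]
      rw [cc_free a h0 hr T₂, mul_sum]
      exact sum_congr rfl fun s _ => by ring

lemma cc_conj {a : V → V → ℂ} (ha : ∀ i j, a j i = conj (a i j)) (w : V → Option (Fin r))
    (T : Finset V) : conj (cc a w T) = cc a w T := by
  unfold cc
  rw [map_sum]
  refine sum_congr rfl fun σ _ => ?_
  rw [map_mul, map_prod]
  congr 1
  · refine prod_congr rfl fun i _ => ?_
    cases w i <;> simp [wt]
  · rw [starRingEnd_apply, ← Matrix.det_conjTranspose]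
    congr 1
    ext i j
    by_cases h : σ i = σ j
    · simp [h, ha i j]
    · simp [h, Ne.symm h]

lemma cc_smul (l : ℂ) (a : V → V → ℂ) (w : V → Option (Fin r)) (T : Finset V) :
    cc (fun i j => l * a i j) w T = l ^ T.card * cc a w T := by
  unfold cc
  rw [mul_sum]
  refine sum_congr rfl fun σ _ => ?_
  have : (Matrix.of fun i j : T => - if σ i = σ j then l * a i j else 0) =
      l • Matrix.of fun i j : T => - if σ i = σ j then a i j else 0 := by
    ext i j
    by_cases h : σ i = σ j <;> simp [h]
  rw [this, Matrix.det_smul, Fintype.card_coe]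
  ring

lemma cc_single {a : V → V → ℂ} (w : V → Option (Fin r)) {i : V} (h : a i i = 0) :
    cc a w {i} = 0 := by
  unfold cc
  refine sum_eq_zero fun σ _ => ?_
  rw [Matrix.det_unique]
  simp [h]

end Vale.Agent.P078
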