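import Mathlib

namespace Vale.Agent.P078

open Finset ComplexConjugate Polynomial Lagrange Filter Topology

lemma exists_dir {γ : ℂ} (hγ : γ ≠ 0) {k : ℕ} (hk : 2 ≤ k) :
    ∃ w : ℂ, 0 < w.im ∧ 0 < (γ * conj (w ^ k)).im := by
  have key : ∀ θ : ℝ, 0 < θ → θ < 2 * Real.pi → 0 < Real.sin (γ.arg - θ) →
      ∃ w : ℂ, 0 < w.im ∧ 0 < (γ * conj (w ^ k)).im := by
    intro θ h0 h1 h2
    have hk' : (2 : ℝ) ≤ k := by exact_mod_cast hk
    refine ⟨Complex.exp ((θ / k : ℝ) * Complex.I), ?_, ?_⟩
    · rw [Complex.exp_ofReal_mul_I_im]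
      refine Real.sin_pos_of_pos_of_lt_pi (by positivity) ?_
      rw [div_lt_iff₀ (by linarith)]
      nlinarith [Real.pi_pos]
    · have e : γ * conj (Complex.exp ((θ / k : ℝ) * Complex.I) ^ k) =
          ‖γ‖ * Complex.exp ((γ.arg - θ : ℝ) * Complex.I) := by
        rw [← Complex.exp_nat_mul, ← Complex.exp_conj]
        nth_rewrite 1 [← Complex.norm_mul_exp_arg_mul_I γ]
        rw [mul_assoc, ← Complex.exp_add]
        congr 2
        have : (k : ℂ) ≠ 0 := by exact_mod_cast (by omega : k ≠ 0)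
        simp only [map_mul, map_natCast, Complex.conj_ofReal, Complex.conj_I]
        push_cast
        field_simp
        ring
      rw [e, Complex.im_ofReal_mul, Complex.exp_ofReal_mul_I_im]
      exact mul_pos (norm_pos_iff.2 hγ) h2
  have h1 := Complex.neg_pi_lt_arg γ
  have h2 := Complex.arg_le_pi γ
  have hp := Real.pi_pos
  rcases lt_or_ge 0 γ.arg with h | h
  · exact key (γ.arg / 2) (by linarith) (by linarith)
      (Real.sin_pos_of_pos_of_lt_pi (by linarith) (by linarith))
  · refine key (γ.arg + 3 * Real.pi / 2) (by linarith) (by linarith) ?_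
    have : γ.arg - (γ.arg + 3 * Real.pi / 2) = Real.pi / 2 - 2 * Real.pi := by ring
    rw [this, Real.sin_sub_two_pi, Real.sin_pi_div_two]
    exact one_pos

lemma real_of_dir {γ : ℂ} (h : ∀ w : ℂ, 0 < w.im → (γ * conj w).im ≤ 0) :
    γ.im = 0 ∧ 0 ≤ γ.re := by
  have h1 : ∀ x y : ℝ, 0 < y → γ.im * x ≤ γ.re * y := fun x y hy => by
    have := h ⟨x, y⟩ hy
    simp at this
    linarith
  have h2 : 0 ≤ γ.re := by simpa using h1 0 1 one_pos
  refine ⟨?_, h2⟩
  by_contra h0
  have := h1 ((γ.re + 1) / γ.im) 1 one_pos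
  rw [mul_div_cancel₀ _ h0] at this
  linarith

variable {ι : Type*} [DecidableEq ι]

lemma local_dir (s : Finset ι) (v : ι → ℝ) (R : ℂ[X])
    (h : ∀ t : ℂ, 0 < t.im → (R.eval t * conj ((nodal s fun l => (v l : ℂ)).eval t)).im ≤ 0)
    (x : ℝ) (w : ℂ) (hw : 0 < w.im) :
    (R.eval (x : ℂ) * conj (∏ l ∈ s.filter (fun l => v l ≠ x), ((x : ℂ) - v l)) *
      conj (w ^ (s.filter fun l => v l = x).card)).im ≤ 0 := by
  set k := (s.filter fun l => v l = x).card
  let f : ℝ → ℝ := fun ε => (R.eval (x + ε * w) *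
    conj (∏ l ∈ s.filter (fun l => v l ≠ x), ((x + ε * w : ℂ) - v l)) * conj (w ^ k)).im
  have hf : Continuous f := by
    refine Complex.continuous_im.comp (Continuous.mul (Continuous.mul ?_ ?_) continuous_const)
    · exact R.continuous.comp (by fun_prop)
    · exact Complex.continuous_conj.comp (continuous_finsetProd _ fun _ _ => by fun_prop)
  have h0 : ∀ ε : ℝ, 0 < ε → f ε ≤ 0 := by
    intro ε hε
    have := h (x + ε * w) (by simp [hε, hw])
    rw [eval_nodal, ← prod_filter_mul_prod_filter_not s (fun l => v l = x)] at this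
    rw [prod_congr rfl (g := fun _ => (ε * w : ℂ)) fun l hl => by
      rw [(mem_filter.1 hl).2]; ring, prod_const] at this
    have e : R.eval (x + ε * w) * conj ((ε * w) ^ k * ∏ l ∈ s.filter (fun l => ¬ v l = x),
        ((x + ε * w : ℂ) - v l)) = ((ε ^ k : ℝ) : ℂ) * (R.eval (x + ε * w) *
        conj (∏ l ∈ s.filter (fun l => v l ≠ x), ((x + ε * w : ℂ) - v l)) * conj (w ^ k)) := by
      rw [mul_pow, map_mul, map_mul, map_pow, Complex.conj_ofReal]
      push_cast
      ring
    rw [e, Complex.im_ofReal_mul] at this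
    exact nonpos_of_mul_nonpos_right this (pow_pos hε k) |> fun h => h
  have : f 0 ≤ 0 := le_of_tendsto (hf.tendsto 0 |>.mono_left (nhdsWithin_le_nhds (s := Set.Ioi 0)))
    (eventually_mem_nhdsWithin.mono fun ε hε => h0 ε hε)
  simpa [f] using this

/-- pole expansion of a rational Nevanlinna function -/
theorem pf (v : ι → ℝ) (s : Finset ι) : ∀ R : ℂ[X], R.degree < s.card →
    (∀ t : ℂ, 0 < t.im → (R.eval t * conj ((nodal s fun l => (v l : ℂ)).eval t)).im ≤ 0) →
    ∃ γ : ι → ℝ, (∀ l, 0 ≤ γ l) ∧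
      R = ∑ l ∈ s, C (γ l : ℂ) * nodal (s.erase l) fun l => (v l : ℂ) := by
  induction s using Finset.strongInduction with
  | H s ih =>
  intro R hR h
  by_cases h1 : ∃ l ∈ s, R.eval (v l : ℂ) = 0
  · obtain ⟨l, hl, h0⟩ := h1
    obtain ⟨R₁, rfl⟩ := dvd_iff_isRoot.2 h0
    by_cases hR1 : R₁ = 0
    · exact ⟨0, fun _ => le_rfl, by simp [hR1]⟩
    obtain ⟨γ, hγ, e⟩ := ih (s.erase l) (erase_ssubset hl) R₁ (by
      rw [degree_mul, degree_X_sub_C, degree_eq_natDegree hR1] at hR
      rw [degree_eq_natDegree hR1, card_erase_of_mem hl]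
      have : 1 + R₁.natDegree < s.card := by exact_mod_cast hR
      exact_mod_cast (by omega : R₁.natDegree < s.card - 1)) fun t ht => by
        have := h t ht
        rw [nodal_eq_mul_nodal_erase hl, eval_mul, eval_mul, map_mul] at this
        set u := (X - C (v l : ℂ)).eval t
        have hu : u ≠ 0 := fun hu => by
          have := congrArg Complex.im hu
          simp [u] at this
          exact ht.ne' this
        rw [mul_mul_mul_comm, Complex.mul_conj, Complex.im_ofReal_mul] at this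
        exact nonpos_of_mul_nonpos_right this (Complex.normSq_pos.2 hu)
    refine ⟨Function.update γ l 0, fun k => ?_, ?_⟩
    · by_cases hk : k = l
      · subst hk; simp
      · rw [Function.update_of_ne hk]; exact hγ k
    · rw [← add_sum_erase _ _ hl, Function.update_self, e, mul_sum]
      simp only [Complex.ofReal_zero, map_zero, zero_mul, zero_add]
      refine sum_congr rfl fun k hk => ?_
      rw [Function.update_of_ne (ne_of_mem_erase hk),
        nodal_eq_mul_nodal_erase (s := s.erase k) (i := l)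
          (mem_erase.2 ⟨(ne_of_mem_erase hk).symm, hl⟩), erase_right_comm]
      ring
  push Not at h1
  have hQ : ∀ x : ℝ, ∏ l ∈ s.filter (fun l => v l ≠ x), ((x : ℂ) - v l) ≠ 0 := fun x =>
    prod_ne_zero_iff.2 fun l hl => sub_ne_zero.2 fun e => (mem_filter.1 hl).2 (by exact_mod_cast e.symm)
  have hc : ∀ l ∈ s, s.filter (fun k => v k = v l) = {l} := by
    intro l hl
    by_contra hne
    have h2 : 2 ≤ (s.filter fun k => v k = v l).card := by
      by_contra h3
      refine hne (eq_singleton_iff_unique_mem.2 ⟨mem_filter.2 ⟨hl, rfl⟩, fun k hk => ?_⟩)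
      exact card_le_one.1 (by omega) _ hk _ (mem_filter.2 ⟨hl, rfl⟩)
    obtain ⟨w, hw, hw'⟩ := exists_dir (mul_ne_zero (h1 l hl) ((_root_.map_ne_zero conj).2 (hQ (v l)))) h2
    exact absurd (local_dir s v R h (v l) w hw) (not_le.2 hw')
  have hinj : Set.InjOn (fun l => (v l : ℂ)) s := fun k hk l hl e => by
    have : k ∈ s.filter (fun k => v k = v l) := mem_filter.2 ⟨hk, Complex.ofReal_injective e⟩
    rw [hc l hl] at this
    exact mem_singleton.1 this
  have he : ∀ l ∈ s, s.filter (fun k => v k ≠ v l) = s.erase l := by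
    intro l hl
    ext k
    rw [mem_filter, mem_erase]
    constructor
    · rintro ⟨h1, h2⟩; exact ⟨fun e => h2 (by rw [e]), h1⟩
    · rintro ⟨h1, h2⟩; exact ⟨h2, fun e => h1 (hinj h2 hl (by simp [e]))⟩
  let Q : ι → ℝ := fun l => ∏ k ∈ s.erase l, (v l - v k)
  have hQ' : ∀ l, ∏ k ∈ s.erase l, ((v l : ℂ) - v k) = Q l := fun l => by simp [Q]
  have hQ0 : ∀ l ∈ s, Q l ≠ 0 := fun l hl e => hQ (v l) (by rw [he l hl, hQ', e]; simp)
  have hγ : ∀ l ∈ s, (R.eval (v l : ℂ) * Q l).im = 0 ∧ 0 ≤ (R.eval (v l : ℂ) * Q l).re := by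
    intro l hl
    refine real_of_dir fun w hw => ?_
    have := local_dir s v R h (v l) w hw
    rwa [hc l hl, he l hl, hQ', card_singleton, pow_one, Complex.conj_ofReal] at this
  refine ⟨fun l => if l ∈ s then (R.eval (v l : ℂ) * Q l).re / Q l ^ 2 else 0, fun l => ?_, ?_⟩
  · dsimp only
    split_ifs with hl
    · exact div_nonneg (hγ l hl).2 (sq_nonneg _)
    · exact le_rfl
  refine eq_of_degrees_lt_of_eval_index_eq s hinj hR ?_ fun l hl => ?_
  · refine (degree_sum_le _ _).trans_lt ((Finset.sup_lt_iff (WithBot.bot_lt_coe _)).2 fun l hl => ?_)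
    refine (degree_mul_le _ _).trans_lt ?_
    rw [degree_nodal, card_erase_of_mem hl]
    refine (add_le_add_left degree_C_le _).trans_lt ?_
    rw [zero_add]
    exact_mod_cast Nat.sub_lt (card_pos.2 ⟨l, hl⟩) one_pos
  · rw [eval_finsetSum, sum_eq_single l]
    · rw [eval_mul, eval_C, eval_nodal, hQ']
      dsimp only
      rw [if_pos hl]
      have e : ((R.eval (v l : ℂ) * Q l).re : ℂ) = R.eval (v l : ℂ) * Q l :=
        Complex.ext (by simp) (by rw [(hγ l hl).1]; simp)
      have : (Q l : ℂ) ≠ 0 := by exact_mod_cast hQ0 l hl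
      push_cast
      rw [e]
      field_simp
    · intro k _ hk
      rw [eval_mul, eval_nodal_at_node (v := fun l => (v l : ℂ)) (mem_erase.2 ⟨hk.symm, hl⟩),
        mul_zero]
    · intro h'; exact (h' hl).elim

/-- factorization of a polynomial without non-real roots -/
theorem exists_real_roots {p : ℂ[X]} {m : ℕ} (hm : p.natDegree ≤ m) (h0 : p.coeff m ≠ 0)
    (h : ∀ t : ℂ, t.im ≠ 0 → p.eval t ≠ 0) :
    ∃ v : Fin m → ℝ, p = C (p.coeff m) * nodal univ fun l => (v l : ℂ) := by
  have hd : p.natDegree = m := le_antisymm hm (le_natDegree_of_ne_zero h0)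
  have hp : p ≠ 0 := fun e => h0 (by simp [e])
  have hc : p.roots.card = p.natDegree := (IsAlgClosed.splits p).natDegree_eq_card_roots.symm
  have e := C_leadingCoeff_mul_prod_multiset_X_sub_C hc
  have hl : p.roots.toList.length = m := by rw [Multiset.length_toList, hc, hd]
  subst hl
  refine ⟨fun l => (p.roots.toList.get l).re, ?_⟩
  have : ∀ l, (((p.roots.toList.get l).re : ℝ) : ℂ) = p.roots.toList.get l := fun l => by
    have h1 : p.roots.toList.get l ∈ p.roots := Multiset.mem_toList.1 (List.get_mem _ _)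
    have h2 : (p.roots.toList.get l).im = 0 := by
      by_contra h2
      exact h _ h2 ((mem_roots hp).1 h1)
    exact Complex.ext (by simp) (by simp [← h2])
  simp only [this]
  have e1 : p.coeff p.roots.toList.length = p.leadingCoeff := by rw [leadingCoeff, hd]
  have e2 : (p.roots.map fun a => X - C a).prod = ∏ i, (X - C (p.roots.toList.get i)) := by
    conv_lhs => rw [← Multiset.coe_toList p.roots, Multiset.map_coe, Multiset.prod_coe]
    rw [← List.prod_ofFn]
    congr 1
    exact (List.ofFn_getElem_eq_map p.roots.toList fun a => X - C a).symm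
  rw [nodal_eq, e1, ← e2, e]

end Vale.Agent.P078
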