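import Vale.Agent.P078.Stab
import Vale.Agent.P078.PF

namespace Vale.Agent.P078

open Finset ComplexConjugate Polynomial Lagrange Filter Topology

variable {V : Type*} [DecidableEq V] {r : ℕ}

lemma stab_uhp (hr : 0 < r) {a : V → V → ℂ} {w : V → Option (Fin r)} {U : Finset V}
    (h : HC a w U) {z : V → ℂ} (hz : ∀ i ∈ U, 0 < (z i).im) : Pw a w U z ≠ 0 := by
  have := stab1 hr h (l := 1) (ν := -Complex.I) (ρ := 0) (by simp) (z := z)
    fun i hi => by simpa using hz i hi
  simpa using this

/-- the constant term of the affine function of `z j` -/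
noncomputable def Bw (a : V → V → ℂ) (w : V → Option (Fin r)) (U : Finset V) (j : V) (z : V → ℂ) :
    ℂ := PP (fun T => cc a w (insert j T)) U z

lemma Pw_ins (a : V → V → ℂ) (w : V → Option (Fin r)) {U : Finset V} {j : V} (hj : j ∉ U)
    (z : V → ℂ) : Pw a w (insert j U) z = z j * Pw a w U z + Bw a w U j z := PP_insert _ hj z

lemma NI0 (hr : 0 < r) {a : V → V → ℂ} {w : V → Option (Fin r)} {U : Finset V} {j : V}
    (hj : j ∉ U) (h : HC a w (insert j U)) {z : V → ℂ} (hz : ∀ i ∈ U, 0 ≤ (z i).im) :
    0 ≤ (Bw a w U j z * conj (Pw a w U z)).im := by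
  have key : ∀ z : V → ℂ, (∀ i ∈ U, 0 < (z i).im) → 0 ≤ (Bw a w U j z * conj (Pw a w U z)).im := by
    intro z hz
    have hP := stab_uhp hr (h.mono (subset_insert _ _)) hz
    by_contra h0
    have h1 : 0 < (- Bw a w U j z / Pw a w U z).im := by
      rw [div_eq_mul_inv, Complex.inv_def, ← mul_assoc, Complex.im_mul_ofReal, neg_mul,
        Complex.neg_im]
      exact mul_pos (by linarith) (inv_pos.2 (Complex.normSq_pos.2 hP))
    refine stab_uhp hr h (z := Function.update z j (- Bw a w U j z / Pw a w U z))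
      (fun i hi => ?_) ?_
    · rcases mem_insert.1 hi with rfl | hi
      · simpa using h1
      · rw [Function.update_of_ne (ne_of_mem_of_not_mem hi hj)]; exact hz i hi
    · rw [Pw_insert _ _ hj]
      change _ + Bw a w U j z = 0
      field_simp; ring
  let f : ℝ → ℝ := fun ε => (Bw a w U j (fun y => z y + ε * Complex.I) *
    conj (Pw a w U fun y => z y + ε * Complex.I)).im
  have hf : Continuous f := Complex.continuous_im.comp
    ((PP_continuous _ _ fun y => by fun_prop).mul
      (Complex.continuous_conj.comp (PP_continuous _ _ fun y => by fun_prop)))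
  have : 0 ≤ f 0 := ge_of_tendsto (hf.tendsto 0 |>.mono_left (nhdsWithin_le_nhds (s := Set.Ioi 0)))
    (eventually_mem_nhdsWithin.mono fun ε hε => key _ fun i hi => by
      have := hz i hi
      have h2 : (0 : ℝ) < ε := hε
      simp; linarith)
  simpa [f] using this

lemma NI1 (hr : 0 < r) {a : V → V → ℂ} {w : V → Option (Fin r)} {U : Finset V} {j : V}
    (hj : j ∉ U) (h : HC a w (insert j U)) {z : V → ℂ} (hz : ∀ i ∈ U, 0 ≤ (z i).im) :
    (z j).im * ‖Pw a w U z‖ ^ 2 ≤ (Pw a w (insert j U) z * conj (Pw a w U z)).im := by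
  have := NI0 hr hj h hz
  rw [Pw_ins _ _ hj, add_mul, mul_assoc, Complex.mul_conj, Complex.add_im, Complex.im_mul_ofReal,
    Complex.normSq_eq_norm_sq]
  linarith

lemma NI_norm (hr : 0 < r) {a : V → V → ℂ} {w : V → Option (Fin r)} {U : Finset V} {j : V}
    (hj : j ∉ U) (h : HC a w (insert j U)) {z : V → ℂ} (hz : ∀ i ∈ U, 0 ≤ (z i).im)
    (hzj : 0 < (z j).im) (hP : Pw a w U z ≠ 0) : Pw a w (insert j U) z ≠ 0 := by
  intro h0
  have := NI1 hr hj h hz
  rw [h0, zero_mul, Complex.zero_im] at this
  exact absurd this (not_le.2 (mul_pos hzj (by positivity)))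

lemma NI_union (hr : 0 < r) {a : V → V → ℂ} {w : V → Option (Fin r)} {U : Finset V} {z : V → ℂ}
    (hP : Pw a w U z ≠ 0) (hz : ∀ i ∈ U, 0 ≤ (z i).im) (R : Finset V) : HC a w (U ∪ R) →
    (∀ i ∈ R, 0 < (z i).im) → Pw a w (U ∪ R) z ≠ 0 := by
  induction R using Finset.induction_on with
  | empty => intro _ _; simpa using hP
  | insert j R hj ih =>
    intro h hR
    have h1 := ih (h.mono (union_subset_union_right (subset_insert _ _)))
      fun i hi => hR i (mem_insert_of_mem hi)
    rw [union_insert] at h ⊢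
    by_cases hj' : j ∈ U ∪ R
    · rwa [insert_eq_of_mem hj']
    refine NI_norm hr hj' h (fun i hi => ?_) (hR j (mem_insert_self _ _)) h1
    rcases mem_union.1 hi with hi | hi
    · exact hz i hi
    · exact (hR i (mem_insert_of_mem hi)).le

lemma Pw_conj {a : V → V → ℂ} (ha : ∀ i j, a j i = conj (a i j)) (w : V → Option (Fin r))
    (U : Finset V) (z : V → ℂ) : conj (Pw a w U z) = Pw a w U fun y => conj (z y) :=
  PP_conj _ _ _ fun _ _ => cc_conj ha _ _

lemma Pw_real {a : V → V → ℂ} (ha : ∀ i j, a j i = conj (a i j)) (w : V → Option (Fin r))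
    (U : Finset V) {z : V → ℂ} (hz : ∀ i ∈ U, (z i).im = 0) :
    ((Pw a w U z).re : ℂ) = Pw a w U z := by
  rw [← Complex.conj_eq_iff_re, Pw_conj ha]
  exact Pw_congr (fun _ _ _ _ => rfl) (fun _ _ => rfl)
    fun i hi => Complex.conj_eq_iff_im.2 (hz i hi)

lemma PP_shift (c : Finset V → ℂ) {U R : Finset V} (hd : Disjoint U R) (z : V → ℂ) :
    PP c (U ∪ R) z = PP (fun T' => PP (fun T => c (T ∪ T')) U z) R z := by
  induction R using Finset.induction_on generalizing c with
  | empty => simp [PP_empty]
  | insert j R hj ih =>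
    have hd' : Disjoint U R := hd.mono_right (subset_insert _ _)
    have hj' : j ∉ U := fun h => disjoint_left.1 hd h (mem_insert_self _ _)
    rw [union_insert, PP_insert _ (by simp [hj, hj']), PP_insert _ hj, ih _ hd', ih _ hd']
    simp only [union_insert]

/-- polynomial version with numerators `n` and denominators `d` -/
noncomputable def PX (c : Finset V → ℂ) (U : Finset V) (n d : V → ℂ[X]) : ℂ[X] :=
  ∑ T ∈ U.powerset, (∏ y ∈ U \ T, n y) * (∏ y ∈ T, d y) * C (c T)

lemma PX_empty (c : Finset V → ℂ) (n d : V → ℂ[X]) : PX c ∅ n d = C (c ∅) := by simp [PX]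

lemma PX_insert (c : Finset V → ℂ) {U : Finset V} {i : V} (hi : i ∉ U) (n d : V → ℂ[X]) :
    PX c (insert i U) n d = n i * PX c U n d + d i * PX (fun T => c (insert i T)) U n d := by
  unfold PX
  rw [sum_powerset_insert hi, mul_sum, mul_sum]
  refine congrArg₂ (· + ·) ?_ ?_
  · refine sum_congr rfl fun T hT => ?_
    have hT' : i ∉ T := fun h => hi (mem_powerset.1 hT h)
    rw [insert_sdiff_of_notMem _ hT', prod_insert (fun h => hi (mem_sdiff.1 h).1)]
    ring
  · refine sum_congr rfl fun T hT => ?_
    have hT' : i ∉ T := fun h => hi (mem_powerset.1 hT h)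
    rw [insert_sdiff_insert, sdiff_insert_of_notMem hi, prod_insert hT']
    ring

lemma PX_eval (c : Finset V → ℂ) (U : Finset V) (n d : V → ℂ[X]) (t : ℂ) (z : V → ℂ)
    (h : ∀ y ∈ U, (n y).eval t = z y * (d y).eval t) :
    (PX c U n d).eval t = PP c U z * ∏ y ∈ U, (d y).eval t := by
  induction U using Finset.induction_on generalizing c with
  | empty => simp [PX_empty, PP_empty]
  | insert j U hj ih =>
    have h' : ∀ y ∈ U, (n y).eval t = z y * (d y).eval t := fun y hy => h y (mem_insert_of_mem hy)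
    rw [PX_insert _ hj, PP_insert _ hj, prod_insert hj, eval_add, eval_mul, eval_mul, ih _ h',
      ih _ h', h j (mem_insert_self _ _)]
    ring

/-- one-variable restriction to a fibre -/
noncomputable def P1 (c : Finset V → ℂ) (R : Finset V) : ℂ[X] := PX c R (fun _ => X) fun _ => 1

lemma P1_insert (c : Finset V → ℂ) {R : Finset V} {i : V} (hi : i ∉ R) :
    P1 c (insert i R) = X * P1 c R + P1 (fun T => c (insert i T)) R := by
  unfold P1; rw [PX_insert _ hi, one_mul]

lemma P1_eval (c : Finset V → ℂ) (R : Finset V) (t : ℂ) {z : V → ℂ} (h : ∀ y ∈ R, z y = t) :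
    (P1 c R).eval t = PP c R z := by
  unfold P1
  rw [PX_eval c R _ _ t z fun y hy => by simp [h y hy]]
  simp

lemma P1_deg (c : Finset V → ℂ) (R : Finset V) : (P1 c R).natDegree ≤ R.card ∧
    (P1 c R).coeff R.card = c ∅ := by
  induction R using Finset.induction_on generalizing c with
  | empty => simp [P1, PX_empty]
  | insert j R hj ih =>
    rw [P1_insert _ hj, card_insert_of_notMem hj]
    refine ⟨(natDegree_add_le _ _).trans (max_le ?_ ((ih _).1.trans (Nat.le_succ _))), ?_⟩
    · exact natDegree_mul_le.trans (by rw [natDegree_X]; have := (ih c).1; omega)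
    · rw [coeff_add, coeff_X_mul, (ih c).2, coeff_eq_zero_of_natDegree_lt
        (Nat.lt_succ_of_le (ih _).1), add_zero]

lemma P1_next (c : Finset V → ℂ) (R : Finset V) :
    (X * P1 c R).coeff R.card = ∑ s ∈ R, c {s} := by
  induction R using Finset.induction_on generalizing c with
  | empty => simp
  | insert j R hj ih =>
    rw [P1_insert _ hj, card_insert_of_notMem hj, coeff_X_mul, coeff_add, ih, (P1_deg _ R).2,
      sum_insert hj, add_comm]
    rfl

lemma P1_deriv (c : Finset V → ℂ) (R : Finset V) :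
    derivative (P1 c R) = ∑ s ∈ R, P1 c (R.erase s) := by
  induction R using Finset.induction_on generalizing c with
  | empty => simp [P1, PX_empty]
  | insert j R hj ih =>
    rw [P1_insert _ hj, derivative_add, derivative_mul, derivative_X, one_mul, ih, ih,
      sum_insert hj, erase_insert hj, add_assoc, mul_sum, ← sum_add_distrib]
    congr 1
    refine sum_congr rfl fun s hs => ?_
    rw [erase_insert_of_ne (ne_of_mem_of_not_mem hs hj).symm,
      P1_insert _ fun h => hj (mem_of_mem_erase h)]

end Vale.Agent.P078
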