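import Vale.Agent.P078.Dec
import Vale.Agent.P078.Discr

/-! Assembly of the non-singular theorem from the discrete and the free part. -/

namespace Vale.Agent.P078

open scoped ComplexOrder InnerProductSpace ComplexConjugate
open Filter Topology

/-- the statement for the discrete part -/
def DiscStmt (C : ℝ) (M : Type*) [CStarAlgebra M] [PartialOrder M] [StarOrderedRing M] : Prop :=
  ∀ (S : Setup M) (X : S.Exp) (y : M), y ∈ S.N0 → IsSelfAdjoint y → X.E y = 0 → ‖y‖ ≤ 1 →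
    ∀ r : ℕ, 1 ≤ r → ∀ (k : ℕ) (δ : ℝ), 0 < δ → ∃ R : Rule S r, ∀ Q lab,
      (S.κ (R.pinch Q lab y ^ (2 * k))).re ≤ (C / √r) ^ (2 * k) * (S.κ 1).re + δ

/-- the statement for the diffuse part -/
def FreeStmt (M : Type*) [CStarAlgebra M] [PartialOrder M] [StarOrderedRing M] : Prop :=
  ∀ (S : Setup M) (X : S.Exp) (x : M), IsSelfAdjoint x → X.Diff x → ∀ r : ℕ, 1 ≤ r →
    ∀ (R : Rule S r) (k : ℕ) (δ : ℝ), 0 < δ → ∃ (Q : Part S)
      (lab : Fin Q.n → Equiv.Perm (Fin r)), (S.κ (R.pinch Q lab x ^ (2 * k))).re ≤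
        r * (3 * ‖x‖ / √r) ^ (2 * k) * (S.κ 1).re + δ

variable {M : Type*} [CStarAlgebra M] [PartialOrder M] [StarOrderedRing M] {S : Setup M}

lemma sq_le_pow {T : M} (hT : IsSelfAdjoint T) {ε : ℝ} (hε : 0 < ε) (k : ℕ) :
    T * T ≤ ε ^ 2 • (1 : M) + (ε ^ (2 * k))⁻¹ • T ^ (2 * (k + 1)) := by
  have h : cfc (fun t : ℝ => t * t) T
      ≤ cfc (fun t : ℝ => ε ^ 2 + (ε ^ (2 * k))⁻¹ * t ^ (2 * (k + 1))) T := by
    refine cfc_mono fun t _ => ?_
    have e : t ^ (2 * (k + 1)) = (t ^ 2) ^ k * (t * t) := by ring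
    rw [e, pow_mul]
    have h0 := mul_self_nonneg t
    rcases le_total (t ^ 2) (ε ^ 2) with h | h
    · have : 0 ≤ ((ε ^ 2) ^ k)⁻¹ * ((t ^ 2) ^ k * (t * t)) := by positivity
      nlinarith
    · have h1 : 1 ≤ ((ε ^ 2) ^ k)⁻¹ * (t ^ 2) ^ k := by
        rw [le_inv_mul_iff₀ (by positivity), mul_one]
        exact pow_le_pow_left₀ (by positivity) h k
      rw [← mul_assoc]
      nlinarith [sq_nonneg ε]
  rwa [cfc_mul _ _ T, cfc_id' ℝ T, cfc_add T _ _, cfc_const _ T, cfc_const_mul _ _ T,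
    cfc_pow_id T, Algebra.algebraMap_eq_smul_one] at h

lemma sq_sum_le {a b c : M} (ha : IsSelfAdjoint a) (hb : IsSelfAdjoint b) (hc : IsSelfAdjoint c) :
    (a + b + c) * (a + b + c) ≤ (3 : ℝ) • (a * a + b * b + c * c) := by
  have h : ∀ {x : M}, IsSelfAdjoint x → 0 ≤ x * x := fun {x} hx => by
    simpa only [hx.star_eq] using star_mul_self_nonneg x
  have e : (3 : ℝ) • (a * a + b * b + c * c) - (a + b + c) * (a + b + c)
      = (a - b) * (a - b) + (a - c) * (a - c) + (b - c) * (b - c) := by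
    simp only [mul_add, add_mul, mul_sub, sub_mul]; module
  rw [← sub_nonneg, e]
  exact add_nonneg (add_nonneg (h (ha.sub hb)) (h (ha.sub hc))) (h (hb.sub hc))

lemma cut_off (X : S.Exp) {T w : M} (hT : IsSelfAdjoint T) (hw : 0 ≤ w) {ε : ℝ} (hε : 0 < ε)
    (h : T * T ≤ (6 * ε ^ 2) • (1 : M) + (3 : ℝ) • w) : ∃ q, IsStarProjection q ∧
      ε ^ 2 * (S.κ (1 - q)).re ≤ (S.κ w).re ∧ ‖q * T * q‖ ≤ 3 * ε := by
  obtain ⟨q, hq, h1, h2, h3⟩ := X.spec w hw (ε ^ 2) (by positivity)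
  have qs := hq.isSelfAdjoint.star_eq
  have qq := hq.isIdempotentElem.eq
  have e : star q * w * q = w * q := by rw [qs, ← h1 w rfl, mul_assoc, qq]
  rw [Complex.coe_smul] at h2 h3
  refine ⟨q, hq, ?_, ?_⟩
  · rw [← S.re_rsmul]
    refine S.re_mono (h3.trans ?_)
    rw [mul_sub, mul_one, ← e]
    exact sub_le_self _ (star_left_conjugate_nonneg hw q)
  · have h4 := star_left_conjugate_le_conjugate h q
    rw [mul_add, add_mul, mul_smul_comm, mul_smul_comm, smul_mul_assoc, smul_mul_assoc, e,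
      mul_one, show star q * q = q by rw [qs, qq]] at h4
    have h5 : star (T * q) * (T * q) ≤ algebraMap ℝ M ((3 * ε) ^ 2) := by
      rw [star_mul, hT.star_eq, mul_assoc, ← mul_assoc T, ← mul_assoc]
      refine h4.trans ((add_le_add le_rfl (smul_le_smul_of_nonneg_left h2 (by norm_num))).trans ?_)
      rw [smul_smul, ← add_smul, Algebra.algebraMap_eq_smul_one,
        show 6 * ε ^ 2 + 3 * ε ^ 2 = (3 * ε) ^ 2 by ring]
      exact smul_le_smul_of_nonneg_left hq.le_one (by positivity)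
    rw [← CStarAlgebra.norm_le_iff_le_algebraMap _ (by positivity) (star_mul_self_nonneg _),
      CStarRing.norm_star_mul_self, ← sq,
      pow_le_pow_iff_left₀ (norm_nonneg _) (by positivity) two_ne_zero] at h5
    rw [mul_assoc]
    exact (norm_mul_le _ _).trans ((mul_le_of_le_one_left (norm_nonneg _) hq.norm_le).trans h5)

lemma Part.pinch_sa (P : Part S) {x : M} (hx : IsSelfAdjoint x) : IsSelfAdjoint (P.pinch x) := by
  rw [IsSelfAdjoint, ← P.pinch_star, hx.star_eq]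

theorem nonsing_of {C : ℝ} (hd : DiscStmt C M) (hf : FreeStmt M) :
    Nonsing (6 * max 9 (4 * |C|)) M := by
  intro S x hx hx1 r hr δ hδ
  obtain ⟨X⟩ := exists_exp S
  have r0 : (0 : ℝ) < √r := Real.sqrt_pos.2 (by exact_mod_cast hr)
  have k0 := S.re_nonneg (zero_le_one' M)
  set B := max 9 (4 * |C|) with hB
  have B0 : 0 < B := lt_max_of_lt_left (by norm_num)
  set ε := 2 * B / √r with hε
  have ε0 : 0 < ε := by positivity
  obtain ⟨k, hk⟩ : ∃ k : ℕ, (r + 1) * (S.κ 1).re * (1 / 4) ^ k < δ / 3 := by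
    have := (tendsto_pow_atTop_nhds_zero_of_lt_one (r := (1 / 4 : ℝ)) (by norm_num)
      (by norm_num)).const_mul ((r + 1) * (S.κ 1).re)
    rw [mul_zero] at this
    exact (this.eventually (gt_mem_nhds (by positivity))).exists
  set δ₁ := δ * ε ^ 2 / 3 * ε ^ (2 * k) / (1 + 4 ^ (2 * (k + 1))) with hδ₁
  have δ0 : 0 < δ₁ := by positivity
  obtain ⟨y, sy, ny, dy, hy⟩ := decomp X hx
  obtain ⟨y₀, my, sy₀, ny₀, q3⟩ := hy (δ * ε ^ 2 / 12) (by positivity)
  have sE := X.sa sy₀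
  obtain ⟨R, hR⟩ := hd S X ((4⁻¹ : ℝ) • (y₀ - X.E y₀))
    (by rw [← Complex.coe_smul]; exact S.N0.smul_mem _ (sub_mem my (N0_A sE.1)))
    ((IsSelfAdjoint.all _).smul (sy₀.sub sE.2))
    (by rw [← Complex.coe_smul, map_smul, map_sub, X.fix _ sE.1, sub_self, smul_zero])
    (by
      have := norm_sub_le y₀ (X.E y₀)
      have := X.norm y₀
      rw [norm_smul, Real.norm_eq_abs, abs_of_pos (by norm_num)]; linarith) r hr (k + 1) δ₁ δ0
  obtain ⟨Q, lab, hQ⟩ := hf S X (x - y) (hx.sub sy) dy r hr R (k + 1) δ₁ δ0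
  have h2 := hR Q lab
  rw [R.pinch_eq] at hQ h2
  set P := R.part Q lab with hP
  have s1 := P.pinch_sa (hx.sub sy)
  have s2 := P.pinch_sa (sy₀.sub sE.2)
  have s3 := (P.pinch_sa (sy.sub sy₀)).add (X.sa (sy₀.sub sy)).2
  have e2 : P.pinch (y₀ - X.E y₀) = (4 : ℝ) • P.pinch ((4⁻¹ : ℝ) • (y₀ - X.E y₀)) := by
    rw [← Complex.coe_smul (4⁻¹ : ℝ), P.pinch_smul, Complex.coe_smul, smul_smul]; norm_num
  have eT : P.pinch x - X.E x = P.pinch (x - y) + P.pinch (y₀ - X.E y₀)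
      + (P.pinch (y - y₀) + X.E (y₀ - y)) := by
    have := dy.E_eq
    rw [map_sub, sub_eq_zero] at this
    simp only [P.pinch_sub, P.pinch_fix sE.1, map_sub, this]; abel
  set T₁ := P.pinch (x - y)
  set T₂ := P.pinch (y₀ - X.E y₀)
  set T₃ := P.pinch (y - y₀) + X.E (y₀ - y) with hT₃
  have pw : ∀ {T : M}, IsSelfAdjoint T → 0 ≤ T ^ (2 * (k + 1)) := fun {T} hT => by
    rw [two_mul, pow_add]
    simpa only [(hT.pow (k + 1)).star_eq] using star_mul_self_nonneg (T ^ (k + 1))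
  obtain ⟨q, hq, b1, b2⟩ := cut_off X ((s1.add s2).add s3) (ε := ε)
    (w := (ε ^ (2 * k))⁻¹ • T₁ ^ (2 * (k + 1)) + (ε ^ (2 * k))⁻¹ • T₂ ^ (2 * (k + 1))
      + star T₃ * T₃)
    (add_nonneg (add_nonneg (smul_nonneg (by positivity) (pw s1))
      (smul_nonneg (by positivity) (pw s2))) (star_mul_self_nonneg _)) ε0 (by
      refine (sq_sum_le s1 s2 s3).trans ((smul_le_smul_of_nonneg_left (add_le_add (add_le_add
        (sq_le_pow s1 ε0 k) (sq_le_pow s2 ε0 k)) le_rfl) (by norm_num)).trans (le_of_eq ?_))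
      rw [s3.star_eq]; module)
  refine ⟨P.e, X.E x, q, P.mem, P.proj, P.orth, P.sum, X.mem x, (X.sa hx).2,
    (X.norm x).trans hx1, hq, ?_, ?_⟩
  swap
  · change ‖q * (P.pinch x - X.E x) * q‖ ≤ _
    rw [eT]
    refine b2.trans (le_of_eq ?_)
    rw [hε]; ring
  have c3 : S.q2 T₃ < δ * ε ^ 2 / 3 := by
    have a1 : S.n2 T₃ ≤ 2 * S.n2 (y₀ - y) := by
      have := S.n2_add_le (P.pinch (y - y₀)) (X.E (y₀ - y))
      have := X.n2_le (y₀ - y)
      have h5 : S.n2 (P.pinch (y - y₀)) ≤ S.n2 (y - y₀) := by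
        rw [S.n2_eq, S.n2_eq]; exact Real.sqrt_le_sqrt (P.q2_pinch_le _)
      rw [S.n2_sub_rev] at h5
      linarith
    have := pow_le_pow_left₀ (S.n2_nonneg _) a1 2
    rw [mul_pow, S.n2_sq, S.n2_sq] at this
    linarith
  have c1 : (3 * ‖x - y‖ / √r) ^ (2 * (k + 1)) ≤ (ε / 2) ^ (2 * (k + 1)) := by
    refine pow_le_pow_left₀ (by positivity) ?_ _
    have := norm_sub_le x y
    have : 9 ≤ B := le_max_left _ _
    rw [hε, div_right_comm]
    exact div_le_div_of_nonneg_right (by linarith) r0.le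
  have c2 : 4 ^ (2 * (k + 1)) * (C / √r) ^ (2 * (k + 1)) ≤ (ε / 2) ^ (2 * (k + 1)) := by
    rw [← mul_pow, ← (even_two_mul (k + 1)).pow_abs]
    refine pow_le_pow_left₀ (abs_nonneg _) ?_ _
    have : 4 * |C| ≤ B := le_max_right _ _
    rw [hε, div_right_comm, abs_mul, abs_div, abs_of_pos r0, ← mul_div_assoc,
      abs_of_pos (by norm_num : (0 : ℝ) < 4)]
    exact div_le_div_of_nonneg_right (by linarith) r0.le
  have c4 : (S.κ (T₂ ^ (2 * (k + 1)))).re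
      ≤ (ε / 2) ^ (2 * (k + 1)) * (S.κ 1).re + 4 ^ (2 * (k + 1)) * δ₁ := by
    rw [e2, smul_pow, S.re_rsmul]
    have := mul_le_mul_of_nonneg_left h2 (by positivity : (0 : ℝ) ≤ 4 ^ (2 * (k + 1)))
    have := mul_le_mul_of_nonneg_right c2 k0
    linarith
  have c5 : (S.κ (T₁ ^ (2 * (k + 1)))).re ≤ r * ((ε / 2) ^ (2 * (k + 1)) * (S.κ 1).re) + δ₁ := by
    have := mul_le_mul_of_nonneg_left (mul_le_mul_of_nonneg_right c1 k0) (Nat.cast_nonneg r)
    linarith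
  have c6 : (ε ^ (2 * k))⁻¹ * (ε / 2) ^ (2 * (k + 1)) = ε ^ 2 * (1 / 4) ^ k / 4 := by
    rw [div_pow ε 2, pow_mul 2, show 2 * (k + 1) = 2 * k + 2 by ring, pow_add, one_div_pow]
    field_simp; ring
  have c7 : (ε ^ (2 * k))⁻¹ * ((1 + 4 ^ (2 * (k + 1))) * δ₁) = δ * ε ^ 2 / 3 := by
    rw [hδ₁]; field_simp
  rw [map_add, map_add, Complex.add_re, Complex.add_re, S.re_rsmul, S.re_rsmul] at b1
  have p0 : 0 < (ε ^ (2 * k))⁻¹ := by positivity
  have d1 := mul_le_mul_of_nonneg_left (add_le_add c4 c5) p0.le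
  have d2 : (ε ^ (2 * k))⁻¹ * ((ε / 2) ^ (2 * (k + 1)) * (S.κ 1).re + 4 ^ (2 * (k + 1)) * δ₁
      + (r * ((ε / 2) ^ (2 * (k + 1)) * (S.κ 1).re) + δ₁))
      = ε ^ 2 * ((r + 1) * (S.κ 1).re * (1 / 4) ^ k) / 4 + δ * ε ^ 2 / 3 := by
    rw [← c7]
    linear_combination ((r + 1) * (S.κ 1).re) * c6
  have d3 := mul_lt_mul_of_pos_left hk (pow_pos ε0 2)
  have d4 : 0 < δ * ε ^ 2 := by positivity
  unfold Setup.q2 at c3
  refine lt_of_mul_lt_mul_left ?_ (pow_pos ε0 2).le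
  linarith

end Vale.Agent.P078
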