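import Vale.Agent.P078.Basic

/-! Normalizers: conjugation, Radon-Nikodym derivatives, fixed part and Frolik colouring. -/

namespace Vale.Agent.P078

open scoped ComplexOrder InnerProductSpace ComplexConjugate
open Filter Topology

variable {M : Type*} [CStarAlgebra M] [PartialOrder M] [StarOrderedRing M] {S : Setup M}

namespace Setup.IsNor
variable {u v : M}

lemma su (hu : S.IsNor u) : star u * u = 1 := hu.1
lemma us (hu : S.IsNor u) : u * star u = 1 := hu.2.1
lemma su' (hu : S.IsNor u) (x : M) : star u * (u * x) = x := by rw [← mul_assoc, hu.su, one_mul]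
lemma us' (hu : S.IsNor u) (x : M) : u * (star u * x) = x := by rw [← mul_assoc, hu.us, one_mul]
lemma memL (hu : S.IsNor u) {a : M} (ha : a ∈ S.A) : star u * a * u ∈ S.A := (hu.2.2.1 a ha).1
lemma memR (hu : S.IsNor u) {a : M} (ha : a ∈ S.A) : u * a * star u ∈ S.A := (hu.2.2.1 a ha).2

lemma norm_le (hu : S.IsNor u) : ‖u‖ ≤ 1 := by
  rcases subsingleton_or_nontrivial M with h | h
  · simp [Subsingleton.elim u 0]
  · exact (CStarRing.norm_of_mem_unitary ⟨hu.su, hu.us⟩).le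

lemma bound (hu : S.IsNor u) : ∃ C : ℝ, 0 ≤ C ∧ ∀ a ∈ S.A, 0 ≤ a →
    (S.κ (star u * a * u)).re ≤ C * (S.κ a).re ∧ (S.κ (u * a * star u)).re ≤ C * (S.κ a).re := by
  obtain ⟨C, hC⟩ := hu.2.2.2
  refine ⟨|C|, abs_nonneg _, fun a ha h0 => ?_⟩
  have := mul_le_mul_of_nonneg_right (le_abs_self C) (S.re_nonneg h0)
  exact ⟨(hC a ha h0).1.trans this, (hC a ha h0).2.trans this⟩

lemma one : S.IsNor 1 := ⟨by simp, by simp, by simp, 1, by simp⟩

lemma star (hu : S.IsNor u) : S.IsNor (star u) := by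
  obtain ⟨C, hC⟩ := hu.2.2.2
  simp only [Setup.IsNor, star_star]
  exact ⟨hu.us, hu.su, fun a ha => ⟨hu.memR ha, hu.memL ha⟩, C, fun a ha h0 => (hC a ha h0).symm⟩

lemma mul (hu : S.IsNor u) (hv : S.IsNor v) : S.IsNor (u * v) := by
  obtain ⟨C, C0, hC⟩ := hu.bound
  obtain ⟨D, D0, hD⟩ := hv.bound
  have e1 : ∀ a, Star.star (u * v) * a * (u * v) = Star.star v * (Star.star u * a * u) * v :=
    fun a => by simp only [star_mul, mul_assoc]
  have e2 : ∀ a, u * v * a * Star.star (u * v) = u * (v * a * Star.star v) * Star.star u :=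
    fun a => by simp only [star_mul, mul_assoc]
  refine ⟨by rw [star_mul, mul_assoc, hu.su', hv.su], by rw [star_mul, mul_assoc, hv.us', hu.us],
    fun a ha => ?_, C * D, fun a ha h0 => ?_⟩
  · rw [e1, e2]; exact ⟨hv.memL (hu.memL ha), hu.memR (hv.memR ha)⟩
  · rw [e1, e2]
    have h1 := (hD _ (hu.memL ha) (star_left_conjugate_nonneg h0 u)).1
    have h2 := (hC _ (hv.memR ha) (star_right_conjugate_nonneg h0 v)).2
    have h3 := mul_le_mul_of_nonneg_left (hC a ha h0).1 D0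
    have h4 := mul_le_mul_of_nonneg_left (hD a ha h0).2 C0
    constructor <;> linarith

end Setup.IsNor

theorem IsNor.one : S.IsNor 1 := Setup.IsNor.one
theorem IsNor.mul {u v : M} (hu : S.IsNor u) (hv : S.IsNor v) : S.IsNor (u * v) := hu.mul hv
theorem IsNor.star {u : M} (hu : S.IsNor u) : S.IsNor (star u) := hu.star

/-- transported partition -/
def Part.conj (P : Part S) {u : M} (hu : S.IsNor u) : Part S where
  n := P.n
  e i := star u * P.e i * u
  mem i := hu.memL (P.mem i)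
  proj i := (hu.conj_pr (P.pr i)).2
  orth i j h := by
    simp only [mul_assoc, hu.us']
    rw [← mul_assoc (P.e i), P.orth i j h]; simp
  sum := by rw [← Finset.sum_mul, ← Finset.mul_sum, P.sum, mul_one, hu.su]

lemma Part.conj_pinch (P : Part S) {u : M} (hu : S.IsNor u) (z : M) :
    (P.conj hu).pinch (star u * z * u) = star u * P.pinch z * u := by
  simp only [Part.pinch, Part.conj, Finset.mul_sum, Finset.sum_mul, mul_assoc, hu.us']
  rfl

lemma kap_conj_E (X : S.Exp) {u : M} (hu : S.IsNor u) (z : M) :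
    S.κ (star u * X.E z * u) = S.κ (star u * z * u) :=
  tendsto_nhds_unique (((X.lim' z).mul_left (star u)).mul_right u).kap
    (tendsto_const_nhds.congr fun P => by rw [← P.conj_pinch hu, Part.kap_pinch])

theorem E_conj (X : S.Exp) {u : M} (hu : S.IsNor u) (x : M) :
    X.E (star u * x * u) = star u * X.E x * u := by
  have h : X.E (star u * (x - X.E x) * u) = 0 := X.eq_zero fun a ha => by
    have e : a * (star u * (x - X.E x) * u) = star u * (u * a * star u * (x - X.E x)) * u := by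
      simp only [mul_assoc, hu.su']
    rw [e, ← kap_conj_E X hu, X.left _ (hu.memR ha), map_sub, X.fix _ (X.mem x)]; simp
  rwa [mul_sub, sub_mul, map_sub, X.fix _ (hu.memL (X.mem x)), sub_eq_zero] at h

lemma E_conj' (X : S.Exp) {u : M} (hu : S.IsNor u) (x : M) :
    X.E (u * x * star u) = u * X.E x * star u := by
  simpa only [star_star] using E_conj X hu.star x

/-! The quadratic trick. -/

lemma Setup.seq_lim (S : Setup M) {x : ℕ → M} {C : ℝ} (hC : ∀ n, ‖x n‖ ≤ C) {b : ℕ → ℝ}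
    (hb : Tendsto b atTop (𝓝 0)) (h : ∀ n m, S.q2 (x n - x m) ≤ b n + b m) :
    ∃ y, S.Lim atTop x y := by
  obtain ⟨y, -, hy⟩ := S.complete x C hC fun ε hε => by
    obtain ⟨N, hN⟩ := eventually_atTop.1 (hb.eventually (gt_mem_nhds (half_pos hε)))
    refine ⟨N, fun n hn m hm => (h n m).trans_lt ?_⟩
    linarith [hN n hn, hN m hm]
  exact ⟨y, .of_q2 hC hy⟩

/-- the interval `[0, C]` of `A` -/
def Setup.Iv (S : Setup M) (C : ℝ) (a : M) : Prop :=
  S.Sa a ∧ ∀ φ : Chr S, 0 ≤ φ.r a ∧ φ.r a ≤ C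

lemma Setup.Iv.norm_le {C : ℝ} (hC : 0 ≤ C) {a : M} (h : S.Iv C a) : ‖a‖ ≤ C :=
  S.norm_le_of_chr h.1 hC fun φ => abs_le.2 ⟨by linarith [(h.2 φ).1], (h.2 φ).2⟩

lemma Setup.Iv.nonneg {C : ℝ} {a : M} (h : S.Iv C a) : 0 ≤ a :=
  S.nonneg_of_chr h.1 fun φ => (h.2 φ).1

/-- the vector functional -/
noncomputable def Setup.ψ (S : Setup M) (v : M) : M →L[ℝ] ℝ :=
  Complex.reCLM ∘L (S.κ ∘L ContinuousLinearMap.mulLeftRight ℂ M (star v) v).restrictScalars ℝ

lemma Setup.ψ_apply (S : Setup M) (v a : M) : S.ψ v a = (S.κ (star v * a * v)).re := rfl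

lemma Setup.ψ_nonneg (S : Setup M) (v : M) {a : M} (h : 0 ≤ a) : 0 ≤ S.ψ v a :=
  S.re_nonneg (star_left_conjugate_nonneg h v)

lemma Setup.ψ_mono (S : Setup M) (v : M) {a b : M} (h : a ≤ b) : S.ψ v a ≤ S.ψ v b := by
  have := S.ψ_nonneg v (sub_nonneg.2 h)
  rw [map_sub] at this; linarith

lemma Setup.re_rsmul (S : Setup M) (t : ℝ) (a : M) : (S.κ (t • a)).re = t * (S.κ a).re := by
  rw [← Complex.coe_smul, map_smul, smul_eq_mul, Complex.re_ofReal_mul]

lemma Setup.q2_rsmul (S : Setup M) (t : ℝ) (a : M) : S.q2 (t • a) = t ^ 2 * S.q2 a := by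
  rw [← Complex.coe_smul, S.q2_smul]

lemma Setup.quad (S : Setup M) (v : M) {C : ℝ} (hC : 0 ≤ C) : ∃ h, S.Iv C h ∧
    ∀ a, S.Iv C a → S.ψ v (a - h) ≤ (S.κ (h * (a - h))).re := by
  let Q : M → ℝ := fun a => S.q2 a - 2 * S.ψ v a
  have conv : ∀ a b, S.Iv C a → S.Iv C b → ∀ t : ℝ, 0 ≤ t → t ≤ 1 → S.Iv C (a + t • (b - a)) :=
    fun a b ha hb t h0 h1 => ⟨ha.1.add ((hb.1.sub ha.1).smul t), fun φ => by
      have := ha.2 φ
      have := hb.2 φ
      rw [map_add, map_smul, map_sub, smul_eq_mul]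
      constructor <;> nlinarith⟩
  have Qe : ∀ a d : M, IsSelfAdjoint a → ∀ t : ℝ, Q (a + t • d) =
      Q a + 2 * t * ((S.κ (a * d)).re - S.ψ v d) + t ^ 2 * S.q2 d := fun a d ha t => by
    simp only [Q]
    rw [S.q2_add, S.q2_rsmul, ha.star_eq, mul_smul_comm, S.re_rsmul, map_add, map_smul,
      smul_eq_mul]; ring
  have h0 : S.Iv C 0 := ⟨.zero, fun φ => by simpa using hC⟩
  have bd : BddBelow (Q '' {a | S.Iv C a}) := ⟨-(2 * (‖S.ψ v‖ * C)), by
    rintro _ ⟨a, ha, rfl⟩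
    have := S.q2_nonneg a
    have := (le_abs_self _).trans ((S.ψ v).le_opNorm a)
    have := mul_le_mul_of_nonneg_left (ha.norm_le hC) (norm_nonneg (S.ψ v))
    simp only [Q]; linarith⟩
  set m := sInf (Q '' {a | S.Iv C a}) with hm
  have lo : ∀ a, S.Iv C a → m ≤ Q a := fun a ha => csInf_le bd ⟨a, ha, rfl⟩
  have ex : ∀ n : ℕ, ∃ a, S.Iv C a ∧ Q a < m + 1 / ((n : ℝ) + 1) := fun n => by
    obtain ⟨_, ⟨a, ha, rfl⟩, h⟩ := exists_lt_of_csInf_lt (s := Q '' {a | S.Iv C a})
      ⟨_, 0, h0, rfl⟩ (lt_add_of_pos_right m (by positivity : 0 < 1 / ((n : ℝ) + 1)))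
    exact ⟨a, ha, h⟩
  choose x hx hq using ex
  obtain ⟨h, hh⟩ := S.seq_lim (fun n => (hx n).norm_le hC) (b := fun n => 2 * (1 / ((n : ℝ) + 1)))
    (by simpa using tendsto_one_div_add_atTop_nhds_zero_nat.const_mul (2 : ℝ)) fun n k => by
      have h1 := lo _ (conv _ _ (hx k) (hx n) (1 / 2) (by norm_num) (by norm_num))
      have h2 := Qe (x k) (x n - x k) (hx k).1.2 1
      rw [Qe _ _ (hx k).1.2] at h1
      rw [one_smul, add_sub_cancel] at h2
      have := hq n
      have := hq k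
      linarith
  have hs : S.Sa h := ⟨hh.mem fun n => (hx n).1.1, hh.sa fun n => (hx n).1.2⟩
  have sC : S.Sa (C • (1 : M)) := .smul C .one
  have hI : S.Iv C h := ⟨hs, fun φ => ⟨φ.r_nonneg hs.1 (hh.nonneg' fun n => (hx n).nonneg), by
    have := φ.r_mono hs.1 sC.1 (hh.le (.const S _ _) (fun n => (hx n).1.2) (fun _ => sC.2)
      (.of_forall fun n => S.le_of_chr (hx n).1 sC fun φ => by simpa using ((hx n).2 φ).2))
    simpa using this⟩⟩
  have hQ : Q h ≤ m := by
    have t1 : Tendsto (fun n => Q (x n)) atTop (𝓝 (Q h)) :=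
      hh.q2'.sub (((hh.mul_left (star v)).mul_right v).re.const_mul 2)
    have t2 := (tendsto_const_nhds (x := m)).add tendsto_one_div_add_atTop_nhds_zero_nat
    rw [add_zero] at t2
    exact le_of_tendsto_of_tendsto' t1 t2 fun n => (hq n).le
  refine ⟨h, hI, fun a ha => ?_⟩
  refine le_of_forall_pos_le_add fun ε hε => ?_
  have q0 := S.q2_nonneg (a - h)
  set t := min 1 (ε / (S.q2 (a - h) + 1)) with ht
  have t0 : 0 < t := lt_min one_pos (by positivity)
  have t2 : t * (S.q2 (a - h) + 1) ≤ ε := (le_div_iff₀ (by positivity)).1 (min_le_right _ _)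
  have h1 := lo _ (conv _ _ hI ha t t0.le (min_le_left _ _))
  rw [Qe _ _ hs.2] at h1
  have : 0 ≤ t * (2 * ((S.κ (h * (a - h))).re - S.ψ v (a - h)) + t * S.q2 (a - h)) := by
    nlinarith
  have := (mul_nonneg_iff_of_pos_left t0).1 this
  nlinarith

lemma Setup.re_le_of_chr (S : Setup M) {a b : M} (ha : S.Sa a) (hb : S.Sa b)
    (h : ∀ φ : Chr S, φ.r a ≤ φ.r b) : (S.κ a).re ≤ (S.κ b).re :=
  S.re_mono (S.le_of_chr ha hb h)

/-- the common part of the two uses of the quadratic trick -/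
lemma Setup.quad_cut (S : Setup M) {v h : M} {C : ℝ} (hC : 0 ≤ C) (hI : S.Iv (C + 2) h)
    (H : ∀ a, S.Iv (C + 2) a → S.ψ v (a - h) ≤ (S.κ (h * (a - h))).re) : ∃ q, S.Pr q ∧
    (C + 1) * (S.κ q).re ≤ S.ψ v q ∧
      ∀ f, S.Pr f → S.ψ v (f * (1 - q)) ≤ (S.κ (h * (f * (1 - q)))).re := by
  obtain ⟨q, hq, hφ⟩ := S.spec_chr hI.1 (C + 1)
  refine ⟨q, hq, ?_, fun f hf => ?_⟩
  · have h1 := H (h - q) ⟨hI.1.sub hq.sa, fun φ => by
      have := hI.2 φ
      rw [map_sub]
      rcases hφ φ with h | h <;> constructor <;> linarith [h.1, h.2]⟩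
    rw [sub_sub_cancel_left, map_neg, mul_neg, map_neg, Complex.neg_re] at h1
    have h2 := S.re_le_of_chr (hq.sa.smul (C + 1)) (hI.1.mul hq.sa) fun φ => by
      rw [φ.r_mul hI.1 hq.sa, map_smul, smul_eq_mul]
      rcases hφ φ with h | h <;> rw [h.1] <;> linarith [h.2]
    rw [S.re_rsmul] at h2
    linarith
  · have hp := hf.mul hq.one_sub
    have h1 := H (h + f * (1 - q)) ⟨hI.1.add hp.sa, fun φ => by
      have := hI.2 φ
      rw [map_add, φ.r_mul hf.sa hq.one_sub.sa, map_sub, φ.r_one]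
      rcases hφ φ with h | h <;> rcases φ.r01 hf with h' | h' <;> rw [h.1, h'] <;>
        constructor <;> linarith [h.2]⟩
    rwa [add_sub_cancel_left] at h1

lemma Setup.rn_cut (S : Setup M) (v : M) {ε : ℝ} (hε : 0 < ε) : ∃ (C : ℝ) (p : M), S.Pr p ∧
    (S.κ (1 - p)).re < ε ∧ ∀ a ∈ S.A, 0 ≤ a → S.ψ v (a * p) ≤ C * (S.κ a).re := by
  have q0 := S.q2_nonneg v
  set C := S.q2 v / ε with hC
  have C0 : 0 ≤ C := by positivity
  obtain ⟨h, hI, H⟩ := S.quad v (C := C + 2) (by positivity)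
  obtain ⟨q, hq, h1, h2⟩ := S.quad_cut C0 hI H
  refine ⟨C + 2, 1 - q, hq.one_sub, ?_, fun a ha h0 => ?_⟩
  · have h3 := S.ψ_mono v hq.le_one
    rw [S.ψ_apply v 1, mul_one] at h3
    have h4 : S.q2 v = C * ε := by rw [hC]; field_simp
    rw [sub_sub_cancel]
    unfold Setup.q2 at h4
    by_contra hn
    nlinarith
  · have e : ∀ a, ((C + 2) • S.ψ 1 - S.ψ v ∘L ((ContinuousLinearMap.mul ℝ M).flip (1 - q))) a
        = (C + 2) * (S.κ a).re - S.ψ v (a * (1 - q)) := fun a => by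
      rw [sub_apply, smul_apply, S.ψ_apply 1, star_one, one_mul, mul_one]; rfl
    have := S.nonneg_of_pr ((C + 2) • S.ψ 1 - S.ψ v ∘L
      ((ContinuousLinearMap.mul ℝ M).flip (1 - q))) (fun f hf => ?_) ha h0
    · rwa [e, sub_nonneg] at this
    · have hp := hf.mul hq.one_sub
      have h3 := S.re_le_of_chr (hI.1.mul hp.sa) (hf.sa.smul (C + 2)) fun φ => by
        have := hI.2 φ
        rw [φ.r_mul hI.1 hp.sa, φ.r_mul hf.sa hq.one_sub.sa, map_smul, smul_eq_mul]
        rcases φ.r01 hq.one_sub with h | h <;> rcases φ.r01 hf with h' | h' <;> rw [h, h'] <;>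
          linarith
      rw [S.re_rsmul] at h3
      rw [e, sub_nonneg]; exact (h2 f hf).trans h3

theorem exists_rn (_X : S.Exp) {u : M} (hu : S.IsNor u) :
    ∃ h ∈ S.A, 0 ≤ h ∧ ∀ a ∈ S.A, S.κ (star u * a * u) = S.κ (h * a) := by
  obtain ⟨C, C0, hC⟩ := hu.bound
  obtain ⟨h, hI, H⟩ := S.quad u (C := C + 2) (by positivity)
  obtain ⟨q, hq, h1, h2⟩ := S.quad_cut C0 hI H
  have q0 : q = 0 := S.eq_zero_of_re hq.nonneg (by
    have := (hC q hq.1 hq.nonneg).1
    rw [S.ψ_apply] at h1; linarith)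
  refine ⟨h, hI.1.1, hI.nonneg, fun a ha => ?_⟩
  have := S.zero_of_pr (S.κ ∘L (ContinuousLinearMap.mulLeftRight ℂ M (star u) u -
    ContinuousLinearMap.mul ℂ M h)) (fun p hp => ?_) ha
  · simpa [sub_eq_zero] using this
  suffices S.ψ u p = (S.κ (h * p)).re by
    simp only [ContinuousLinearMap.comp_apply, sub_apply,
      ContinuousLinearMap.mulLeftRight_apply, ContinuousLinearMap.mul_apply', map_sub]
    rw [S.kap_sa (hu.conj_pr hp).sa.2, S.kap_sa (hI.1.mul hp.sa).2, ← S.ψ_apply, this, sub_self]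
  refine le_antisymm (by simpa [q0] using h2 p hp) (le_of_forall_pos_le_add fun ε hε => ?_)
  have k0 := S.re_nonneg (zero_le_one' M)
  set t := ε / ((S.κ 1).re + 1) with ht
  have t0 : 0 < t := by positivity
  have t1 : t * ((S.κ 1).re + 1) = ε := by rw [ht]; field_simp
  obtain ⟨r, hr, hφ⟩ := S.spec_chr hI.1 t
  have hp1 := hp.mul hr
  have h3 := H (h - t • (p * r)) ⟨hI.1.sub (hp1.sa.smul t), fun φ => by
    have := hI.2 φ
    rw [map_sub, map_smul, φ.r_mul hp.sa hr.sa, smul_eq_mul]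
    rcases hφ φ with h | h <;> rcases φ.r01 hp with h' | h' <;> rw [h.1, h'] <;>
      constructor <;> linarith [h.2]⟩
  rw [sub_sub_cancel_left, map_neg, mul_neg, map_neg, Complex.neg_re, map_smul, mul_smul_comm,
    S.re_rsmul, smul_eq_mul, neg_le_neg_iff, mul_le_mul_iff_right₀ t0] at h3
  have h4 := S.ψ_mono u (S.le_of_chr hp1.sa hp.sa fun φ => by
    rw [φ.r_mul hp.sa hr.sa]
    rcases φ.r01 hr with h | h <;> rcases φ.r01 hp with h' | h' <;> rw [h, h'] <;> norm_num)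
  have h5 := S.re_le_of_chr (hI.1.mul hp.sa) ((hI.1.mul hp1.sa).add (.smul t .one)) fun φ => by
    have := hI.2 φ
    rw [map_add, map_smul, φ.r_mul hI.1 hp1.sa, φ.r_mul hI.1 hp.sa, φ.r_mul hp.sa hr.sa, φ.r_one,
      smul_eq_mul]
    rcases hφ φ with h | h <;> rcases φ.r01 hp with h' | h' <;> rw [h.1, h'] <;> linarith [h.2]
  rw [map_add, Complex.add_re, S.re_rsmul] at h5
  nlinarith

theorem g_proj (X : S.Exp) {u : M} (hu : S.IsNor u) :
    IsStarProjection (star (X.E u) * X.E u) ∧ u * (star (X.E u) * X.E u) = X.E u ∧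
      (star (X.E u) * X.E u) * u = X.E u := by
  have key : ∀ u, S.IsNor u → star (X.E u) * u = star (X.E u) * X.E u := fun u hu => by
    have h1 : ∀ a ∈ S.A, X.E u * a = u * a * star u * X.E u := fun a ha => by
      rw [← X.right a ha, ← X.left _ (hu.memR ha), mul_assoc _ (star u), hu.su, mul_one]
    have h2 : star (X.E u) * u ∈ S.A := S.maximal _ fun a ha => by
      have := congrArg star (h1 _ (star_mem ha))
      simp only [star_mul, star_star] at this
      rw [← mul_assoc, this]; simp only [mul_assoc, hu.su, mul_one]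
    rw [← X.left _ (star_mem (X.mem u)), X.fix _ h2]
  have sa : star (star (X.E u) * X.E u) = star (X.E u) * X.E u := by simp
  have h1 := key u hu
  have h2 := congrArg star h1
  rw [sa, star_mul, star_star] at h2
  have h3 := key _ hu.star
  rw [X.star, star_star, S.comm _ (X.mem u) _ (star_mem (X.mem u))] at h3
  refine ⟨⟨?_, sa⟩, by rw [← h2, hu.us'], by rw [← h3, mul_assoc, hu.su, mul_one]⟩
  rw [IsIdempotentElem]
  conv_lhs => enter [1]; rw [← h1]
  conv_lhs => enter [2]; rw [← h2]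
  rw [mul_assoc, hu.us']

lemma g_pr (X : S.Exp) {u : M} (hu : S.IsNor u) : S.Pr (star (X.E u) * X.E u) :=
  ⟨mul_mem (star_mem (X.mem u)) (X.mem u), (g_proj X hu).1⟩

lemma exists_cut {w : M} (hw : w ∉ S.A) : ∃ p, S.Pr p ∧ (1 - p) * w * p ≠ 0 := by
  by_contra! h
  refine hw (S.mem_of_pr fun p hp => ?_)
  have h1 := h p hp
  have h2 := h _ hp.one_sub
  rw [sub_mul, sub_mul, one_mul, sub_eq_zero] at h1
  rw [sub_sub_cancel, mul_sub, mul_one, sub_eq_zero] at h2
  exact h2.trans h1.symm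

lemma frolik_step (X : S.Exp) {u f : M} (hu : S.IsNor u) (hf : S.Pr f) (h0 : f ≠ 0)
    (hg : star (X.E u) * X.E u * f = 0) : ∃ e, S.Pr e ∧ e ≠ 0 ∧ f * e = e ∧ e * u * e = 0 := by
  obtain ⟨p, hp, h⟩ := exists_cut (S := S) (w := u * f) fun h => h0 (by
    have := X.fix _ h
    rw [X.right _ hf.1, ← (g_proj X hu).2.1, mul_assoc, hg, mul_zero] at this
    rw [← hu.su' f, ← this, mul_zero])
  have ht := hu.conj_pr hp.one_sub
  have e1 : u * (star u * (1 - p) * u * (f * p)) = (1 - p) * (u * f) * p := by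
    simp only [mul_assoc, hu.us']
  refine ⟨_, ht.mul (hf.mul hp), fun h' => h (by rw [← e1, h', mul_zero]), ?_, ?_⟩
  · rw [← mul_assoc, S.comm _ hf.1 _ ht.1, mul_assoc, hf.sq']
  · rw [mul_assoc _ u, e1]
    simp only [mul_assoc]
    rw [← mul_assoc p, hp.2.mul_one_sub_self]; simp

lemma exists_max_pr (T : Set M) (hT : ∀ e ∈ T, S.Pr e) (h0 : (0 : M) ∈ T)
    (hc : ∀ (c : Set M) [(atTop : Filter c).NeBot] (y : M), c ⊆ T →
      S.Lim atTop (fun i : c => i.1) y → y ∈ T) : ∃ e, Maximal (· ∈ T) e := by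
  obtain ⟨e, -, he⟩ := zorn_le_nonempty₀ T (fun c hcT hc' y hy => by
    have : Nonempty c := ⟨⟨y, hy⟩⟩
    have : IsDirectedOrder c := ⟨fun a b => by
      obtain ⟨z, hz, h1, h2⟩ := hc'.directedOn a.1 a.2 b.1 b.2
      exact ⟨⟨z, hz⟩, h1, h2⟩⟩
    obtain ⟨e, he⟩ := S.mono_lim (x := fun i : c => i.1) (fun i => (hT _ (hcT i.2)).norm_le)
      fun _ _ h => h
    refine ⟨e, hc c e hcT he, fun z hz => ?_⟩
    exact (Setup.Lim.const S atTop z).le he (fun _ => (hT _ (hcT hz)).sa.2)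
      (fun i => (hT _ (hcT i.2)).sa.2) (Ici_mem_atTop (⟨z, hz⟩ : c))) 0 h0
  exact ⟨e, he⟩

theorem frolik (X : S.Exp) {u : M} (hu : S.IsNor u) : ∃ e : Fin 3 → M, (∀ i, e i ∈ S.A) ∧
    (∀ i, IsStarProjection (e i)) ∧ (∀ i, e i * u * e i = 0) ∧
    star (X.E u) * X.E u + ∑ i, e i = 1 := by
  have hg := g_pr X hu
  have gu := (g_proj X hu).2.1.trans (g_proj X hu).2.2.symm
  generalize hgd : star (X.E u) * X.E u = g at hg gu ⊢
  obtain ⟨e, ⟨he, ge, eue⟩, hmax⟩ := exists_max_pr (S := S)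
    {e | S.Pr e ∧ g * e = 0 ∧ e * u * e = 0} (fun _ h => h.1) ⟨.zero, by simp, by simp⟩
    fun c _ y hc h => ⟨⟨h.mem fun i => (hc i.2).1.1, h.proj fun i => (hc i.2).1.2⟩,
      (h.mul_left g).eq (.const S _ 0) (.of_forall fun i => (hc i.2).2.1),
      ((h.mul_right u).mul h).eq (.const S _ 0) (.of_forall fun i => (hc i.2).2.2)⟩
  have gu' : g * star u = star u * g := by
    have := congrArg star gu
    rwa [star_mul, star_mul, hg.star_eq] at this
  have ese : e * star u * e = 0 := by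
    have := congrArg star eue
    rwa [star_mul, star_mul, he.star_eq, star_zero, ← mul_assoc] at this
  have hs : S.Pr (u * e * star u) := by simpa using hu.star.conj_pr he
  have ht := hu.conj_pr he
  set s := u * e * star u with hsd
  set t := star u * e * u with htd
  have sus : s * u * s = 0 := by
    have : s * u * s = u * (e * u * e) * star u := by simp only [hsd, mul_assoc, hu.su']
    rw [this, eue]; simp
  have tut : t * u * t = 0 := by
    have : t * u * t = star u * (e * u * e) * u := by simp only [htd, mul_assoc, hu.us']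
    rw [this, eue]; simp
  have es : e * s = 0 := by rw [hsd, ← mul_assoc, ← mul_assoc, eue, zero_mul]
  have et : e * t = 0 := by rw [htd, ← mul_assoc, ← mul_assoc, ese, zero_mul]
  have gs : g * s = 0 := by rw [hsd, ← mul_assoc, ← mul_assoc, ← gu, mul_assoc u, ge]; simp
  have gt : g * t = 0 := by rw [htd, ← mul_assoc, ← mul_assoc, gu', mul_assoc _ g, ge]; simp
  have h3 := ht.mul hs.one_sub
  refine ⟨![e, s, t * (1 - s)], fun i => ?_, fun i => ?_, fun i => ?_, ?_⟩
  · fin_cases i; exacts [he.1, hs.1, h3.1]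
  · fin_cases i; exacts [he.2, hs.2, h3.2]
  · fin_cases i
    · exact eue
    · exact sus
    · show t * (1 - s) * u * (t * (1 - s)) = 0
      conv_lhs => enter [1, 1]; rw [S.comm _ ht.1 _ hs.one_sub.1]
      rw [mul_assoc (1 - s), mul_assoc (1 - s), ← mul_assoc (t * u), tut]; simp
  simp only [Fin.sum_univ_three, Matrix.cons_val_zero, Matrix.cons_val_one, Matrix.cons_val]
  have hf := ((hg.one_sub.mul he.one_sub).mul hs.one_sub).mul ht.one_sub
  set f := (1 - g) * (1 - e) * (1 - s) * (1 - t) with hfd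
  have fφ : ∀ φ : Chr S, φ.r f = (1 - φ.r g) * (1 - φ.r e) * (1 - φ.r s) * (1 - φ.r t) :=
    fun φ => by
      rw [hfd, φ.r_mul ((hg.one_sub.mul he.one_sub).mul hs.one_sub).sa ht.one_sub.sa,
        φ.r_mul (hg.one_sub.mul he.one_sub).sa hs.one_sub.sa, φ.r_mul hg.one_sub.sa he.one_sub.sa]
      simp
  have fo : ∀ a, S.Pr a → (∀ φ : Chr S, φ.r a = 1 → φ.r f = 0) → a * f = 0 := fun a ha h =>
    S.eq_of_chr (ha.mul hf).sa .zero fun φ => by
      rw [φ.r_mul ha.sa hf.sa, map_zero]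
      rcases φ.r01 ha with h' | h'
      · rw [h', zero_mul]
      · rw [h φ h', mul_zero]
  have f0 : f = 0 := by
    by_contra f0
    obtain ⟨d, hd, d0, fd, dud⟩ := frolik_step X hu hf f0
      (hgd ▸ fo g hg fun φ h => by simp [fφ, h])
    have od : ∀ a, S.Pr a → (∀ φ : Chr S, φ.r a = 1 → φ.r f = 0) → a * d = 0 := fun a ha h => by
      rw [← fd, ← mul_assoc, fo a ha h, zero_mul]
    have ed := od e he fun φ h => by simp [fφ, h]
    have sd := od s hs fun φ h => by simp [fφ, h]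
    have td := od t ht fun φ h => by simp [fφ, h]
    have k1 : e * u * d = 0 := by
      have : e * u * d = u * (t * d) := by simp only [htd, mul_assoc, hu.us']
      rw [this, td, mul_zero]
    have k2 : d * u * e = 0 := by
      have : d * u * e = d * s * u := by simp only [hsd, mul_assoc, hu.su, mul_one]
      rw [this, S.comm _ hd.1 _ hs.1, sd, zero_mul]
    have := hmax (y := e + d) ⟨he.add hd ed, by
      rw [mul_add, ge, od g hg fun φ h => by simp [fφ, h], add_zero], by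
      simp only [add_mul, mul_add, eue, k1, k2, dud, add_zero]⟩ (le_add_of_nonneg_right hd.nonneg)
    exact d0 (le_antisymm (by simpa using this) hd.nonneg)
  refine S.eq_of_chr (hg.sa.add ((he.sa.add hs.sa).add h3.sa)) .one fun φ => ?_
  have a0 := fφ φ
  have a1 := congrArg φ.r ge
  have a2 := congrArg φ.r gs
  have a3 := congrArg φ.r gt
  have a4 := congrArg φ.r es
  have a5 := congrArg φ.r et
  rw [f0, map_zero] at a0
  rw [φ.r_mul hg.sa he.sa, map_zero] at a1
  rw [φ.r_mul hg.sa hs.sa, map_zero] at a2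
  rw [φ.r_mul hg.sa ht.sa, map_zero] at a3
  rw [φ.r_mul he.sa hs.sa, map_zero] at a4
  rw [φ.r_mul he.sa ht.sa, map_zero] at a5
  rw [map_add, map_add, map_add, φ.r_mul ht.sa hs.one_sub.sa, map_sub, φ.r_one]
  rcases φ.r01 hg with h1 | h1 <;> rcases φ.r01 he with h2 | h2 <;>
    rcases φ.r01 hs with h3 | h3 <;> rcases φ.r01 ht with h4 | h4 <;>
    simp only [h1, h2, h3, h4] at a0 a1 a2 a3 a4 a5 ⊢ <;> norm_num at *

end Vale.Agent.P078
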