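import Mathlib

namespace Vale.Agent.P078

open Finset Polynomial Filter Topology Asymptotics Metric

/-- formal logarithmic derivative -/
noncomputable def ld (q : ℂ[X]) : PowerSeries ℂ :=
  ((derivative q : ℂ[X]) : PowerSeries ℂ) * (q : PowerSeries ℂ)⁻¹

/-- truncated logarithm at `1` -/
noncomputable def TL (n : ℕ) (q : ℂ[X]) : ℂ :=
  ∑ j ∈ range n, PowerSeries.coeff j (ld q) / (j + 1)

lemma cc_ne {q : ℂ[X]} (h : q.coeff 0 = 1) :
    PowerSeries.constantCoeff (q : PowerSeries ℂ) ≠ 0 := by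
  rw [Polynomial.constantCoeff_coe, h]; exact one_ne_zero

lemma ld_mul_self {q : ℂ[X]} (h : q.coeff 0 = 1) :
    ld q * q = ((derivative q : ℂ[X]) : PowerSeries ℂ) := by
  rw [ld, mul_assoc, PowerSeries.inv_mul_cancel _ (cc_ne h), mul_one]

lemma ld_mul {p q : ℂ[X]} (hp : p.coeff 0 = 1) (hq : q.coeff 0 = 1) :
    ld (p * q) = ld p + ld q := by
  have h : (p * q).coeff 0 = 1 := by rw [mul_coeff_zero, hp, hq, one_mul]
  have h0 : ((p * q : ℂ[X]) : PowerSeries ℂ) ≠ 0 := fun e => cc_ne h (by rw [e, map_zero])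
  refine mul_right_cancel₀ h0 ?_
  rw [ld_mul_self h, derivative_mul, Polynomial.coe_add, Polynomial.coe_mul, Polynomial.coe_mul,
    Polynomial.coe_mul, ← ld_mul_self hp, ← ld_mul_self hq]
  ring

lemma TL_mul (n : ℕ) {p q : ℂ[X]} (hp : p.coeff 0 = 1) (hq : q.coeff 0 = 1) :
    TL n (p * q) = TL n p + TL n q := by
  simp only [TL, ld_mul hp hq, map_add, add_div, sum_add_distrib]

lemma TL_one (n : ℕ) : TL n 1 = 0 := by simp [TL, ld]

lemma TL_congr {n : ℕ} {p q : ℂ[X]} (hp : p.coeff 0 = 1) (hq : q.coeff 0 = 1)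
    (h : X ^ (n + 1) ∣ p - q) : TL n p = TL n q := by
  obtain ⟨s, hs⟩ := h
  have h1 : (PowerSeries.X : PowerSeries ℂ) ^ n ∣ ld p - ld q := by
    have e : ld p - ld q = ((derivative p * q - derivative q * p : ℂ[X]) : PowerSeries ℂ) *
        ((p : PowerSeries ℂ)⁻¹ * (q : PowerSeries ℂ)⁻¹) := by
      have e1 := PowerSeries.mul_inv_cancel _ (cc_ne hp)
      have e2 := PowerSeries.mul_inv_cancel _ (cc_ne hq)
      rw [ld, ld, Polynomial.coe_sub, Polynomial.coe_mul, Polynomial.coe_mul]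
      linear_combination (- ((derivative p : ℂ[X]) : PowerSeries ℂ) * (p : PowerSeries ℂ)⁻¹) * e2 +
        ((derivative q : ℂ[X]) : PowerSeries ℂ) * (q : PowerSeries ℂ)⁻¹ * e1
    have e2 : derivative p * q - derivative q * p = X ^ n * ((C ((n + 1 : ℕ) : ℂ) * s +
        X * derivative s) * q - derivative q * X * s) := by
      rw [eq_add_of_sub_eq hs, derivative_add, derivative_mul, derivative_X_pow]
      simp only [Nat.add_sub_cancel]
      ring
    rw [e, e2, Polynomial.coe_mul, Polynomial.coe_pow, Polynomial.coe_X, mul_assoc]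
    exact dvd_mul_right _ _
  refine sum_congr rfl fun j hj => ?_
  have := PowerSeries.X_pow_dvd_iff.1 h1 j (mem_range.1 hj)
  rw [map_sub, sub_eq_zero] at this
  rw [this]

lemma TL_meas {α : Type*} [MeasurableSpace α] (n : ℕ) {q : α → ℂ[X]} (h0 : ∀ x, (q x).coeff 0 = 1)
    (h : ∀ k, Measurable fun x => (q x).coeff k) : Measurable fun x => TL n (q x) := by
  have key : ∀ j, Measurable fun x => PowerSeries.coeff j (ld (q x)) := by
    intro j
    induction j using Nat.strong_induction_on with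
    | _ j ih =>
    have : (fun x => PowerSeries.coeff j (ld (q x))) = fun x => (q x).coeff (j + 1) * (j + 1) -
        ∑ k ∈ range j, PowerSeries.coeff k (ld (q x)) * (q x).coeff (j - k) := by
      funext x
      have := congrArg (PowerSeries.coeff j) (ld_mul_self (h0 x))
      rw [PowerSeries.coeff_mul, Nat.sum_antidiagonal_eq_sum_range_succ_mk, sum_range_succ,
        Polynomial.coeff_coe, Polynomial.coeff_coe, coeff_derivative] at this
      simp only [Polynomial.coeff_coe, Nat.sub_self, h0, mul_one] at this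
      rw [← this]; ring
    rw [this]
    exact ((h _).mul_const _).sub (Finset.measurable_sum _ fun k hk =>
      (ih k (mem_range.1 hk)).mul (h _))
  exact Finset.measurable_sum _ fun j _ => (key j).div_const _

lemma poly_zero_of_bigO {P : ℂ[X]} {n : ℕ} (hP : P.natDegree ≤ n)
    (h : (fun ζ => P.eval ζ) =O[𝓝 0] fun ζ : ℂ => ‖ζ‖ ^ (n + 1)) : P = 0 := by
  by_contra h0
  obtain ⟨Q, hQ, hd⟩ := exists_eq_pow_rootMultiplicity_mul_and_not_dvd P h0 0
  set k := P.rootMultiplicity 0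
  have hk : k ≤ n := le_trans (natDegree_le_of_dvd ⟨Q, hQ⟩ h0 |>.trans' (by simp)) hP
  obtain ⟨c, hc⟩ := h.bound
  have h1 : ∀ᶠ ζ in 𝓝[≠] (0 : ℂ), ‖Q.eval ζ‖ ≤ c * ‖ζ‖ ^ (n + 1 - k) := by
    filter_upwards [mem_nhdsWithin_of_mem_nhds hc, self_mem_nhdsWithin] with ζ h1 h2
    have h3 : 0 < ‖ζ‖ ^ k := pow_pos (norm_pos_iff.2 h2) k
    rw [hQ] at h1
    simp only [map_zero, sub_zero, eval_mul, eval_pow, eval_X, norm_mul, norm_pow, norm_norm] at h1
    refine le_of_mul_le_mul_left (h1.trans (le_of_eq ?_)) h3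
    rw [mul_left_comm, ← pow_add]
    congr 2
    omega
  have h2 : Tendsto (fun ζ : ℂ => c * ‖ζ‖ ^ (n + 1 - k)) (𝓝[≠] 0) (𝓝 0) := by
    have : Continuous fun ζ : ℂ => c * ‖ζ‖ ^ (n + 1 - k) := by fun_prop
    have := (this.tendsto 0).mono_left (nhdsWithin_le_nhds (s := {0}ᶜ))
    rwa [norm_zero, zero_pow (by omega), mul_zero] at this
  have h3 := le_of_tendsto_of_tendsto
    ((Q.continuous.norm.tendsto 0).mono_left (nhdsWithin_le_nhds (s := {0}ᶜ))) h2 h1
  exact hd (dvd_iff_isRoot.2 (norm_le_zero_iff.1 h3))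

theorem TL_approx (n : ℕ) {p q : ℂ[X]} (hp : p.coeff 0 = 1) (hq : q.coeff 0 = 1) {R B : ℝ}
    (hR : 1 < R) (h0 : ∀ ζ ∈ closedBall (0 : ℂ) R, q.eval ζ ≠ 0)
    (h1 : ∀ ζ ∈ closedBall (0 : ℂ) R, p.eval ζ / q.eval ζ ∈ Complex.slitPlane)
    (h2 : ∀ ζ ∈ closedBall (0 : ℂ) R, ‖Complex.log (p.eval ζ / q.eval ζ)‖ ≤ B) :
    ‖Complex.log (p.eval 1 / q.eval 1) - (TL n p - TL n q)‖ ≤ B * (R⁻¹ ^ n / (R - 1)) := by
  have hR0 : 0 < R := by linarith
  let G : ℂ → ℂ := fun ζ => Complex.log (p.eval ζ / q.eval ζ)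
  have hG : ∀ ζ ∈ closedBall (0 : ℂ) R, HasDerivAt G (((derivative p).eval ζ * q.eval ζ -
      (derivative q).eval ζ * p.eval ζ) / (p.eval ζ * q.eval ζ)) ζ := fun ζ hζ => by
    have hp0 : p.eval ζ ≠ 0 := fun e => by simpa [e] using h1 ζ hζ
    have := h0 ζ hζ
    refine (((p.hasDerivAt ζ).div (q.hasDerivAt ζ) this).clog (h1 ζ hζ)).congr_deriv ?_
    simp only [Pi.div_apply]
    field_simp
  lift R to NNReal using hR0.le
  have hS := DifferentiableOn.hasFPowerSeriesOnBall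
    (fun ζ hζ => (hG ζ hζ).differentiableAt.differentiableWithinAt) (by exact_mod_cast hR0)
  set S := cauchyPowerSeries G 0 R
  have hB : 0 ≤ B := (norm_nonneg _).trans (h2 0 (mem_closedBall_self hR0.le))
  have hc : ∀ j, ‖S.coeff j‖ ≤ B * (R : ℝ)⁻¹ ^ j := fun j => by
    rw [← FormalMultilinearSeries.norm_apply_eq_norm_coef]
    refine (norm_cauchyPowerSeries_le G 0 R j).trans ?_
    rw [abs_of_pos hR0]
    refine mul_le_mul_of_nonneg_right ?_ (by positivity)
    have := intervalIntegral.norm_integral_le_of_norm_le_const (a := 0) (b := 2 * Real.pi) (C := B)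
      (f := fun θ => ‖G (circleMap 0 R θ)‖) fun θ _ => by
        rw [norm_norm]; exact h2 _ (sphere_subset_closedBall (circleMap_mem_sphere 0 hR0.le θ))
    rw [sub_zero, abs_of_pos (by positivity)] at this
    rw [inv_mul_le_iff₀ (by positivity), mul_comm (2 * Real.pi) B]
    exact (le_abs_self _).trans this
  let P₁ : ℂ[X] := ∑ j ∈ range (n + 1), monomial j (S.coeff j)
  let P₂ : ℂ[X] := ∑ j ∈ range n, monomial (j + 1) (PowerSeries.coeff j (ld p - ld q) / (j + 1))
  have hdP : derivative P₂ = ∑ j ∈ range n, monomial j (PowerSeries.coeff j (ld p - ld q)) := by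
    rw [derivative_sum]
    refine sum_congr rfl fun j _ => ?_
    have : (j : ℂ) + 1 ≠ 0 := by exact_mod_cast j.succ_ne_zero
    rw [derivative_monomial_succ, div_mul_cancel₀ _ this]
  obtain ⟨N, hN⟩ : X ^ n ∣ derivative p * q - derivative q * p - derivative P₂ * (p * q) := by
    rw [X_pow_dvd_iff]
    intro d hd
    have e : ((derivative p * q - derivative q * p - derivative P₂ * (p * q) : ℂ[X]) :
        PowerSeries ℂ) = (ld p - ld q - (derivative P₂ : ℂ[X])) * (p * q) := by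
      simp only [Polynomial.coe_sub, Polynomial.coe_mul]
      rw [← ld_mul_self hp, ← ld_mul_self hq]
      ring
    rw [← Polynomial.coeff_coe, e]
    refine PowerSeries.X_pow_dvd_iff.1 (Dvd.dvd.mul_right ?_ _) d hd
    rw [PowerSeries.X_pow_dvd_iff]
    intro k hk
    rw [map_sub, Polynomial.coeff_coe, hdP, finsetSum_coeff]
    simp [coeff_monomial, hk]
  have hO2 : (fun ζ => G ζ - P₂.eval ζ) =O[𝓝 0] fun ζ : ℂ => ‖ζ‖ ^ (n + 1) := by
    have hpq : ∀ ζ ∈ closedBall (0 : ℂ) R, p.eval ζ * q.eval ζ ≠ 0 := fun ζ hζ =>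
      mul_ne_zero (fun e => by simpa [e] using h1 ζ hζ) (h0 ζ hζ)
    obtain ⟨c, hc⟩ := (isCompact_closedBall (0 : ℂ) R).exists_bound_of_continuousOn
      (f := fun ζ => N.eval ζ / (p.eval ζ * q.eval ζ))
      (N.continuousOn.div (p.continuousOn.mul q.continuousOn) hpq)
    refine IsBigO.of_bound c ?_
    filter_upwards [closedBall_mem_nhds (0 : ℂ) hR0] with ζ hζ
    have hsub : closedBall (0 : ℂ) ‖ζ‖ ⊆ closedBall 0 R :=
      closedBall_subset_closedBall (mem_closedBall_zero_iff.1 hζ)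
    have := (convex_closedBall (0 : ℂ) ‖ζ‖).norm_image_sub_le_of_norm_hasDerivWithin_le
      (f := fun ζ => G ζ - P₂.eval ζ) (f' := fun ξ => ξ ^ n * (N.eval ξ / (p.eval ξ * q.eval ξ)))
      (C := ‖ζ‖ ^ n * c) (fun ξ hξ => by
        refine (((hG ξ (hsub hξ)).sub (P₂.hasDerivAt ξ)).congr_deriv ?_).hasDerivWithinAt
        have e := congrArg (eval ξ) hN
        simp only [eval_sub, eval_mul, eval_pow, eval_X] at e
        have := hpq ξ (hsub hξ)
        rw [← mul_div_assoc, ← e, sub_div _ (eval ξ (derivative P₂) * _), mul_div_cancel_right₀ _ this])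
      (fun ξ hξ => by
        rw [norm_mul, norm_pow]
        exact mul_le_mul (pow_le_pow_left₀ (norm_nonneg _) (mem_closedBall_zero_iff.1 hξ) n)
          (hc ξ (hsub hξ)) (norm_nonneg _) (by positivity))
      (mem_closedBall_self (norm_nonneg ζ)) (mem_closedBall_zero_iff.2 le_rfl)
    have e0 : G 0 - P₂.eval 0 = 0 := by
      simp [G, P₂, ← coeff_zero_eq_eval_zero, hp, hq, coeff_monomial]
    rw [e0, sub_zero, sub_zero] at this
    rw [norm_pow, norm_norm, pow_succ]
    linarith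
  have hO1 : (fun ζ => G ζ - P₁.eval ζ) =O[𝓝 0] fun ζ : ℂ => ‖ζ‖ ^ (n + 1) := by
    refine (hS.hasFPowerSeriesAt.isBigO_sub_partialSum_pow (n + 1)).congr_left fun ζ => ?_
    simp [FormalMultilinearSeries.partialSum, P₁, eval_finsetSum, mul_comm]
  have hP : P₁ - P₂ = 0 := poly_zero_of_bigO (n := n) ((natDegree_sub_le _ _).trans (max_le
    (natDegree_sum_le_of_forall_le _ _ fun j hj => (natDegree_monomial_le _).trans
      (Nat.lt_succ_iff.1 (mem_range.1 hj)))
    (natDegree_sum_le_of_forall_le _ _ fun j hj => (natDegree_monomial_le _).trans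
      (mem_range.1 hj)))) ((hO2.sub hO1).congr_left fun ζ => by simp)
  have e1 : TL n p - TL n q = ∑ j ∈ range (n + 1), S.coeff j := by
    have := congrArg (eval 1) (sub_eq_zero.1 hP)
    simp only [P₁, P₂, eval_finsetSum, eval_monomial, one_pow, mul_one, map_sub, sub_div,
      sum_sub_distrib, eval_sub] at this
    rw [this, TL, TL]
  have hsum := hS.hasSum (y := 1) (by
    rw [mem_eball_zero_iff]; simpa using (by exact_mod_cast hR : (1 : NNReal) < R))
  simp only [FormalMultilinearSeries.apply_eq_pow_smul_coeff, one_pow, one_smul, zero_add] at hsum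
  have hgeo : HasSum (fun j => B * (R : ℝ)⁻¹ ^ (n + 1) * (R : ℝ)⁻¹ ^ j)
      (B * (R : ℝ)⁻¹ ^ (n + 1) * (1 - (R : ℝ)⁻¹)⁻¹) :=
    (hasSum_geometric_of_lt_one (by positivity) (inv_lt_one_of_one_lt₀ hR)).mul_left _
  rw [e1]
  refine (((hasSum_nat_add_iff' (n + 1)).2 hsum).norm_le_of_bounded hgeo fun j => ?_).trans
    (le_of_eq ?_)
  · refine (hc _).trans (le_of_eq ?_); ring
  · have : (R : ℝ) - 1 ≠ 0 := by linarith
    rw [pow_succ]
    field_simp

theorem exists_phi {β : ℝ} (hβ : 0 < β) (hβ1 : β ≤ 1) : ∃ (φ : ℂ[X]) (R : ℝ), 1 < R ∧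
    φ.coeff 0 = 0 ∧ φ.eval 1 = 1 ∧ ∀ ζ ∈ closedBall (0 : ℂ) R,
      |(φ.eval ζ).re| ≤ 3 / 2 ∧ |(φ.eval ζ).im| ≤ β / 4 := by
  set ε := β / 20 with hε
  have hε0 : 0 < ε := by positivity
  have hε1 : ε ≤ 1 / 20 := by linarith
  set α := 1 - Real.exp (-1 / ε) with hα
  set α' := 1 - Real.exp (-(5 / 4) / ε) with hα'
  have h1 : Real.exp (-(5 / 4) / ε) < Real.exp (-1 / ε) :=
    Real.exp_lt_exp.2 (div_lt_div_of_pos_right (by norm_num) hε0)
  have h2 : Real.exp (-1 / ε) < 1 := by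
    rw [← Real.exp_zero]; exact Real.exp_lt_exp.2 (div_neg_of_neg_of_pos (by norm_num) hε0)
  have hα0 : 0 < α := by linarith
  have hα1 : α' < 1 := by linarith [Real.exp_pos (-(5 / 4) / ε)]
  have hlim : Tendsto (fun N : ℕ => α' ^ (N + 1) * (1 - α')⁻¹) atTop (𝓝 0) := by
    have := ((tendsto_pow_atTop_nhds_zero_of_lt_one (by linarith : 0 ≤ α') hα1).comp
      (tendsto_add_atTop_nat 1)).mul_const (1 - α')⁻¹
    rwa [zero_mul] at this
  obtain ⟨N, hN⟩ := (hlim.eventually (gt_mem_nhds one_pos)).exists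
  let ψ : ℂ[X] := ∑ j ∈ range (N + 1), monomial j (-ε * ((-1) ^ (j + 1) * (-α) ^ j / j) : ℂ)
  have hψ : ∀ ζ : ℂ, ‖ζ‖ ≤ α' / α → ‖-ε * Complex.log (1 - α * ζ) - ψ.eval ζ‖ ≤ ε := by
    intro ζ hζ
    have h3 : ‖-α * ζ‖ ≤ α' := by
      rw [norm_mul, norm_neg, Complex.norm_real, Real.norm_of_nonneg hα0.le, mul_comm]
      exact (le_div_iff₀ hα0).1 hζ
    have h4 := Complex.norm_log_sub_logTaylor_le N (h3.trans_lt hα1)
    have e : -ε * Complex.log (1 - α * ζ) - ψ.eval ζ =
        -ε * (Complex.log (1 + -α * ζ) - Complex.logTaylor (N + 1) (-α * ζ)) := by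
      simp only [ψ, eval_finsetSum, eval_monomial, Complex.logTaylor, mul_sub, mul_sum]
      congr 1
      · congr 2; ring
      · exact sum_congr rfl fun j _ => by rw [mul_pow]; ring
    rw [e, norm_mul, norm_neg, Complex.norm_real, Real.norm_of_nonneg hε0.le]
    refine mul_le_of_le_one_right hε0.le (h4.trans (le_trans ?_ hN.le))
    refine (div_le_self (mul_nonneg (by positivity) (inv_nonneg.2 (by linarith)))
      (by linarith [(Nat.cast_nonneg N : (0 : ℝ) ≤ N)])).trans ?_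
    exact mul_le_mul (pow_le_pow_left₀ (norm_nonneg _) h3 _)
      (inv_anti₀ (by linarith) (by linarith)) (inv_nonneg.2 (by linarith))
      (pow_nonneg (by linarith) _)
  have hR : 1 < α' / α := by rw [one_lt_div hα0]; linarith
  have hψ1 : ‖1 - ψ.eval 1‖ ≤ ε := by
    have := hψ 1 (by simpa using hR.le)
    have e : (1 - α * 1 : ℂ) = Real.exp (-1 / ε) := by rw [hα]; push_cast; ring
    rw [e, ← Complex.ofReal_log (Real.exp_pos _).le, Real.log_exp] at this
    convert this using 3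
    have : (ε : ℂ) ≠ 0 := by exact_mod_cast hε0.ne'
    push_cast; field_simp
  refine ⟨ψ + C (1 - ψ.eval 1) * X, min (α' / α) 2, lt_min hR one_lt_two, ?_, by simp,
    fun ζ hζ => ?_⟩
  · simp [ψ, coeff_monomial]
  have hζ := mem_closedBall_zero_iff.1 hζ
  have h5 : ‖-ε * Complex.log (1 - α * ζ) - (ψ + C (1 - ψ.eval 1) * X).eval ζ‖ ≤ 3 * ε := by
    rw [eval_add, eval_mul, eval_C, eval_X, ← sub_sub]
    refine (norm_sub_le _ _).trans ?_
    rw [norm_mul]
    nlinarith [hψ ζ (hζ.trans (min_le_left _ _)), hζ.trans (min_le_right _ _), norm_nonneg ζ,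
      norm_nonneg (1 - ψ.eval 1)]
  have h6 : ‖(α * ζ : ℂ)‖ ≤ α' := by
    rw [norm_mul, Complex.norm_real, Real.norm_of_nonneg hα0.le, mul_comm]
    exact (le_div_iff₀ hα0).1 (hζ.trans (min_le_left _ _))
  have h7 : |(Complex.log (1 - α * ζ)).im| ≤ 2 := by
    rw [Complex.log_im]
    refine (Complex.abs_arg_le_pi_div_two_iff.2 ?_).trans (by linarith [Real.pi_le_four])
    have := (Complex.re_le_norm _).trans h6
    simp only [Complex.sub_re, Complex.one_re]
    linarith
  have h8 : |(Complex.log (1 - α * ζ)).re| ≤ 5 / 4 / ε := by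
    rw [Complex.log_re, abs_le]
    have h9 : Real.exp (-(5 / 4) / ε) ≤ ‖(1 - α * ζ : ℂ)‖ := by
      have := norm_sub_norm_le (1 : ℂ) (α * ζ)
      rw [norm_one] at this
      linarith
    refine ⟨?_, ?_⟩
    · have := Real.log_le_log (Real.exp_pos _) h9
      rwa [Real.log_exp, neg_div] at this
    · have h10 := Real.log_le_sub_one_of_pos ((Real.exp_pos _).trans_le h9)
      have h11 := norm_sub_le (1 : ℂ) (α * ζ)
      rw [norm_one] at h11
      have : 1 ≤ 5 / 4 / ε := by rw [le_div_iff₀ hε0]; linarith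
      linarith
  have h9 := (Complex.abs_re_le_norm _).trans h5
  have h10 := (Complex.abs_im_le_norm _).trans h5
  rw [Complex.sub_re, ← Complex.ofReal_neg, Complex.re_ofReal_mul] at h9
  rw [Complex.sub_im, ← Complex.ofReal_neg, Complex.im_ofReal_mul] at h10
  have h11 : |-ε * (Complex.log (1 - α * ζ)).re| ≤ 5 / 4 := by
    rw [abs_mul, abs_neg, abs_of_pos hε0, mul_comm]; exact (le_div_iff₀ hε0).1 h8
  have h12 : |-ε * (Complex.log (1 - α * ζ)).im| ≤ 2 * ε := by
    rw [abs_mul, abs_neg, abs_of_pos hε0, mul_comm]; gcongr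
  rw [abs_le] at h9 h10 h11 h12
  constructor <;> rw [abs_le] <;> constructor <;> linarith

end Vale.Agent.P078
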