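import Vale.Agent.P078.Fin5
import Vale.Agent.P078.Trunc

namespace Vale.Agent.P078

open Finset ComplexConjugate MeasureTheory Polynomial

variable {V : Type*} [DecidableEq V] {r : ℕ}

/-- normalised polynomial in the interpolation variable -/
noncomputable def qq (φ : ℂ[X]) (c : Finset V → ℂ) (U : Finset V) (z : V → ℂ) : ℂ[X] :=
  ∑ T ∈ U.powerset, C (c T * ∏ y ∈ T, (z y)⁻¹) * φ ^ T.card

/-- truncated integrand -/
noncomputable def tl (n : ℕ) (φ : ℂ[X]) (u v : ℝ) (a : V → V → ℂ) (w : V → Option (Fin r))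
    (μ : V → ℝ) (K : Finset V) (τ : ℝ) : ℝ :=
  (TL n (qq φ (cc a w) K (zz u v w μ (τ * Complex.I)))).re

/-- truncated potential -/
noncomputable def TT (n : ℕ) (φ : ℂ[X]) (u v : ℝ) (a : V → V → ℂ) (w : V → Option (Fin r))
    (μ : V → ℝ) (K : Finset V) : ℝ := ∫ τ in Set.Ioi 0, tl n φ u v a w μ K τ

/-- two-sided truncated potential -/
noncomputable def TP (n : ℕ) (φ : ℂ[X]) (v : ℝ) (a : V → V → ℂ) (w : V → Option (Fin r))
    (μ : V → ℝ) (K : Finset V) : ℝ :=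
  TT n φ (36 / √r) v a w μ K + TT n φ (36 / √r) v (fun i j => - a i j) w μ K

/-- parameters of the local potential with the estimates used by the colouring algorithm -/
structure Par (V : Type*) [DecidableEq V] (r : ℕ) (Λ ε : ℝ) where
  n : ℕ
  φ : ℂ[X]
  v : ℝ
  B : ℝ
  φ0 : φ.coeff 0 = 0
  int : ∀ (a : V → V → ℂ) (w : V → Option (Fin r)) (μ : V → ℝ) (K : Finset V), HZ a K →
    (∀ y, 0 < μ y) → IntegrableOn (tl n φ (36 / √r) v a w μ K) (Set.Ioi 0)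
  bdd : ∀ (a : V → V → ℂ) (w : V → Option (Fin r)) (μ : V → ℝ) (K : Finset V) (i : V), i ∉ K →
    HZ a (insert i K) → (∀ y, 0 < μ y) → (∀ y ∈ K, a i y ≠ 0 → μ y ≤ Λ * μ i) →
    |TP n φ v a w μ (insert i K) - TP n φ v a w μ K| ≤ B * μ i
  low : ∀ (a : V → V → ℂ) (w : V → Option (Fin r)) (μ : V → ℝ) (K : Finset V) (i : V), i ∉ K →
    HZ a (insert i K) → (∀ y, 0 < μ y) → (∀ y ∈ K, a i y ≠ 0 → μ y ≤ Λ * μ i) →
    - (ε * μ i) ≤ TP n φ v a w μ (insert i K) - TP n φ v a w μ K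
  step : ∀ (a : V → V → ℂ) (w : V → Option (Fin r)) (μ : V → ℝ) (K : Finset V) (i : V), i ∉ K →
    HZ a (insert i K) → (∀ y, 0 < μ y) → (∀ y ∈ K, a i y ≠ 0 → μ y ≤ Λ * μ i) →
    ∃ c, TP n φ v a (Function.update w i (some c)) μ (insert i K) ≤
      TP n φ v a (Function.update w i none) μ (insert i K) + ε * μ i
  init : ∀ (a : V → V → ℂ) (μ : V → ℝ) (K : Finset V) (i : V), i ∉ K →
    HZ a (insert i K) → (∀ y, 0 < μ y) → (∀ y ∈ K, μ y ≤ μ i) →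
    TP n φ v a (fun _ => (none : Option (Fin r))) μ (insert i K) -
      TP n φ v a (fun _ => (none : Option (Fin r))) μ K ≤ ε * μ i
  final : ∀ (a : V → V → ℂ) (w : V → Option (Fin r)) (μ : V → ℝ) (K : Finset V) (σ : V → Fin r)
    (x : V → ℂ) (μ₀ : ℝ), HZ a K → (∀ y, 0 < μ y) →
    (∀ i ∈ K, ∀ y ∈ K, a i y ≠ 0 → μ y ≤ Λ * μ i) → (∀ i ∈ K, w i = some (σ i)) → 0 < μ₀ →
    (∀ i ∈ K, μ₀ ≤ μ i) → 2880 / √r * ∑ i ∈ K, ‖x i‖ ^ 2 <
      ‖∑ i ∈ K, ∑ j ∈ K, conj (x i) * pin a σ i j * x j‖ →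
    36 / √r * μ₀ - ε * ∑ i ∈ K, μ i ≤ TP n φ v a w μ K

end Vale.Agent.P078
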