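import Vale.Agent.P078.Bar3
import Vale.Agent.P078.Arrow

namespace Vale.Agent.P078

open Finset ComplexConjugate Polynomial Lagrange MeasureTheory

variable {V : Type*} [DecidableEq V] {r : ℕ}

/-- rescaling of coloured sites -/
def th (o : Option (Fin r)) : ℝ := if o = none then 1 else 40

lemma th_ge (o : Option (Fin r)) : 1 ≤ th o := by unfold th; split_ifs <;> norm_num

/-- the ray with one bath pole -/
noncomputable def zt (u v m : ℝ) (t : ℂ) : ℂ := u + t / m - 4 * v * m / (t - v * m)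

noncomputable def zz (u v : ℝ) (w : V → Option (Fin r)) (μ : V → ℝ) (t : ℂ) (y : V) : ℂ :=
  th (w y) * zt u v (μ y) t

lemma zt_Ar (u v : ℝ) {m : ℝ} (hm : 0 < m) (t : ℂ) :
    Ar (u * m) (fun _ : Unit => 4 * v * m ^ 2) (fun _ => v * m) t = m * zt u v m t := by
  have : (m : ℂ) ≠ 0 := by exact_mod_cast hm.ne'
  simp only [Ar, zt, Fintype.sum_unique]
  push_cast
  field_simp
  ring

lemma zt_im (u : ℝ) {v m : ℝ} (hv : 0 ≤ v) (hm : 0 < m) {t : ℂ} (ht : 0 < t.im) :
    0 < (zt u v m t).im := by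
  have := Ar_im (U := u * m) (g := fun _ : Unit => 4 * v * m ^ 2) (v := fun _ => v * m)
    (fun _ => by positivity) ht
  rw [zt_Ar u v hm, Complex.im_ofReal_mul] at this
  exact pos_of_mul_pos_of_pos_left' this hm
where
  pos_of_mul_pos_of_pos_left' {a b : ℝ} (h : 0 < a * b) (ha : 0 < a) : 0 < b :=
    (pos_iff_pos_of_mul_pos h).1 ha

omit [DecidableEq V] in
lemma zz_im (u : ℝ) {v : ℝ} (hv : 0 ≤ v) (w : V → Option (Fin r)) {μ : V → ℝ} (hμ : ∀ y, 0 < μ y)
    {t : ℂ} (ht : 0 < t.im) (y : V) : 0 < (zz u v w μ t y).im := by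
  rw [zz, Complex.im_ofReal_mul]
  exact mul_pos (one_pos.trans_le (th_ge _)) (zt_im u hv (hμ y) ht)

omit [DecidableEq V] in
lemma zz_conj (u v : ℝ) (w : V → Option (Fin r)) (μ : V → ℝ) (t : ℂ) (y : V) :
    conj (zz u v w μ t y) = zz u v w μ (conj t) y := by
  simp [zz, zt, Complex.conj_ofNat]

lemma PX_deg (c : Finset V → ℂ) (U : Finset V) {n d : V → ℂ[X]} (hn : ∀ y, (n y).natDegree ≤ 2)
    (hd : ∀ y, (d y).natDegree ≤ 1) : (PX c U n d).natDegree ≤ 2 * U.card ∧
      (PX c U n d).coeff (2 * U.card) = (∏ y ∈ U, (n y).coeff 2) * c ∅ := by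
  induction U using Finset.induction_on generalizing c with
  | empty => simp [PX_empty]
  | insert j U hj ih =>
    rw [PX_insert _ hj, card_insert_of_notMem hj, prod_insert hj]
    have h1 := (natDegree_mul_le (p := d j) (q := PX (fun T => c (insert j T)) U n d)).trans
      (add_le_add (hd j) (ih _).1)
    refine ⟨(natDegree_add_le _ _).trans (max_le ?_ (by omega)), ?_⟩
    · exact natDegree_mul_le.trans (by have := (ih c).1; have := hn j; omega)
    · rw [coeff_add, coeff_eq_zero_of_natDegree_lt (p := d j * _) (by omega), add_zero,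
        show 2 * (U.card + 1) = 2 + 2 * U.card by ring,
        coeff_mul_add_eq_of_natDegree_le (hn j) (ih c).1, (ih c).2, mul_assoc]

theorem rep (hr : 0 < r) {a : V → V → ℂ} {w : V → Option (Fin r)} {K : Finset V} (h : HC a w K)
    (u : ℝ) {v : ℝ} (hv : 0 ≤ v) {μ : V → ℝ} (hμ : ∀ y, 0 < μ y) :
    ∃ (m : ℕ) (p : Fin m → ℝ), (∀ l, (∀ y ∈ K, (p l : ℂ) ≠ v * μ y) →
      Pw a w K (zz u v w μ (p l)) = 0) ∧ ∀ i ∉ K, ∀ o, HC a (Function.update w i o) (insert i K) →
      ∃ γ : Fin m → ℝ, (∀ l, 0 ≤ γ l) ∧ ∀ t : ℂ, (∀ y ∈ K, t ≠ v * μ y) → (∀ l, t ≠ p l) →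
        Bw a (Function.update w i o) K i (zz u v w μ t) =
          - (∑ l, γ l / (t - p l)) * Pw a w K (zz u v w μ t) := by
  let d : V → ℂ[X] := fun y => X - C (v * μ y : ℂ)
  let n : V → ℂ[X] := fun y => C ((th (w y) / μ y : ℝ) : ℂ) *
    ((X + C (u * μ y : ℂ)) * (X - C (v * μ y : ℂ)) - C (4 * v * μ y ^ 2 : ℂ))
  have hn : ∀ y, (n y).natDegree ≤ 2 := fun y => by simp only [n]; compute_degree
  have hd : ∀ y, (d y).natDegree ≤ 1 := fun y => by simp only [d]; compute_degree
  have hn2 : ∀ y, (n y).coeff 2 = ((th (w y) / μ y : ℝ) : ℂ) := fun y => by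
    have : (X + C (u * μ y : ℂ)) * (X - C (v * μ y : ℂ)) - C (4 * v * μ y ^ 2 : ℂ) =
        X ^ 2 + C (u * μ y - v * μ y : ℂ) * X - C (u * μ y * (v * μ y) + 4 * v * μ y ^ 2 : ℂ) := by
      simp only [map_sub, map_add, map_mul (C : ℂ →+* ℂ[X]) (u * μ y : ℂ)]; ring
    simp only [n, this, coeff_C_mul, coeff_sub, coeff_add, coeff_X_pow, coeff_X, coeff_C]
    simp
  have ev : ∀ (c : Finset V → ℂ) (t : ℂ), (∀ y ∈ K, t ≠ v * μ y) →
      (PX c K n d).eval t = PP c K (zz u v w μ t) * ∏ y ∈ K, (t - v * μ y) := fun c t ht => by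
    rw [PX_eval c K n d t (zz u v w μ t) fun y hy => ?_]
    · simp [d]
    have h1 : (μ y : ℂ) ≠ 0 := by exact_mod_cast (hμ y).ne'
    have h2 := sub_ne_zero.2 (ht y hy)
    simp only [n, d, zz, zt, eval_mul, eval_C, eval_sub, eval_add, eval_X]
    push_cast
    generalize t - v * μ y = D at h2
    field_simp
    ring
  set lc : ℝ := ∏ y ∈ K, th (w y) / μ y with hlc
  have hlc0 : 0 < lc := prod_pos fun y _ => div_pos (one_pos.trans_le (th_ge _)) (hμ y)
  have hlc' : (lc : ℂ) ≠ 0 := by exact_mod_cast hlc0.ne'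
  have hco : ∀ c : Finset V → ℂ, (PX c K n d).coeff (2 * K.card) = lc * c ∅ := fun c => by
    rw [(PX_deg c K hn hd).2, hlc, Complex.ofReal_prod]
    simp only [hn2]
  have hne : ∀ t : ℂ, t.im ≠ 0 → ∀ y ∈ K, t ≠ v * μ y := fun t ht y _ e => ht (by simp [e])
  have hprod : ∀ t : ℂ, (∀ y ∈ K, t ≠ v * μ y) → ∏ y ∈ K, (t - v * μ y) ≠ 0 := fun t ht =>
    prod_ne_zero_iff.2 fun y hy => sub_ne_zero.2 (ht y hy)
  obtain ⟨p, hp⟩ := exists_real_roots (PX_deg (cc a w) K hn hd).1
    (by rw [hco, cc_empty, mul_one]; exact hlc') fun t ht => by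
      rw [ev _ _ (hne t ht)]
      refine mul_ne_zero ?_ (hprod t (hne t ht))
      rcases ht.lt_or_gt with ht | ht
      · intro e
        have e2 := congrArg conj e
        change conj (Pw a w K _) = _ at e2
        rw [Pw_conj h.herm, map_zero] at e2
        simp only [zz_conj] at e2
        exact stab_uhp hr h (fun y _ => zz_im u hv w hμ (by simpa using ht) y) e2
      · exact stab_uhp hr h fun y _ => zz_im u hv w hμ ht y
  rw [hco, cc_empty, mul_one] at hp
  have hN : ∀ t : ℂ, (∀ y ∈ K, t ≠ v * μ y) → lc * (nodal univ fun l => (p l : ℂ)).eval t =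
      Pw a w K (zz u v w μ t) * ∏ y ∈ K, (t - v * μ y) := fun t ht => by
    have := ev (cc a w) t ht
    rwa [hp, eval_mul, eval_C] at this
  refine ⟨_, p, fun l hl => ?_, fun i hi o ho => ?_⟩
  · have := hN _ hl
    rw [eval_nodal_at_node (v := fun l => (p l : ℂ)) (mem_univ l), mul_zero] at this
    exact (mul_eq_zero.1 this.symm).resolve_right (hprod _ hl)
  set c' : Finset V → ℂ := fun T => cc a (Function.update w i o) (insert i T)
  obtain ⟨γ, hγ, e⟩ := pf p univ (C (-1 / lc : ℂ) * PX c' K n d) (by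
      rw [card_univ, Fintype.card_fin, degree_lt_iff_coeff_zero]
      intro k hk
      rw [coeff_C_mul]
      rcases hk.eq_or_lt with rfl | hk
      · rw [hco]
        have : c' ∅ = 0 := cc_single _ (h.diag i)
        simp [this]
      · rw [coeff_eq_zero_of_natDegree_lt ((PX_deg c' K hn hd).1.trans_lt hk), mul_zero])
    fun t ht => by
      have h1 := hN t (hne t ht.ne')
      have h2 := NI0 hr hi ho (z := zz u v w μ t) fun y _ => (zz_im u hv w hμ ht y).le
      rw [Pw_update _ _ hi] at h2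
      have h3 : (nodal univ fun l => (p l : ℂ)).eval t =
          Pw a w K (zz u v w μ t) * (∏ y ∈ K, (t - v * μ y)) / lc := by
        rw [← h1]; field_simp
      rw [eval_mul, eval_C, ev _ _ (hne t ht.ne'), h3]
      change (-1 / lc * (Bw a (Function.update w i o) K i (zz u v w μ t) * _) * _).im ≤ 0
      generalize ∏ y ∈ K, (t - v * μ y) = Q at *
      have : -1 / (lc : ℂ) * (Bw a (Function.update w i o) K i (zz u v w μ t) * Q) *
          conj (Pw a w K (zz u v w μ t) * Q / lc) = ((- (Complex.normSq Q / lc ^ 2) : ℝ) : ℂ) *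
          (Bw a (Function.update w i o) K i (zz u v w μ t) * conj (Pw a w K (zz u v w μ t))) := by
        rw [map_div₀, map_mul, Complex.conj_ofReal]
        push_cast
        rw [← Complex.mul_conj]
        field_simp
      rw [this, Complex.im_ofReal_mul]
      exact mul_nonpos_of_nonpos_of_nonneg
        (neg_nonpos.2 (div_nonneg (Complex.normSq_nonneg _) (sq_nonneg _))) h2
  refine ⟨γ, hγ, fun t ht ht' => ?_⟩
  have e1 := congrArg (eval t) e
  rw [eval_mul, eval_C, ev _ _ ht, eval_finsetSum] at e1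
  have e2 : ∑ l, (C (γ l : ℂ) * nodal (univ.erase l) fun l => (p l : ℂ)).eval t =
      (∑ l, γ l / (t - p l)) * (nodal univ fun l => (p l : ℂ)).eval t := by
    rw [sum_mul]
    refine sum_congr rfl fun l _ => ?_
    have := sub_ne_zero.2 (ht' l)
    rw [nodal_eq_mul_nodal_erase (s := univ) (mem_univ l)]
    simp only [eval_mul, eval_C, eval_sub, eval_X]
    field_simp
  rw [e2] at e1
  have h1 := hN t ht
  have h2 := hprod t ht
  change -1 / lc * (Bw a (Function.update w i o) K i (zz u v w μ t) * _) = _ at e1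
  refine mul_right_cancel₀ h2 ?_
  rw [mul_assoc, ← h1]
  field_simp at e1
  linear_combination -e1

/-- integrand of the true potential -/
noncomputable def tot (u v : ℝ) (a : V → V → ℂ) (w : V → Option (Fin r)) (μ : V → ℝ)
    (K : Finset V) (τ : ℝ) : ℝ := Real.log ‖Pw a w K (zz u v w μ (τ * Complex.I))‖ -
      ∑ y ∈ K, Real.log ‖zz u v w μ (τ * Complex.I) y‖

/-- true potential -/
noncomputable def TI (u v : ℝ) (a : V → V → ℂ) (w : V → Option (Fin r)) (μ : V → ℝ)
    (K : Finset V) : ℝ := ∫ τ in Set.Ioi 0, tot u v a w μ K τ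

lemma tot_congr {u v : ℝ} {a a' : V → V → ℂ} {w w' : V → Option (Fin r)} {μ μ' : V → ℝ}
    {K : Finset V} (h : ∀ i ∈ K, ∀ j ∈ K, a' i j = a i j) (hw : ∀ i ∈ K, w' i = w i)
    (hμ : ∀ i ∈ K, μ' i = μ i) : tot u v a' w' μ' K = tot u v a w μ K := by
  funext τ
  have hz : ∀ i ∈ K, zz u v w' μ' (τ * Complex.I) i = zz u v w μ (τ * Complex.I) i :=
    fun i hi => by rw [zz, zz, hw i hi, hμ i hi]
  rw [tot, tot, Pw_congr h hw hz, sum_congr rfl fun i hi => by rw [hz i hi]]

lemma tot_update (u v : ℝ) (a : V → V → ℂ) (w : V → Option (Fin r)) (μ : V → ℝ) {K : Finset V}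
    {i : V} (hi : i ∉ K) (o) : tot u v a (Function.update w i o) μ K = tot u v a w μ K :=
  tot_congr (fun _ _ _ _ => rfl)
    (fun _ hy => Function.update_of_ne (ne_of_mem_of_not_mem hy hi) _ _) fun _ _ => rfl

lemma inc_eq (hr : 0 < r) {a : V → V → ℂ} {w : V → Option (Fin r)} {K : Finset V} {i : V}
    (hi : i ∉ K) (h : HC a w K) (u : ℝ) {v : ℝ} (hv : 0 ≤ v) {μ : V → ℝ} (hμ : ∀ y, 0 < μ y)
    {m : ℕ} {p γ : Fin m → ℝ} (hγ : ∀ l, 0 ≤ γ l) (o : Option (Fin r))
    (e : ∀ t : ℂ, 0 < t.im → Bw a (Function.update w i o) K i (zz u v w μ t) =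
      - (∑ l, γ l / (t - p l)) * Pw a w K (zz u v w μ t)) :
    Set.EqOn (fun τ => psi (u * μ i) (fun l : Option (Fin m) => l.elim (4 * v * μ i ^ 2)
        fun l => μ i / th o * γ l) (fun l => l.elim (v * μ i) p) τ -
      psi (u * μ i) (fun _ : Unit => 4 * v * μ i ^ 2) (fun _ => v * μ i) τ)
      (fun τ => tot u v a (Function.update w i o) μ (insert i K) τ - tot u v a w μ K τ)
      (Set.Ioi 0) := by
  intro τ hτ
  have ht : 0 < (τ * Complex.I : ℂ).im := by simpa using hτ
  have hz : ∀ y ∈ K, zz u v (Function.update w i o) μ (τ * Complex.I) y =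
      zz u v w μ (τ * Complex.I) y := fun y hy => by
    rw [zz, zz, Function.update_of_ne (ne_of_mem_of_not_mem hy hi)]
  have hP := stab_uhp hr h fun y _ => zz_im u hv w hμ ht y
  have hth : 0 < th o := one_pos.trans_le (th_ge _)
  have h1 : (μ i : ℂ) ≠ 0 := by exact_mod_cast (hμ i).ne'
  have h2 : (th o : ℂ) ≠ 0 := by exact_mod_cast hth.ne'
  have hA := Ar_im (U := u * μ i) (g := fun l : Option (Fin m) => l.elim (4 * v * μ i ^ 2)
    fun l => μ i / th o * γ l) (v := fun l => l.elim (v * μ i) p) (fun l => by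
      have := hμ i
      cases l with
      | none => simp only [Option.elim]; positivity
      | some l => exact mul_nonneg (by positivity) (hγ l)) ht
  have e1 : Pw a (Function.update w i o) (insert i K)
      (zz u v (Function.update w i o) μ (τ * Complex.I)) = ((th o / μ i : ℝ) : ℂ) * Ar (u * μ i)
        (fun l : Option (Fin m) => l.elim (4 * v * μ i ^ 2) fun l => μ i / th o * γ l)
        (fun l => l.elim (v * μ i) p) (τ * Complex.I) * Pw a w K (zz u v w μ (τ * Complex.I)) := by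
    have : Bw a (Function.update w i o) K i (zz u v (Function.update w i o) μ (τ * Complex.I)) =
        Bw a (Function.update w i o) K i (zz u v w μ (τ * Complex.I)) :=
      PP_congr (fun _ _ => rfl) hz
    rw [Pw_ins _ _ hi, this, e _ ht, Pw_update _ _ hi,
      Pw_congr (fun _ _ _ _ => rfl) (fun _ _ => rfl) hz, ← add_mul]
    congr 1
    simp only [Ar, Fintype.sum_option, Option.elim, zz, zt, Function.update_self]
    push_cast
    simp only [mul_div_assoc (μ i / th o : ℂ), ← mul_sum]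
    field_simp
    ring
  have e2 : zz u v (Function.update w i o) μ (τ * Complex.I) i = ((th o / μ i : ℝ) : ℂ) *
      Ar (u * μ i) (fun _ : Unit => 4 * v * μ i ^ 2) (fun _ => v * μ i) (τ * Complex.I) := by
    rw [zt_Ar u v (hμ i), zz, Function.update_self]
    push_cast
    field_simp
  have hA' := Ar_im (U := u * μ i) (g := fun _ : Unit => 4 * v * μ i ^ 2) (v := fun _ => v * μ i)
    (fun _ => by positivity) ht
  have h3 : ‖((th o / μ i : ℝ) : ℂ)‖ ≠ 0 := by
    rw [norm_ne_zero_iff]; exact_mod_cast (div_pos hth (hμ i)).ne'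
  have n1 : ∀ {z : ℂ}, 0 < z.im → ‖z‖ ≠ 0 := fun hz => norm_ne_zero_iff.2 fun e => by simp [e] at hz
  simp only [tot, psi]
  rw [sum_insert hi, e1, e2, sum_congr rfl fun y hy => by rw [hz y hy], norm_mul, norm_mul,
    norm_mul, Real.log_mul (mul_ne_zero h3 (n1 hA)) (norm_ne_zero_iff.2 hP),
    Real.log_mul h3 (n1 hA), Real.log_mul h3 (n1 hA')]
  ring

end Vale.Agent.P078
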