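import Vale.Agent.P078.Stmt

/-! Concrete tools: weak limits, projections onto invariant subspaces, spectral projections. -/

namespace Vale.Agent.P078.G

open scoped ComplexOrder InnerProductSpace ComplexConjugate
open Filter Topology

variable {H : Type*} [NormedAddCommGroup H] [InnerProductSpace ℂ H] [CompleteSpace H]

omit [CompleteSpace H] in
lemma mul_ap (S T : H →L[ℂ] H) (v : H) : (S * T) v = S (T v) := rfl

lemma wlim_vec {ι : Type*} (U : Ultrafilter ι) (v : ι → H) {C : ℝ} (hC : 0 ≤ C)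
    (h : ∀ i, ‖v i‖ ≤ C) :
    ∃ w, ‖w‖ ≤ C ∧ ∀ η, Tendsto (fun i => ⟪η, v i⟫_ℂ) U (𝓝 ⟪η, w⟫_ℂ) := by
  have h1 : ∀ η : H, ∃ z, ‖z‖ ≤ C * ‖η‖ ∧ Tendsto (fun i => ⟪v i, η⟫_ℂ) U (𝓝 z) := fun η => by
    obtain ⟨z, hz, h2⟩ := (isCompact_closedBall (0 : ℂ) (C * ‖η‖)).ultrafilter_le_nhds
      (U.map fun i => ⟪v i, η⟫_ℂ) (by
        rw [Ultrafilter.coe_map, le_principal_iff, mem_map]
        refine Eventually.of_forall fun i => ?_
        simpa using (norm_inner_le_norm _ _).trans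
          (mul_le_mul_of_nonneg_right (h i) (norm_nonneg _)))
    exact ⟨z, by simpa using hz, h2⟩
  choose f hf hf' using h1
  let g : H →ₗ[ℂ] ℂ :=
    { toFun := f
      map_add' := fun a b => tendsto_nhds_unique (hf' _)
        (by simpa only [inner_add_right] using (hf' a).add (hf' b))
      map_smul' := fun c a => tendsto_nhds_unique (hf' _)
        (by simpa only [inner_smul_right, RingHom.id_apply, smul_eq_mul] using
          (hf' a).const_mul c) }
  refine ⟨(InnerProductSpace.toDual ℂ H).symm (g.mkContinuous C hf), ?_, fun η => ?_⟩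
  · rw [LinearIsometryEquiv.norm_map]; exact g.mkContinuous_norm_le hC hf
  · have := (Complex.continuous_conj.tendsto _).comp (hf' η)
    rw [← inner_conj_symm, InnerProductSpace.toDual_symm_apply]
    simpa [Function.comp_def, g] using this

/-- weak operator convergence -/
def WT {ι : Type*} (l : Filter ι) (x : ι → H →L[ℂ] H) (y : H →L[ℂ] H) : Prop :=
  ∀ ξ η, Tendsto (fun i => ⟪η, x i ξ⟫_ℂ) l (𝓝 ⟪η, y ξ⟫_ℂ)

lemma wlim {ι : Type*} (U : Ultrafilter ι) (x : ι → H →L[ℂ] H) {C : ℝ} (hC : 0 ≤ C)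
    (h : ∀ i, ‖x i‖ ≤ C) : ∃ y, ‖y‖ ≤ C ∧ WT U x y := by
  choose f hf hf' using fun ξ => wlim_vec U (fun i => x i ξ) (C := C * ‖ξ‖) (by positivity)
    fun i => (x i).le_of_opNorm_le (h i) ξ
  let g : H →ₗ[ℂ] H :=
    { toFun := f
      map_add' := fun a b => ext_inner_left ℂ fun η => tendsto_nhds_unique (hf' _ η)
        (by simpa only [map_add, inner_add_right] using (hf' a η).add (hf' b η))
      map_smul' := fun c a => ext_inner_left ℂ fun η => tendsto_nhds_unique (hf' _ η)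
        (by simpa only [map_smul, inner_smul_right, RingHom.id_apply] using
          (hf' a η).const_mul c) }
  exact ⟨g.mkContinuous C hf, g.mkContinuous_norm_le hC hf, fun ξ η => hf' ξ η⟩

lemma inner_star (T : H →L[ℂ] H) (u v : H) : ⟪(star T) u, v⟫_ℂ = ⟪u, T v⟫_ℂ :=
  ContinuousLinearMap.adjoint_inner_left T v u

lemma inner_star' (T : H →L[ℂ] H) (u v : H) : ⟪u, (star T) v⟫_ℂ = ⟪T u, v⟫_ℂ :=
  ContinuousLinearMap.adjoint_inner_right T u v

lemma inner_sa {T : H →L[ℂ] H} (hT : IsSelfAdjoint T) (u v : H) : ⟪T u, v⟫_ℂ = ⟪u, T v⟫_ℂ := by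
  rw [← inner_star, hT.star_eq]

section WT
variable {ι : Type*} {l : Filter ι} {x : ι → H →L[ℂ] H} {y : H →L[ℂ] H}

lemma WT.mul (h : WT l x y) (a b : H →L[ℂ] H) : WT l (fun i => a * x i * b) (a * y * b) :=
  fun ξ η => by simpa [inner_star] using h (b ξ) (star a η)

omit [CompleteSpace H] in
lemma WT.unique [l.NeBot] {y' : H →L[ℂ] H} (h : WT l x y) (h' : WT l x y') : y = y' := by
  ext ξ
  exact ext_inner_left ℂ fun η => tendsto_nhds_unique (h ξ η) (h' ξ η)

omit [CompleteSpace H] in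
lemma WT.congr {x' : ι → H →L[ℂ] H} (h : WT l x y) (e : ∀ᶠ i in l, x i = x' i) : WT l x' y :=
  fun ξ η => (h ξ η).congr' (e.mono fun i hi => by simp only [hi])

omit [CompleteSpace H] in
lemma WT.const (y : H →L[ℂ] H) : WT l (fun _ => y) y := fun _ _ => tendsto_const_nhds

omit [CompleteSpace H] in
lemma WT.sub {x' : ι → H →L[ℂ] H} {y' : H →L[ℂ] H} (h : WT l x y) (h' : WT l x' y') :
    WT l (fun i => x i - x' i) (y - y') := fun ξ η => by
  simpa [inner_sub_right] using (h ξ η).sub (h' ξ η)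

lemma WT.star (h : WT l x y) : WT l (fun i => star (x i)) (star y) := fun ξ η => by
  have := (Complex.continuous_conj.tendsto _).comp (h η ξ)
  simpa [Function.comp_def, inner_star'] using this

/-- an identity `a x b = c x d` passes to the weak limit -/
lemma WT.eq [l.NeBot] (h : WT l x y) {a b c d : H →L[ℂ] H}
    (e : ∀ᶠ i in l, a * x i * b = c * x i * d) : a * y * b = c * y * d :=
  ((h.mul a b).congr e).unique (h.mul c d)

lemma WT.comm [l.NeBot] (h : WT l x y) {a : H →L[ℂ] H} (e : ∀ᶠ i in l, a * x i = x i * a) :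
    a * y = y * a := by
  simpa using h.eq (a := a) (b := 1) (c := 1) (d := a) (by simpa using e)

lemma mem_of_comm {M : VonNeumannAlgebra H} {T : H →L[ℂ] H}
    (h : ∀ g, (∀ b ∈ M, b * g = g * b) → g * T = T * g) : T ∈ M := by
  rw [← M.commutant_commutant, VonNeumannAlgebra.mem_commutant_iff]
  exact fun g hg => h g (VonNeumannAlgebra.mem_commutant_iff.1 hg)

lemma WT.mem [l.NeBot] (h : WT l x y) {M : VonNeumannAlgebra H} (hx : ∀ᶠ i in l, x i ∈ M) :
    y ∈ M :=
  mem_of_comm fun _ hg => h.comm (hx.mono fun _ hi => (hg _ hi).symm)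

lemma nonneg_iff {T : H →L[ℂ] H} : 0 ≤ T ↔ ∀ v, 0 ≤ ⟪v, T v⟫_ℂ := by
  rw [ContinuousLinearMap.nonneg_iff_isPositive]
  refine ⟨fun h v => h.inner_nonneg_right v, fun h => ?_⟩
  rw [ContinuousLinearMap.isPositive_iff_complex]
  intro v
  obtain ⟨h1, h2⟩ := h v
  rw [← inner_conj_symm]
  simp only [Complex.zero_im, Complex.zero_re] at h1 h2
  refine ⟨Complex.ext (by simp) ?_, ?_⟩
  · simp only [Complex.ofReal_im, Complex.conj_im, ← h2, neg_zero]
  · simpa only [RCLike.re_to_complex, Complex.conj_re] using h1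

lemma WT.nonneg [l.NeBot] (h : WT l x y) (hx : ∀ᶠ i in l, 0 ≤ x i) : 0 ≤ y :=
  nonneg_iff.2 fun v => ge_of_tendsto (h v v) (hx.mono fun _ hi => nonneg_iff.1 hi v)

end WT

lemma re_nonneg {T : H →L[ℂ] H} (h : 0 ≤ T) (v : H) : 0 ≤ (⟪v, T v⟫_ℂ).re :=
  (nonneg_iff.1 h v).1

lemma re_mono {S T : H →L[ℂ] H} (h : S ≤ T) (v : H) : (⟪v, S v⟫_ℂ).re ≤ (⟪v, T v⟫_ℂ).re := by
  have := re_nonneg (sub_nonneg.2 h) v
  simp only [sub_apply, inner_sub_right, Complex.sub_re] at this
  linarith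

omit [CompleteSpace H] in
lemma re_self (v : H) : (⟪v, v⟫_ℂ).re = ‖v‖ ^ 2 := inner_self_eq_norm_sq (𝕜 := ℂ) v

lemma re_star_mul (T : H →L[ℂ] H) (v : H) : (⟪v, (star T * T) v⟫_ℂ).re = ‖T v‖ ^ 2 := by
  rw [mul_ap, inner_star', re_self]

lemma re_proj {q : H →L[ℂ] H} (hq : IsStarProjection q) (v : H) :
    (⟪v, q v⟫_ℂ).re = ‖q v‖ ^ 2 := by
  rw [← re_star_mul, hq.isSelfAdjoint.star_eq, hq.isIdempotentElem.eq]

lemma sq_le_self {T : H →L[ℂ] H} (h0 : 0 ≤ T) (h1 : T ≤ 1) : star T * T ≤ T := by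
  have := Commute.mul_nonneg h0 (sub_nonneg.2 h1) ((Commute.one_right T).sub_right (.refl T))
  rw [h0.isSelfAdjoint.star_eq, ← sub_nonneg]
  simpa [mul_sub] using this

lemma norm_sq_le_re {T : H →L[ℂ] H} (h0 : 0 ≤ T) (h1 : T ≤ 1) (v : H) :
    ‖T v‖ ^ 2 ≤ (⟪v, T v⟫_ℂ).re := by
  rw [← re_star_mul]; exact re_mono (sq_le_self h0 h1) v

lemma proj_apply_le {q : H →L[ℂ] H} (hq : IsStarProjection q) (v : H) : ‖q v‖ ≤ ‖v‖ := by
  simpa using q.le_of_opNorm_le (hq.norm_le) v

lemma pyth {q : H →L[ℂ] H} (hq : IsStarProjection q) (v : H) :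
    ‖q v‖ ^ 2 + ‖(1 - q) v‖ ^ 2 = ‖v‖ ^ 2 := by
  rw [← re_proj hq, ← re_proj hq.one_sub, ← re_self]
  simp

lemma exists_proj (L : Submodule ℂ H) (hL : IsClosed (L : Set H)) :
    ∃ P : H →L[ℂ] H, IsStarProjection P ∧ (∀ v, P v ∈ L) ∧ (∀ v ∈ L, P v = v) ∧
      ∀ T : H →L[ℂ] H, (∀ v ∈ L, T v ∈ L) → (∀ v ∈ L, star T v ∈ L) → T * P = P * T := by
  have : CompleteSpace L := hL.completeSpace_coe
  have h1 : ∀ T : H →L[ℂ] H, (∀ v ∈ L, T v ∈ L) →
      L.starProjection * T * L.starProjection = T * L.starProjection := fun T hT => by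
    ext v
    exact Submodule.starProjection_eq_self_iff.2 (hT _ (L.starProjection_apply_mem v))
  refine ⟨L.starProjection, isStarProjection_starProjection, L.starProjection_apply_mem,
    fun v hv => Submodule.starProjection_eq_self_iff.2 hv, fun T a b => ?_⟩
  have := congrArg star (h1 _ b)
  simp only [star_mul, star_star, (isSelfAdjoint_starProjection L).star_eq] at this
  rw [← this, ← mul_assoc, h1 T a]

lemma spec {w : H →L[ℂ] H} (hw : IsSelfAdjoint w) (t : ℝ) :
    ∃ q : H →L[ℂ] H, IsStarProjection q ∧ (∀ z, z * w = w * z → z * q = q * z) ∧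
      w * q ≤ (t : ℂ) • q ∧ (t : ℂ) • (1 - q) ≤ w * (1 - q) := by
  set u : H →L[ℂ] H := w - (t : ℂ) • 1 with hu
  have hus : IsSelfAdjoint u := by
    refine hw.sub ?_
    simp [IsSelfAdjoint]
  have hc : ∀ z, z * w = w * z → Commute u z := fun z hz => by
    simp only [hu, Commute, SemiconjBy, sub_mul, mul_sub, hz]; simp
  have hp : ∀ z, z * w = w * z → Commute u⁺ z := fun z hz => by
    rw [CFC.posPart_def]; exact (hc z hz).cfcₙ_real _
  obtain ⟨q, hq, h1, h2, h3⟩ := exists_proj (LinearMap.ker (u⁺ : H →L[ℂ] H).toLinearMap)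
    (ContinuousLinearMap.isClosed_ker _)
  have inv : ∀ z, Commute u⁺ z → ∀ v ∈ LinearMap.ker (u⁺ : H →L[ℂ] H).toLinearMap,
      z v ∈ LinearMap.ker (u⁺ : H →L[ℂ] H).toLinearMap := fun z hz v hv => by
    have hv' : u⁺ v = 0 := hv
    change u⁺ (z v) = 0
    rw [← mul_ap, hz.eq, mul_ap, hv', map_zero]
  have hq' : ∀ z, z * w = w * z → z * q = q * z := fun z hz =>
    h3 z (inv z (hp z hz)) (inv _ (hp _ (by simpa [hw.star_eq] using (congrArg star hz).symm)))
  have e1 : u⁺ * q = 0 := by ext v; exact h1 v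
  have e2 : q * u⁻ = u⁻ := by
    ext v
    refine h2 _ ?_
    change u⁺ (u⁻ v) = 0
    rw [← mul_ap, CFC.posPart_mul_negPart]; rfl
  have e3 : u⁻ * q = u⁻ := by
    simpa [hq.isSelfAdjoint.star_eq, (CFC.negPart_nonneg u).isSelfAdjoint.star_eq] using
      congrArg star e2
  have e0 : w = u⁺ - u⁻ + (t : ℂ) • 1 := by rw [CFC.posPart_sub_negPart u hus, hu]; simp
  refine ⟨q, hq, hq', ?_, ?_⟩
  · rw [← sub_nonneg]
    have : (t : ℂ) • q - w * q = u⁻ := by
      conv_lhs => rw [e0]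
      simp [add_mul, sub_mul, e1, e3]
    rw [this]; exact CFC.negPart_nonneg u
  · rw [← sub_nonneg]
    have : w * (1 - q) - (t : ℂ) • (1 - q) = u⁺ := by
      conv_lhs => rw [e0]
      simp [add_mul, sub_mul, mul_sub, e1, e3, smul_sub]
      abel
    rw [this]; exact CFC.posPart_nonneg u

/-- an operator dominated by a multiple of a projection lives under it -/
lemma mul_eq_of_sq_le {b p : H →L[ℂ] H} (hp : IsStarProjection p) {c : ℝ}
    (h : star b * b ≤ (c : ℂ) • p) : b * p = b := by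
  have : b * (1 - p) = 0 := by
    ext v
    have h1 := re_mono h ((1 - p) v)
    have h2 : p ((1 - p) v) = 0 := by
      rw [← mul_ap, hp.mul_one_sub_self]; rfl
    rw [re_star_mul] at h1
    simp only [smul_apply, h2, smul_zero, inner_zero_right, Complex.zero_re] at h1
    exact norm_eq_zero.1 (by change ‖b ((1 - p) v)‖ = 0; nlinarith [norm_nonneg (b ((1 - p) v))])
  rw [mul_sub, mul_one, sub_eq_zero] at this
  exact this.symm

lemma mul_eq_of_le {q p : H →L[ℂ] H} (hq : IsStarProjection q) (hp : IsStarProjection p) {c : ℝ}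
    (h : q ≤ (c : ℂ) • p) : q * p = q :=
  mul_eq_of_sq_le hp (c := c) (by rwa [hq.isSelfAdjoint.star_eq, hq.isIdempotentElem.eq])

lemma swap_sa {a b c : H →L[ℂ] H} (ha : IsSelfAdjoint a) (hb : IsSelfAdjoint b)
    (hc : IsSelfAdjoint c) (h : a * b = c) : b * a = c := by
  simpa [ha.star_eq, hb.star_eq, hc.star_eq] using congrArg star h

/-- a linear functional nonnegative on projections is nonnegative on positive elements -/
lemma halving (Z : Set (H →L[ℂ] H)) {p : H →L[ℂ] H} (hp : IsStarProjection p)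
    (ψ : (H →L[ℂ] H) →L[ℂ] ℂ)
    (h : ∀ q, IsStarProjection q → (∀ z ∈ Z, z * q = q * z) → q * p = q → 0 ≤ (ψ q).re)
    (b : H →L[ℂ] H) (hb : ∀ z ∈ Z, z * b = b * z) (h0 : 0 ≤ b) (h1 : b ≤ p) : 0 ≤ (ψ b).re := by
  let T : Set ℝ := {r | ∃ b : H →L[ℂ] H, (∀ z ∈ Z, z * b = b * z) ∧ 0 ≤ b ∧ b ≤ p ∧ r = (ψ b).re}
  have hbd : BddBelow T := by
    refine ⟨-‖ψ‖, ?_⟩
    rintro _ ⟨b, -, h0, h1, rfl⟩
    have h2 : ‖b‖ ≤ 1 := (CStarAlgebra.norm_le_one_iff_of_nonneg b h0).2 (h1.trans hp.le_one)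
    have h3 := ψ.le_opNorm b
    have h4 := Complex.abs_re_le_norm (ψ b)
    have := abs_le.1 h4
    nlinarith [norm_nonneg ψ]
  have key : ∀ r ∈ T, sInf T / 2 ≤ r := by
    rintro _ ⟨b, hb, h0, h1, rfl⟩
    obtain ⟨q, hq, c1, c2, c3⟩ := spec h0.isSelfAdjoint (1 / 2)
    have cb : b * q = q * b := c1 b rfl
    have bq : 0 ≤ b * q := Commute.mul_nonneg h0 hq.nonneg cb
    have b1 : b * (1 - q) ≤ b := by rw [mul_sub, mul_one]; exact sub_le_self _ bq
    have i2 : ((2 : ℝ) : ℂ) • (((1 / 2 : ℝ) : ℂ) • (1 - q)) = 1 - q := by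
      rw [smul_smul]; norm_num
    have two : (0 : ℂ) ≤ ((2 : ℝ) : ℂ) := by exact_mod_cast zero_le_two
    have qp : (1 - q) * p = 1 - q := by
      refine mul_eq_of_le hq.one_sub hp (c := 2) ?_
      rw [← i2]
      exact smul_le_smul_of_nonneg_left (c3.trans (b1.trans h1)) two
    have pq : p * (1 - q) = 1 - q :=
      swap_sa hq.one_sub.isSelfAdjoint hp.isSelfAdjoint hq.one_sub.isSelfAdjoint qp
    have hq1 := h (1 - q) hq.one_sub (fun z hz => by rw [mul_sub, sub_mul, c1 z (hb z hz)]; simp) qp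
    have mem : (ψ (((2 : ℝ) : ℂ) • b - (1 - q))).re ∈ T := by
      refine ⟨_, fun z hz => ?_, ?_, ?_, rfl⟩
      · simp only [mul_sub, sub_mul, mul_smul_comm, smul_mul_assoc, hb z hz, c1 z (hb z hz)]
        simp
      · rw [sub_nonneg, ← i2]
        exact smul_le_smul_of_nonneg_left (c3.trans b1) two
      · have bp : b * p = b := mul_eq_of_sq_le hp (c := 1)
          (by simpa using (sq_le_self h0 (h1.trans hp.le_one)).trans h1)
        have pb : p * b = b := swap_sa h0.isSelfAdjoint hp.isSelfAdjoint h0.isSelfAdjoint bp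
        have k1 : ((2 : ℝ) : ℂ) • (b * q) ≤ q := by
          have := smul_le_smul_of_nonneg_left c2 two
          rwa [smul_smul, show ((2 : ℝ) : ℂ) * ((1 / 2 : ℝ) : ℂ) = 1 by norm_num, one_smul] at this
        have k2 : b * (1 - q) ≤ 1 - q := by
          have := Commute.mul_nonneg (sub_nonneg.2 (h1.trans hp.le_one)) hq.one_sub.nonneg
            ((Commute.one_left _).sub_left ((Commute.one_right b).sub_right cb))
          rwa [sub_mul, one_mul, sub_nonneg] at this
        have k3 : ((2 : ℝ) : ℂ) • b - (1 - q) ≤ 1 := by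
          have := add_le_add k1 (smul_le_smul_of_nonneg_left k2 two)
          rw [← smul_add, ← mul_add, add_sub_cancel, mul_one] at this
          rw [sub_le_iff_le_add]
          refine this.trans (le_of_eq ?_)
          rw [Complex.ofReal_ofNat, two_smul]; abel
        have := star_left_conjugate_le_conjugate k3 p
        rwa [hp.isSelfAdjoint.star_eq, mul_one, hp.isIdempotentElem.eq, mul_sub, sub_mul,
          mul_smul_comm, smul_mul_assoc, pb, bp, pq, qp] at this
    have := csInf_le hbd mem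
    simp only [map_sub, map_smul, smul_eq_mul, Complex.sub_re, Complex.re_ofReal_mul] at this hq1
    linarith
  have hne : T.Nonempty := ⟨_, b, hb, h0, h1, rfl⟩
  have := le_csInf hne key
  have := key _ ⟨b, hb, h0, h1, rfl⟩
  linarith

lemma vn_smul {M : VonNeumannAlgebra H} {b : H →L[ℂ] H} (hb : b ∈ M) (c : ℂ) : c • b ∈ M :=
  M.toStarSubalgebra.smul_mem hb c

lemma sa_im (a : H →L[ℂ] H) : IsSelfAdjoint (Complex.I • (a - star a)) := by
  simp only [IsSelfAdjoint, star_smul, star_sub, star_star, Complex.star_def, Complex.conj_I]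
  module

/-- the facts about a MASA that are used -/
structure Ctx (M : VonNeumannAlgebra H) (A : StarSubalgebra ℂ (H →L[ℂ] H)) : Prop where
  sub : ∀ a ∈ A, a ∈ M
  comm : ∀ a ∈ A, ∀ b ∈ A, a * b = b * a
  max : ∀ T ∈ M, (∀ a ∈ A, a * T = T * a) → T ∈ A

variable {M : VonNeumannAlgebra H} {A : StarSubalgebra ℂ (H →L[ℂ] H)}

lemma Ctx.zero_of_proj (X : Ctx M A) (ψ : (H →L[ℂ] H) →L[ℂ] ℂ)
    (h : ∀ q ∈ A, IsStarProjection q → ψ q = 0) {a : H →L[ℂ] H} (ha : a ∈ A) : ψ a = 0 := by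
  have k1 : ∀ c : ℂ, ∀ b ∈ A, 0 ≤ b → b ≤ 1 → 0 ≤ (c * ψ b).re := fun c b hb h0 h1 => by
    refine halving ({g | ∀ b ∈ M, b * g = g * b} ∪ A) (IsStarProjection.one _) (c • ψ)
      (fun q hq hz _ => ?_) b ?_ h0 h1
    · have : q ∈ A := X.max q (mem_of_comm fun g hg => hz g (Or.inl hg))
        fun a ha => hz a (Or.inr ha)
      simp [h q this hq]
    · rintro z (hz | hz)
      · exact (hz b (X.sub b hb)).symm
      · exact X.comm z hz b hb
  have k2 : ∀ b ∈ A, 0 ≤ b → b ≤ 1 → ψ b = 0 := fun b hb h0 h1 => by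
    have a1 := k1 1 b hb h0 h1
    have a2 := k1 (-1) b hb h0 h1
    have a3 := k1 Complex.I b hb h0 h1
    have a4 := k1 (-Complex.I) b hb h0 h1
    simp at a1 a2 a3 a4
    exact Complex.ext (by simp; linarith) (by simp; linarith)
  have k0 : ψ 1 = 0 := h 1 (one_mem _) (IsStarProjection.one _)
  have k3 : ∀ b ∈ A, IsSelfAdjoint b → ψ b = 0 := fun b hb hs => by
    have hn : (0 : ℝ) < 2 * (‖b‖ + 1) := by positivity
    have u1 : b ≤ ((‖b‖ + 1 : ℝ) : ℂ) • 1 := by
      refine hs.le_algebraMap_norm_self.trans ?_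
      rw [Algebra.algebraMap_eq_smul_one, Complex.coe_smul]
      exact smul_le_smul_of_nonneg_right (by linarith) zero_le_one
    have u2 : -(((‖b‖ + 1 : ℝ) : ℂ) • 1) ≤ b := by
      refine le_trans ?_ hs.neg_algebraMap_norm_le_self
      rw [Algebra.algebraMap_eq_smul_one, Complex.coe_smul, neg_le_neg_iff]
      exact smul_le_smul_of_nonneg_right (by linarith) zero_le_one
    have c0 : (0 : ℂ) ≤ (((2 * (‖b‖ + 1))⁻¹ : ℝ) : ℂ) := by exact_mod_cast (inv_pos.2 hn).le
    have := k2 ((((2 * (‖b‖ + 1))⁻¹ : ℝ) : ℂ) • (b + ((‖b‖ + 1 : ℝ) : ℂ) • 1))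
      (A.smul_mem (add_mem hb (A.smul_mem (one_mem _) _)) _)
      (smul_nonneg c0 (by rwa [← neg_le_iff_add_nonneg]))
      ((smul_le_smul_of_nonneg_left (add_le_add_left u1 _) c0).trans (le_of_eq (by
        rw [← add_smul, smul_smul, ← Complex.ofReal_add, ← Complex.ofReal_mul, ← two_mul,
          inv_mul_cancel₀ hn.ne']; simp)))
    simp only [map_smul, map_add, k0, mul_zero, add_zero, smul_eq_mul, mul_eq_zero] at this
    exact this.resolve_left (by exact_mod_cast (inv_pos.2 hn).ne')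
  have e : a = (2⁻¹ : ℂ) • ((a + star a) - Complex.I • (Complex.I • (a - star a))) := by
    rw [smul_smul, Complex.I_mul_I]; module
  rw [e, map_smul, map_sub, map_smul, k3 _ (add_mem ha (star_mem ha)) (.add_star_self a),
    k3 _ (A.smul_mem (sub_mem ha (star_mem ha)) _) (sa_im a)]
  simp

lemma Ctx.mem_of_proj (X : Ctx M A) {T : H →L[ℂ] H} (hT : T ∈ M)
    (h : ∀ q ∈ A, IsStarProjection q → q * T = T * q) : T ∈ A := by
  refine X.max T hT fun a ha => ?_
  ext ξ
  refine ext_inner_left ℂ fun η => sub_eq_zero.1 ?_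
  have := X.zero_of_proj ((innerSL ℂ η).comp (ContinuousLinearMap.apply ℂ H (T ξ)) -
    (innerSL ℂ (star T η)).comp (ContinuousLinearMap.apply ℂ H ξ)) (fun q hq hq' => by
      have : q (T ξ) = T (q ξ) := by rw [← mul_ap, h q hq hq', mul_ap]
      simp [inner_star, this]) ha
  simpa [inner_star] using this

lemma ctx_of_masa {H : Type*} [NormedAddCommGroup H] [InnerProductSpace ℂ H] [CompleteSpace H]
    {M : VonNeumannAlgebra H} {A : StarSubalgebra ℂ (H →L[ℂ] H)} (h : IsMASA M A) : Ctx M A := by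
  obtain ⟨h1, h2, h3⟩ := h
  have k : ∀ T ∈ M, IsSelfAdjoint T → (∀ a ∈ A, a * T = T * a) → T ∈ A := fun T hT hs hc => by
    let S : Set (H →L[ℂ] H) := insert T A
    have hS : ∀ a ∈ S, ∀ b ∈ S, a * b = b * a := by
      rintro a (rfl | ha) b (rfl | hb)
      exacts [rfl, (hc b hb).symm, hc a ha, h2 a ha b hb]
    have hs' : ∀ a ∈ S, star a ∈ S := by
      rintro a (rfl | ha)
      exacts [Or.inl hs.star_eq, Or.inr (star_mem ha)]
    let B : StarSubalgebra ℂ (H →L[ℂ] H) := StarSubalgebra.centralizer ℂ (Set.centralizer S)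
    have hc' : ∀ g ∈ Set.centralizer S, star g ∈ Set.centralizer S := fun g hg a ha => by
      simpa using (congrArg star (hg _ (hs' a ha))).symm
    have hB : ∀ b, b ∈ B ↔ ∀ g ∈ Set.centralizer S, g * b = b * g := fun b => by
      rw [StarSubalgebra.mem_centralizer_iff]
      exact ⟨fun h g hg => (h g hg).1, fun h g hg => ⟨h g hg, h _ (hc' g hg)⟩⟩
    have hSB : ∀ a ∈ S, a ∈ B := fun a ha => (hB a).2 fun g hg => (hg a ha).symm
    have := h3 B (fun a ha => hSB a (Or.inr ha))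
      (fun b hb => mem_of_comm fun g hg => (hB b).1 hb g (by
        rintro a (rfl | ha)
        exacts [hg _ hT, hg _ (h1 a ha)]))
      (fun a ha b hb => (hB b).1 hb a fun s hs => (hB a).1 ha s fun s' hs' => hS s' hs' s hs)
    exact this ▸ hSB T (Or.inl rfl)
  refine ⟨h1, h2, fun T hT hc => ?_⟩
  have hc' : ∀ a ∈ A, a * star T = star T * a := fun a ha => by
    simpa using (congrArg star (hc _ (star_mem ha))).symm
  have e : T = (2⁻¹ : ℂ) • ((T + star T) - Complex.I • (Complex.I • (T - star T))) := by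
    rw [smul_smul, Complex.I_mul_I]; module
  rw [e]
  refine A.smul_mem (sub_mem (k _ (add_mem hT (star_mem hT)) (.add_star_self T) fun a ha => ?_)
    (A.smul_mem (k _ (vn_smul (sub_mem hT (star_mem hT)) _) (sa_im T)
      fun a ha => ?_) _)) _
  · rw [mul_add, add_mul, hc a ha, hc' a ha]
  · rw [mul_smul_comm, smul_mul_assoc, mul_sub, sub_mul, hc a ha, hc' a ha]

end Vale.Agent.P078.G
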