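import Vale.Agent.P078.Sing1

/-! Positive functionals on `B(H)`, supports, and the normal part of a central functional. -/

namespace Vale.Agent.P078.G

open scoped ComplexOrder InnerProductSpace ComplexConjugate
open Filter Topology

/-- a positive functional on `B(H)` -/
structure PF (H : Type*) [NormedAddCommGroup H] [InnerProductSpace ℂ H] [CompleteSpace H] where
  κ : (H →L[ℂ] H) →L[ℂ] ℂ
  pos : ∀ z, 0 ≤ κ (star z * z)

variable {H : Type*} [NormedAddCommGroup H] [InnerProductSpace ℂ H] [CompleteSpace H]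
  {M : VonNeumannAlgebra H} {A : StarSubalgebra ℂ (H →L[ℂ] H)}

namespace PF
variable (ρ : PF H)

lemma nonneg {a : H →L[ℂ] H} (ha : 0 ≤ a) : 0 ≤ ρ.κ a := by
  have : star (CFC.sqrt a) * CFC.sqrt a = a := by
    rw [(CFC.sqrt_nonneg a).isSelfAdjoint.star_eq, CFC.sqrt_mul_sqrt_self a]
  rw [← this]; exact ρ.pos _

lemma re_mono {a b : H →L[ℂ] H} (h : a ≤ b) : (ρ.κ a).re ≤ (ρ.κ b).re := by
  have := (ρ.nonneg (sub_nonneg.2 h)).1
  rw [map_sub, Complex.sub_re, Complex.zero_re] at this; linarith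

/-- the functional as a positive linear map -/
noncomputable def plm : (H →L[ℂ] H) →ₚ[ℂ] ℂ :=
  PositiveLinearMap.mk₀ (ρ.κ : (H →L[ℂ] H) →ₗ[ℂ] ℂ) fun _ ha => ρ.nonneg ha

/-- the GNS Hilbert space -/
abbrev K : Type _ := ρ.plm.GNS

/-- the canonical map into the GNS space -/
noncomputable def ι : (H →L[ℂ] H) →ₗ[ℂ] ρ.K :=
  (UniformSpace.Completion.toComplL (𝕜 := ℂ) (E := ρ.plm.PreGNS)).toLinearMap ∘ₗ
    ρ.plm.toPreGNS.toLinearMap

/-- the GNS representation -/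
noncomputable def π : (H →L[ℂ] H) →⋆ₐ[ℂ] (ρ.K →L[ℂ] ρ.K) := ρ.plm.gnsStarAlgHom

lemma ι_apply (x : H →L[ℂ] H) : ρ.ι x = ((ρ.plm.toPreGNS x : ρ.plm.PreGNS) : ρ.K) := rfl

lemma inner_ι (x y : H →L[ℂ] H) : ⟪ρ.ι x, ρ.ι y⟫_ℂ = ρ.κ (star x * y) := by
  rw [ρ.ι_apply, ρ.ι_apply, UniformSpace.Completion.inner_coe]; rfl

lemma π_ι (a x : H →L[ℂ] H) : ρ.π a (ρ.ι x) = ρ.ι (a * x) := by
  rw [ρ.ι_apply, ρ.ι_apply]
  exact ρ.plm.gnsNonUnitalStarAlgHom_apply_coe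

lemma norm_π (a : H →L[ℂ] H) : ‖ρ.π a‖ ≤ ‖a‖ := NonUnitalStarAlgHom.norm_apply_le ρ.π a

/-- the 2-norm -/
noncomputable def nn (x : H →L[ℂ] H) : ℝ := ‖ρ.ι x‖

lemma nn_nonneg (x : H →L[ℂ] H) : 0 ≤ ρ.nn x := norm_nonneg _

lemma nn_sq (x : H →L[ℂ] H) : ρ.nn x ^ 2 = (ρ.κ (star x * x)).re := by
  rw [nn, ← ρ.inner_ι, re_self]

lemma cs (x y : H →L[ℂ] H) : ‖ρ.κ (star x * y)‖ ≤ ρ.nn x * ρ.nn y := by
  rw [← ρ.inner_ι]; exact norm_inner_le_norm _ _

lemma nn_mul_le (b x : H →L[ℂ] H) : ρ.nn (b * x) ≤ ‖b‖ * ρ.nn x := by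
  rw [nn, ← ρ.π_ι]; exact (ρ.π b).le_of_opNorm_le (ρ.norm_π b) _

lemma nn_eq_zero {x : H →L[ℂ] H} (h : (ρ.κ (star x * x)).re ≤ 0) : ρ.nn x = 0 := by
  rw [← ρ.nn_sq] at h; nlinarith [ρ.nn_nonneg x]

lemma nn_mul_zero (b : H →L[ℂ] H) {x : H →L[ℂ] H} (h : ρ.nn x = 0) : ρ.nn (b * x) = 0 :=
  le_antisymm (by simpa [h] using ρ.nn_mul_le b x) (ρ.nn_nonneg _)

/-- sum of positive functionals -/
noncomputable def add (ρ' : PF H) : PF H := ⟨ρ.κ + ρ'.κ, fun z => add_nonneg (ρ.pos z) (ρ'.pos z)⟩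

lemma nn_add_zero (ρ' : PF H) {x : H →L[ℂ] H} (h : (ρ.add ρ').nn x = 0) :
    ρ.nn x = 0 ∧ ρ'.nn x = 0 := by
  have h1 := (ρ.add ρ').nn_sq x
  rw [h] at h1
  change _ = (ρ.κ _ + ρ'.κ _).re at h1
  rw [Complex.add_re, ← ρ.nn_sq, ← ρ'.nn_sq] at h1
  constructor <;> nlinarith [ρ.nn_nonneg x, ρ'.nn_nonneg x]

end PF

/-- weak operator continuity on bounded parts of `M` -/
def NW (M : VonNeumannAlgebra H) (g : (H →L[ℂ] H) → ℂ) : Prop :=
  ∀ (l : Filter (H →L[ℂ] H)) (w : H →L[ℂ] H) (C : ℝ), (∀ᶠ z in l, z ∈ M ∧ ‖z‖ ≤ C) →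
    WT l id w → Tendsto g l (𝓝 (g w))

lemma NW.seq {g : (H →L[ℂ] H) → ℂ} (h : NW M g) {ι : Type*} {l : Filter ι} {x : ι → H →L[ℂ] H}
    {w : H →L[ℂ] H} {C : ℝ} (hC : ∀ᶠ i in l, x i ∈ M ∧ ‖x i‖ ≤ C) (hw : WT l x w) :
    Tendsto (fun i => g (x i)) l (𝓝 (g w)) := h (l.map x) w C hC hw

/-- centrality with respect to the projections of `A` -/
def Cen (A : StarSubalgebra ℂ (H →L[ℂ] H)) (κ : (H →L[ℂ] H) →L[ℂ] ℂ) : Prop :=
  ∀ e ∈ A, IsStarProjection e → ∀ b, κ (e * b) = κ (b * e)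

/-- `s` is the support of `ρ` in `M` -/
structure Supp (M : VonNeumannAlgebra H) (ρ : PF H) (s : H →L[ℂ] H) : Prop where
  proj : IsStarProjection s
  kill : ∀ z ∈ M, ρ.nn z = 0 → z * s = 0
  fix : ∀ v, (∀ z ∈ M, ρ.nn z = 0 → z v = 0) → s v = v

lemma exists_supp (X : Ctx M A) (ρ : PF H) (hc : Cen A ρ.κ) : ∃ s ∈ A, Supp M ρ s := by
  let L : Submodule ℂ H :=
    { carrier := {v | ∀ z ∈ M, ρ.nn z = 0 → z v = 0}
      add_mem' := fun ha hb z hz h => by rw [map_add, ha z hz h, hb z hz h, add_zero]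
      zero_mem' := fun z _ _ => map_zero z
      smul_mem' := fun c v hv z hz h => by rw [map_smul, hv z hz h, smul_zero] }
  have hL : IsClosed (L : Set H) := by
    have : (L : Set H) = ⋂ z ∈ {z : H →L[ℂ] H | z ∈ M ∧ ρ.nn z = 0}, {v | z v = 0} := by
      ext v; simp [L]
    rw [this]
    exact isClosed_biInter fun z _ => isClosed_eq z.continuous continuous_const
  obtain ⟨s, hs, h1, h2, h3⟩ := exists_proj L hL
  have i1 : ∀ g : H →L[ℂ] H, (∀ b ∈ M, b * g = g * b) → ∀ v ∈ L, g v ∈ L :=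
    fun g hg v hv z hz h => by rw [← mul_ap, hg z hz, mul_ap, hv z hz h, map_zero]
  have i2 : ∀ e ∈ A, IsStarProjection e → ∀ v ∈ L, e v ∈ L := fun e he he' v hv z hz h => by
    refine hv (z * e) (mul_mem hz (X.sub e he)) (ρ.nn_eq_zero ?_)
    have := ρ.cs z (z * e)
    rw [h, zero_mul, norm_le_zero_iff] at this
    rw [star_mul, he'.isSelfAdjoint.star_eq, mul_assoc, hc e he he', mul_assoc, mul_assoc,
      he'.isIdempotentElem.eq, this, Complex.zero_re]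
  refine ⟨s, X.mem_of_proj (mem_of_comm fun g hg => h3 g (i1 g hg) (i1 _ fun b hb => ?_))
    fun e he he' => h3 e (i2 e he he') (by rw [he'.isSelfAdjoint.star_eq]; exact i2 e he he'),
    hs, fun z hz h => ?_, fun v hv => h2 v hv⟩
  · simpa using (congrArg star (hg _ (star_mem hb))).symm
  · ext v; exact h1 v z hz h

lemma spec_mem {w q : H →L[ℂ] H} (hw : w ∈ M) (h : ∀ z, z * w = w * z → z * q = q * z) : q ∈ M :=
  mem_of_comm fun g hg => h g (hg w hw).symm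

lemma norm_sq_of_spec {w q : H →L[ℂ] H} {t : ℝ} (hq : IsStarProjection q)
    (c : w * q = q * w) (h : w * q ≤ (t : ℂ) • q) (v : H) :
    (⟪q v, w (q v)⟫_ℂ).re ≤ t * ‖q v‖ ^ 2 := by
  have := re_mono h v
  rw [smul_apply, inner_smul_right, Complex.re_ofReal_mul, re_proj hq] at this
  rwa [inner_sa hq.isSelfAdjoint, ← mul_ap w, c, ← mul_ap, ← mul_assoc, hq.isIdempotentElem.eq,
    ← c]

lemma Supp.null {ρ : PF H} {s : H →L[ℂ] H} (hs : Supp M ρ s) (hM : s ∈ M) (hn : NW M ρ.κ) :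
    ρ.nn (1 - s) = 0 := by
  classical
  let N := {z : H →L[ℂ] H // z ∈ M ∧ ρ.nn z = 0}
  have hT : ∀ G : Finset N, (0 : H →L[ℂ] H) ≤ ∑ y ∈ G, star y.1 * y.1 := fun G =>
    Finset.sum_nonneg fun y _ => star_mul_self_nonneg _
  have hTM : ∀ G : Finset N, ∑ y ∈ G, star y.1 * y.1 ∈ M := fun G =>
    sum_mem fun y _ => mul_mem (star_mem y.2.1) y.2.1
  choose q hq c1 c2 c3 using fun j : Finset N × ℕ =>
    spec (hT j.1).isSelfAdjoint (1 / ((j.2 : ℝ) + 1))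
  have qM : ∀ j, q j ∈ M := fun j => spec_mem (hTM j.1) (c1 j)
  let U : Ultrafilter (Finset N × ℕ) := Ultrafilter.of atTop
  have hU : (U : Filter (Finset N × ℕ)) ≤ atTop := Ultrafilter.of_le _
  obtain ⟨w, -, hw⟩ := wlim U q zero_le_one fun j => (hq j).norm_le
  have k1 : ∀ y : N, y.1 * w = 0 := fun y => by
    ext ξ
    refine ext_inner_left ℂ fun η => ?_
    have h1 := hw.mul y.1 1 ξ η
    simp only [mul_one] at h1
    refine tendsto_nhds_unique h1 ?_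
    rw [zero_apply, inner_zero_right, tendsto_zero_iff_norm_tendsto_zero]
    have h2 : Tendsto (fun j : Finset N × ℕ => ‖η‖ * √(1 / ((j.2 : ℝ) + 1) * ‖ξ‖ ^ 2)) atTop
        (𝓝 (‖η‖ * √(0 * ‖ξ‖ ^ 2))) :=
      ((tendsto_one_div_add_atTop_nhds_zero_nat.comp
        (by rw [← prod_atTop_atTop_eq]; exact tendsto_snd)).mul_const _).sqrt.const_mul _
    simp only [zero_mul, Real.sqrt_zero, mul_zero] at h2
    refine squeeze_zero' (Eventually.of_forall fun _ => norm_nonneg _) (hU ?_) (h2.mono_left hU)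
    filter_upwards [eventually_ge_atTop (({y} : Finset N), 0)] with j hj
    refine (norm_inner_le_norm _ _).trans (mul_le_mul_of_nonneg_left ?_ (norm_nonneg _))
    refine Real.le_sqrt_of_sq_le ?_
    have h3 := norm_sq_of_spec (hq j) (c1 j _ rfl) (c2 j) ξ
    have h4 := re_mono (Finset.single_le_sum (f := fun y : N => star y.1 * y.1)
      (fun y _ => star_mul_self_nonneg _) (hj.1 (Finset.mem_singleton_self y))) (q j ξ)
    rw [re_star_mul] at h4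
    refine h4.trans (h3.trans ?_)
    have := proj_apply_le (hq j) ξ
    gcongr
  have k2 : (1 - s) * w * 1 = 0 := by
    ext ξ
    have := hs.fix (w ξ) fun z hz h => by rw [← mul_ap, k1 ⟨z, hz, h⟩]; rfl
    simp [this]
  have k3 := hn.seq (C := 1) (Eventually.of_forall fun j => ⟨mul_mem (mul_mem (sub_mem (one_mem M)
    hM) (qM j)) (one_mem M), by
      rw [mul_one]
      exact (norm_mul_le _ _).trans (mul_le_one₀ hs.proj.one_sub.norm_le (norm_nonneg _)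
        (hq j).norm_le)⟩) (hw.mul (1 - s) 1)
  have k4 : ∀ j, ρ.κ ((1 - s) * q j * 1) = ρ.κ (1 - s) := fun j => by
    have a1 : ρ.nn (1 - q j) = 0 := by
      refine ρ.nn_eq_zero ?_
      rw [(hq j).one_sub.isSelfAdjoint.star_eq, (hq j).one_sub.isIdempotentElem.eq]
      have b1 : (∑ y ∈ j.1, star y.1 * y.1) * (1 - q j) ≤ ∑ y ∈ j.1, star y.1 * y.1 := by
        rw [mul_sub, mul_one]
        exact sub_le_self _ (Commute.mul_nonneg (hT _) (hq j).nonneg (c1 j _ rfl))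
      have b2 := ρ.re_mono ((c3 j).trans b1)
      rw [map_smul, smul_eq_mul, Complex.re_ofReal_mul, map_sum, Complex.re_sum,
        Finset.sum_eq_zero fun y _ => by rw [← ρ.nn_sq, y.2.2]; simp] at b2
      exact nonpos_of_mul_nonpos_right b2 (by positivity)
    have a2 := ρ.cs (1 - s) (1 - q j)
    rw [a1, mul_zero, norm_le_zero_iff, hs.proj.one_sub.isSelfAdjoint.star_eq, mul_sub, mul_one,
      map_sub, sub_eq_zero] at a2
    rw [mul_one, a2]
  simp only [k4, k2, map_zero] at k3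
  have := tendsto_nhds_unique k3 tendsto_const_nhds
  refine ρ.nn_eq_zero ?_
  rw [hs.proj.one_sub.isSelfAdjoint.star_eq, hs.proj.one_sub.isIdempotentElem.eq, ← this]
  simp

lemma Supp.null_wot {ρ : PF H} {s : H →L[ℂ] H} (hs : Supp M ρ s) (hn : NW M ρ.κ)
    {z : ℕ → H →L[ℂ] H} (hz : ∀ n, z n ∈ M ∧ ‖z n‖ ≤ 1 ∧ z n * s = z n)
    (h0 : Tendsto (fun n => ρ.nn (z n)) atTop (𝓝 0)) :
    WT (hyperfilter ℕ : Filter ℕ) (fun n => star (z n) * z n) 0 := by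
  have hb : ∀ n, ‖star (z n) * z n‖ ≤ 1 := fun n => by
    rw [CStarRing.norm_star_mul_self]; exact mul_le_one₀ (hz n).2.1 (norm_nonneg _) (hz n).2.1
  have hm : ∀ n, star (z n) * z n ∈ M := fun n => mul_mem (star_mem (hz n).1) (hz n).1
  obtain ⟨w, hw1, hw⟩ := wlim (hyperfilter ℕ) _ zero_le_one hb
  have w0 : 0 ≤ w := hw.nonneg (Eventually.of_forall fun n => star_mul_self_nonneg _)
  have ws : 1 * w * s = 1 * w * 1 :=
    hw.eq (Eventually.of_forall fun n => by simp [mul_assoc, (hz n).2.2])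
  have k1 := (Complex.continuous_re.tendsto _).comp
    (hn.seq (C := 1) (Eventually.of_forall fun n => ⟨hm n, hb n⟩) hw)
  have k2 : (ρ.κ w).re = 0 ^ 2 := tendsto_nhds_unique k1
    (((h0.pow 2).mono_left Nat.hyperfilter_le_atTop).congr fun n => ρ.nn_sq _)
  have k3 := hs.kill w (hw.mem (Eventually.of_forall hm)) (ρ.nn_eq_zero ((ρ.re_mono
    (sq_le_self w0 ((CStarAlgebra.norm_le_one_iff_of_nonneg w w0).1 hw1))).trans (by simp [k2])))
  rw [one_mul, mul_one, k3] at ws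
  exact ws ▸ hw

end Vale.Agent.P078.G
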