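import Vale.Agent.P078.Sing2

/-! The normal part of a central positive functional. -/

namespace Vale.Agent.P078.G

open scoped ComplexOrder InnerProductSpace ComplexConjugate
open Filter Topology

variable {H : Type*} [NormedAddCommGroup H] [InnerProductSpace ℂ H] [CompleteSpace H]
  {M : VonNeumannAlgebra H} {A : StarSubalgebra ℂ (H →L[ℂ] H)}

lemma tendsto_of_approx {ι : Type*} {l : Filter ι} {f : ι → ℂ} {a : ℂ}
    (h : ∀ ε > (0 : ℝ), ∃ g : ι → ℂ, ∃ b, Tendsto g l (𝓝 b) ∧ (∀ᶠ i in l, ‖f i - g i‖ ≤ ε) ∧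
      ‖a - b‖ ≤ ε) : Tendsto f l (𝓝 a) := by
  refine Metric.tendsto_nhds.2 fun ε hε => ?_
  obtain ⟨g, b, h1, h2, h3⟩ := h (ε / 3) (by positivity)
  filter_upwards [h2, Metric.tendsto_nhds.1 h1 (ε / 3) (by positivity)] with i a1 a2
  rw [dist_eq_norm] at a2 ⊢
  have e : f i - a = (f i - g i) + (g i - b) - (a - b) := by ring
  rw [e]
  linarith [norm_sub_le ((f i - g i) + (g i - b)) (a - b), norm_add_le (f i - g i) (g i - b)]

namespace PF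
variable (ρ : PF H)

/-- the vectors whose coefficients are weakly continuous on bounded parts of `M` -/
noncomputable def Kn (M : VonNeumannAlgebra H) : Submodule ℂ ρ.K where
  carrier := {ζ | ∀ ζ', NW M fun b => ⟪ζ', ρ.π b ζ⟫_ℂ}
  add_mem' ha hb ζ' l w C h1 h2 := by
    simpa only [map_add, inner_add_right] using (ha ζ' l w C h1 h2).add (hb ζ' l w C h1 h2)
  zero_mem' ζ' l w C _ _ := by simpa using tendsto_const_nhds
  smul_mem' c v hv ζ' l w C h1 h2 := by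
    simpa only [map_smul, inner_smul_right] using (hv ζ' l w C h1 h2).const_mul c

lemma Kn_closed : IsClosed (ρ.Kn M : Set ρ.K) := by
  refine isClosed_of_closure_subset fun ζ hζ ζ' l w C h1 h2 => tendsto_of_approx fun ε hε => ?_
  have hD : 0 < (‖ζ'‖ + 1) * (|C| + ‖w‖ + 1) := by positivity
  obtain ⟨ζ₁, a1, a2⟩ := Metric.mem_closure_iff.1 hζ _ (div_pos hε hD)
  have key : ∀ b : H →L[ℂ] H, ‖b‖ ≤ |C| + ‖w‖ + 1 →
      ‖⟪ζ', ρ.π b ζ⟫_ℂ - ⟪ζ', ρ.π b ζ₁⟫_ℂ‖ ≤ ε := fun b hb => by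
    rw [← inner_sub_right, ← map_sub]
    refine (norm_inner_le_norm _ _).trans ?_
    have := (ρ.π b).le_of_opNorm_le ((ρ.norm_π b).trans hb) (ζ - ζ₁)
    rw [dist_eq_norm, lt_div_iff₀ hD] at a2
    calc _ ≤ (‖ζ'‖ + 1) * ((|C| + ‖w‖ + 1) * ‖ζ - ζ₁‖) := by gcongr; linarith
      _ ≤ ε := by linarith
  refine ⟨_, _, a1 ζ' l w C h1 h2, h1.mono fun b hb => key b ?_, key w ?_⟩
  · linarith [le_abs_self C, norm_nonneg w, hb.2]
  · linarith [abs_nonneg C]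

lemma Kn_inv {b : H →L[ℂ] H} (hb : b ∈ M) : ∀ v ∈ ρ.Kn M, ρ.π b v ∈ ρ.Kn M :=
  fun v hv ζ' l w C h1 h2 => by
    have := (hv ζ').seq (l := l) (x := fun z => 1 * z * b) (C := C * ‖b‖) (h1.mono fun z hz =>
      ⟨mul_mem (mul_mem (one_mem M) hz.1) hb, by
        rw [one_mul]
        exact (norm_mul_le _ _).trans (mul_le_mul_of_nonneg_right hz.2 (norm_nonneg _))⟩)
      (h2.mul 1 b)
    simpa only [one_mul, map_mul, mul_ap] using this

lemma Kn_inv' {R : ρ.K →L[ℂ] ρ.K} (hR : ∀ b ∈ M, ρ.π b * R = R * ρ.π b) :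
    ∀ v ∈ ρ.Kn M, R v ∈ ρ.Kn M := fun v hv ζ' l w C h1 h2 => by
  by_cases hl : l = ⊥
  · simp [hl]
  have : l.NeBot := ⟨hl⟩
  have e : ∀ b ∈ M, ⟪ζ', ρ.π b (R v)⟫_ℂ = ⟪star R ζ', ρ.π b v⟫_ℂ := fun b hb => by
    rw [inner_star, ← mul_ap, hR b hb, mul_ap]
  beta_reduce
  rw [e w (h2.mem (h1.mono fun _ h => h.1))]
  exact (hv _ l w C h1 h2).congr' (h1.mono fun z hz => (e z hz.1).symm)

lemma exists_right {e : H →L[ℂ] H} (he : IsStarProjection e)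
    (hc : ∀ b, ρ.κ (e * b) = ρ.κ (b * e)) : ∃ R : ρ.K →L[ℂ] ρ.K, IsSelfAdjoint R ∧
      (∀ b, ρ.π b * R = R * ρ.π b) ∧ (∀ b, R (ρ.ι (b * e)) = ρ.ι (b * e)) ∧
      ∀ b, R (ρ.ι (b * (1 - e))) = 0 := by
  let L := (LinearMap.range (ρ.ι ∘ₗ LinearMap.mulRight ℂ e)).topologicalClosure
  obtain ⟨R, hR, h1, h2, h3⟩ := exists_proj L (Submodule.isClosed_topologicalClosure _)
  have inv : ∀ b, ∀ v ∈ L, ρ.π b v ∈ L := fun b v hv => by
    refine map_mem_closure (ρ.π b).continuous hv ?_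
    rintro _ ⟨c, rfl⟩
    exact ⟨b * c, by simp [ρ.π_ι, mul_assoc]⟩
  refine ⟨R, hR.isSelfAdjoint, fun b => h3 _ (inv b) (by rw [← map_star]; exact inv _),
    fun b => h2 _ (subset_closure ⟨b, rfl⟩), fun b => ?_⟩
  have k : ∀ v ∈ L, ⟪v, ρ.ι (b * (1 - e))⟫_ℂ = 0 := fun v hv => by
    refine closure_minimal (t := {v | ⟪v, ρ.ι (b * (1 - e))⟫_ℂ = 0}) ?_
      (isClosed_eq (by fun_prop) continuous_const) hv
    rintro _ ⟨c, rfl⟩
    change ⟪ρ.ι (c * e), _⟫_ℂ = 0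
    rw [ρ.inner_ι, star_mul, he.isSelfAdjoint.star_eq, mul_assoc, hc, mul_assoc, mul_assoc,
      he.one_sub_mul_self, mul_zero, mul_zero, map_zero]
  have := k _ (h1 (ρ.ι (b * (1 - e))))
  rw [inner_sa hR.isSelfAdjoint] at this
  have h4 := re_proj hR (ρ.ι (b * (1 - e)))
  rw [this, Complex.zero_re] at h4
  exact norm_eq_zero.1 (pow_eq_zero_iff two_ne_zero |>.1 h4.symm)

/-- the vector functional in the GNS representation -/
noncomputable def vec (η : ρ.K) : PF H where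
  κ := (innerSL ℂ η).comp ((ContinuousLinearMap.apply ℂ ρ.K η).comp
    (LinearMap.mkContinuous (ρ.π : (H →L[ℂ] H) →ₗ[ℂ] (ρ.K →L[ℂ] ρ.K)) 1
      fun b => by simpa using ρ.norm_π b))
  pos z := by
    change 0 ≤ ⟪η, ρ.π (star z * z) η⟫_ℂ
    rw [map_mul, map_star]
    exact nonneg_iff.1 (star_mul_self_nonneg _) η

lemma vec_apply (η : ρ.K) (b : H →L[ℂ] H) : (ρ.vec η).κ b = ⟪η, ρ.π b η⟫_ℂ := rfl

lemma vec_nn (η : ρ.K) (b : H →L[ℂ] H) : (ρ.vec η).nn b = ‖ρ.π b η‖ := by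
  have := (ρ.vec η).nn_sq b
  rw [vec_apply, map_mul, map_star, re_star_mul] at this
  exact (pow_left_inj₀ ((ρ.vec η).nn_nonneg b) (norm_nonneg _) two_ne_zero).1 this

lemma exists_intertwiner (p : H →L[ℂ] H) (v : H) (c : ℝ)
    (h : ∀ b ∈ M, ‖b v‖ ≤ c * ρ.nn (b * p)) : ∃ V : ρ.K →L[ℂ] H, V (ρ.ι p) = v ∧
      ∀ z ∈ M, ∀ w, V (ρ.π z w) = z (V w) := by
  let N : Submodule ℂ (H →L[ℂ] H) := M.toStarSubalgebra.toSubalgebra.toSubmodule
  let L1 : N →ₗ[ℂ] ρ.K := (ρ.ι ∘ₗ LinearMap.mulRight ℂ p) ∘ₗ N.subtype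
  let L2 : N →ₗ[ℂ] H := (ContinuousLinearMap.apply ℂ H v).toLinearMap ∘ₗ N.subtype
  let D := (LinearMap.range L1).topologicalClosure
  let e : N →ₗ[ℂ] D := L1.codRestrict D fun b => subset_closure ⟨b, rfl⟩
  have hd : DenseRange e := by
    intro w
    rw [Topology.IsInducing.subtypeVal.closure_eq_preimage_closure_image, ← Set.range_comp]
    exact w.2
  have hb : ∃ C, ∀ b, ‖L2 b‖ ≤ C * ‖e b‖ := ⟨c, fun b => h b.1 b.2⟩
  obtain ⟨P, hP, h1, h2, h3⟩ := exists_proj D (Submodule.isClosed_topologicalClosure _)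
  let V := (L2.extendOfNorm e).comp (P.codRestrict D h1)
  have hV : ∀ b ∈ M, V (ρ.ι (b * p)) = b v := fun b hb' => by
    have := LinearMap.extendOfNorm_eq hd hb ⟨b, hb'⟩
    refine Eq.trans (congrArg (L2.extendOfNorm e) (Subtype.ext ?_)) this
    exact h2 _ (e ⟨b, hb'⟩).2
  have hP' : ∀ w, V (P w) = V w := fun w =>
    congrArg (L2.extendOfNorm e) (Subtype.ext (h2 _ (h1 w)))
  have inv : ∀ b ∈ M, ∀ w ∈ D, ρ.π b w ∈ D := fun b hb w hw => by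
    refine map_mem_closure (ρ.π b).continuous hw ?_
    rintro _ ⟨c, rfl⟩
    exact ⟨⟨b * c.1, mul_mem (s := M) hb c.2⟩, by simp [L1, ρ.π_ι, mul_assoc]⟩
  refine ⟨V, by simpa using hV 1 (one_mem M), fun z hz w => ?_⟩
  have k : ∀ w ∈ D, V (ρ.π z w) = z (V w) := fun w hw => by
    refine closure_minimal (t := {w | V (ρ.π z w) = z (V w)}) ?_
      (isClosed_eq (by fun_prop) (by fun_prop)) hw
    rintro _ ⟨c, rfl⟩
    change V (ρ.π z (ρ.ι (c.1 * p))) = z (V (ρ.ι (c.1 * p)))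
    rw [ρ.π_ι, ← mul_assoc, hV _ (mul_mem hz c.2), hV _ c.2, mul_ap]
  rw [← hP', ← mul_ap P, ← h3 _ (inv z hz) (by rw [← map_star]; exact inv _ (star_mem hz)), mul_ap,
    k _ (h1 w), hP']

end PF

lemma normal_part (X : Ctx M A) (ρ : PF H) (hc : Cen A ρ.κ) {y : H →L[ℂ] H} (hy : y ∈ A)
    (hy' : IsStarProjection y) : ∃ ρ' : PF H, Cen A ρ'.κ ∧ NW M ρ'.κ ∧ ρ'.nn (1 - y) = 0 ∧
      ∀ p ∈ M, p * y = p → ρ'.nn p = 0 → ∀ (v : H) (c : ℝ),
        (∀ b ∈ M, ‖b v‖ ≤ c * ρ.nn (b * p)) → v = 0 := by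
  obtain ⟨P, hP, h1, h2, h3⟩ := exists_proj (ρ.Kn M) ρ.Kn_closed
  have hπ : ∀ b ∈ M, ∀ w, ρ.π b (P w) = P (ρ.π b w) := fun b hb w => by
    rw [← mul_ap, h3 _ (ρ.Kn_inv hb) (by rw [← map_star]; exact ρ.Kn_inv (star_mem hb)), mul_ap]
  have k : ∀ e ∈ A, IsStarProjection e → ∀ b, (ρ.vec (P (ρ.ι y))).κ (e * b * (1 - e)) = 0 := by
    intro e he he' b
    obtain ⟨R, r1, r2, r3, r4⟩ := ρ.exists_right he' (hc e he he')
    have hR : ∀ w, R (P w) = P (R w) := fun w => by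
      have := ρ.Kn_inv' (M := M) fun b _ => r2 b
      rw [← mul_ap, h3 _ this (by rwa [r1.star_eq]), mul_ap]
    have s1 : IsSelfAdjoint (ρ.π e) := by
      rw [IsSelfAdjoint, ← map_star, he'.isSelfAdjoint.star_eq]
    have he1 := sub_mem (one_mem A) he
    rw [ρ.vec_apply, map_mul, map_mul, mul_ap, mul_ap, ← inner_sa s1, hπ e (X.sub e he),
      hπ _ (X.sub _ he1), ρ.π_ι, ρ.π_ι, X.comm e he y hy, X.comm _ he1 y hy, ← r3, ← hR,
      inner_sa r1, ← mul_ap R, ← r2, mul_ap, hR, r4]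
    simp
  refine ⟨ρ.vec (P (ρ.ι y)), fun e he he' b => ?_, h1 _ _, ?_, fun p hp py hp0 v c hv => ?_⟩
  · have a1 := k e he he' b
    have a2 := k (1 - e) (sub_mem (one_mem A) he) he'.one_sub b
    rw [mul_sub, mul_one, map_sub, sub_eq_zero] at a1
    rw [sub_sub_cancel, sub_mul, one_mul, sub_mul, map_sub, sub_eq_zero] at a2
    rw [a1, a2]
  · rw [ρ.vec_nn, hπ _ (X.sub _ (sub_mem (one_mem A) hy)), ρ.π_ι, hy'.one_sub_mul_self]
    simp
  · obtain ⟨V, v1, v2⟩ := ρ.exists_intertwiner p v c hv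
    have e : ∀ z ∈ M, ∀ ζ', ⟪ζ', ρ.π z (ContinuousLinearMap.adjoint V v)⟫_ℂ = ⟪V ζ', z v⟫_ℂ :=
      fun z hz ζ' => by
        rw [← inner_star, ← map_star, ContinuousLinearMap.adjoint_inner_right,
          v2 _ (star_mem hz), inner_star]
    have hz : ContinuousLinearMap.adjoint V v ∈ ρ.Kn M := fun ζ' l w C a1 a2 => by
      by_cases hl : l = ⊥
      · simp [hl]
      have : l.NeBot := ⟨hl⟩
      beta_reduce
      rw [e w (a2.mem (a1.mono fun _ h => h.1))]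
      exact (a2 v _).congr' (a1.mono fun z hz => (e z hz.1 _).symm)
    rw [ρ.vec_nn, norm_eq_zero, hπ p hp, ρ.π_ι, py] at hp0
    have : ⟪v, v⟫_ℂ = 0 := by
      conv_lhs => arg 2; rw [← v1]
      rw [← ContinuousLinearMap.adjoint_inner_right, ← h2 _ hz, ← inner_sa hP.isSelfAdjoint, hp0]
      simp
    exact inner_self_eq_zero.1 this

end Vale.Agent.P078.G
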