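import Vale.Agent.P078.Sing3

/-! Exhaustion and Hahn-Banach: an almost full positive contraction that is small on every atom. -/

namespace Vale.Agent.P078.G

open scoped ComplexOrder InnerProductSpace ComplexConjugate
open Filter Topology

variable {H : Type*} [NormedAddCommGroup H] [InnerProductSpace ℂ H] [CompleteSpace H]
  {M : VonNeumannAlgebra H} {A : StarSubalgebra ℂ (H →L[ℂ] H)}

/-- sum of the vector functionals of a finite set -/
noncomputable def φ (F : Finset H) : (H →L[ℂ] H) →L[ℂ] ℂ :=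
  ∑ ξ ∈ F, (innerSL ℂ ξ).comp (ContinuousLinearMap.apply ℂ H ξ)

omit [CompleteSpace H] in
lemma φ_apply (F : Finset H) (b : H →L[ℂ] H) : φ F b = ∑ ξ ∈ F, ⟪ξ, b ξ⟫_ℂ := by
  simp [φ]

lemma φ_mono (F : Finset H) {a b : H →L[ℂ] H} (h : a ≤ b) : (φ F a).re ≤ (φ F b).re := by
  simp only [φ_apply, Complex.re_sum]
  exact Finset.sum_le_sum fun ξ _ => re_mono h ξ

lemma φ_nonneg (F : Finset H) {a : H →L[ℂ] H} (h : 0 ≤ a) : 0 ≤ (φ F a).re := by
  simpa using φ_mono F h

lemma le_φ (F : Finset H) {a : H →L[ℂ] H} (h : 0 ≤ a) {ξ : H} (hξ : ξ ∈ F) :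
    (⟪ξ, a ξ⟫_ℂ).re ≤ (φ F a).re := by
  simp only [φ_apply, Complex.re_sum]
  exact Finset.single_le_sum (f := fun ξ => (⟪ξ, a ξ⟫_ℂ).re) (fun ξ _ => re_nonneg h ξ) hξ

lemma exhaust (ρ : PF H) (F : Finset H) {e : H →L[ℂ] H} (he : e ∈ M) (he' : IsStarProjection e)
    (t : ℝ) {γ : ℝ} (hγ : 0 < γ) :
    (∃ q ∈ M, IsStarProjection q ∧ q * e = q ∧ (ρ.κ q).re ≤ t * (φ F q).re ∧
      (φ F (e - q)).re < γ) ∨
    ∃ p ∈ M, IsStarProjection p ∧ p * e = p ∧ (∃ ξ ∈ F, p ξ ≠ 0) ∧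
      ∀ p' ∈ M, IsStarProjection p' → p' * p = p' → t * (φ F p').re ≤ (ρ.κ p').re := by
  let Adm := {q : H →L[ℂ] H // q ∈ M ∧ IsStarProjection q ∧ q * e = q ∧
    (ρ.κ q).re ≤ t * (φ F q).re}
  have bd : ∀ q : Adm, (φ F q.1).re ≤ (φ F 1).re := fun q => φ_mono F q.2.2.1.le_one
  have step : ∀ (q : Adm) (n : ℕ), ∃ q' : Adm, q.1 * q'.1 = q.1 ∧ ∀ q'' : Adm,
      q.1 * q''.1 = q.1 → (φ F q''.1).re < (φ F q'.1).re + 1 / ((n : ℝ) + 1) := fun q n => by
    let T : Set ℝ := {r | ∃ q' : Adm, q.1 * q'.1 = q.1 ∧ r = (φ F q'.1).re}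
    have hT : BddAbove T := ⟨_, by rintro _ ⟨q', -, rfl⟩; exact bd q'⟩
    obtain ⟨_, ⟨q', h1, rfl⟩, h2⟩ := exists_lt_of_lt_csSup (s := T)
      ⟨_, q, q.2.2.1.isIdempotentElem.eq, rfl⟩
      (sub_lt_self (sSup T) (Nat.one_div_pos_of_nat (n := n)))
    exact ⟨q', h1, fun q'' h => by linarith [le_csSup hT ⟨q'', h, rfl⟩]⟩
  choose s hs1 hs2 using step
  let Q : ℕ → Adm := fun n => Nat.rec ⟨0, zero_mem M, IsStarProjection.zero _, by simp, by simp⟩
    (fun n q => s q n) n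
  have hQ : ∀ n, Q (n + 1) = s (Q n) n := fun n => rfl
  have mono : ∀ m n, m ≤ n → (Q m).1 * (Q n).1 = (Q m).1 := fun m n h => by
    induction n, h using Nat.le_induction with
    | base => exact (Q m).2.2.1.isIdempotentElem.eq
    | succ n _ ih => rw [hQ, ← ih, mul_assoc, hs1]
  let L : Submodule ℂ H :=
    { carrier := {v | e v = v ∧ ∀ n, (Q n).1 v = 0}
      add_mem' := fun ha hb => ⟨by rw [map_add, ha.1, hb.1],
        fun n => by rw [map_add, ha.2, hb.2, add_zero]⟩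
      zero_mem' := ⟨map_zero _, fun _ => map_zero _⟩
      smul_mem' := fun c v hv => ⟨by rw [map_smul, hv.1], fun n => by
        rw [map_smul, hv.2, smul_zero]⟩ }
  have hL : IsClosed (L : Set H) := by
    have : (L : Set H) = {v | e v = v} ∩ ⋂ n, {v | (Q n).1 v = 0} := by
      ext v; simp [L]
    rw [this]
    exact (isClosed_eq e.continuous continuous_id).inter
      (isClosed_iInter fun n => isClosed_eq (Q n).1.continuous continuous_const)
  obtain ⟨p, hp, h1, h2, h3⟩ := exists_proj L hL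
  have i1 : ∀ g : H →L[ℂ] H, (∀ b ∈ M, b * g = g * b) → ∀ v ∈ L, g v ∈ L := fun g hg v hv =>
    ⟨by rw [← mul_ap, hg e he, mul_ap, hv.1],
      fun n => by rw [← mul_ap, hg _ (Q n).2.1, mul_ap, hv.2, map_zero]⟩
  have pM : p ∈ M := mem_of_comm fun g hg => h3 g (i1 g hg) (i1 _ fun b hb => by
    simpa using (congrArg star (hg _ (star_mem hb))).symm)
  have ep : e * p = p := by ext v; exact (h1 v).1
  have pe : p * e = p := swap_sa he'.isSelfAdjoint hp.isSelfAdjoint hp.isSelfAdjoint ep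
  have qp : ∀ n, (Q n).1 * p = 0 := fun n => by ext v; exact (h1 v).2 n
  by_cases hF : ∃ ξ ∈ F, p ξ ≠ 0
  · refine Or.inr ⟨p, pM, hp, pe, hF, fun p' a1 a2 a3 => ?_⟩
    by_contra hc
    push Not at hc
    have a4 : p * p' = p' := swap_sa a2.isSelfAdjoint hp.isSelfAdjoint a2.isSelfAdjoint a3
    have a5 : ∀ n, (Q n).1 * p' = 0 := fun n => by rw [← a4, ← mul_assoc, qp, zero_mul]
    have a6 : ∀ n, (φ F p').re ≤ (φ F (Q (n + 1)).1).re + 1 / ((n : ℝ) + 1) - (φ F (Q n).1).re :=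
      fun n => by
        have := hs2 (Q n) n ⟨(Q n).1 + p', add_mem (Q n).2.1 a1, (Q n).2.2.1.add a2 (a5 n), by
          rw [add_mul, (Q n).2.2.2.1, ← a3, mul_assoc, pe], by
          simp only [map_add, Complex.add_re, mul_add]; linarith [(Q n).2.2.2.2]⟩
          (by rw [mul_add, a5, add_zero, (Q n).2.2.1.isIdempotentElem.eq])
        simp only [map_add, Complex.add_re] at this
        rw [hQ]; linarith
    have a7 : Monotone fun n => (φ F (Q n).1).re := fun m n h =>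
      φ_mono F (((Q m).2.2.1.le_iff_mul_eq_left (Q n).2.2.1).2 (mono m n h))
    have a8 := tendsto_atTop_ciSup a7 ⟨_, by rintro _ ⟨n, rfl⟩; exact bd _⟩
    have a9 := ge_of_tendsto' (((a8.comp (tendsto_add_atTop_nat 1)).add
      tendsto_one_div_add_atTop_nhds_zero_nat).sub a8) a6
    have b1 : (φ F p').re = 0 := le_antisymm (by simpa using a9) (φ_nonneg F a2.nonneg)
    rw [b1, mul_zero] at hc
    exact absurd (ρ.nonneg a2.nonneg).1 (not_le.2 hc)
  · push Not at hF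
    have pr : ∀ n, IsStarProjection (e - (Q n).1) := fun n =>
      (Q n).2.2.1.sub_of_mul_eq_left he' (Q n).2.2.2.1
    obtain ⟨T, -, hT⟩ := wlim (hyperfilter ℕ) (fun n => e - (Q n).1) zero_le_one
      fun n => (pr n).norm_le
    have eq : ∀ n, e * (Q n).1 = (Q n).1 := fun n => swap_sa (Q n).2.2.1.isSelfAdjoint
      he'.isSelfAdjoint (Q n).2.2.1.isSelfAdjoint (Q n).2.2.2.1
    have b1 : e * T * 1 = 1 * T * 1 := hT.eq (Eventually.of_forall fun n => by
      simp [mul_sub, eq, he'.isIdempotentElem.eq])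
    have b2 : ∀ m, (Q m).1 * T * 1 = 0 * T * 1 := fun m => hT.eq (Nat.hyperfilter_le_atTop
      ((eventually_ge_atTop m).mono fun n hn => by simp [mul_sub, mono m n hn, (Q m).2.2.2.1]))
    simp only [mul_one, one_mul, zero_mul] at b1 b2
    have b3 : Tendsto (fun n => (φ F (e - (Q n).1)).re) (hyperfilter ℕ) (𝓝 0) := by
      have := (Complex.continuous_re.tendsto _).comp (tendsto_finsetSum F fun ξ _ => hT ξ ξ)
      rw [Finset.sum_eq_zero fun ξ hξ => by
        rw [← h2 (T ξ) ⟨by rw [← mul_ap, b1], fun n => by rw [← mul_ap, b2]; rfl⟩,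
          ← inner_sa hp.isSelfAdjoint, hF ξ hξ, inner_zero_left]] at this
      simpa [Function.comp_def, φ_apply] using this
    obtain ⟨n, hn⟩ := (b3.eventually (gt_mem_nhds hγ)).exists
    exact Or.inl ⟨(Q n).1, (Q n).2.1, (Q n).2.2.1, (Q n).2.2.2.1, (Q n).2.2.2.2, hn⟩

/-- a finite partition of unity by projections of `A` -/
structure IsPart (A : StarSubalgebra ℂ (H →L[ℂ] H)) {ι : Type*} [Fintype ι]
    (e : ι → H →L[ℂ] H) : Prop where
  mem : ∀ i, e i ∈ A
  proj : ∀ i, IsStarProjection (e i)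
  orth : ∀ i j, i ≠ j → e i * e j = 0
  sum : ∑ i, e i = 1

lemma IsPart.comp {ι ι' : Type*} [Fintype ι] [Fintype ι'] {e : ι → H →L[ℂ] H} (h : IsPart A e)
    (σ : ι' ≃ ι) : IsPart A fun i => e (σ i) :=
  ⟨fun _ => h.mem _, fun _ => h.proj _, fun _ _ hij => h.orth _ _ (σ.injective.ne hij),
    by rw [Equiv.sum_comp σ e, h.sum]⟩

lemma IsPart.sigma (X : Ctx M A) {ι : Type*} [Fintype ι] {κ : ι → Type*} [∀ i, Fintype (κ i)]
    {e : ι → H →L[ℂ] H} (h : IsPart A e) {f : ∀ i, κ i → H →L[ℂ] H} (h' : ∀ i, IsPart A (f i)) :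
    IsPart A fun k : Σ i, κ i => e k.1 * f k.1 k.2 where
  mem _ := mul_mem (h.mem _) ((h' _).mem _)
  proj _ := (h.proj _).mul ((h' _).proj _) (X.comm _ (h.mem _) _ ((h' _).mem _))
  orth := by
    rintro ⟨i, a⟩ ⟨j, b⟩ hne
    have : e i * f i a * (e j * f j b) = (e i * e j) * (f i a * f j b) := by
      rw [mul_assoc, ← mul_assoc (f i a), X.comm _ ((h' i).mem a) _ (h.mem j)]
      simp only [mul_assoc]
    rw [this]
    by_cases h1 : i = j
    · subst h1
      rw [(h' i).orth a b fun h2 => hne (by rw [h2]), mul_zero]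
    · rw [h.orth _ _ h1, zero_mul]
  sum := by
    rw [Fintype.sum_sigma]
    simp only [← Finset.mul_sum, (h' _).sum, mul_one, h.sum]

lemma isPart_two {e : H →L[ℂ] H} (he : e ∈ A) (he' : IsStarProjection e) :
    IsPart A ![e, 1 - e] where
  mem i := by fin_cases i; exacts [he, sub_mem (one_mem A) he]
  proj i := by fin_cases i; exacts [he', he'.one_sub]
  orth i j h := by
    fin_cases i <;> fin_cases j
    exacts [(h rfl).elim, he'.mul_one_sub_self, he'.one_sub_mul_self, (h rfl).elim]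
  sum := by simp

/-- bundled partitions -/
structure Pt (A : StarSubalgebra ℂ (H →L[ℂ] H)) where
  n : ℕ
  e : Fin n → H →L[ℂ] H
  h : IsPart A e

/-- refinement -/
def Ref (P Q : Pt A) : Prop := ∀ j, ∃ i, P.e i * Q.e j = Q.e j

lemma exists_join (X : Ctx M A) (P Q : Pt A) : ∃ R, Ref P R ∧ Ref Q R := by
  refine ⟨⟨_, _, (P.h.sigma X fun _ => Q.h).comp (Fintype.equivFin _).symm⟩,
    fun j => ⟨((Fintype.equivFin _).symm j).1, ?_⟩, fun j => ⟨((Fintype.equivFin _).symm j).2, ?_⟩⟩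
  · change P.e _ * (P.e _ * Q.e _) = P.e _ * Q.e _
    rw [← mul_assoc, (P.h.proj _).isIdempotentElem.eq]
  · change Q.e _ * (P.e _ * Q.e _) = P.e _ * Q.e _
    rw [← mul_assoc, X.comm _ (Q.h.mem _) _ (P.h.mem _), mul_assoc,
      (Q.h.proj _).isIdempotentElem.eq]

instance : Nonempty (Pt A) := ⟨⟨2, _, isPart_two (one_mem A) (IsStarProjection.one _)⟩⟩

lemma exists_ultra (X : Ctx M A) : 
    ∃ U : Ultrafilter (Pt A), ∀ P : Pt A, ∀ᶠ Q in (U : Filter (Pt A)), Ref P Q := by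
  let _ : Preorder (Pt A) :=
    { le := Ref
      le_refl P j := ⟨j, (P.h.proj j).isIdempotentElem⟩
      le_trans P Q R h h' k := by
        obtain ⟨j, hj⟩ := h' k
        obtain ⟨i, hi⟩ := h j
        exact ⟨i, by rw [← hj, ← mul_assoc, hi]⟩ }
  have : IsDirectedOrder (Pt A) := ⟨exists_join X⟩
  exact ⟨Ultrafilter.of atTop, fun P => Ultrafilter.of_le _ (eventually_ge_atTop P)⟩

/-- operators whose compressions to all atoms of some partition are strictly negative -/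
def Neg (A : StarSubalgebra ℂ (H →L[ℂ] H)) : Set (H →L[ℂ] H) :=
  {w | ∃ P : Pt A, ∃ ε > (0 : ℝ), ∀ i v, P.e i v = v → (⟪v, w v⟫_ℂ).re ≤ -ε * ‖v‖ ^ 2}

lemma Ref.apply {P Q : Pt A} (h : Ref P Q) {j : Fin Q.n} {v : H} (hv : Q.e j v = v) :
    ∃ i, P.e i v = v := by
  obtain ⟨i, hi⟩ := h j
  exact ⟨i, by rw [← hv, ← mul_ap, hi]⟩

lemma convex_Neg (X : Ctx M A) : Convex ℝ (Neg A) := by
  rintro w ⟨P, ε, hε, hw⟩ w' ⟨P', ε', hε', hw'⟩ a b ha hb hab
  obtain ⟨R, h1, h2⟩ := exists_join X P P'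
  refine ⟨R, min ε ε', lt_min hε hε', fun j v hv => ?_⟩
  obtain ⟨i, hi⟩ := h1.apply hv
  obtain ⟨i', hi'⟩ := h2.apply hv
  have a1 := hw i v hi
  have a2 := hw' i' v hi'
  have a3 := mul_le_mul_of_nonneg_right (min_le_left ε ε') (sq_nonneg ‖v‖)
  have a4 := mul_le_mul_of_nonneg_right (min_le_right ε ε') (sq_nonneg ‖v‖)
  simp only [add_apply, smul_apply, inner_add_right, Complex.add_re, ← Complex.coe_smul,
    inner_smul_right, Complex.re_ofReal_mul]
  obtain rfl : b = 1 - a := by linarith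
  nlinarith

lemma isOpen_Neg : IsOpen (Neg A) := by
  refine Metric.isOpen_iff.2 ?_
  rintro w ⟨P, ε, hε, hw⟩
  refine ⟨ε / 2, half_pos hε, fun w' hw' => ⟨P, ε / 2, half_pos hε, fun i v hv => ?_⟩⟩
  have a1 := hw i v hv
  have a2 : (⟪v, (w' - w) v⟫_ℂ).re ≤ ‖v‖ * (ε / 2 * ‖v‖) :=
    (Complex.re_le_norm _).trans ((norm_inner_le_norm _ _).trans (mul_le_mul_of_nonneg_left
      ((w' - w).le_of_opNorm_le (mem_ball_iff_norm.1 hw').le v) (norm_nonneg _)))
  simp only [sub_apply, inner_sub_right, Complex.sub_re] at a2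
  nlinarith

lemma hb_open {E : Type*} [NormedAddCommGroup E] [NormedSpace ℂ E] [NormedSpace ℝ E]
    [IsScalarTower ℝ ℂ E] {s t : Set E} (hs : Convex ℝ s) (hs' : IsOpen s) (ht : Convex ℝ t)
    (hd : Disjoint s t) :
    ∃ (f : E →L[ℂ] ℂ) (u : ℝ), (∀ a ∈ s, (f a).re < u) ∧ ∀ b ∈ t, u ≤ (f b).re :=
  RCLike.geometric_hahn_banach_open (𝕜 := ℂ) hs hs' ht hd

lemma central_state (X : Ctx M A) {V : Set (H →L[ℂ] H)} (hV : Convex ℝ V)
    (hd : Disjoint (Neg A) V) : ∃ ρ : PF H, Cen A ρ.κ ∧ ∃ u : ℝ, 0 ≤ u ∧ 0 < u + (ρ.κ 1).re ∧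
      ∀ b ∈ V, u ≤ (ρ.κ b).re := by
  obtain ⟨f, u, h1, h2⟩ := hb_open (E := H →L[ℂ] H) (s := Neg A) (t := V)
    (fun _ a _ b _ _ c d e => convex_Neg X a b c d e) isOpen_Neg
    (fun _ a _ b _ _ c d e => hV a b c d e) hd
  have k1 : ∀ w : H →L[ℂ] H, (∃ P : Pt A, ∀ i v, P.e i v = v → (⟪v, w v⟫_ℂ).re ≤ 0) →
      ∀ s ε : ℝ, 0 ≤ s → 0 < ε → s * (f w).re - ε * (f 1).re < u := by
    rintro w ⟨P, hP⟩ s ε hs hε
    have := h1 ((s : ℂ) • w - (ε : ℂ) • 1) ⟨P, ε, hε, fun i v hv => by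
      have := mul_nonpos_of_nonneg_of_nonpos hs (hP i v hv)
      simp only [sub_apply, smul_apply, inner_sub_right, inner_smul_right, Complex.sub_re,
        Complex.re_ofReal_mul, ContinuousLinearMap.one_def, ContinuousLinearMap.id_apply, re_self]
      linarith⟩
    simpa using this
  have k0 := k1 0 ⟨Classical.arbitrary _, by simp⟩ 0
  have k2 : ∀ w : H →L[ℂ] H, (∃ P : Pt A, ∀ i v, P.e i v = v → (⟪v, w v⟫_ℂ).re ≤ 0) →
      (f w).re ≤ 0 := fun w hw => by
    by_contra hc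
    push Not at hc
    have := k1 w hw ((|u| + |(f 1).re|) / (f w).re) 1 (by positivity) one_pos
    rw [div_mul_cancel₀ _ hc.ne'] at this
    linarith [le_abs_self u, le_abs_self (f 1).re]
  have k3 : ∀ w : H →L[ℂ] H, (∃ P : Pt A, ∀ i v, P.e i v = v → ⟪v, w v⟫_ℂ = 0) → f w = 0 := by
    rintro w ⟨P, hP⟩
    have a : ∀ c : ℂ, (c * f w).re ≤ 0 := fun c => by
      simpa using k2 (c • w) ⟨P, fun i v hv => by simp [hP i v hv]⟩
    have a1 := a 1
    have a2 := a (-1)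
    have a3 := a Complex.I
    have a4 := a (-Complex.I)
    simp at a1 a2 a3 a4
    exact Complex.ext (by simp; linarith) (by simp; linarith)
  have k4 : ∀ e ∈ A, IsStarProjection e → ∀ b, f (e * b * (1 - e)) = 0 := fun e he he' b => by
    refine k3 _ ⟨⟨2, _, isPart_two he he'⟩, fun i v hv => ?_⟩
    fin_cases i
    · have hv' : e v = v := hv
      simp [hv']
    · have hv' : (1 - e) v = v := hv
      have : e v = 0 := by rw [← hv', ← mul_ap, he'.mul_one_sub_self]; rfl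
      rw [mul_ap, mul_ap, ← inner_sa he'.isSelfAdjoint, this, inner_zero_left]
  refine ⟨⟨f, fun z => ?_⟩, fun e he he' b => ?_, u, ?_,
    show 0 < u + (f 1).re by linarith [k0 1 le_rfl one_pos], h2⟩
  · have a : ∀ c : ℂ, c.re ≤ 0 → (c * f (star z * z)).re ≤ 0 := fun c hc => by
      simpa using k2 (c • (star z * z)) ⟨Classical.arbitrary _, fun i v _ => by
        obtain ⟨b1, b2⟩ := nonneg_iff.1 (star_mul_self_nonneg z) v
        rw [smul_apply, inner_smul_right, Complex.mul_re, ← b2, Complex.zero_im, mul_zero, sub_zero]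
        exact mul_nonpos_of_nonpos_of_nonneg hc b1⟩
    have a2 := a (-1) (by simp)
    have a3 := a Complex.I (by simp)
    have a4 := a (-Complex.I) (by simp)
    simp at a2 a3 a4
    exact ⟨by simpa using a2, by simp; linarith⟩
  · have a1 := k4 e he he' b
    have a2 := k4 (1 - e) (sub_mem (one_mem A) he) he'.one_sub b
    rw [mul_sub, mul_one, map_sub, sub_eq_zero] at a1
    rw [sub_sub_cancel, sub_mul, one_mul, sub_mul, map_sub, sub_eq_zero] at a2
    exact a1.trans a2.symm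
  · by_contra hc
    push Not at hc
    have := k0 (-u / (|(f 1).re| + 1)) le_rfl (div_pos (by linarith) (by positivity))
    have h3 : -u / (|(f 1).re| + 1) * (f 1).re ≤ -u := by
      rw [div_mul_eq_mul_div, div_le_iff₀ (by positivity)]
      nlinarith [le_abs_self (f 1).re]
    linarith

lemma singular_cut (X : Ctx M A) (F : Finset H) {y : H →L[ℂ] H} (hy : y ∈ A)
    (hy' : IsStarProjection y) {γ : ℝ} (hγ : 0 < γ)
    (hmax : ∀ ρ : PF H, Cen A ρ.κ → NW M ρ.κ → ρ.nn (1 - y) = 0 → ∀ s ∈ A, Supp M ρ s →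
      (φ F s).re ≤ γ ^ 2 / 2) {η : ℝ} (hη : 0 < η) :
    ∃ h ∈ M, 0 ≤ h ∧ h ≤ 1 ∧ h * y = h ∧ (∀ ξ ∈ F, ‖(y - h) ξ‖ ≤ γ) ∧
      ∃ P : Pt A, ∀ i, ‖h * P.e i‖ ≤ η := by
  let C : Set (H →L[ℂ] H) := {h | h ∈ M ∧ 0 ≤ h ∧ h ≤ 1 ∧ h * y = h ∧ ∀ ξ ∈ F, ‖(y - h) ξ‖ ≤ γ}
  have hC : Convex ℝ C := by
    rintro h ⟨a1, a2, a3, a4, a5⟩ h' ⟨b1, b2, b3, b4, b5⟩ a b ha hb hab
    refine ⟨add_mem (vn_smul a1 a) (vn_smul b1 b), add_nonneg (smul_nonneg ha a2)
      (smul_nonneg hb b2), ?_, by rw [add_mul, smul_mul_assoc, smul_mul_assoc, a4, b4],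
      fun ξ hξ => ?_⟩
    · refine (add_le_add (smul_le_smul_of_nonneg_left a3 ha)
        (smul_le_smul_of_nonneg_left b3 hb)).trans (le_of_eq ?_)
      rw [← add_smul, hab, one_smul]
    · have : (y - (a • h + b • h')) ξ = a • (y - h) ξ + b • (y - h') ξ := by
        simp only [sub_apply, add_apply, smul_apply, smul_sub]
        rw [sub_add_sub_comm, ← add_smul, hab, one_smul]
      rw [this]
      refine (norm_add_le _ _).trans ?_
      rw [norm_smul, norm_smul, Real.norm_of_nonneg ha, Real.norm_of_nonneg hb]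
      have := a5 ξ hξ
      have := b5 ξ hξ
      obtain rfl : b = 1 - a := by linarith
      nlinarith
  by_cases hd : Disjoint (Neg A) ((fun h => h - ((η ^ 2 : ℝ) : ℂ) • 1) '' C)
  swap
  · obtain ⟨_, ⟨P, ε, hε, hP⟩, h, ⟨a1, a2, a3, a4, a5⟩, rfl⟩ := Set.not_disjoint_iff.1 hd
    refine ⟨h, a1, a2, a3, a4, a5, P, fun i =>
      ContinuousLinearMap.opNorm_le_bound _ hη.le fun v => ?_⟩
    have b1 := hP i (P.e i v) (by rw [← mul_ap, (P.h.proj i).isIdempotentElem.eq])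
    simp only [sub_apply, smul_apply, inner_sub_right, inner_smul_right, Complex.sub_re,
      Complex.re_ofReal_mul, ContinuousLinearMap.one_def, ContinuousLinearMap.id_apply,
      re_self] at b1
    have b2 := norm_sq_le_re a2 a3 (P.e i v)
    have b3 := pow_le_pow_left₀ (norm_nonneg _) (proj_apply_le (P.h.proj i) v) 2
    refine (pow_le_pow_iff_left₀ (norm_nonneg _) (by positivity) two_ne_zero).1 ?_
    rw [mul_ap, mul_pow]
    nlinarith [mul_nonneg hε.le (sq_nonneg ‖P.e i v‖), sq_nonneg η]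
  exfalso
  obtain ⟨ρ, hc, u, u0, u1, hu⟩ := central_state X (by
    simpa only [sub_eq_neg_add] using hC.translate _) hd
  obtain ⟨ρ', c1, c2, c3, c4⟩ := normal_part X ρ hc hy hy'
  obtain ⟨s, hs, hs'⟩ := exists_supp X ρ' c1
  have ys : y * s = s := by
    have := hs'.kill _ (X.sub _ (sub_mem (one_mem A) hy)) c3
    rwa [sub_mul, one_mul, sub_eq_zero, eq_comm] at this
  have sy : s * y = s := by rw [X.comm s hs y hy, ys]
  have he : IsStarProjection (y - s) := hs'.proj.sub_of_mul_eq_left hy' sy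
  have hr : 0 ≤ (ρ.κ 1).re := (ρ.nonneg zero_le_one).1
  have hpos : 0 < u + η ^ 2 * (ρ.κ 1).re := by
    rcases u0.lt_or_eq with h | h
    · positivity
    · have : 0 < (ρ.κ 1).re := by linarith
      positivity
  have h1 : 0 ≤ (φ F 1).re := φ_nonneg F zero_le_one
  set t := (u + η ^ 2 * (ρ.κ 1).re) / ((φ F 1).re + 1) with ht
  have t0 : 0 < t := by positivity
  rcases exhaust ρ F (X.sub _ (sub_mem hy hs)) he t (γ := γ ^ 2 / 2) (by positivity) with
    ⟨q, q1, q2, q3, q4, q5⟩ | ⟨p, p1, p2, p3, ⟨ξ, hξ, p4⟩, p5⟩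
  · have qy : q * y = q := by
      rw [← q3, mul_assoc, sub_mul, hy'.isIdempotentElem.eq, sy]
    have := hu _ ⟨q, ⟨q1, q2.nonneg, q2.le_one, qy, fun ξ hξ => ?_⟩, rfl⟩
    · simp only [map_sub, map_smul, smul_eq_mul, Complex.sub_re, Complex.re_ofReal_mul] at this
      have a1 := mul_le_mul_of_nonneg_left (φ_mono F q2.le_one) t0.le
      have a2 : t * ((φ F 1).re + 1) = u + η ^ 2 * (ρ.κ 1).re := div_mul_cancel₀ _ (by positivity)
      linarith
    · have a1 := q2.sub_of_mul_eq_left hy' qy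
      have a2 := le_φ F a1.nonneg hξ
      have a3 := hmax ρ' c1 c2 c3 s hs hs'
      rw [re_proj a1] at a2
      simp only [map_sub, Complex.sub_re] at a2 q5
      exact (pow_le_pow_iff_left₀ (norm_nonneg _) hγ.le two_ne_zero).1 (by linarith)
  · have py : p * y = p := by
      rw [← p3, mul_assoc, sub_mul, hy'.isIdempotentElem.eq, sy]
    have ps : p * (1 - s) = p := by
      rw [← p3, mul_assoc, mul_sub, mul_one, sub_mul, ys, hs'.proj.isIdempotentElem.eq, sub_self,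
        sub_zero]
    refine p4 (c4 p p1 py (ps ▸ ρ'.nn_mul_zero p (hs'.null (X.sub s hs) c2)) _ (√t)⁻¹
      fun b hb => ?_)
    have key : ∀ b ∈ M, ‖b‖ ≤ 1 → t * ‖b (p ξ)‖ ^ 2 ≤ ρ.nn (b * p) ^ 2 := fun b hb hb1 => by
      have a0 := star_mul_self_nonneg (b * p)
      have := halving {g | ∀ b ∈ M, b * g = g * b} p2 (ρ.κ - (t : ℂ) • φ F)
        (fun q hq hz hp => by
          have := p5 q (mem_of_comm hz) hq hp
          simp only [sub_apply, smul_apply, smul_eq_mul, Complex.sub_re, Complex.re_ofReal_mul]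
          linarith) (star (b * p) * (b * p))
        (fun z hz => (hz _ (mul_mem (star_mem (mul_mem hb p1)) (mul_mem hb p1))).symm) a0 (by
          have a1 : star b * b ≤ 1 := (CStarAlgebra.norm_le_one_iff_of_nonneg _
            (star_mul_self_nonneg b)).1 (by
              rw [CStarRing.norm_star_mul_self]; exact mul_le_one₀ hb1 (norm_nonneg _) hb1)
          have := star_left_conjugate_le_conjugate a1 p
          rwa [mul_one, p2.isSelfAdjoint.star_eq, p2.isIdempotentElem.eq, ← mul_assoc,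
            mul_assoc (p * star b), ← p2.isSelfAdjoint.star_eq, ← star_mul,
            p2.isSelfAdjoint.star_eq] at this)
      simp only [sub_apply, smul_apply, smul_eq_mul, Complex.sub_re, Complex.re_ofReal_mul] at this
      have a2 := mul_le_mul_of_nonneg_left (le_φ F a0 hξ) t0.le
      rw [re_star_mul, mul_ap] at a2
      rw [ρ.nn_sq]; linarith
    have hn : (0 : ℝ) < ‖b‖ + 1 := by positivity
    have := key ((((‖b‖ + 1)⁻¹ : ℝ) : ℂ) • b) (vn_smul hb _) (by
      rw [norm_smul, Complex.norm_real, Real.norm_of_nonneg (inv_pos.2 hn).le,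
        inv_mul_le_iff₀ hn]; linarith)
    rw [PF.nn, smul_mul_assoc, map_smul, smul_apply, norm_smul, norm_smul, mul_pow, mul_pow,
      mul_left_comm, mul_le_mul_iff_right₀ (by
        rw [Complex.norm_real, Real.norm_of_nonneg (inv_pos.2 hn).le]; positivity)] at this
    rw [le_inv_mul_iff₀ (Real.sqrt_pos.2 t0)]
    refine (pow_le_pow_iff_left₀ (by positivity) (ρ.nn_nonneg _) two_ne_zero).1 ?_
    rwa [mul_pow, Real.sq_sqrt t0.le]

end Vale.Agent.P078.G
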