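import Vale.Agent.P078.Sing4

/-! Paving of the singular part by a random colouring of a fine partition. -/

namespace Vale.Agent.P078.G

open scoped ComplexOrder InnerProductSpace ComplexConjugate
open Filter Topology

set_option linter.unusedSectionVars false

variable {H : Type*} [NormedAddCommGroup H] [InnerProductSpace ℂ H] [CompleteSpace H]
  {M : VonNeumannAlgebra H} {A : StarSubalgebra ℂ (H →L[ℂ] H)}

lemma choose_orth {I Q J : Type*} {l : Filter Q} [l.NeBot] (G : Finset J) (v : I → Q → J → H)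
    (c : I → J → ℝ) (h0 : ∀ i j w, Tendsto (fun q => ⟪w, v i q j⟫_ℂ) l (𝓝 0))
    (hc : ∀ i q j, ‖v i q j‖ ^ 2 ≤ c i j) (s : Finset I) {β : ℝ} (hβ : 0 < β) :
    ∃ f : I → Q, ∀ j ∈ G, ‖∑ i ∈ s, v i (f i) j‖ ^ 2 ≤ ∑ i ∈ s, c i j + β := by
  classical
  induction s using Finset.induction_on generalizing β with
  | empty => exact ⟨fun _ => (l.nonempty_of_neBot).some, fun j _ => by simpa using hβ.le⟩
  | insert i s hi ih =>
    obtain ⟨f, hf⟩ := ih (half_pos hβ)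
    obtain ⟨q, hq⟩ := ((eventually_all_finset G).2 fun j _ =>
      ((Complex.continuous_re.tendsto _).comp (h0 i j (∑ i ∈ s, v i (f i) j))).eventually
        (gt_mem_nhds (show (0 : ℂ).re < β / 4 by simpa using hβ))).exists
    refine ⟨Function.update f i q, fun j hj => ?_⟩
    rw [Finset.sum_insert hi, Finset.sum_insert hi, Function.update_self,
      Finset.sum_congr rfl fun k hk => by rw [Function.update_of_ne (ne_of_mem_of_not_mem hk hi)],
      add_comm, norm_add_sq (𝕜 := ℂ)]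
    have a1 := hq j hj
    have a2 := hf j hj
    have a3 := hc i q j
    simp only [Function.comp_apply, RCLike.re_to_complex] at a1 ⊢
    linarith

lemma avg_bound {P Ω : Type*} [Fintype P] [Fintype Ω] (g : P → Ω → ℝ) (σ : P ≃ P)
    (hg : ∀ p c, |g p c| ≤ 1) (ho : ∀ p p', p' ≠ p → p' ≠ σ p → ∑ c, g p c * g p' c = 0)
    (v : P → H) :
    ∑ c, ‖∑ p, (g p c : ℂ) • v p‖ ^ 2 ≤ 2 * Fintype.card Ω * ∑ p, ‖v p‖ ^ 2 := by
  classical
  have e : ∑ c, ‖∑ p, (g p c : ℂ) • v p‖ ^ 2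
      = ∑ p, ∑ p', (∑ c, g p c * g p' c) * (⟪v p, v p'⟫_ℂ).re := by
    have e' : ∀ c, ‖∑ p, (g p c : ℂ) • v p‖ ^ 2
        = ∑ p, ∑ p', g p c * g p' c * (⟪v p, v p'⟫_ℂ).re := fun c => by
      rw [← re_self, sum_inner, Complex.re_sum]
      simp only [inner_sum, inner_smul_left, inner_smul_right, Complex.conj_ofReal, Complex.re_sum,
        Complex.re_ofReal_mul, mul_assoc, mul_left_comm]
    simp only [e', Finset.sum_mul]
    rw [Finset.sum_comm]
    exact Finset.sum_congr rfl fun p _ => Finset.sum_comm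
  have b : ∀ p p', (∑ c, g p c * g p' c) * (⟪v p, v p'⟫_ℂ).re ≤
      Fintype.card Ω * ((‖v p‖ ^ 2 + ‖v p'‖ ^ 2) / 2) := fun p p' => by
    refine (le_abs_self _).trans ?_
    rw [abs_mul]
    refine mul_le_mul ((Finset.abs_sum_le_sum_abs _ _).trans ?_) ?_ (abs_nonneg _) (by positivity)
    · refine (Finset.sum_le_card_nsmul _ _ 1 fun c _ => ?_).trans (by simp)
      rw [abs_mul]; exact mul_le_one₀ (hg _ _) (abs_nonneg _) (hg _ _)
    · refine ((Complex.abs_re_le_norm _).trans (norm_inner_le_norm _ _)).trans ?_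
      nlinarith [sq_nonneg (‖v p‖ - ‖v p'‖)]
  rw [e]
  calc _ ≤ ∑ p, ∑ p', ((if p' = p then Fintype.card Ω * ((‖v p‖ ^ 2 + ‖v p'‖ ^ 2) / 2) else 0) +
        if p' = σ p then Fintype.card Ω * ((‖v p‖ ^ 2 + ‖v p'‖ ^ 2) / 2) else 0) := by
        refine Finset.sum_le_sum fun p _ => Finset.sum_le_sum fun p' _ => ?_
        have := b p p'
        have : (0 : ℝ) ≤ Fintype.card Ω * ((‖v p‖ ^ 2 + ‖v p'‖ ^ 2) / 2) := by positivity
        split_ifs with h1 h2 h2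
        · linarith
        · linarith
        · linarith
        · rw [ho p p' h1 h2]; simp
    _ = _ := by
        simp only [Finset.sum_add_distrib, Finset.sum_ite_eq', Finset.mem_univ, if_true,
          ← Finset.mul_sum, ← Finset.sum_div, Equiv.sum_comp σ fun p => ‖v p‖ ^ 2]
        ring

/-- the centred indicator of equal colours -/
noncomputable def gg {ι Γ : Type*} [DecidableEq ι] [DecidableEq Γ] [Fintype Γ] (p : ι × ι)
    (c : ι → Γ) : ℝ :=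
  if p.1 = p.2 then 0 else (if c p.1 = c p.2 then 1 else 0) - (Fintype.card Γ : ℝ)⁻¹

section
variable {ι Γ : Type*} [DecidableEq ι] [DecidableEq Γ] [Fintype Γ] [Fintype ι] [Nonempty Γ]

lemma gg_abs (p : ι × ι) (c : ι → Γ) : |gg p c| ≤ 1 := by
  have h1 : (1 : ℝ) ≤ Fintype.card Γ := by exact_mod_cast Fintype.card_pos
  have h2 := inv_le_one_of_one_le₀ h1
  have h3 : (0 : ℝ) ≤ (Fintype.card Γ : ℝ)⁻¹ := by positivity
  unfold gg
  split_ifs <;> rw [abs_le] <;> constructor <;> linarith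

lemma gg_swap (p : ι × ι) (c : ι → Γ) : gg p.swap c = gg p c := by
  simp only [gg, Prod.fst_swap, Prod.snd_swap, eq_comm]

lemma gg_orth_aux (p p' : ι × ι) (h1 : p'.1 ≠ p.1) (h2 : p'.2 ≠ p.1) :
    ∑ c : ι → Γ, gg p c * gg p' c = 0 := by
  by_cases hp : p.1 = p.2
  · simp [gg, hp]
  have hr : (Fintype.card Γ : ℝ) ≠ 0 := by exact_mod_cast Fintype.card_ne_zero
  have inv : Function.Involutive fun t : (ι → Γ) × Γ => (Function.update t.1 p.1 t.2, t.1 p.1) :=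
    fun t => by simp
  have := Equiv.sum_comp inv.toPerm fun t => gg p t.1 * gg p' t.1
  simp only [Function.Involutive.coe_toPerm, Fintype.sum_prod_type, Finset.sum_const,
    Finset.card_univ, nsmul_eq_mul, ← Finset.mul_sum] at this
  rw [Finset.sum_eq_zero fun c _ => ?_] at this
  · exact (mul_eq_zero.1 this.symm).resolve_left hr
  · simp only [gg, hp, if_false, Function.update_self, Function.update_of_ne h1,
      Function.update_of_ne h2, Function.update_of_ne (Ne.symm hp), ← Finset.sum_mul,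
      Finset.sum_sub_distrib]
    simp [hr]

lemma gg_orth (p p' : ι × ι) (h1 : p' ≠ p) (h2 : p' ≠ p.swap) :
    ∑ c : ι → Γ, gg p c * gg p' c = 0 := by
  by_cases hp : p.1 = p.2
  · simp [gg, hp]
  by_cases hp' : p'.1 = p'.2
  · simp [gg, hp']
  by_cases a : p'.1 ≠ p.1 ∧ p'.2 ≠ p.1
  · exact gg_orth_aux p p' a.1 a.2
  · simp only [← gg_swap p]
    obtain ⟨k, l⟩ := p
    obtain ⟨k', l'⟩ := p'
    refine gg_orth_aux _ _ ?_ ?_ <;> grind

end

namespace IsPart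
variable {ι : Type*} [Fintype ι] {e : ι → H →L[ℂ] H} (h : IsPart A e)
include h

lemma pyth (v : H) : ∑ i, ‖e i v‖ ^ 2 = ‖v‖ ^ 2 := by
  simp only [← re_proj (h.proj _), ← Complex.re_sum, ← inner_sum]
  rw [← _root_.sum_apply, h.sum, ← re_self]; rfl

lemma mul_eq [DecidableEq ι] (i j : ι) : e i * e j = if i = j then e i else 0 := by
  split_ifs with hij
  · rw [← hij, (h.proj i).isIdempotentElem.eq]
  · exact h.orth i j hij

lemma norm_le (T : ι → H →L[ℂ] H) {c : ℝ} (hc : 0 ≤ c) (hT : ∀ i, ‖T i‖ ≤ c) :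
    ‖∑ i, e i * T i * e i‖ ≤ c := by
  classical
  refine ContinuousLinearMap.opNorm_le_bound _ hc fun v => ?_
  refine (pow_le_pow_iff_left₀ (norm_nonneg _) (by positivity) two_ne_zero).1 ?_
  rw [← h.pyth, mul_pow, ← h.pyth v, Finset.mul_sum]
  refine Finset.sum_le_sum fun i _ => ?_
  have : e i * ∑ j, e j * T j * e j = e i * T i * e i := by
    simp [Finset.mul_sum, ← mul_assoc, h.mul_eq]
  rw [← mul_ap, this, mul_ap, mul_ap, ← mul_pow]
  exact pow_le_pow_left₀ (norm_nonneg _) ((proj_apply_le (h.proj i) _).trans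
    ((T i).le_of_opNorm_le (hT i) _)) 2

lemma fiber {Γ : Type*} [Fintype Γ] [DecidableEq Γ] (c : ι → Γ) :
    IsPart A fun γ => ∑ i, if c i = γ then e i else 0 := by
  classical
  have k : ∀ γ γ', ((∑ i, if c i = γ then e i else 0) * ∑ i, if c i = γ' then e i else 0) =
      ∑ i, if c i = γ ∧ c i = γ' then e i else 0 := fun γ γ' => by
    rw [Finset.sum_mul]
    refine Finset.sum_congr rfl fun i _ => ?_
    simp only [Finset.mul_sum, ite_mul, mul_ite, h.mul_eq, zero_mul, mul_zero]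
    rw [Finset.sum_eq_single i (fun j _ hj => by simp [hj.symm]) (by simp)]
    by_cases a : c i = γ <;> by_cases b : c i = γ' <;> simp [a, b]
  refine ⟨fun γ => sum_mem fun i _ => by split_ifs; exacts [h.mem i, zero_mem _],
    fun γ => ⟨by simpa [IsIdempotentElem] using k γ γ, ?_⟩, fun γ γ' hne => ?_, ?_⟩
  · exact isSelfAdjoint_sum _ fun i _ => by
      split_ifs; exacts [(h.proj i).isSelfAdjoint, IsSelfAdjoint.zero _]
  · rw [k]
    exact Finset.sum_eq_zero fun i _ => if_neg fun a => hne (a.1.symm.trans a.2)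
  · rw [Finset.sum_comm]; simpa using h.sum

lemma colour (Γ : Type*) [Fintype Γ] [DecidableEq Γ] [Nonempty Γ] {x w : H →L[ℂ] H}
    (hx : ‖x‖ ≤ 1) {η : ℝ} (hw : ∀ k, ‖w * e k‖ ≤ η) (G : Finset H) :
    ∃ p : Γ → H →L[ℂ] H, IsPart A p ∧ ∀ ξ ∈ G, ‖w ((∑ γ, p γ * x * p γ -
      (Fintype.card Γ : ℂ)⁻¹ • x - (1 - (Fintype.card Γ : ℂ)⁻¹) • ∑ k, e k * x * e k) ξ)‖ ^ 2
        ≤ 2 * η ^ 2 * ∑ ξ ∈ G, ‖ξ‖ ^ 2 := by
  classical
  have id : ∀ c : ι → Γ, ∑ γ, (∑ i, if c i = γ then e i else 0) * x *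
      (∑ i, if c i = γ then e i else 0) - (Fintype.card Γ : ℂ)⁻¹ • x -
      (1 - (Fintype.card Γ : ℂ)⁻¹) • ∑ k, e k * x * e k
      = ∑ p : ι × ι, (gg p c : ℂ) • (e p.1 * x * e p.2) := fun c => by
    have a1 : ∑ γ, (∑ i, if c i = γ then e i else 0) * x * (∑ i, if c i = γ then e i else 0)
        = ∑ k, ∑ l, if c k = c l then e k * x * e l else 0 := by
      simp only [Finset.sum_mul, ite_mul, zero_mul]
      rw [Finset.sum_comm]
      simp only [Finset.sum_ite_eq, Finset.mem_univ, if_true, Finset.mul_sum, mul_ite, mul_zero]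
      simp only [eq_comm]
    have a2 : x = ∑ k, ∑ l, e k * x * e l := by
      simp only [← Finset.mul_sum, ← Finset.sum_mul, h.sum, one_mul, mul_one]
    have a3 : ∑ k, e k * x * e k = ∑ k, ∑ l, if k = l then e k * x * e l else 0 := by simp
    rw [a1, a3, Fintype.sum_prod_type, congrArg (fun t => (Fintype.card Γ : ℂ)⁻¹ • t) a2]
    simp only [Finset.smul_sum, ← Finset.sum_sub_distrib]
    refine Finset.sum_congr rfl fun k _ => Finset.sum_congr rfl fun l _ => ?_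
    by_cases b : k = l
    · simp [gg, b, sub_smul]
    · by_cases b' : c k = c l <;> simp [gg, b, b', sub_smul]
  have bd : ∀ ξ, ∑ p : ι × ι, ‖w ((e p.1 * x * e p.2) ξ)‖ ^ 2 ≤ η ^ 2 * ‖ξ‖ ^ 2 := fun ξ => by
    rw [Fintype.sum_prod_type, Finset.sum_comm, ← h.pyth ξ, Finset.mul_sum]
    refine Finset.sum_le_sum fun l _ => ?_
    have a1 : ‖x (e l ξ)‖ ^ 2 ≤ ‖e l ξ‖ ^ 2 :=
      pow_le_pow_left₀ (norm_nonneg _) (by simpa using x.le_of_opNorm_le hx _) 2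
    refine le_trans ?_ (mul_le_mul_of_nonneg_left a1 (sq_nonneg η))
    rw [← h.pyth (x _), Finset.mul_sum]
    refine Finset.sum_le_sum fun k _ => ?_
    have := (w * e k).le_of_opNorm_le (hw k) (e k (x (e l ξ)))
    rw [mul_ap, ← mul_ap (e k), (h.proj k).isIdempotentElem.eq] at this
    rw [← mul_pow]
    exact pow_le_pow_left₀ (norm_nonneg _) this 2
  obtain ⟨c, -, hc⟩ := Finset.exists_le_of_sum_le (s := Finset.univ) Finset.univ_nonempty
    (f := fun c : ι → Γ => ∑ ξ ∈ G, ‖∑ p : ι × ι, (gg p c : ℂ) • w ((e p.1 * x * e p.2) ξ)‖ ^ 2)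
    (g := fun _ => 2 * η ^ 2 * ∑ ξ ∈ G, ‖ξ‖ ^ 2) (by
      rw [Finset.sum_comm, Finset.sum_const, Finset.card_univ, nsmul_eq_mul, Finset.mul_sum,
        Finset.mul_sum]
      refine Finset.sum_le_sum fun ξ _ => (avg_bound gg (Equiv.prodComm ι ι) gg_abs gg_orth
        _).trans ((mul_le_mul_of_nonneg_left (bd ξ) (by positivity)).trans (le_of_eq ?_))
      ring)
  refine ⟨_, h.fiber c, fun ξ hξ => le_trans (le_trans (le_of_eq ?_)
    (Finset.single_le_sum (fun _ _ => sq_nonneg _) hξ)) hc⟩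
  rw [id]
  simp only [_root_.sum_apply, smul_apply, map_sum, map_smul]

end IsPart

lemma exists_diag (X : Ctx M A) {x : H →L[ℂ] H} (hx : x ∈ M) (sa : IsSelfAdjoint x)
    (h1 : ‖x‖ ≤ 1) : ∃ a ∈ A, IsSelfAdjoint a ∧ ‖a‖ ≤ 1 ∧ ∃ U : Ultrafilter (Pt A),
      WT U (fun Q : Pt A => ∑ j, Q.e j * x * Q.e j) a := by
  obtain ⟨U, hU⟩ := exists_ultra X
  obtain ⟨a, a1, a2⟩ := wlim U (fun Q : Pt A => ∑ j, Q.e j * x * Q.e j) zero_le_one
    fun Q => Q.h.norm_le (fun _ => x) zero_le_one fun _ => h1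
  refine ⟨a, X.mem_of_proj (a2.mem (Eventually.of_forall fun Q => sum_mem fun j _ =>
    mul_mem (mul_mem (X.sub _ (Q.h.mem j)) hx) (X.sub _ (Q.h.mem j)))) fun q hq hq' =>
      a2.comm ((hU ⟨2, _, isPart_two hq hq'⟩).mono fun Q hQ => ?_),
    (a2.star.congr (Eventually.of_forall fun Q => ?_)).unique a2, a1, U, a2⟩
  · rw [Finset.mul_sum, Finset.sum_mul]
    refine Finset.sum_congr rfl fun j _ => ?_
    obtain ⟨i, hi⟩ := hQ j
    rw [mul_assoc _ (Q.e j) q, ← X.comm q hq _ (Q.h.mem j), ← mul_assoc q, ← mul_assoc q]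
    fin_cases i
    · rw [show q * Q.e j = Q.e j from hi]
    · have : (1 - q) * Q.e j = Q.e j := hi
      rw [sub_mul, one_mul, sub_eq_self] at this
      simp [this]
  · simp [star_sum, (Q.h.proj _).isSelfAdjoint.star_eq, sa.star_eq, mul_assoc]

lemma core (X : Ctx M A) {x : H →L[ℂ] H} (hx : x ∈ M) (sa : IsSelfAdjoint x) (h1 : ‖x‖ ≤ 1) :
    ∃ a ∈ A, IsSelfAdjoint a ∧ ‖a‖ ≤ 1 ∧ ∀ (r : ℕ) [NeZero r] (G : Finset H) (w : H →L[ℂ] H)
      (η : ℝ) (P : Pt A), (∀ i, ‖w * P.e i‖ ≤ η) → ∀ β > (0 : ℝ), ∃ p : Fin r → H →L[ℂ] H,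
        IsPart A p ∧ ∀ ξ ∈ G, ‖w ((∑ i, p i * x * p i - (r : ℂ)⁻¹ • x - (1 - (r : ℂ)⁻¹) • a) ξ)‖ ^ 2
          ≤ 12 * η ^ 2 * ∑ ξ ∈ G, ‖ξ‖ ^ 2 + β := by
  obtain ⟨a, a1, a2, a3, U, hU⟩ := exists_diag X hx sa h1
  refine ⟨a, a1, a2, a3, fun r _ G w η P hP β hβ => ?_⟩
  obtain ⟨Q, hQ⟩ := choose_orth (l := (U : Filter (Pt A))) G
    (fun i Q ξ => (w * P.e i * (∑ j, Q.e j * x * Q.e j - a) * P.e i) ξ)
    (fun i ξ => 4 * η ^ 2 * ‖P.e i ξ‖ ^ 2)
    (fun i ξ v => by simpa using (hU.sub (WT.const a)).mul (w * P.e i) (P.e i) ξ v)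
    (fun i Q ξ => by
      have b1 : ‖∑ j, Q.e j * x * Q.e j - a‖ ≤ 1 + 1 := (norm_sub_le _ _).trans
        (add_le_add (Q.h.norm_le (fun _ => x) zero_le_one fun _ => h1) a3)
      have b2 := (w * P.e i * (∑ j, Q.e j * x * Q.e j - a)).le_of_opNorm_le ((norm_mul_le _ _).trans
        (mul_le_mul (hP i) b1 (norm_nonneg _) ((norm_nonneg _).trans (hP i)))) (P.e i ξ)
      refine (pow_le_pow_left₀ (norm_nonneg _) b2 2).trans (le_of_eq ?_)
      ring) Finset.univ (half_pos hβ)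
  obtain ⟨p, p1, p2⟩ := (P.h.sigma X fun i => (Q i).h).colour (Fin r) h1 (w := w) (η := η)
    (fun k => by
      rw [← mul_assoc]
      exact (norm_mul_le _ _).trans ((mul_le_mul (hP _) ((Q _).h.proj _).norm_le (norm_nonneg _)
        ((norm_nonneg _).trans (hP k.1))).trans (by simp))) G
  refine ⟨p, p1, fun ξ hξ => ?_⟩
  have b1 := p2 ξ hξ
  have b2 := hQ ξ hξ
  rw [← Finset.mul_sum, P.h.pyth] at b2
  rw [Fintype.card_fin] at b1
  have e : ∑ k : Σ i, Fin (Q i).n, P.e k.1 * (Q k.1).e k.2 * x * (P.e k.1 * (Q k.1).e k.2) - a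
      = ∑ i, P.e i * (∑ j, (Q i).e j * x * (Q i).e j - a) * P.e i := by
    have : ∑ i, P.e i * (a * P.e i) = a := by
      simp only [← mul_assoc, X.comm _ (P.h.mem _) a a1]
      simp only [mul_assoc, (P.h.proj _).isIdempotentElem.eq,
        ← Finset.mul_sum, P.h.sum, mul_one]
    simp only [mul_sub, sub_mul, Finset.sum_sub_distrib, this, Fintype.sum_sigma, Finset.mul_sum,
      Finset.sum_mul, mul_assoc, X.comm _ ((Q _).h.mem _) _ (P.h.mem _)]
  have e2 : ∑ i, (w * P.e i * (∑ j, (Q i).e j * x * (Q i).e j - a) * P.e i) ξ = w ((∑ k : Σ i,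
      Fin (Q i).n, P.e k.1 * (Q k.1).e k.2 * x * (P.e k.1 * (Q k.1).e k.2) - a) ξ) := by
    simp only [e, _root_.sum_apply, map_sum, mul_ap]
  rw [e2] at b2
  set S := ∑ k : Σ i, Fin (Q i).n, P.e k.1 * (Q k.1).e k.2 * x * (P.e k.1 * (Q k.1).e k.2)
  have e3 : w ((∑ i, p i * x * p i - (r : ℂ)⁻¹ • x - (1 - (r : ℂ)⁻¹) • a) ξ) =
      w ((∑ i, p i * x * p i - (r : ℂ)⁻¹ • x - (1 - (r : ℂ)⁻¹) • S) ξ) +
        (1 - (r : ℂ)⁻¹) • w ((S - a) ξ) := by
    rw [← map_smul, ← map_add, ← smul_apply, ← add_apply, smul_sub]; congr 2; abel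
  have b3 : ‖(1 - (r : ℂ)⁻¹)‖ ≤ 1 := by
    have h1 : (1 : ℝ) ≤ r := by exact_mod_cast NeZero.one_le
    have h2 := inv_le_one_of_one_le₀ h1
    have h3 : (0 : ℝ) ≤ (r : ℝ)⁻¹ := by positivity
    rw [show (1 - (r : ℂ)⁻¹) = ((1 - (r : ℝ)⁻¹ : ℝ) : ℂ) by simp, Complex.norm_real,
      Real.norm_of_nonneg (by linarith)]
    linarith
  have b4 := (norm_add_le _ _).trans (add_le_add_right ((norm_smul_le _ _).trans
    (mul_le_of_le_one_left (norm_nonneg (w ((S - a) ξ))) b3))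
    ‖w ((∑ i, p i * x * p i - (r : ℂ)⁻¹ • x - (1 - (r : ℂ)⁻¹) • S) ξ)‖)
  have b5 := mul_le_mul_of_nonneg_left (Finset.single_le_sum (f := fun ξ : H => ‖ξ‖ ^ 2)
    (fun _ _ => sq_nonneg _) hξ) (sq_nonneg η)
  rw [e3]
  refine (pow_le_pow_left₀ (norm_nonneg _) b4 2).trans ?_
  nlinarith [sq_nonneg (‖w ((∑ i, p i * x * p i - (r : ℂ)⁻¹ • x - (1 - (r : ℂ)⁻¹) • S) ξ)‖ -
    ‖w ((S - a) ξ)‖)]

lemma cut_proj {y B h : H →L[ℂ] H} (hy : y ∈ M) (hy' : IsStarProjection y) (hB : B ∈ M)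
    (By : B * y = B) (hh : h ∈ M) (sh : IsSelfAdjoint h) (hy2 : h * y = h) {t : ℝ} (ht : 0 ≤ t) :
    ∃ q ∈ M, IsStarProjection q ∧ q * y = q ∧ ‖B * q‖ ≤ t ∧ ‖(1 - h) * q‖ ≤ t ∧
      ∀ ξ, t ^ 2 * ‖(y - q) ξ‖ ^ 2 ≤ ‖B ξ‖ ^ 2 + ‖(y - h) ξ‖ ^ 2 := by
  set W := star B * B + star (1 - h) * (1 - h) with hW
  have W0 : 0 ≤ W := add_nonneg (star_mul_self_nonneg _) (star_mul_self_nonneg _)
  have WM : W ∈ M := add_mem (mul_mem (star_mem hB) hB)
    (mul_mem (star_mem (sub_mem (one_mem M) hh)) (sub_mem (one_mem M) hh))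
  have re : ∀ v, (⟪v, W v⟫_ℂ).re = ‖B v‖ ^ 2 + ‖(1 - h) v‖ ^ 2 := fun v => by
    rw [hW, add_apply, inner_add_right, Complex.add_re, re_star_mul, re_star_mul]
  obtain ⟨q, hq, c1, c2, c3⟩ := spec W0.isSelfAdjoint (t ^ 2)
  have yh : y * h = h := swap_sa sh hy'.isSelfAdjoint sh hy2
  have yB : y * star B = star B := by
    simpa [hy'.isSelfAdjoint.star_eq] using congrArg star By
  have yq : y * q = q * y := c1 y (by
    simp only [hW, star_sub, star_one, sh.star_eq, mul_add, add_mul, mul_sub, sub_mul, mul_one,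
      one_mul, mul_assoc, By, hy2, yh]
    simp only [← mul_assoc, yB, yh])
  have pr : IsStarProjection (q * y) := hq.mul hy' yq.symm
  have k : ∀ v, ‖B ((q * y) v)‖ ^ 2 + ‖(1 - h) ((q * y) v)‖ ^ 2 ≤ (t * ‖v‖) ^ 2 := fun v => by
    have := norm_sq_of_spec hq (c1 W rfl) c2 (y v)
    rw [re] at this
    refine this.trans ?_
    rw [mul_pow]
    exact mul_le_mul_of_nonneg_left (pow_le_pow_left₀ (norm_nonneg _) (proj_apply_le pr v) 2)
      (sq_nonneg t)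
  refine ⟨q * y, mul_mem (spec_mem WM c1) hy, pr, by rw [mul_assoc, hy'.isIdempotentElem.eq],
    ContinuousLinearMap.opNorm_le_bound _ ht fun v => ?_,
    ContinuousLinearMap.opNorm_le_bound _ ht fun v => ?_, fun ξ => ?_⟩
  · exact (pow_le_pow_iff_left₀ (norm_nonneg _) (by positivity) two_ne_zero).1
      ((le_add_of_nonneg_right (sq_nonneg _)).trans (k v))
  · exact (pow_le_pow_iff_left₀ (norm_nonneg _) (by positivity) two_ne_zero).1
      ((le_add_of_nonneg_left (sq_nonneg _)).trans (k v))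
  · have b1 : W * (1 - q) ≤ W := by
      rw [mul_sub, mul_one]
      exact sub_le_self _ (Commute.mul_nonneg W0 hq.nonneg (c1 W rfl))
    have := re_mono (c3.trans b1) (y ξ)
    rw [re, smul_apply, inner_smul_right, Complex.re_ofReal_mul, re_proj hq.one_sub, ← mul_ap,
      ← mul_ap B, ← mul_ap (1 - h), By, sub_mul, sub_mul, one_mul, hy2] at this
    exact this

theorem singular (X : Ctx M A) (F : Finset H) {y : H →L[ℂ] H} (hy : y ∈ A)
    (hy' : IsStarProjection y) {t δ : ℝ} (ht : 0 < t) (hδ : 0 < δ)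
    (hmax : ∀ ρ : PF H, Cen A ρ.κ → NW M ρ.κ → ρ.nn (1 - y) = 0 → ∀ s ∈ A, Supp M ρ s →
      (φ F s).re ≤ (t * δ / 2) ^ 2 / 2) {x : H →L[ℂ] H} (hx : x ∈ M) (sa : IsSelfAdjoint x)
    (h1 : ‖x‖ ≤ 1) (r : ℕ) [NeZero r] :
    ∃ (p : Fin r → H →L[ℂ] H) (a q : H →L[ℂ] H), IsPart A p ∧ a ∈ A ∧ IsSelfAdjoint a ∧ ‖a‖ ≤ 1 ∧
      q ∈ M ∧ IsStarProjection q ∧ q * y = q ∧ (∀ ξ ∈ F, ‖(y - q) ξ‖ < δ) ∧
      ‖q * (∑ i, p i * x * p i - a) * q‖ ≤ (r : ℝ)⁻¹ + 4 * t := by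
  classical
  obtain ⟨a, a1, a2, a3, ha⟩ := core X hx sa h1
  set D := ∑ ξ ∈ F.image y, ‖ξ‖ ^ 2 with hD
  have D0 : 0 ≤ D := by positivity
  obtain ⟨h, h2, h3, h4, h5, h6, P, hP⟩ := singular_cut X F hy hy' (by positivity) hmax
    (η := √((t * δ) ^ 2 / (48 * (D + 1)))) (by positivity)
  obtain ⟨p, p1, p2⟩ := ha r (F.image y) h _ P hP ((t * δ) ^ 2 / 4) (by positivity)
  have r1 : (1 : ℝ) ≤ r := by exact_mod_cast NeZero.one_le
  have r2 := inv_le_one_of_one_le₀ r1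
  have r3 : (0 : ℝ) ≤ (r : ℝ)⁻¹ := by positivity
  have e1 : (1 - (r : ℂ)⁻¹) = ((1 - (r : ℝ)⁻¹ : ℝ) : ℂ) := by simp
  have n1 : ‖(1 - (r : ℂ)⁻¹) • a‖ ≤ 1 := by
    rw [norm_smul, e1, Complex.norm_real, Real.norm_of_nonneg (by linarith)]
    exact mul_le_one₀ (by linarith) (norm_nonneg _) a3
  have n2 : ‖(r : ℂ)⁻¹ • x‖ ≤ (r : ℝ)⁻¹ := by
    rw [norm_smul, norm_inv, Complex.norm_natCast]
    exact mul_le_of_le_one_right r3 h1
  set Ξ := ∑ i, p i * x * p i - (r : ℂ)⁻¹ • x - (1 - (r : ℂ)⁻¹) • a with hΞ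
  have ΞM : Ξ ∈ M := sub_mem (sub_mem (sum_mem fun j _ => mul_mem (mul_mem (X.sub _ (p1.mem j)) hx)
    (X.sub _ (p1.mem j))) (vn_smul hx _)) (vn_smul (X.sub a a1) _)
  have n3 : ‖Ξ‖ ≤ 1 + 1 + 1 := (norm_sub_le _ _).trans (add_le_add ((norm_sub_le _ _).trans
    (add_le_add (p1.norm_le (fun _ => x) zero_le_one fun _ => h1) (n2.trans r2))) n1)
  obtain ⟨q, q1, q2, q3, q4, q5, q6⟩ := cut_proj (X.sub y hy) hy' (mul_mem (mul_mem h2 ΞM)
    (X.sub y hy)) (by rw [mul_assoc, hy'.isIdempotentElem.eq]) h2 h3.isSelfAdjoint h5 ht.le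
  refine ⟨p, (1 - (r : ℂ)⁻¹) • a, q, p1, A.smul_mem a1 _, ?_, n1, q1, q2, q3, fun ξ hξ => ?_, ?_⟩
  · rw [e1, Complex.coe_smul]; exact (IsSelfAdjoint.all _).smul a2
  · have b1 := q6 ξ
    have b2 := p2 _ (Finset.mem_image_of_mem y hξ)
    have b3 := pow_le_pow_left₀ (norm_nonneg _) (h6 ξ hξ) 2
    rw [Real.sq_sqrt (by positivity)] at b2
    have b4 : 12 * ((t * δ) ^ 2 / (48 * (D + 1))) * D ≤ (t * δ) ^ 2 / 4 := by
      rw [mul_div_assoc', div_mul_eq_mul_div, div_le_iff₀ (by positivity)]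
      nlinarith [sq_nonneg (t * δ)]
    rw [mul_ap, mul_ap] at b1
    refine lt_of_pow_lt_pow_left₀ 2 hδ.le (lt_of_mul_lt_mul_left ?_ (sq_nonneg t))
    nlinarith [pow_pos (mul_pos ht hδ) 2]
  · have yq : y * q = q := swap_sa q2.isSelfAdjoint hy'.isSelfAdjoint q2.isSelfAdjoint q3
    have e : q * (∑ i, p i * x * p i - (1 - (r : ℂ)⁻¹) • a) * q = q * ((r : ℂ)⁻¹ • x) * q +
        (q * (h * Ξ * y * q) + star ((1 - h) * q) * Ξ * q) := by
      rw [star_mul, q2.isSelfAdjoint.star_eq, star_sub, star_one, h3.isSelfAdjoint.star_eq,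
        mul_assoc _ y, yq, show ∑ i, p i * x * p i - (1 - (r : ℂ)⁻¹) • a = (r : ℂ)⁻¹ • x + Ξ by
          rw [hΞ]; abel]
      noncomm_ring
    have m : ∀ T : H →L[ℂ] H, ‖q * T‖ ≤ ‖T‖ := fun T =>
      (norm_mul_le _ _).trans (mul_le_of_le_one_left (norm_nonneg _) q2.norm_le)
    have m' : ∀ T : H →L[ℂ] H, ‖T * q‖ ≤ ‖T‖ := fun T =>
      (norm_mul_le _ _).trans (mul_le_of_le_one_right (norm_nonneg _) q2.norm_le)
    rw [e]
    refine (norm_add_le _ _).trans (add_le_add ((m' _).trans ((m _).trans n2))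
      ((norm_add_le _ _).trans ((add_le_add ((m _).trans q4) ((m' _).trans ((norm_mul_le _ _).trans
        (mul_le_mul ((norm_star _).trans_le q5) n3 (norm_nonneg _) ht.le)))).trans ?_)))
    linarith

end Vale.Agent.P078.G
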