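import Vale.Agent.P078.MA

namespace Vale.Agent.P078

open Finset ComplexConjugate

variable {V : Type*} [DecidableEq V] {r : ℕ}

/-- the averaged polynomial -/
noncomputable def Pw (a : V → V → ℂ) (w : V → Option (Fin r)) (U : Finset V) (z : V → ℂ) : ℂ :=
  PP (cc a w) U z

/-- contraction on `U` -/
def Contr (a : V → V → ℂ) (U : Finset V) : Prop := ∀ x y : V → ℂ,
  ‖∑ i ∈ U, ∑ j ∈ U, conj (y i) * a i j * x j‖ ≤ (∑ i ∈ U, ‖x i‖ ^ 2 + ∑ i ∈ U, ‖y i‖ ^ 2) / 2

def Compat (w : V → Option (Fin r)) (σ : V → Fin r) (U : Finset V) : Prop :=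
  ∀ i ∈ U, ∀ c, w i = some c → σ i = c

/-- Hermitian, zero diagonal, all compatible pinchings are contractions -/
structure HC (a : V → V → ℂ) (w : V → Option (Fin r)) (U : Finset V) : Prop where
  herm : ∀ i j, a j i = conj (a i j)
  diag : ∀ i, a i i = 0
  contr : ∀ U' ⊆ U, ∀ σ, Compat w σ U' → Contr (pin a σ) U'

lemma Contr.mono {a : V → V → ℂ} {U U' : Finset V} (h : Contr a U) (hU : U' ⊆ U) : Contr a U' := by
  intro x y
  have := h (fun i => if i ∈ U' then x i else 0) (fun i => if i ∈ U' then y i else 0)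
  have e1 : ∀ f : V → ℂ, ∑ i ∈ U, ‖if i ∈ U' then f i else 0‖ ^ 2 = ∑ i ∈ U', ‖f i‖ ^ 2 := by
    intro f
    rw [← sum_subset hU fun i _ hi => by simp [hi]]
    exact sum_congr rfl fun i hi => by simp [hi]
  rw [e1, e1, ← sum_subset hU fun i _ hi => by simp [hi]] at this
  convert this using 2
  refine sum_congr rfl fun i hi => ?_
  rw [← sum_subset hU fun i _ hi => by simp [hi]]
  exact sum_congr rfl fun j hj => by simp [hi, hj]

lemma Contr.pin {a : V → V → ℂ} {U : Finset V} (h : Contr a U) (σ : V → Fin r) :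
    Contr (pin a σ) U := by
  intro x y
  have e0 : ∑ i ∈ U, ∑ j ∈ U, conj (y i) * P078.pin a σ i j * x j = ∑ c : Fin r, ∑ i ∈ U, ∑ j ∈ U,
      conj (if σ i = c then y i else 0) * a i j * (if σ j = c then x j else 0) := by
    rw [sum_comm (s := univ)]
    refine sum_congr rfl fun i _ => ?_
    rw [sum_comm (s := univ)]
    refine sum_congr rfl fun j _ => ?_
    rw [sum_eq_single (σ i)]
    · by_cases hh : σ i = σ j
      · simp [P078.pin, hh]
      · simp [P078.pin, hh, Ne.symm hh]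
    · intro c _ hc; simp [Ne.symm hc]
    · simp
  have e1 : ∀ f : V → ℂ, ∑ i ∈ U, ‖f i‖ ^ 2 =
      ∑ c : Fin r, ∑ i ∈ U, ‖if σ i = c then f i else 0‖ ^ 2 := by
    intro f
    rw [sum_comm]
    refine sum_congr rfl fun i _ => ?_
    rw [sum_eq_single (σ i)]
    · simp
    · intro c _ hc; simp [Ne.symm hc]
    · simp
  rw [e0, e1 x, e1 y, ← sum_add_distrib, sum_div]
  exact (norm_sum_le _ _).trans (sum_le_sum fun c _ => h _ _)

lemma HC.of_contr {a : V → V → ℂ} {U : Finset V} (h1 : ∀ i j, a j i = conj (a i j))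
    (h2 : ∀ i, a i i = 0) (h : Contr a U) (w : V → Option (Fin r)) : HC a w U :=
  ⟨h1, h2, fun _ hU σ _ => (h.mono hU).pin σ⟩

lemma HC.mono {a : V → V → ℂ} {w : V → Option (Fin r)} {U U' : Finset V} (h : HC a w U)
    (hU : U' ⊆ U) : HC a w U' := ⟨h.herm, h.diag, fun _ h' => h.contr _ (h'.trans hU)⟩

lemma ker_of_PP {m : V → V → ℂ} {U : Finset V} {z : V → ℂ} (h : PP (mnr m) U z = 0) :
    ∃ x : V → ℂ, (∃ i ∈ U, x i ≠ 0) ∧ ∀ i ∈ U, z i * x i = ∑ j ∈ U, m i j * x j := by
  rw [← det_eq_PP] at h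
  obtain ⟨v, hv0, hv⟩ := Matrix.exists_mulVec_eq_zero_iff.2 h
  refine ⟨fun i => if h : i ∈ U then v ⟨i, h⟩ else 0, ?_, fun i hi => ?_⟩
  · obtain ⟨i, hi⟩ := Function.ne_iff.1 hv0
    exact ⟨i, i.2, by simpa using hi⟩
  · have := congrFun hv ⟨i, hi⟩
    simp only [Matrix.mulVec, dotProduct, Matrix.of_apply, sub_mul, sum_sub_distrib, ite_mul,
      zero_mul, sum_ite_eq, mem_univ, if_true, Pi.zero_apply] at this
    rw [← sum_coe_sort U]
    simpa [hi, sub_eq_zero] using this

lemma PP_of_ker {m : V → V → ℂ} {U : Finset V} {z : V → ℂ} (x : V → ℂ) (h0 : ∃ i ∈ U, x i ≠ 0)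
    (h : ∀ i ∈ U, z i * x i = ∑ j ∈ U, m i j * x j) : PP (mnr m) U z = 0 := by
  rw [← det_eq_PP]
  refine Matrix.exists_mulVec_eq_zero_iff.1 ⟨fun i => x i, ?_, ?_⟩
  · obtain ⟨i, hi, hx⟩ := h0
    exact Function.ne_iff.2 ⟨⟨i, hi⟩, hx⟩
  · funext i
    simp only [Matrix.mulVec, dotProduct, Matrix.of_apply, sub_mul, sum_sub_distrib, ite_mul,
      zero_mul, sum_ite_eq, mem_univ, if_true, Pi.zero_apply]
    rw [h i i.2, ← sum_coe_sort U, sub_self]

lemma form_real {a : V → V → ℂ} (ha : ∀ i j, a j i = conj (a i j)) (U : Finset V) (x : V → ℂ) :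
    (∑ i ∈ U, ∑ j ∈ U, conj (x i) * a i j * x j).im = 0 := by
  rw [← Complex.conj_eq_iff_im, map_sum, sum_comm]
  refine sum_congr rfl fun i _ => ?_
  rw [map_sum]
  refine sum_congr rfl fun j _ => ?_
  simp only [map_mul, Complex.conj_conj, ← ha]
  ring

lemma conj_mul_self' (x : ℂ) : conj x * x = ((‖x‖ ^ 2 : ℝ) : ℂ) := by
  rw [Complex.conj_mul']; push_cast; rfl

/-- quadratic identity for a vector in the kernel, with a source term -/
lemma quad_bound {a : V → V → ℂ} (ha : ∀ i j, a j i = conj (a i j)) {U : Finset V}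
    (hc : Contr a U) {l ν : ℂ} {ρ : ℝ} (hρ : |(ν * l).re| ≤ ρ) {z x f : V → ℂ}
    (h : ∀ i ∈ U, z i * x i = ∑ j ∈ U, l * a i j * x j + f i) :
    ∑ i ∈ U, ((ν * z i).re - ρ) * ‖x i‖ ^ 2 ≤ (ν * ∑ i ∈ U, conj (x i) * f i).re := by
  set Q := ∑ i ∈ U, ∑ j ∈ U, conj (x i) * a i j * x j
  have h1 : ∑ i ∈ U, z i * ((‖x i‖ ^ 2 : ℝ) : ℂ) = l * Q + ∑ i ∈ U, conj (x i) * f i := by
    rw [mul_sum, ← sum_add_distrib]
    refine sum_congr rfl fun i hi => ?_
    rw [← conj_mul_self', mul_left_comm, h i hi, mul_add, mul_sum, mul_sum]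
    congr 1
    exact sum_congr rfl fun j _ => by ring
  have h2 := congrArg (fun t => (ν * t).re) h1
  simp only [mul_sum, mul_add, Complex.add_re, Complex.re_sum, ← mul_assoc,
    Complex.re_mul_ofReal] at h2
  have h3 : Q.im = 0 := form_real ha U x
  have h4 : |Q.re| ≤ ∑ i ∈ U, ‖x i‖ ^ 2 := by
    have := (Complex.abs_re_le_norm Q).trans (hc x x)
    linarith
  have h5 : (ν * l * Q).re ≤ ρ * ∑ i ∈ U, ‖x i‖ ^ 2 := by
    rw [Complex.mul_re, h3, mul_zero, sub_zero]
    refine (le_abs_self _).trans ?_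
    rw [abs_mul]
    exact mul_le_mul hρ h4 (abs_nonneg _) ((abs_nonneg _).trans hρ)
  simp only [sub_mul, sum_sub_distrib]
  rw [← mul_sum, mul_sum U _ ν, Complex.re_sum]
  simp only [← mul_assoc]
  linarith

lemma base1 {a : V → V → ℂ} (ha : ∀ i j, a j i = conj (a i j)) {U : Finset V}
    (hc : Contr a U) {l ν : ℂ} {ρ : ℝ} (hρ : |(ν * l).re| ≤ ρ) {z : V → ℂ}
    (hz : ∀ i ∈ U, ρ < (ν * z i).re) : PP (mnr fun i j => l * a i j) U z ≠ 0 := by
  intro h
  obtain ⟨x, ⟨i, hi, hx⟩, h⟩ := ker_of_PP h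
  have := quad_bound ha hc hρ (f := 0) (z := z) (x := x) fun i hi => by simp [h i hi]
  simp only [Pi.zero_apply, mul_zero, sum_const_zero, Complex.zero_re] at this
  refine absurd this (not_le.2 (sum_pos' (fun j hj => ?_) ⟨i, hi, ?_⟩))
  · exact mul_nonneg (sub_pos.2 (hz j hj)).le (sq_nonneg _)
  · exact mul_pos (sub_pos.2 (hz i hi)) (by positivity)

lemma base2 {a : V → V → ℂ} (ha : ∀ i j, a j i = conj (a i j)) {U : Finset V} {i : V}
    (hi : i ∉ U) (hd : a i i = 0) (hc : Contr a (insert i U)) {l ν : ℂ} {ρ L : ℝ} (hL : 0 < L)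
    (hρ : |(ν * l).re| ≤ ρ) {z : V → ℂ} (hz : ∀ y ∈ U, ρ < (ν * z y).re)
    (hz' : ∀ y ∈ U, a i y ≠ 0 → ρ + L ≤ (ν * z y).re) (hzi : ‖ν‖ * ‖l‖ ^ 2 / L < ‖z i‖) :
    PP (mnr fun i j => l * a i j) (insert i U) z ≠ 0 := by
  intro h
  obtain ⟨x, ⟨k, hk, hx⟩, h⟩ := ker_of_PP h
  set β := ∑ y ∈ U, a i y * x y with hβ
  have h1 : z i * x i = l * β := by
    rw [h i (mem_insert_self _ _), sum_insert hi, hd, hβ, mul_sum]
    simp [mul_assoc]
  have h2 := quad_bound ha (hc.mono (subset_insert _ _)) hρ (z := z) (x := x)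
    (f := fun y => l * a y i * x i) fun y hy => by
      rw [h y (mem_insert_of_mem hy), sum_insert hi, add_comm]
  have h3 : ∑ y ∈ U, conj (x y) * (l * a y i * x i) = l * x i * conj β := by
    rw [hβ, map_sum, mul_sum]
    exact sum_congr rfl fun y _ => by rw [ha i y, map_mul]; ring
  rw [h3] at h2
  have h4 : (ν * (l * x i * conj β)).re ≤ ‖ν‖ * ‖l‖ * ‖x i‖ * ‖β‖ := by
    refine (Complex.re_le_norm _).trans (le_of_eq ?_)
    simp [mul_assoc]
  set N := ∑ y ∈ U, ‖if a i y ≠ 0 then x y else 0‖ ^ 2 with hN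
  have h5 : ‖β‖ ^ 2 ≤ N := by
    have := hc (fun y => if y ∈ U then (if a i y ≠ 0 then x y else 0) else 0)
      (fun y => if y = i then β else 0)
    rw [sum_insert hi, sum_insert hi, sum_insert hi, sum_insert hi,
      sum_eq_zero (s := U) (f := fun y => ∑ j ∈ insert i U, conj (if y = i then β else 0) * a y j *
        _) fun y hy => by simp [ne_of_mem_of_not_mem hy hi],
      sum_eq_zero (s := U) (f := fun y => ‖if y = i then β else 0‖ ^ 2)
        fun y hy => by simp [ne_of_mem_of_not_mem hy hi]] at this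
    have e1 : ∑ j ∈ U, conj (if i = i then β else 0) * a i j *
        (if j ∈ U then (if a i j ≠ 0 then x j else 0) else 0) = conj β * β := by
      rw [if_pos rfl]
      generalize conj β = γ
      rw [hβ, mul_sum]
      refine sum_congr rfl fun j hj => ?_
      by_cases hh : a i j = 0 <;> simp [hj, hh, mul_assoc]
    have e2 : ∑ j ∈ U, ‖if j ∈ U then (if a i j ≠ 0 then x j else 0) else 0‖ ^ 2 = N :=
      sum_congr rfl fun j hj => by simp [hj]
    rw [e1, e2, conj_mul_self'] at this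
    simp only [hi, hd, if_false, if_true, mul_zero, zero_add, add_zero, norm_zero,
      Complex.norm_real, norm_pow, norm_norm] at this
    nlinarith
  have h6 : L * N ≤ ∑ y ∈ U, ((ν * z y).re - ρ) * ‖x y‖ ^ 2 := by
    rw [hN, mul_sum]
    refine sum_le_sum fun y hy => ?_
    by_cases hh : a i y = 0
    · simp only [hh, ne_eq, not_true, if_false, norm_zero]
      have := mul_nonneg (sub_pos.2 (hz y hy)).le (sq_nonneg ‖x y‖)
      simpa using this
    · simp only [hh, ne_eq, not_false_iff, if_true]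
      exact mul_le_mul_of_nonneg_right (by linarith [hz' y hy hh]) (sq_nonneg _)
  have h7 : L * ‖β‖ ≤ ‖ν‖ * ‖l‖ * ‖x i‖ := by
    rcases (norm_nonneg β).eq_or_lt with hb | hb
    · rw [← hb, mul_zero]; positivity
    · refine le_of_mul_le_mul_right ?_ hb
      nlinarith
  have h8 : x i = 0 := by
    by_contra hxi
    have hx' : 0 < ‖x i‖ := norm_pos_iff.2 hxi
    have e := congrArg norm h1
    rw [norm_mul, norm_mul] at e
    rw [div_lt_iff₀ hL] at hzi
    have : L * (‖z i‖ * ‖x i‖) ≤ ‖l‖ * (‖ν‖ * ‖l‖ * ‖x i‖) := by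
      rw [e, mul_left_comm]; exact mul_le_mul_of_nonneg_left h7 (norm_nonneg _)
    nlinarith
  rw [h8] at h2
  simp only [mul_zero, zero_mul, Complex.zero_re] at h2
  have hkU : k ∈ U := by
    rcases mem_insert.1 hk with rfl | hk
    · exact (hx h8).elim
    · exact hk
  refine absurd h2 (not_le.2 (sum_pos' (fun j hj => ?_) ⟨k, hkU, ?_⟩))
  · exact mul_nonneg (sub_pos.2 (hz j hj)).le (sq_nonneg _)
  · exact mul_pos (sub_pos.2 (hz k hkU)) (by positivity)

lemma Pw_insert (a : V → V → ℂ) (w : V → Option (Fin r)) {U : Finset V} {i : V} (hi : i ∉ U)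
    (z : V → ℂ) (t : ℂ) : Pw a w (insert i U) (Function.update z i t) =
      t * Pw a w U z + PP (fun T => cc a w (insert i T)) U z := by
  have hz : ∀ y ∈ U, Function.update z i t y = z y := fun y hy =>
    Function.update_of_ne (ne_of_mem_of_not_mem hy hi) _ _
  unfold Pw
  rw [PP_insert _ hi, Function.update_self, PP_congr (fun _ _ => rfl) hz,
    PP_congr (c := fun T => cc a w (insert i T)) (fun _ _ => rfl) hz]

lemma Pw_congr {a a' : V → V → ℂ} {w w' : V → Option (Fin r)} {U : Finset V} {z z' : V → ℂ}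
    (h : ∀ i ∈ U, ∀ j ∈ U, a' i j = a i j) (hw : ∀ i ∈ U, w' i = w i) (hz : ∀ i ∈ U, z' i = z i) :
    Pw a' w' U z' = Pw a w U z :=
  PP_congr (fun _ hT => cc_congr (fun i hi j hj => h i (hT hi) j (hT hj))
    fun i hi => hw i (hT hi)) hz

lemma Pw_update (a : V → V → ℂ) (w : V → Option (Fin r)) {U : Finset V} {i : V} (hi : i ∉ U)
    (z : V → ℂ) (o : Option (Fin r)) : Pw a (Function.update w i o) U z = Pw a w U z :=
  Pw_congr (fun _ _ _ _ => rfl)
    (fun _ hy => Function.update_of_ne (ne_of_mem_of_not_mem hy hi) _ _) fun _ _ => rfl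

lemma Pw_free (a : V → V → ℂ) {w : V → Option (Fin r)} {i : V} (hi : w i = none) (hr : 0 < r)
    (U : Finset V) (z : V → ℂ) :
    Pw a w U z = ∑ s : Fin r, (1 / r : ℂ) * Pw a (Function.update w i (some s)) U z := by
  unfold Pw
  rw [← PP_sum]
  exact PP_congr (fun T _ => cc_free a hi hr T) fun _ _ => rfl

/-- general stability theorem -/
theorem stab (hr : 0 < r) (a : V → V → ℂ) (D : V → Set ℂ) (hD : ∀ y, Convex ℝ (D y)ᶜ) (n : ℕ) :
    ∀ (U : Finset V) (w : V → Option (Fin r)), (U.filter fun i => w i = none).card = n →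
    (∀ U' ⊆ U, ∀ σ, Compat w σ U' → ∀ z, (∀ y ∈ U', z y ∈ D y) → PP (mnr (pin a σ)) U' z ≠ 0) →
    ∀ z, (∀ y ∈ U, z y ∈ D y) → Pw a w U z ≠ 0 := by
  induction n with
  | zero =>
    intro U w hn h z hz
    have h1 : ∀ i ∈ U, w i = some ((w i).getD ⟨0, hr⟩) := fun i hi => by
      have := filter_eq_empty_iff.1 (card_eq_zero.1 hn) hi
      cases h : w i with
      | none => exact (this h).elim
      | some c => rfl
    have : Pw a w U z = PP (mnr (pin a fun i => (w i).getD ⟨0, hr⟩)) U z :=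
      PP_congr (fun T hT => cc_col a fun i hi => h1 i (hT hi)) fun _ _ => rfl
    rw [this]
    exact h U (Subset.refl _) _ (fun i _ c hc => by simp [hc]) z hz
  | succ n ih =>
    intro U w hn h z hz
    obtain ⟨i, hi⟩ := card_pos.1 (by rw [hn]; exact n.succ_pos : 0 < (U.filter fun i => w i = none).card)
    obtain ⟨hiU, hi0⟩ := mem_filter.1 hi
    have hi' : i ∉ U.erase i := notMem_erase _ _
    have hP : Pw a w (U.erase i) z ≠ 0 := by
      refine ih _ w ?_ (fun U' hU' => h U' (hU'.trans (erase_subset _ _))) z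
        fun y hy => hz y (mem_of_mem_erase hy)
      rw [filter_erase, card_erase_of_mem hi, hn]; rfl
    set P := Pw a w (U.erase i) z
    let B : Fin r → ℂ := fun s => PP (fun T => cc a (Function.update w i (some s)) (insert i T))
      (U.erase i) z
    have hB : ∀ s t, Pw a (Function.update w i (some s)) U (Function.update z i t) =
        t * P + B s := by
      intro s t
      conv_lhs => rw [← insert_erase hiU]
      rw [Pw_insert _ _ hi', Pw_update _ _ hi']
    have hs : ∀ s, - B s / P ∈ (D i)ᶜ := by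
      intro s hs
      refine ih U (Function.update w i (some s)) ?_ (fun U' hU' σ hσ => h U' hU' σ ?_)
        (Function.update z i (- B s / P)) (fun y hy => ?_) ?_
      · have : (U.filter fun j => Function.update w i (some s) j = none) =
            (U.filter fun j => w j = none).erase i := by
          ext j
          by_cases hj : j = i
          · subst hj; simp
          · simp [hj]
        rw [this, card_erase_of_mem hi, hn]
        rfl
      · intro y hy c hc
        refine hσ y hy c ?_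
        rw [Function.update_of_ne (fun h : y = i => by rw [h, hi0] at hc; cases hc), hc]
      · by_cases hyi : y = i
        · subst hyi; simpa using hs
        · rw [Function.update_of_ne hyi]; exact hz y hy
      · rw [hB]; field_simp; ring
    have hr' : (r : ℝ) ≠ 0 := by exact_mod_cast hr.ne'
    have hr'' : (r : ℂ) ≠ 0 := by exact_mod_cast hr.ne'
    have hcv := (hD i).sum_mem (t := univ) (w := fun _ : Fin r => (1 / r : ℝ)) (z := fun s => - B s / P)
      (fun _ _ => by positivity) (by simp [hr']) fun s _ => hs s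
    intro h0
    rw [Pw_free a hi0 hr, ← Function.update_eq_self i z] at h0
    simp only [hB] at h0
    refine hcv ?_
    have : ∑ s : Fin r, (1 / r : ℝ) • (- B s / P) = z i := by
      simp only [mul_add, sum_add_distrib, sum_const, card_univ, Fintype.card_fin, nsmul_eq_mul,
        ← mul_sum] at h0
      simp only [Complex.real_smul, ← mul_sum, ← sum_div, sum_neg_distrib]
      push_cast
      field_simp at h0 ⊢
      linear_combination -h0
    rw [this]
    exact hz i hiU

lemma pin_smul (l : ℂ) (a : V → V → ℂ) (σ : V → Fin r) :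
    pin (fun i j => l * a i j) σ = fun i j => l * pin a σ i j := by
  funext i j
  unfold pin
  split_ifs <;> simp

lemma pin_herm {a : V → V → ℂ} (ha : ∀ i j, a j i = conj (a i j)) (σ : V → Fin r) (i j : V) :
    pin a σ j i = conj (pin a σ i j) := by
  unfold pin
  by_cases h : σ i = σ j
  · simp [h, ha i j]
  · simp [h, Ne.symm h]

lemma convex_half (ν : ℂ) (ρ : ℝ) : Convex ℝ {t : ℂ | ρ < (ν * t).re}ᶜ := by
  intro x hx y hy s t hs ht hst
  simp only [Set.mem_compl_iff, Set.mem_setOf_eq, not_lt] at *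
  have : (ν * (s • x + t • y)).re = s * (ν * x).re + t * (ν * y).re := by
    simp only [Complex.real_smul, Complex.mul_re, Complex.add_re, Complex.add_im, Complex.mul_im,
      Complex.ofReal_re, Complex.ofReal_im]
    ring
  rw [this]
  calc s * (ν * x).re + t * (ν * y).re ≤ s * ρ + t * ρ := by gcongr
    _ = ρ := by rw [← add_mul, hst, one_mul]

theorem stab1 (hr : 0 < r) {a : V → V → ℂ} {w : V → Option (Fin r)} {U : Finset V} (h : HC a w U)
    {l ν : ℂ} {ρ : ℝ} (hρ : |(ν * l).re| ≤ ρ) {z : V → ℂ} (hz : ∀ i ∈ U, ρ < (ν * z i).re) :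
    Pw (fun i j => l * a i j) w U z ≠ 0 :=
  stab hr _ (fun _ => {t | ρ < (ν * t).re}) (fun _ => convex_half ν ρ) _ U w rfl
    (fun U' hU' σ hσ z hz => by
      rw [pin_smul]; exact base1 (pin_herm h.herm σ) (h.contr U' hU' σ hσ) hρ hz) z hz

theorem stab2 (hr : 0 < r) {a : V → V → ℂ} {w : V → Option (Fin r)} {U : Finset V} {i : V}
    (hi : i ∉ U) (h : HC a w (insert i U)) {l ν : ℂ} {ρ L : ℝ} (hL : 0 < L)
    (hρ : |(ν * l).re| ≤ ρ) {z : V → ℂ} (hz : ∀ y ∈ U, ρ < (ν * z y).re)
    (hz' : ∀ y ∈ U, a i y ≠ 0 → ρ + L < (ν * z y).re) (hzi : ‖ν‖ * ‖l‖ ^ 2 / L < ‖z i‖) :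
    Pw (fun i j => l * a i j) w (insert i U) z ≠ 0 := by
  classical
  refine stab hr _ (fun y => if y = i then {t | ‖ν‖ * ‖l‖ ^ 2 / L < ‖t‖} else
    {t | ρ + (if a i y = 0 then 0 else L) < (ν * t).re}) (fun y => ?_) _ _ w rfl
    (fun U' hU' σ hσ z hz => ?_) z fun y hy => ?_
  · by_cases hy : y = i
    · simp only [hy, if_true]
      have : {t : ℂ | ‖ν‖ * ‖l‖ ^ 2 / L < ‖t‖}ᶜ = Metric.closedBall 0 (‖ν‖ * ‖l‖ ^ 2 / L) := by
        ext t; simp
      rw [this]
      exact convex_closedBall _ _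
    · simp only [hy, if_false]
      exact convex_half _ _
  · rw [pin_smul]
    have hz1 : ∀ y ∈ U', y ≠ i → ρ < (ν * z y).re := fun y hy hyi => by
      have := hz y hy
      simp only [hyi, if_false, Set.mem_setOf_eq] at this
      split_ifs at this <;> linarith
    by_cases hiU : i ∈ U'
    · rw [← insert_erase hiU]
      refine base2 (pin_herm h.herm σ) (notMem_erase _ _) (by simp [pin, h.diag])
        (by rw [insert_erase hiU]; exact h.contr U' hU' σ hσ) hL hρ
        (fun y hy => hz1 y (mem_of_mem_erase hy) (ne_of_mem_erase hy)) (fun y hy hy' => ?_) ?_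
      · have := hz y (mem_of_mem_erase hy)
        have h0 : a i y ≠ 0 := fun h0 => hy' (by simp [pin, h0])
        simp only [ne_of_mem_erase hy, if_false, Set.mem_setOf_eq, h0] at this
        exact this.le
      · simpa using hz i hiU
    · exact base1 (pin_herm h.herm σ) (h.contr U' hU' σ hσ) hρ
        fun y hy => hz1 y hy (ne_of_mem_of_not_mem hy hiU)
  · rcases mem_insert.1 hy with rfl | hy
    · simpa using hzi
    · simp only [ne_of_mem_of_not_mem hy hi, if_false, Set.mem_setOf_eq]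
      split_ifs with h0
      · simpa using hz y hy
      · exact hz' y hy h0

end Vale.Agent.P078
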