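import Vale.Agent.P078.Ray

namespace Vale.Agent.P078

open Finset ComplexConjugate MeasureTheory

variable {V : Type*} [DecidableEq V] {r : ℕ}

/-- Hermitian, zero diagonal contraction on `K` -/
structure HZ (a : V → V → ℂ) (K : Finset V) : Prop where
  herm : ∀ i j, a j i = conj (a i j)
  diag : ∀ i, a i i = 0
  contr : Contr a K

lemma HZ.hc {a : V → V → ℂ} {K : Finset V} (h : HZ a K) (w : V → Option (Fin r)) : HC a w K :=
  HC.of_contr h.herm h.diag h.contr w

lemma HZ.mono {a : V → V → ℂ} {K K' : Finset V} (h : HZ a K) (hK : K' ⊆ K) : HZ a K' :=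
  ⟨h.herm, h.diag, h.contr.mono hK⟩

lemma HZ.neg {a : V → V → ℂ} {K : Finset V} (h : HZ a K) : HZ (fun i j => - a i j) K :=
  ⟨fun i j => by simp [h.herm i j], fun i => by simp [h.diag], fun x y => by
    simpa using h.contr x y⟩

lemma im_ne {t : ℂ} (ht : 0 < t.im) (x : ℝ) : t ≠ x := fun e => by simp [e] at ht

lemma im_ne' {t : ℂ} (ht : 0 < t.im) (x y : ℝ) : t ≠ x * y := fun e => by simp [e] at ht

lemma gg_nonneg {v m c : ℝ} (hv : 0 ≤ v) (hc : 0 ≤ c) {k : ℕ} {γ : Fin k → ℝ} (hγ : ∀ l, 0 ≤ γ l)
    (l : Option (Fin k)) : 0 ≤ l.elim (4 * v * m ^ 2) fun l => c * γ l := by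
  cases l with
  | none => simp only [Option.elim]; positivity
  | some l => exact mul_nonneg hc (hγ l)

variable (hr : 0 < r) {a : V → V → ℂ} {u v : ℝ} (hu : 0 < u) (hv : 0 < v) {μ : V → ℝ}
  (hμ : ∀ y, 0 < μ y)
include hr hu hv hμ

lemma tot_int (w : V → Option (Fin r)) {K : Finset V} (h : HZ a K) :
    IntegrableOn (tot u v a w μ K) (Set.Ioi 0) := by
  induction K using Finset.induction_on with
  | empty =>
    have : tot u v a w μ ∅ = 0 := by funext τ; simp [tot, Pw, PP_empty, cc_empty]
    rw [this]; exact integrableOn_zero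
  | insert i K hi ih =>
    have h' := h.mono (subset_insert _ _)
    obtain ⟨m, p, -, hp⟩ := rep hr (h'.hc w) u hv.le hμ
    obtain ⟨γ, hγ, e⟩ := hp i hi (w i) (h.hc _)
    have h1 := inc_eq hr hi (h'.hc w) u hv.le hμ hγ (w i) fun t ht =>
      e t (fun y _ => im_ne' ht _ _) fun l => im_ne ht _
    have hm := hμ i
    have h2 := ((psi_int (by positivity : 0 ≤ u * μ i) (gg_nonneg (m := μ i) hv.le
      (div_nonneg hm.le (zero_le_one.trans (th_ge (w i)))) hγ) fun l => l.elim (v * μ i) p).sub
      (psi_int (by positivity : 0 ≤ u * μ i) (g := fun _ : Unit => 4 * v * μ i ^ 2)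
        (fun _ => by positivity) fun _ => v * μ i)).congr_fun h1 measurableSet_Ioi
    rw [Function.update_eq_self] at h2
    exact (h2.add (ih h')).congr_fun (fun τ _ => by simp) measurableSet_Ioi

lemma TI_inc {w : V → Option (Fin r)} {K : Finset V} {i : V} (hi : i ∉ K) (h : HZ a (insert i K))
    {m : ℕ} {p γ : Fin m → ℝ} (hγ : ∀ l, 0 ≤ γ l) (o : Option (Fin r))
    (e : ∀ t : ℂ, 0 < t.im → Bw a (Function.update w i o) K i (zz u v w μ t) =
      - (∑ l, γ l / (t - p l)) * Pw a w K (zz u v w μ t)) :
    TI u v a (Function.update w i o) μ (insert i K) - TI u v a w μ K = Real.pi *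
      (Psi (u * μ i) (fun l : Option (Fin m) => l.elim (4 * v * μ i ^ 2)
        fun l => μ i / th o * γ l) (fun l => l.elim (v * μ i) p) -
      Psi (u * μ i) (fun _ : Unit => 4 * v * μ i ^ 2) (fun _ => v * μ i)) := by
  have h' := h.mono (subset_insert _ _)
  have hm := hμ i
  rw [TI, TI, ← integral_sub (tot_int hr hu hv hμ _ h) (tot_int hr hu hv hμ _ h'),
    ← setIntegral_congr_fun measurableSet_Ioi (inc_eq hr hi (h'.hc w) u hv.le hμ hγ o e),
    integral_sub (psi_int (by positivity) (gg_nonneg hv.le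
      (div_nonneg hm.le (zero_le_one.trans (th_ge o))) hγ) _)
      (psi_int (by positivity) (fun _ => by positivity) _), Psi, Psi]
  field_simp

omit hr hμ [DecidableEq V] in
lemma own_div {m y : ℝ} (hm : 0 < m) (hy : 0 ≤ y) :
    4 * v * m ^ 2 / (u * m / 2 + y + v * m) ≤ 8 * v * m / u := by
  rw [div_le_div_iff₀ (by positivity) hu]
  nlinarith [mul_nonneg (by positivity : 0 ≤ 8 * v * m) (by positivity : 0 ≤ y + v * m)]

omit hr hμ [DecidableEq V] in
lemma Psi_own {m : ℝ} (hm : 0 < m) :
    Psi (u * m) (fun _ : Unit => 4 * v * m ^ 2) (fun _ => v * m) ≤ 16 * v * m / u := by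
  have hvm : 0 < v * m := by positivity
  have := Psi_up (U := u * m) (by positivity) (g := fun _ : Unit => 4 * v * m ^ 2)
    (fun _ => by positivity) (fun _ => v * m) (y := 8 * v * m / u) (by positivity)
    (by simp [not_le.2 hvm]; positivity) (by simpa [hvm] using own_div hu hv hm (by positivity))
  linarith [show 2 * (8 * v * m / u) = 16 * v * m / u by ring]

lemma inc_low (w : V → Option (Fin r)) {K : Finset V} {i : V} (hi : i ∉ K)
    (h : HZ a (insert i K)) :
    - (Real.pi * (16 * v * μ i / u)) ≤ TI u v a w μ (insert i K) - TI u v a w μ K := by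
  have h' := h.mono (subset_insert _ _)
  obtain ⟨m, p, -, hp⟩ := rep hr (h'.hc w) u hv.le hμ
  obtain ⟨γ, hγ, e⟩ := hp i hi (w i) (h.hc _)
  have h1 := TI_inc hr hu hv hμ hi h hγ (w i) fun t ht =>
    e t (fun y _ => im_ne' ht _ _) fun l => im_ne ht _
  rw [Function.update_eq_self] at h1
  have hm := hμ i
  have h2 := Psi_nonneg (by positivity : 0 ≤ u * μ i) (gg_nonneg (m := μ i) hv.le
    (div_nonneg hm.le (zero_le_one.trans (th_ge (w i)))) hγ) fun l => l.elim (v * μ i) p
  rw [h1, ← mul_neg]
  exact mul_le_mul_of_nonneg_left (by linarith [Psi_own hu hv hm]) Real.pi_pos.le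

omit hu hv hμ [DecidableEq V] in
lemma markov (x : Fin r → ℝ) (hx : ∀ c, 0 ≤ x c) {X : ℝ} (hX : 0 < X)
    (h : ∑ c, 1 / r * x c ≤ X) : 5 * (univ.filter fun c => 5 * X < x c).card ≤ r := by
  have hr' : (0 : ℝ) < r := by exact_mod_cast hr
  have h1 : ((univ.filter fun c => 5 * X < x c).card : ℝ) * (5 * X) ≤ ∑ c, x c := by
    rw [← nsmul_eq_mul, ← sum_const]
    exact (sum_le_sum fun c hc => (mem_filter.1 hc).2.le).trans
      (sum_le_sum_of_subset_of_nonneg (subset_univ _) fun c _ _ => hx c)
  rw [← mul_sum, one_div, inv_mul_le_iff₀ hr'] at h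
  have h2 : (5 * (univ.filter fun c => 5 * X < x c).card : ℝ) * X ≤ r * X := by linarith
  exact_mod_cast le_of_mul_le_mul_right h2 hX

omit hr hu hv hμ [DecidableEq V] in
lemma sum_filter_option {k : ℕ} (q : Option (Fin k) → Prop) [DecidablePred q]
    (f : Option (Fin k) → ℝ) : ∑ l ∈ univ.filter q, f l =
      (if q none then f none else 0) + ∑ l ∈ univ.filter (fun l => q (some l)), f (some l) := by
  rw [sum_filter, sum_filter, Fintype.sum_option]

theorem inc_step (w : V → Option (Fin r)) {K : Finset V} {i : V} (hi : i ∉ K)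
    (h : HZ a (insert i K)) : 5 * (univ.filter fun c : Fin r =>
      TI u v a (Function.update w i none) μ (insert i K) + Real.pi * (32 * v * μ i / u) <
        TI u v a (Function.update w i (some c)) μ (insert i K)).card ≤ 2 * r := by
  have h' := h.mono (subset_insert _ _)
  obtain ⟨m, p, -, hp⟩ := rep hr (h'.hc w) u hv.le hμ
  choose γ hγ e using fun c : Fin r => hp i hi (some c) (h.hc _)
  have hm := hμ i
  have hvm : 0 < v * μ i := by positivity
  let γ' : Fin m → ℝ := fun l => ∑ c, 1 / r * γ c l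
  have hγ' : ∀ l, 0 ≤ γ' l := fun l => sum_nonneg fun c _ => mul_nonneg (by positivity) (hγ c l)
  have h0 := TI_inc hr hu hv hμ hi h hγ' (p := p) (w := w) none fun t ht => by
    have : Bw a (Function.update w i none) K i (zz u v w μ t) =
        ∑ c : Fin r, (1 / r : ℂ) * Bw a (Function.update w i (some c)) K i (zz u v w μ t) := by
      unfold Bw
      rw [← PP_sum]
      refine PP_congr (fun T _ => ?_) fun _ _ => rfl
      rw [cc_free a (Function.update_self i none w) hr]
      simp only [Function.update_idem]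
    rw [this]
    simp only [e _ t (fun y _ => im_ne' ht _ _) fun l => im_ne ht _, ← mul_assoc, ← sum_mul, γ']
    congr 1
    push_cast
    simp only [mul_neg, sum_neg_distrib, mul_sum, sum_div, mul_div_assoc]
    rw [sum_comm]
  have hc := fun c => TI_inc hr hu hv hμ hi h (hγ c) (p := p) (w := w) (some c) fun t ht =>
    e c t (fun y _ => im_ne' ht _ _) fun l => im_ne ht _
  have hg := gg_nonneg (m := μ i) hv.le (div_nonneg hm.le (zero_le_one.trans (th_ge (r := r) none))) hγ'
  have hU : 0 ≤ u * μ i := by positivity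
  have hP := Psi_nonneg hU hg fun l => l.elim (v * μ i) p
  set P := Psi (u * μ i) (fun l : Option (Fin m) => l.elim (4 * v * μ i ^ 2)
    fun l => μ i / th (r := r) none * γ' l) (fun l => l.elim (v * μ i) p)
  have hη : 0 < 32 * v * μ i / u := by positivity
  set y := P + 32 * v * μ i / u with hy
  have hy0 : 0 < y := by linarith
  have l1 := Psi_low1 hU hg (fun l => l.elim (v * μ i) p) hy0 (by linarith)
  have l2 := Psi_low2 hU hg (fun l => l.elim (v * μ i) p) hy0 (by linarith)
  rw [sum_filter_option] at l1 l2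
  simp only [Option.elim, not_le.2 hvm, hvm, if_true, if_false, zero_add, th, div_one] at l1 l2
  let x₁ : Fin r → ℝ := fun c => ∑ l ∈ univ.filter (fun l => p l ≤ 0), μ i * γ c l / (y - p l)
  let x₂ : Fin r → ℝ := fun c =>
    ∑ l ∈ univ.filter (fun l => 0 < p l), μ i * γ c l / (u * μ i + y + p l)
  have m1 := markov hr x₁ (fun c => sum_nonneg fun l hl => div_nonneg (mul_nonneg hm.le (hγ c l))
    (by linarith [(mem_filter.1 hl).2])) (X := u * μ i + y) (by linarith) (by
      refine le_trans (le_of_eq ?_) l1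
      simp only [x₁, γ', mul_sum, sum_div]
      rw [sum_comm]
      exact sum_congr rfl fun l _ => sum_congr rfl fun c _ => by ring)
  have m2 := markov hr x₂ (fun c => sum_nonneg fun l hl => div_nonneg (mul_nonneg hm.le (hγ c l))
    (by linarith [(mem_filter.1 hl).2])) hy0 (by
      refine le_trans (le_of_eq ?_) ((le_add_of_nonneg_left (by positivity)).trans l2)
      simp only [x₂, γ', mul_sum, sum_div]
      rw [sum_comm]
      exact sum_congr rfl fun l _ => sum_congr rfl fun c _ => by ring)
  refine le_trans (Nat.mul_le_mul_left 5 ((card_le_card (t := univ.filter (fun c => 5 * (u * μ i + y)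
    < x₁ c) ∪ univ.filter fun c => 5 * y < x₂ c) fun c hc' => ?_).trans (card_union_le _ _)))
    (by omega)
  by_contra hn
  simp only [mem_union, mem_filter, mem_univ, true_and, not_or, not_lt] at hn
  have hup := Psi_up hU (gg_nonneg (m := μ i) hv.le (div_nonneg hm.le
    (zero_le_one.trans (th_ge (some c)))) (hγ c)) (fun l => l.elim (v * μ i) p) (half_pos hy0) (by
      rw [sum_filter_option]
      simp only [Option.elim, not_le.2 hvm, if_false, zero_add, th, reduceCtorEq]
      have : ∑ l ∈ univ.filter (fun l => p l ≤ 0), μ i / 40 * γ c l / (y / 2 - p l) ≤ x₁ c / 20 := by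
        rw [sum_div]
        refine sum_le_sum fun l hl => ?_
        have h1 := (mem_filter.1 hl).2
        rw [div_div, div_le_div_iff₀ (by linarith) (by nlinarith)]
        nlinarith [mul_nonneg (mul_nonneg hm.le (hγ c l)) (neg_nonneg.2 h1)]
      exact le_trans (b := x₁ c / 20) this (by linarith [hn.1])) (by
      rw [sum_filter_option]
      simp only [Option.elim, hvm, if_true, th, reduceCtorEq, if_false]
      have : ∑ l ∈ univ.filter (fun l => 0 < p l), μ i / 40 * γ c l /
          (u * μ i / 2 + y / 2 + p l) ≤ x₂ c / 20 := by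
        rw [sum_div]
        refine sum_le_sum fun l hl => ?_
        have h1 := (mem_filter.1 hl).2
        rw [div_div, div_le_div_iff₀ (by linarith) (by nlinarith)]
        nlinarith [mul_nonneg (mul_nonneg hm.le (hγ c l)) h1.le]
      have h2 := own_div hu hv hm (half_pos hy0).le
      have h3 : 32 * v * μ i / u = 4 * (8 * v * μ i / u) := by ring
      exact le_trans (add_le_add h2 this) (by linarith [hn.2]))
  have h4 := (mem_filter.1 hc').2
  have h5 := hc c
  have h6 := mul_le_mul_of_nonneg_left (hup.trans (by linarith : 2 * (y / 2) ≤ y)) Real.pi_pos.le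
  rw [hy] at h6
  linarith

theorem inc_init {K : Finset V} {i : V} (hi : i ∉ K) (h : HZ a (insert i K))
    (hur : 36 / √r ≤ u) (hK : ∀ y ∈ K, μ y ≤ μ i) :
    TI u v a (fun _ => (none : Option (Fin r))) μ (insert i K) -
      TI u v a (fun _ => (none : Option (Fin r))) μ K ≤
      Real.pi * (4 * ((v + 8 * v / u) * μ i)) := by
  have h' := h.mono (subset_insert _ _)
  obtain ⟨m, p, hp0, hp⟩ := rep hr (h'.hc fun _ => (none : Option (Fin r))) u hv.le hμ
  obtain ⟨γ, hγ, e⟩ := hp i hi none (h.hc _)
  have h1 := TI_inc hr hu hv hμ hi h hγ none fun t ht =>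
    e t (fun y _ => im_ne' ht _ _) fun l => im_ne ht _
  have hw : Function.update (fun _ : V => (none : Option (Fin r))) i none = fun _ => none :=
    Function.update_eq_self i _
  rw [hw] at h1 e
  have hm := hμ i
  have hvm : 0 < v * μ i := by positivity
  set t₀ := (v + 8 * v / u) * μ i with ht₀
  have ht0 : t₀ = v * μ i + 8 * v * μ i / u := by rw [ht₀]; ring
  have h8 : 0 < 8 * v * μ i / u := by positivity
  have hs : 0 < √(r : ℝ) := Real.sqrt_pos.2 (by exact_mod_cast hr)
  have hu4 : 9 / √r ≤ u / 4 := by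
    have : 36 / √(r : ℝ) = 4 * (9 / √r) := by ring
    linarith
  let x : ℝ → V → ℝ := fun t y => u + t / μ y - 4 * v * μ y / (t - v * μ y)
  have hx : ∀ t : ℝ, zz u v (fun _ => (none : Option (Fin r))) μ t = fun y => (x t y : ℂ) := fun t => by
    funext y; simp [zz, zt, th, x]
  have hlt : ∀ t, t₀ ≤ t → ∀ y ∈ K, v * μ y + 8 * v * μ y / u ≤ t := fun t ht y hy => by
    have := hK y hy
    refine le_trans ?_ (ht0 ▸ ht)
    gcongr
  have hx' : ∀ t, t₀ ≤ t → ∀ y ∈ K, 9 / √r ≤ x t y := fun t ht y hy => by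
    have h2 := hlt t ht y hy
    have h3 := hμ y
    have h4 : 0 < 8 * v * μ y / u := by positivity
    have h5 : 4 * v * μ y / (t - v * μ y) ≤ u / 2 := by
      rw [div_le_iff₀ (by linarith)]
      have : u / 2 * (8 * v * μ y / u) = 4 * v * μ y := by field_simp; ring
      nlinarith
    have h6 : 0 ≤ t / μ y := div_nonneg (by linarith) h3.le
    simp only [x]
    linarith
  have hne : ∀ t, t₀ ≤ t → ∀ y ∈ K, (t : ℂ) ≠ v * μ y := fun t ht y hy e => by
    have h2 := hlt t ht y hy
    have h3 := hμ y
    have h4 : 0 < 8 * v * μ y / u := by positivity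
    have : t = v * μ y := by exact_mod_cast e
    linarith
  have hpos := fun t ht => free_pos hr h.herm h.diag h'.contr (hx' t ht)
  have hpl : ∀ l, p l < t₀ := fun l => lt_of_not_ge fun hl => by
    have h2 := hpos _ hl
    rw [← hx, hp0 l (hne _ hl)] at h2
    simp at h2
  have ht1 : t₀ ≤ 2 * t₀ := by linarith
  have hS : ∑ l, γ l / (2 * t₀ - p l) ≤ u / 4 := by
    have h2 := free_pos hr h.herm h.diag h.contr (x := Function.update (x (2 * t₀)) i (u / 4))
      fun y hy => by
        rcases mem_insert.1 hy with rfl | hy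
        · simpa using hu4
        · rw [Function.update_of_ne (ne_of_mem_of_not_mem hy hi)]; exact hx' _ ht1 y hy
    have h3 : (fun y => ((Function.update (x (2 * t₀)) i (u / 4) y : ℝ) : ℂ)) =
        Function.update (fun y => (x (2 * t₀) y : ℂ)) i ((u / 4 : ℝ) : ℂ) := by
      funext y; by_cases hy : y = i <;> simp [hy]
    have h4 := e (2 * t₀ : ℝ) (hne _ ht1) fun l e => by
      have : 2 * t₀ = p l := by exact_mod_cast e
      linarith [hpl l]
    have h5 := hpos _ ht1
    rw [hx] at h4
    rw [h3, Pw_insert _ _ hi] at h2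
    change 0 < (_ + Bw a _ K i _).re at h2
    rw [h4, ← add_mul, ← Pw_real h.herm _ K (z := fun y => x (2 * t₀) y) fun _ _ => by simp] at h2
    simp only [← Complex.ofReal_sub, ← Complex.ofReal_div, ← Complex.ofReal_sum,
      ← Complex.ofReal_neg, ← Complex.ofReal_add, ← Complex.ofReal_mul, Complex.ofReal_re] at h2
    linarith [(pos_iff_pos_of_mul_pos h2).2 h5]
  have hS' : ∀ s : Finset (Fin m), ∑ l ∈ s, μ i * γ l / (2 * t₀ - p l) ≤ u * μ i / 4 := fun s => by
    simp only [mul_div_assoc, ← mul_sum]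
    have := (sum_le_sum_of_subset_of_nonneg (subset_univ s) fun l _ _ =>
      div_nonneg (hγ l) (by linarith [hpl l] : 0 ≤ 2 * t₀ - p l)).trans hS
    nlinarith
  have hU : 0 < u * μ i := by positivity
  have hup := Psi_up hU.le (gg_nonneg (m := μ i) hv.le (div_nonneg hm.le
    (zero_le_one.trans (th_ge (r := r) none))) hγ) (fun l => l.elim (v * μ i) p)
    (y := 2 * t₀) (by linarith) (by
      rw [sum_filter_option]
      simp only [Option.elim, not_le.2 hvm, if_false, zero_add, th, if_true, div_one]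
      exact le_trans (hS' _) (by linarith)) (by
      rw [sum_filter_option]
      simp only [Option.elim, hvm, if_true, th, div_one]
      have h2 := own_div hu hv hm (by linarith : 0 ≤ 2 * t₀)
      have h3 : ∑ l ∈ univ.filter (fun l => 0 < p l), μ i * γ l / (u * μ i / 2 + 2 * t₀ + p l) ≤
          (∑ l ∈ univ.filter (fun l => 0 < p l), μ i * γ l / (2 * t₀ - p l)) *
            (4 * t₀ / (u * μ i)) := by
        rw [sum_mul]
        refine sum_le_sum fun l hl => ?_
        have h4 := (mem_filter.1 hl).2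
        have h5 := hpl l
        rw [div_mul_div_comm, div_le_div_iff₀ (by linarith) (mul_pos (by linarith) hU)]
        rw [mul_assoc (μ i * γ l)]
        refine mul_le_mul_of_nonneg_left ?_ (mul_nonneg hm.le (hγ l))
        nlinarith
      have h4 := mul_le_mul_of_nonneg_right (hS' (univ.filter fun l => 0 < p l))
        (by positivity : 0 ≤ 4 * t₀ / (u * μ i))
      have h5 : u * μ i / 4 * (4 * t₀ / (u * μ i)) = t₀ := by field_simp
      exact le_trans (add_le_add h2 (h3.trans h4)) (by linarith))
  have h9 := Psi_nonneg hU.le (g := fun _ : Unit => 4 * v * μ i ^ 2) (fun _ => by positivity)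
    fun _ => v * μ i
  rw [h1]
  exact mul_le_mul_of_nonneg_left (by linarith) Real.pi_pos.le

end Vale.Agent.P078
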