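import Mathlib

namespace Vale.Agent.P078

universe u

/-- `A` is a maximal abelian self-adjoint subalgebra of `M`. -/
def IsMASA {H : Type u} [NormedAddCommGroup H] [InnerProductSpace ℂ H] [CompleteSpace H]
    (M : VonNeumannAlgebra H) (A : StarSubalgebra ℂ (H →L[ℂ] H)) : Prop :=
  (∀ a ∈ A, a ∈ M) ∧ (∀ a ∈ A, ∀ b ∈ A, a * b = b * a) ∧
    ∀ B : StarSubalgebra ℂ (H →L[ℂ] H), A ≤ B → (∀ b ∈ B, b ∈ M) →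
      (∀ a ∈ B, ∀ b ∈ B, a * b = b * a) → B = A

/-- `x` is `(ε, r)` so-pavable over `A` in `M`. -/
def SoPavable {H : Type u} [NormedAddCommGroup H] [InnerProductSpace ℂ H] [CompleteSpace H]
    (M : VonNeumannAlgebra H) (A : StarSubalgebra ℂ (H →L[ℂ] H)) (x : H →L[ℂ] H) (ε : ℝ)
    (r : ℕ) : Prop :=
  ∀ (F : Finset H) (δ : ℝ), 0 < δ → ∃ (p : Fin r → H →L[ℂ] H) (a q : H →L[ℂ] H),
    (∀ i, p i ∈ A) ∧ (∀ i, IsStarProjection (p i)) ∧ (∀ i j, i ≠ j → p i * p j = 0) ∧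
    ∑ i, p i = 1 ∧ a ∈ A ∧ IsSelfAdjoint a ∧ ‖a‖ ≤ ‖x‖ ∧ q ∈ M ∧ IsStarProjection q ∧
    (∀ ξ ∈ F, ‖(1 - q) ξ‖ < δ) ∧ ‖q * (∑ i, p i * x * p i - a) * q‖ ≤ ε * ‖x‖

end Vale.Agent.P078
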